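import Mathlib
import Crest.Prelude.Def_AsymptoticConvexity

/-!
Shared lemmas for row 125 (S0166-S0169): closed finite-codimensional subspaces, and criteria
excluding an equivalent asymptotically uniformly convex norm.
-/

set_option autoImplicit false

namespace Crest.Agent.Lib.AUC36

open Finset Crest.AnalysisR

/-- Bundle a complete real normed space as a `RealBanach`. -/
abbrev mkB (X : Type) [NormedAddCommGroup X] [NormedSpace ℝ X] [CompleteSpace X] : RealBanach :=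
  ⟨X, inferInstance, inferInstance, inferInstance⟩

section general

variable {X : Type} [NormedAddCommGroup X] [NormedSpace ℝ X]

/-- closed finite-codimensional subspace as a set -/
def Cof (F : Set X) : Prop :=
  ∃ S : Submodule ℝ X, (S : Set X) = F ∧ IsClosed F ∧ FiniteDimensional ℝ (X ⧸ S)

theorem isCof_iff [CompleteSpace X] (F : Set X) : (mkB X).IsCof F ↔ Cof F := Iff.rfl

/-- common kernel of finitely many functionals is cofinite. -/
theorem cof_of_functionals {ι : Type*} [Fintype ι] (φ : ι → (X →L[ℝ] ℝ)) :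
    Cof {y : X | ∀ j, φ j y = 0} := by
  classical
  let L : X →ₗ[ℝ] (ι → ℝ) := LinearMap.pi fun j => (φ j : X →ₗ[ℝ] ℝ)
  refine ⟨LinearMap.ker L, ?_, ?_, ?_⟩
  · ext y
    simp only [SetLike.mem_coe, LinearMap.mem_ker, Set.mem_ofPred_eq]
    constructor
    · intro h j
      have := congrFun h j
      simpa [L] using this
    · intro h
      ext j
      simpa [L] using h j
  · have : {y : X | ∀ j, φ j y = 0} = ⋂ j, {y : X | φ j y = 0} := by
      ext y; simp
    rw [this]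
    exact isClosed_iInter fun j => isClosed_eq (φ j).continuous continuous_const
  · have hinj : Function.Injective ((LinearMap.ker L).liftQ L le_rfl) := by
      rw [← LinearMap.ker_eq_bot]
      exact Submodule.ker_liftQ_eq_bot _ _ _ le_rfl
    exact FiniteDimensional.of_injective _ hinj

/-- A cofinite subspace is, up to a constant, controlled by finitely many functionals. -/
theorem cof_functionals {F : Set X} (hF : Cof F) :
    ∃ (m : ℕ) (φ : Fin m → (X →L[ℝ] ℝ)) (C : ℝ), 0 ≤ C ∧ (∀ y ∈ F, ∀ j, φ j y = 0) ∧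
      ∀ z : X, ∃ y ∈ F, ‖z - y‖ ≤ C * ∑ j, |φ j z| := by
  obtain ⟨S, rfl, hcl, hfd⟩ := hF
  have : IsClosed (S : Set X) := hcl
  have := hfd
  let b := Module.finBasis ℝ (X ⧸ S)
  have hlift : ∀ j, ∃ x : X, S.mkQ x = b j := fun j => S.mkQ_surjective (b j)
  choose x hx using hlift
  let φ : Fin (Module.finrank ℝ (X ⧸ S)) → (X →L[ℝ] ℝ) := fun j =>
    (LinearMap.toContinuousLinearMap (b.coord j)).comp S.mkQL
  have hφ : ∀ j z, φ j z = b.coord j (S.mkQ z) := fun j z => rfl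
  refine ⟨_, φ, ∑ j, ‖x j‖, sum_nonneg fun _ _ => norm_nonneg _, ?_, ?_⟩
  · intro y hy j
    rw [hφ]
    have : S.mkQ y = 0 := by simpa using hy
    rw [this, map_zero]
  · intro z
    refine ⟨z - ∑ j, φ j z • x j, ?_, ?_⟩
    · have h0 : S.mkQ (z - ∑ j, φ j z • x j) = 0 := by
        rw [map_sub, map_sum]
        simp only [map_smul, hx, hφ]
        have := b.sum_repr (S.mkQ z)
        simp only [Module.Basis.coord_apply]
        rw [this, sub_self]
      exact (Submodule.Quotient.mk_eq_zero S).1 h0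
    · rw [sub_sub_cancel]
      calc ‖∑ j, φ j z • x j‖ ≤ ∑ j, ‖φ j z • x j‖ := norm_sum_le _ _
        _ = ∑ j, |φ j z| * ‖x j‖ := by simp only [norm_smul, Real.norm_eq_abs]
        _ ≤ ∑ j, (∑ i, ‖x i‖) * |φ j z| := by
            apply sum_le_sum
            intro j _
            rw [mul_comm]
            exact mul_le_mul_of_nonneg_right
              (single_le_sum (f := fun i => ‖x i‖) (fun _ _ => norm_nonneg _) (mem_univ j)) (abs_nonneg _)
        _ = _ := by rw [mul_sum]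

theorem cof_inter {F G : Set X} (hF : Cof F) (hG : Cof G) : Cof (F ∩ G) := by
  obtain ⟨S, rfl, hcl, hfd⟩ := hF
  obtain ⟨T, rfl, hclT, hfdT⟩ := hG
  have := hfd
  have := hfdT
  refine ⟨S ⊓ T, rfl, hcl.inter hclT, ?_⟩
  let L : X →ₗ[ℝ] (X ⧸ S) × (X ⧸ T) := LinearMap.prod S.mkQ T.mkQ
  have hker : LinearMap.ker L = S ⊓ T := by
    rw [LinearMap.ker_prod, Submodule.ker_mkQ, Submodule.ker_mkQ]
  rw [← hker]
  have hinj : Function.Injective ((LinearMap.ker L).liftQ L le_rfl) := by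
    rw [← LinearMap.ker_eq_bot]
    exact Submodule.ker_liftQ_eq_bot _ _ _ le_rfl
  exact FiniteDimensional.of_injective _ hinj

theorem cof_univ : Cof (Set.univ : Set X) :=
  ⟨⊤, rfl, isClosed_univ, inferInstance⟩

/-- a sequence of vectors escapes every cofinite subspace's complement -/
def Escapes (z : ℕ → X) : Prop :=
  ∀ F : Set X, Cof F → ∀ ε : ℝ, 0 < ε → ∃ n, ∃ y ∈ F, ‖z n - y‖ < ε

/-- Sequences with an upper `ℓ₂`-estimate: every continuous functional tends to zero along them. -/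
theorem tendsto_of_upper_l2 (z : ℕ → X) (C : ℝ)
    (h : ∀ (A : Finset ℕ) (a : ℕ → ℝ), ‖∑ n ∈ A, a n • z n‖ ≤ C * Real.sqrt (∑ n ∈ A, a n ^ 2))
    (φ : X →L[ℝ] ℝ) : Filter.Tendsto (fun n => φ (z n)) Filter.atTop (nhds 0) := by
  have hb : ∀ A : Finset ℕ, ∑ n ∈ A, φ (z n) ^ 2 ≤ (‖φ‖ * C) ^ 2 := by
    intro A
    set s := ∑ n ∈ A, φ (z n) ^ 2 with hs
    have hs0 : 0 ≤ s := sum_nonneg fun _ _ => sq_nonneg _
    have h1 : s = φ (∑ n ∈ A, φ (z n) • z n) := by
      rw [map_sum, hs]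
      apply sum_congr rfl
      intro n _
      rw [map_smul, smul_eq_mul, sq]
    have h2 : s ≤ ‖φ‖ * (C * Real.sqrt s) := by
      calc s = φ (∑ n ∈ A, φ (z n) • z n) := h1
        _ ≤ |φ (∑ n ∈ A, φ (z n) • z n)| := le_abs_self _
        _ ≤ ‖φ‖ * ‖∑ n ∈ A, φ (z n) • z n‖ := φ.le_opNorm _
        _ ≤ ‖φ‖ * (C * Real.sqrt s) := mul_le_mul_of_nonneg_left (h A _) (norm_nonneg _)
    have h3 : Real.sqrt s * Real.sqrt s = s := Real.mul_self_sqrt hs0
    rcases eq_or_lt_of_le (Real.sqrt_nonneg s) with h0 | h0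
    · rw [← h0, mul_zero] at h3
      rw [← h3]; positivity
    · have h4 : Real.sqrt s ≤ ‖φ‖ * C := by
        by_contra hcon
        push Not at hcon
        have : ‖φ‖ * C * Real.sqrt s < Real.sqrt s * Real.sqrt s := mul_lt_mul_of_pos_right hcon h0
        nlinarith
      calc s = Real.sqrt s ^ 2 := by rw [sq, h3]
        _ ≤ _ := pow_le_pow_left₀ h0.le h4 2
  have hsum : Summable fun n => φ (z n) ^ 2 :=
    summable_of_sum_le (fun _ => sq_nonneg _) hb
  have ht := hsum.tendsto_atTop_zero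
  have ht2 := ht.sqrt
  simp only [Real.sqrt_sq_eq_abs, Real.sqrt_zero] at ht2
  exact (tendsto_zero_iff_abs_tendsto_zero _).2 ht2

/-- weakly null sequences escape. -/
theorem escapes_of_tendsto (z : ℕ → X)
    (h : ∀ φ : X →L[ℝ] ℝ, Filter.Tendsto (fun n => φ (z n)) Filter.atTop (nhds 0)) : Escapes z := by
  intro F hF ε hε
  obtain ⟨m, φ, C, hC, -, hFC⟩ := cof_functionals hF
  have ht : Filter.Tendsto (fun n => C * ∑ j, |φ j (z n)|) Filter.atTop (nhds (C * ∑ _j : Fin m, |(0:ℝ)|)) := by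
    apply Filter.Tendsto.const_mul
    apply tendsto_finsetSum
    intro j _
    exact (h (φ j)).abs
  simp only [abs_zero, sum_const_zero, mul_zero] at ht
  obtain ⟨n, hn⟩ := (ht.eventually (gt_mem_nhds hε)).exists
  obtain ⟨y, hy, hyn⟩ := hFC (z n)
  exact ⟨n, y, hy, lt_of_le_of_lt hyn hn⟩

theorem escape_of_upper_l2 (z : ℕ → X) (C : ℝ)
    (h : ∀ (A : Finset ℕ) (a : ℕ → ℝ), ‖∑ n ∈ A, a n • z n‖ ≤ C * Real.sqrt (∑ n ∈ A, a n ^ 2)) :
    Escapes z :=
  escapes_of_tendsto z (tendsto_of_upper_l2 z C h)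

/-- A space with an escaping sequence bounded below is infinite-dimensional. -/
theorem not_finiteDimensional_of_escapes (z : ℕ → X) (hz : Escapes z) (δ : ℝ) (hδ : 0 < δ)
    (hzδ : ∀ n, δ ≤ ‖z n‖) : ¬ FiniteDimensional ℝ X := by
  intro hfd
  have hcof : Cof ({0} : Set X) := by
    refine ⟨⊥, rfl, isClosed_singleton, ?_⟩
    infer_instance
  obtain ⟨n, y, hy, hn⟩ := hz {0} hcof δ hδ
  rw [Set.mem_singleton_iff] at hy
  rw [hy, sub_zero] at hn
  exact absurd (hzδ n) (not_le.2 hn)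

end general

section auc

variable {X : Type} [NormedAddCommGroup X] [NormedSpace ℝ X] [CompleteSpace X]

/-- One step of growth for an equivalent AUC norm. -/
theorem auc_step (N : X → ℝ) (hN : (mkB X).IsEquivNorm N) (hA : (mkB X).IsAUC N)
    (δ R : ℝ) (hδ : 0 < δ) (hR : 0 < R) :
    ∃ κ : ℝ, 1 < κ ∧ ∀ v : X, v ≠ 0 → ‖v‖ ≤ R → ∃ F : Set X, Cof F ∧ ∃ ε : ℝ, 0 < ε ∧
      ∀ z : X, δ ≤ ‖z‖ → (∃ y ∈ F, ‖z - y‖ < ε) → κ * N v ≤ N (v + z) := by
  obtain ⟨htri, hhom, a, b, ha, hab⟩ := hN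
  change ∀ x y : X, N (x + y) ≤ N x + N y at htri
  change ∀ (a : ℝ) (x : X), N (a • x) = |a| * N x at hhom
  change ∀ x : X, a * ‖x‖ ≤ N x ∧ N x ≤ b * ‖x‖ at hab
  have hN0 : ∀ x : X, 0 ≤ N x := fun x => (mul_nonneg ha.le (norm_nonneg x)).trans (hab x).1
  have hb : 0 ≤ b ∨ ∀ x : X, x = 0 := by
    by_cases h : ∀ x : X, x = 0
    · right; exact h
    · left
      push Not at h
      obtain ⟨x, hx⟩ := h
      have h1 := hab x
      have h2 : 0 < ‖x‖ := norm_pos_iff.2 hx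
      have h3 : 0 ≤ b * ‖x‖ := (hN0 x).trans h1.2
      by_contra hcon
      push Not at hcon
      nlinarith
  set b' := max b 1 with hb'
  have hb'pos : 0 < b' := lt_of_lt_of_le one_pos (le_max_right _ _)
  have hab' : ∀ x : X, N x ≤ b' * ‖x‖ := fun x =>
    (hab x).2.trans (mul_le_mul_of_nonneg_right (le_max_left _ _) (norm_nonneg _))
  set t₀ := a * δ / (2 * (b' * R)) with ht₀
  have ht₀pos : 0 < t₀ := by positivity
  obtain ⟨c, hc, hcA⟩ := hA t₀ ht₀pos
  change ∀ x : X, N x = 1 → ∃ F : Set X, Cof F ∧ ∀ y ∈ F, N y = 1 → c ≤ N (x + t₀ • y) - 1 at hcA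
  refine ⟨1 + c / 2, by linarith, ?_⟩
  intro v hv hvR
  have hNv : 0 < N v := lt_of_lt_of_le (mul_pos ha (norm_pos_iff.2 hv)) (hab v).1
  have hNvR : N v ≤ b' * R := (hab' v).trans (mul_le_mul_of_nonneg_left hvR hb'pos.le)
  have hx1 : N ((N v)⁻¹ • v) = 1 := by
    rw [hhom, abs_of_pos (inv_pos.2 hNv), inv_mul_cancel₀ hNv.ne']
  obtain ⟨F, hF, hFc⟩ := hcA _ hx1
  refine ⟨F, hF, min (δ * a / (2 * b')) (c / 2 * N v / b'), by positivity, ?_⟩
  intro z hz ⟨y, hy, hzy⟩
  have hzy1 : ‖z - y‖ < δ * a / (2 * b') := lt_of_lt_of_le hzy (min_le_left _ _)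
  have hzy2 : ‖z - y‖ < c / 2 * N v / b' := lt_of_lt_of_le hzy (min_le_right _ _)
  have hNzy : N (z - y) ≤ b' * ‖z - y‖ := hab' _
  have hneg : ∀ x : X, N (-x) = N x := by
    intro x
    have := hhom (-1) x
    simpa using this
  have hNz : a * δ ≤ N z := (mul_le_mul_of_nonneg_left hz ha.le).trans (hab z).1
  have h1 : N z ≤ N y + N (z - y) := by
    have := htri y (z - y)
    simpa using this
  have h2 : b' * ‖z - y‖ < a * δ / 2 := by
    have := mul_lt_mul_of_pos_left hzy1 hb'pos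
    calc b' * ‖z - y‖ < b' * (δ * a / (2 * b')) := this
      _ = a * δ / 2 := by field_simp
  have hNy : a * δ / 2 ≤ N y := by linarith
  have hNypos : 0 < N y := lt_of_lt_of_le (by positivity) hNy
  -- unit direction
  obtain ⟨S, hSF, -, -⟩ := hF
  have hy' : (N y)⁻¹ • y ∈ F := by
    rw [← hSF] at hy ⊢
    exact S.smul_mem _ hy
  have hy1 : N ((N y)⁻¹ • y) = 1 := by
    rw [hhom, abs_of_pos (inv_pos.2 hNypos), inv_mul_cancel₀ hNypos.ne']
  have h3 := hFc _ hy' hy1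
  obtain ⟨x, hx⟩ : ∃ x, x = (N v)⁻¹ • v := ⟨_, rfl⟩
  obtain ⟨y', hy'def⟩ : ∃ y', y' = (N y)⁻¹ • y := ⟨_, rfl⟩
  obtain ⟨t, ht⟩ : ∃ t, t = N y / N v := ⟨_, rfl⟩
  rw [← hx] at hx1 h3
  rw [← hy'def] at h3 hy1 hy'
  have htt₀ : t₀ ≤ t := by
    rw [ht₀, ht, div_le_div_iff₀ (by positivity) hNv]
    nlinarith
  have htpos : 0 < t := by rw [ht]; positivity
  -- convexity
  have h4 : N (x + t₀ • y') ≤ (1 - t₀ / t) * N x + (t₀ / t) * N (x + t • y') := by
    have e1 : x + t₀ • y' = (1 - t₀ / t) • x + (t₀ / t) • (x + t • y') := by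
      rw [smul_add, smul_smul, div_mul_cancel₀ _ htpos.ne', sub_smul, one_smul]
      abel
    have hq1 : t₀ / t ≤ 1 := (div_le_one htpos).2 htt₀
    have hq0 : 0 ≤ t₀ / t := by positivity
    calc N (x + t₀ • y') = N ((1 - t₀ / t) • x + (t₀ / t) • (x + t • y')) := by rw [e1]
      _ ≤ N ((1 - t₀ / t) • x) + N ((t₀ / t) • (x + t • y')) := htri _ _
      _ = _ := by rw [hhom, hhom, abs_of_nonneg (by linarith), abs_of_nonneg hq0]
  have h5 : 1 + c ≤ N (x + t • y') := by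
    rw [hx1] at h4
    have hq1 : t₀ / t ≤ 1 := (div_le_one htpos).2 htt₀
    have hq0 : 0 < t₀ / t := by positivity
    by_contra hcon
    push Not at hcon
    nlinarith [mul_lt_mul_of_pos_left hcon hq0]
  have h6 : v + y = N v • (x + t • y') := by
    have e1 : N v • x = v := by rw [hx, smul_smul, mul_inv_cancel₀ hNv.ne', one_smul]
    have e2 : N v • t • y' = y := by
      rw [hy'def, smul_smul, smul_smul, ht]
      have : N v * (N y / N v) * (N y)⁻¹ = 1 := by field_simp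
      rw [this, one_smul]
    rw [smul_add, e1, e2]
  have h7 : N (v + y) = N v * N (x + t • y') := by
    rw [h6, hhom, abs_of_pos hNv]
  have h8 : N v * (1 + c) ≤ N (v + y) := by
    rw [h7]; exact mul_le_mul_of_nonneg_left h5 hNv.le
  have h9 : N (v + y) ≤ N (v + z) + N (z - y) := by
    have e : v + y = (v + z) + -(z - y) := by abel
    rw [e]
    refine (htri _ _).trans ?_
    rw [hneg]
  have h10 : b' * ‖z - y‖ < c / 2 * N v := by
    have := mul_lt_mul_of_pos_left hzy2 hb'pos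
    calc b' * ‖z - y‖ < b' * (c / 2 * N v / b') := this
      _ = c / 2 * N v := by field_simp
  nlinarith

/-- sum of `z` over all suffixes of `s` (the branch from the root to `s`). -/
def branchSum {X : Type} [AddCommMonoid X] (z : List ℕ → X) : List ℕ → X
  | [] => z []
  | a :: v => branchSum z v + z (a :: v)

/-- trees of arbitrary depth with bounded branch sums, increments bounded below and escaping
siblings exclude equivalent AUC norms. -/
theorem not_auc_of_trees (δ R : ℝ) (hδ : 0 < δ)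
    (h : ∀ m : ℕ, ∃ z : List ℕ → X, δ ≤ ‖z []‖ ∧
      (∀ (s : List ℕ) (n : ℕ), s.length < m → δ ≤ ‖z (n :: s)‖) ∧
      (∀ s : List ℕ, s.length ≤ m → ‖branchSum z s‖ ≤ R) ∧
      ∀ s : List ℕ, s.length < m → Escapes fun n => z (n :: s)) :
    ∀ N : X → ℝ, (mkB X).IsEquivNorm N → ¬ (mkB X).IsAUC N := by
  intro N hN hA
  have hN' := hN
  obtain ⟨htri, hhom, a, b, ha, hab⟩ := hN'
  change ∀ x : X, a * ‖x‖ ≤ N x ∧ N x ≤ b * ‖x‖ at hab
  have hRpos : 0 < R := by
    obtain ⟨z, h0, -, h2, -⟩ := h 0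
    exact lt_of_lt_of_le hδ (h0.trans (h2 [] (by simp)))
  obtain ⟨κ, hκ, hstep⟩ := auc_step N hN hA δ R hδ hRpos
  -- choose m
  have hb0 : 0 ≤ max b 0 := le_max_right _ _
  obtain ⟨m, hm⟩ := pow_unbounded_of_one_lt (max b 0 * R / (a * δ)) hκ
  obtain ⟨z, hz0, hz1, hz2, hz3⟩ := h m
  have key : ∀ k : ℕ, k ≤ m → ∃ s : List ℕ, s.length = k ∧ κ ^ k * (a * δ) ≤ N (branchSum z s) := by
    intro k
    induction k with
    | zero =>
      intro _
      refine ⟨[], rfl, ?_⟩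
      simp only [pow_zero, one_mul, branchSum]
      exact (mul_le_mul_of_nonneg_left hz0 ha.le).trans (hab _).1
    | succ k ih =>
      intro hk
      obtain ⟨s, hs, hsN⟩ := ih (by omega)
      have hκk : 0 < κ ^ k * (a * δ) := by positivity
      have hne : branchSum z s ≠ 0 := by
        intro h0
        rw [h0] at hsN
        have h1 := (hab 0).2
        rw [norm_zero, mul_zero] at h1
        linarith
      obtain ⟨F, hF, ε, hε, hFε⟩ := hstep (branchSum z s) hne (hz2 s (by omega))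
      obtain ⟨n, y, hy, hny⟩ := hz3 s (by omega) F hF ε hε
      refine ⟨n :: s, by simp [hs], ?_⟩
      have h1 := hFε (z (n :: s)) (hz1 s n (by omega)) ⟨y, hy, hny⟩
      calc κ ^ (k + 1) * (a * δ) = κ * (κ ^ k * (a * δ)) := by ring
        _ ≤ κ * N (branchSum z s) := mul_le_mul_of_nonneg_left hsN (by linarith)
        _ ≤ _ := h1
  obtain ⟨s, hs, hsN⟩ := key m le_rfl
  have h1 : N (branchSum z s) ≤ max b 0 * R := by
    refine (hab _).2.trans ?_
    exact (mul_le_mul_of_nonneg_right (le_max_left b 0) (norm_nonneg _)).trans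
      (mul_le_mul_of_nonneg_left (hz2 s hs.le) hb0)
  rw [div_lt_iff₀ (by positivity)] at hm
  linarith

/-- If from every unit vector one can move by `2` in any cofinite subspace without leaving the unit
ball (up to `η`), then no equivalent norm is AUC. -/
theorem not_auc_of_oneSided (x₀ : X) (hx₀ : x₀ ≠ 0)
    (h : ∀ x : X, ‖x‖ = 1 → ∀ F : Set X, Cof F → ∀ η : ℝ, 0 < η →
      ∃ y ∈ F, ‖y‖ = 1 ∧ ‖x + (2 : ℝ) • y‖ ≤ 1 + η) :
    ∀ N : X → ℝ, (mkB X).IsEquivNorm N → ¬ (mkB X).IsAUC N := by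
  intro N hN hA
  have hN' := hN
  obtain ⟨htri, hhom, a, b, ha, hab⟩ := hN'
  change ∀ x : X, a * ‖x‖ ≤ N x ∧ N x ≤ b * ‖x‖ at hab
  obtain ⟨κ, hκ, hstep⟩ := auc_step N hN hA 2 2 (by norm_num) (by norm_num)
  have hb0 : 0 ≤ max b 0 := le_max_right _ _
  obtain ⟨m, hm⟩ := pow_unbounded_of_one_lt (max b 0 * 2 / a) hκ
  -- v_k with 1 ≤ ‖v_k‖ ≤ 1 + k/(m+1), N v_k ≥ κ^k a
  have key : ∀ k : ℕ, k ≤ m → ∃ v : X, 1 ≤ ‖v‖ ∧ ‖v‖ ≤ 1 + (k : ℝ) / (m + 1) ∧ κ ^ k * a ≤ N v := by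
    intro k
    induction k with
    | zero =>
      intro _
      refine ⟨‖x₀‖⁻¹ • x₀, ?_, ?_, ?_⟩
      · rw [norm_smul, norm_inv, norm_norm, inv_mul_cancel₀ (norm_ne_zero_iff.2 hx₀)]
      · rw [norm_smul, norm_inv, norm_norm, inv_mul_cancel₀ (norm_ne_zero_iff.2 hx₀)]
        simp
      · have h1 := (hab (‖x₀‖⁻¹ • x₀)).1
        rw [norm_smul, norm_inv, norm_norm, inv_mul_cancel₀ (norm_ne_zero_iff.2 hx₀)] at h1
        simpa using h1
    | succ k ih =>
      intro hk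
      obtain ⟨v, hv1, hv2, hv3⟩ := ih (by omega)
      have hm1 : (0 : ℝ) < m + 1 := by positivity
      have hvpos : 0 < ‖v‖ := by linarith
      have hkm : (k : ℝ) / (m + 1) ≤ 1 := by
        rw [div_le_one hm1]
        have : (k : ℝ) ≤ m := by exact_mod_cast (by omega : k ≤ m)
        linarith
      have hv2' : ‖v‖ ≤ 2 := by linarith
      have hvne : v ≠ 0 := norm_pos_iff.1 hvpos
      obtain ⟨F, hF, ε, hε, hFε⟩ := hstep v hvne hv2'
      have hx1 : ‖(‖v‖⁻¹ • v)‖ = 1 := by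
        rw [norm_smul, norm_inv, norm_norm, inv_mul_cancel₀ hvpos.ne']
      obtain ⟨y, hyF, hy1, hy2⟩ := h _ hx1 F hF (1 / (2 * (m + 1))) (by positivity)
      have hvy : v + (2 * ‖v‖) • y = ‖v‖ • (‖v‖⁻¹ • v + (2 : ℝ) • y) := by
        rw [smul_add, smul_smul, mul_inv_cancel₀ hvpos.ne', one_smul, smul_smul, mul_comm]
      have hn : ‖v + (2 * ‖v‖) • y‖ ≤ ‖v‖ * (1 + 1 / (2 * (m + 1))) := by
        rw [hvy, norm_smul, norm_norm]
        exact mul_le_mul_of_nonneg_left hy2 hvpos.le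
      have hny : ‖(2 * ‖v‖) • y‖ = 2 * ‖v‖ := by
        rw [norm_smul, hy1, mul_one, Real.norm_of_nonneg (by positivity)]
      refine ⟨v + (2 * ‖v‖) • y, ?_, ?_, ?_⟩
      · have h1 : ‖(2 * ‖v‖) • y‖ ≤ ‖v + (2 * ‖v‖) • y‖ + ‖v‖ := by
          have := norm_sub_le (v + (2 * ‖v‖) • y) v
          rwa [add_sub_cancel_left] at this
        rw [hny] at h1
        linarith
      · refine hn.trans ?_
        have e : ‖v‖ * (1 + 1 / (2 * (m + 1))) = ‖v‖ + ‖v‖ / 2 * (1 / (m + 1)) := by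
          field_simp
        rw [e]
        push_cast
        have h2 : ‖v‖ / 2 * (1 / ((m : ℝ) + 1)) ≤ 1 * (1 / ((m : ℝ) + 1)) :=
          mul_le_mul_of_nonneg_right (by linarith) (by positivity)
        have h3 : ((k : ℝ) + 1) / (m + 1) = (k : ℝ) / (m + 1) + 1 * (1 / (m + 1)) := by ring
        rw [h3]
        linarith
      · obtain ⟨S, hSF, -, -⟩ := hF
        have hyF' : (2 * ‖v‖) • y ∈ F := by
          rw [← hSF] at hyF ⊢
          exact S.smul_mem _ hyF
        have h1 := hFε ((2 * ‖v‖) • y) (by rw [hny]; linarith) ⟨_, hyF', by simpa using hε⟩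
        calc κ ^ (k + 1) * a = κ * (κ ^ k * a) := by ring
          _ ≤ κ * N v := mul_le_mul_of_nonneg_left hv3 (by linarith)
          _ ≤ _ := h1
  obtain ⟨v, hv1, hv2, hv3⟩ := key m le_rfl
  have hm1 : (0 : ℝ) < m + 1 := by positivity
  have hmm : (m : ℝ) / (m + 1) ≤ 1 := by
    rw [div_le_one hm1]; linarith
  have h1 : N v ≤ max b 0 * 2 := by
    refine (hab _).2.trans ?_
    exact (mul_le_mul_of_nonneg_right (le_max_left b 0) (norm_nonneg _)).trans
      (mul_le_mul_of_nonneg_left (by linarith) hb0)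
  rw [div_lt_iff₀ ha] at hm
  linarith

end auc

end Crest.Agent.Lib.AUC36
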