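import Mathlib

/-!
Row 82 (S0109), chunk B: `L²` gradient stability of convex functions with bounded subgradient
selections: one-dimensional Gagliardo-Nirenberg type inequality integrated over lines.
-/

set_option autoImplicit false

open MeasureTheory Set

namespace Crest.Agent.Lib.ConvexGN

/-- A function whose increments are bounded by `(p t - p s) (t - s)` is constant. -/
theorem eq_of_slow (g p : ℝ → ℝ) (a b : ℝ) (hab : a ≤ b)
    (h : ∀ s ∈ Icc a b, ∀ t ∈ Icc a b, s ≤ t → |g t - g s| ≤ (p t - p s) * (t - s)) :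
    g b = g a := by
  have key : ∀ n : ℕ, 0 < n → |g b - g a| ≤ (p b - p a) * (b - a) / n := by
    intro n hn
    have hn' : (0 : ℝ) < n := by exact_mod_cast hn
    set x : ℕ → ℝ := fun i => a + i * ((b - a) / n) with hx
    have hx0 : x 0 = a := by simp [hx]
    have hxn : x n = b := by
      simp only [hx]; field_simp; ring
    have hd : 0 ≤ (b - a) / n := div_nonneg (by linarith) hn'.le
    have hmem : ∀ i, i ≤ n → x i ∈ Icc a b := by
      intro i hi
      have hi' : (i : ℝ) ≤ n := by exact_mod_cast hi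
      refine ⟨?_, ?_⟩
      · simp only [hx]; nlinarith [Nat.cast_nonneg (α := ℝ) i]
      · rw [← hxn]; simp only [hx]; nlinarith
    have hstep : ∀ i, x (i + 1) - x i = (b - a) / n := by
      intro i; simp only [hx]; push_cast; ring
    calc |g b - g a| = |∑ i ∈ Finset.range n, (g (x (i+1)) - g (x i))| := by
          rw [Finset.sum_range_sub (fun i => g (x i)), hx0, hxn]
      _ ≤ ∑ i ∈ Finset.range n, |g (x (i+1)) - g (x i)| := Finset.abs_sum_le_sum_abs _ _
      _ ≤ ∑ i ∈ Finset.range n, (p (x (i+1)) - p (x i)) * ((b-a)/n) := by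
          apply Finset.sum_le_sum
          intro i hi
          have hi' := Finset.mem_range.1 hi
          have := h (x i) (hmem i hi'.le) (x (i+1)) (hmem (i+1) hi') (by linarith [hstep i])
          rwa [hstep i] at this
      _ = (p b - p a) * (b - a) / n := by
          rw [← Finset.sum_mul, Finset.sum_range_sub (fun i => p (x i)), hx0, hxn]; ring
  have hlim : Filter.Tendsto (fun n : ℕ => (p b - p a) * (b - a) / (n : ℝ)) Filter.atTop (nhds 0) :=
    tendsto_const_div_atTop_nhds_zero_nat _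
  have h0 : |g b - g a| ≤ 0 := by
    refine ge_of_tendsto hlim ?_
    filter_upwards [Filter.eventually_gt_atTop 0] with n hn using key n hn
  have := abs_nonpos_iff.1 h0
  linarith

/-- Subgradient selections are monotone. -/
theorem subgrad_mono (u p : ℝ → ℝ) (a b : ℝ)
    (h : ∀ s ∈ Icc a b, ∀ t ∈ Icc a b, u s + p s * (t - s) ≤ u t) :
    MonotoneOn p (Icc a b) := by
  intro s hs t ht hst
  rcases hst.eq_or_lt with rfl | hlt
  · exact le_rfl
  · have h1 := h s hs t ht
    have h2 := h t ht s hs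
    nlinarith

theorem bdd_integrableOn (f : ℝ → ℝ) (hf : Measurable f) (a b L : ℝ)
    (hL : ∀ s ∈ Icc a b, |f s| ≤ L) : IntegrableOn f (Icc a b) := by
  refine Integrable.mono' (g := fun _ => L) (integrableOn_const (by simp)) hf.aestronglyMeasurable ?_
  refine (ae_restrict_iff' measurableSet_Icc).2 (Filter.Eventually.of_forall fun s hs => ?_)
  simpa using hL s hs

/-- Fundamental theorem of calculus for subgradient selections. -/
theorem integral_subgrad (u p : ℝ → ℝ) (hp : Measurable p) (a b L : ℝ)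
    (hL : ∀ s ∈ Icc a b, |p s| ≤ L)
    (h : ∀ s ∈ Icc a b, ∀ t ∈ Icc a b, u s + p s * (t - s) ≤ u t)
    (s : ℝ) (hs : s ∈ Icc a b) (t : ℝ) (ht : t ∈ Icc a b) (hst : s ≤ t) :
    ∫ r in s..t, p r = u t - u s := by
  have hmono := subgrad_mono u p a b h
  have hint := bdd_integrableOn p hp a b L hL
  have hii : ∀ x ∈ Icc a b, ∀ y ∈ Icc a b, IntervalIntegrable p volume x y := by
    intro x hx y hy
    refine (hint.mono_set ?_).intervalIntegrable
    exact (uIcc_subset_Icc hx hy)
  have hmain := eq_of_slow (fun r => u r - ∫ z in s..r, p z) p s t hst ?_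
  · simp only [intervalIntegral.integral_same, sub_zero] at hmain
    linarith
  · intro x hx y hy hxy
    have hxa : x ∈ Icc a b := ⟨hs.1.trans hx.1, hx.2.trans ht.2⟩
    have hya : y ∈ Icc a b := ⟨hs.1.trans hy.1, hy.2.trans ht.2⟩
    have e1 : (∫ z in s..y, p z) = (∫ z in s..x, p z) + ∫ z in x..y, p z :=
      (intervalIntegral.integral_add_adjacent_intervals (hii s hs x hxa) (hii x hxa y hya)).symm
    have l1 : p x * (y - x) ≤ ∫ z in x..y, p z := by
      have := intervalIntegral.integral_mono_on hxy (intervalIntegrable_const (c := p x))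
        (hii x hxa y hya) (fun z hz => hmono hxa ⟨hxa.1.trans hz.1, hz.2.trans hya.2⟩ hz.1)
      simpa [mul_comm] using this
    have l2 : (∫ z in x..y, p z) ≤ p y * (y - x) := by
      have := intervalIntegral.integral_mono_on hxy (hii x hxa y hya)
        (intervalIntegrable_const (c := p y))
        (fun z hz => hmono ⟨hxa.1.trans hz.1, hz.2.trans hya.2⟩ hya hz.2)
      simpa [mul_comm] using this
    have l3 := h x hxa y hya
    have l4 := h y hya x hxa
    simp only [e1]
    rw [abs_le]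
    constructor <;> nlinarith

/-- Integrals of `p - q` over superlevel sets of `p` are small. -/
theorem abs_setIntegral_superlevel_le (u v p q : ℝ → ℝ) (hp : Measurable p) (hq : Measurable q)
    (a b L M : ℝ) (hab : a ≤ b)
    (hpL : ∀ s ∈ Icc a b, |p s| ≤ L) (hqL : ∀ s ∈ Icc a b, |q s| ≤ L)
    (hu : ∀ s ∈ Icc a b, ∀ t ∈ Icc a b, u s + p s * (t - s) ≤ u t)
    (hv : ∀ s ∈ Icc a b, ∀ t ∈ Icc a b, v s + q s * (t - s) ≤ v t)
    (hM : ∀ s ∈ Icc a b, |u s - v s| ≤ M) (l : ℝ) :
    |∫ s in Icc a b, (p s - q s) * (if l < p s then 1 else 0)| ≤ 2 * M := by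
  have hM0 : 0 ≤ M := (abs_nonneg _).trans (hM a ⟨le_rfl, hab⟩)
  have hmono := subgrad_mono u p a b hu
  set S : Set ℝ := {s | s ∈ Icc a b ∧ l < p s} with hS
  have hSm : MeasurableSet S := measurableSet_Icc.inter (measurableSet_lt measurable_const hp)
  have e0 : (∫ s in Icc a b, (p s - q s) * (if l < p s then 1 else 0)) = ∫ s in S, (p s - q s) := by
    rw [← integral_indicator measurableSet_Icc, ← integral_indicator hSm]
    congr 1
    ext s
    by_cases h1 : s ∈ Icc a b
    · by_cases h2 : l < p s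
      · simp [hS, indicator, h1.1, h1.2, h2]
      · simp [hS, indicator, h1.1, h1.2, h2]
    · have : s ∉ S := fun h => h1 h.1
      simp [this, h1]
  rw [e0]
  rcases S.eq_empty_or_nonempty with hE | hne
  · rw [hE]; simp; linarith
  · have hSsub : S ⊆ Icc a b := fun s hs => hs.1
    have hbdd : BddBelow S := bddBelow_Icc.mono hSsub
    set c := sInf S with hc
    have hca : a ≤ c := le_csInf hne (fun s hs => hs.1.1)
    obtain ⟨s0, hs0⟩ := hne
    have hcb : c ≤ b := (csInf_le hbdd hs0).trans hs0.1.2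
    have hsub1 : Ioc c b ⊆ S := by
      intro s hs
      obtain ⟨s', hs', hlt⟩ := exists_lt_of_csInf_lt ⟨s0, hs0⟩ hs.1
      refine ⟨⟨hca.trans hs.1.le, hs.2⟩, hs'.2.trans_le ?_⟩
      exact hmono hs'.1 ⟨hca.trans hs.1.le, hs.2⟩ hlt.le
    have hsub2 : S ⊆ Icc c b := fun s hs => ⟨csInf_le hbdd hs, hs.1.2⟩
    have hae : S =ᵐ[volume] Ioc c b := by
      have h1 : Ioc c b =ᵐ[volume] Icc c b := Ioc_ae_eq_Icc
      refine Filter.EventuallyLE.antisymm ?_ ?_
      · exact (LE.le.eventuallyLE hsub2).trans h1.symm.le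
      · exact LE.le.eventuallyLE hsub1
    rw [setIntegral_congr_set hae, ← intervalIntegral.integral_of_le hcb]
    have hcm : c ∈ Icc a b := ⟨hca, hcb⟩
    have hbm : b ∈ Icc a b := ⟨hab, le_rfl⟩
    have hip : IntervalIntegrable p volume c b :=
      ((bdd_integrableOn p hp a b L hpL).mono_set (uIcc_subset_Icc hcm hbm)).intervalIntegrable
    have hiq : IntervalIntegrable q volume c b :=
      ((bdd_integrableOn q hq a b L hqL).mono_set (uIcc_subset_Icc hcm hbm)).intervalIntegrable
    rw [intervalIntegral.integral_sub hip hiq,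
      integral_subgrad u p hp a b L hpL hu c hcm b hbm hcb,
      integral_subgrad v q hq a b L hqL hv c hcm b hbm hcb]
    have h1 := abs_le.1 (hM c hcm)
    have h2 := abs_le.1 (hM b hbm)
    rw [abs_le]
    constructor <;> linarith [h1.1, h1.2, h2.1, h2.2]

theorem layer (x L : ℝ) (h : |x| ≤ L) :
    ∫ l in Ioc (-L) L, (if l < x then (1:ℝ) else 0) = x + L := by
  have hx := abs_le.1 h
  have e1 : (fun l : ℝ => if l < x then (1:ℝ) else 0) = (Iio x).indicator (fun _ => (1:ℝ)) := by
    ext l; simp [indicator]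
  have e2 : (Ioc (-L) L ∩ Iio x : Set ℝ) =ᵐ[volume] (Ioc (-L) x : Set ℝ) := by
    have : (Ioc (-L) L ∩ Iio x : Set ℝ) = Ioo (-L) x := by
      ext l
      simp only [mem_inter_iff, mem_Ioc, mem_Iio, mem_Ioo]
      constructor
      · rintro ⟨⟨h1, h2⟩, h3⟩; exact ⟨h1, h3⟩
      · rintro ⟨h1, h3⟩; exact ⟨⟨h1, by linarith [hx.2]⟩, h3⟩
    rw [this]
    exact Ioo_ae_eq_Ioc
  rw [e1, setIntegral_indicator measurableSet_Iio, setIntegral_congr_set e2]
  simp only [integral_const, smul_eq_mul, mul_one, measureReal_restrict_apply MeasurableSet.univ, univ_inter]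
  rw [Real.volume_real_Ioc_of_le (by linarith [hx.1])]
  ring

theorem abs_integral_mul_le (u v p q : ℝ → ℝ) (hp : Measurable p) (hq : Measurable q)
    (a b L M : ℝ) (hab : a ≤ b)
    (hpL : ∀ s ∈ Icc a b, |p s| ≤ L) (hqL : ∀ s ∈ Icc a b, |q s| ≤ L)
    (hu : ∀ s ∈ Icc a b, ∀ t ∈ Icc a b, u s + p s * (t - s) ≤ u t)
    (hv : ∀ s ∈ Icc a b, ∀ t ∈ Icc a b, v s + q s * (t - s) ≤ v t)
    (hM : ∀ s ∈ Icc a b, |u s - v s| ≤ M) :
    |∫ s in Icc a b, (p s - q s) * p s| ≤ 6 * L * M := by
  have hL0 : 0 ≤ L := (abs_nonneg _).trans (hpL a ⟨le_rfl, hab⟩)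
  have hM0 : 0 ≤ M := (abs_nonneg _).trans (hM a ⟨le_rfl, hab⟩)
  have hip := bdd_integrableOn p hp a b L hpL
  have hiq := bdd_integrableOn q hq a b L hqL
  -- Fubini
  have hswap : (∫ s in Icc a b, (p s - q s) * (p s + L)) =
      ∫ l in Ioc (-L) L, ∫ s in Icc a b, (p s - q s) * (if l < p s then 1 else 0) := by
    rw [← integral_integral_swap]
    · refine setIntegral_congr_fun measurableSet_Icc (fun s hs => ?_)
      rw [integral_const_mul, layer (p s) L (hpL s hs)]
    · have hmeas : Measurable (Function.uncurry fun s l : ℝ => (p s - q s) * (if l < p s then (1:ℝ) else 0)) := by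
        refine Measurable.mul ?_ ?_
        · exact (hp.comp measurable_fst).sub (hq.comp measurable_fst)
        · exact Measurable.ite (measurableSet_lt measurable_snd (hp.comp measurable_fst))
            measurable_const measurable_const
      refine Integrable.mono' (g := fun _ => 2 * L) (integrable_const _) hmeas.aestronglyMeasurable ?_
      rw [Measure.prod_restrict]
      refine (ae_restrict_iff' (measurableSet_Icc.prod measurableSet_Ioc)).2
        (Filter.Eventually.of_forall fun z hz => ?_)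
      have h1 := abs_le.1 (hpL z.1 hz.1)
      have h2 := abs_le.1 (hqL z.1 hz.1)
      simp only [Function.uncurry, Real.norm_eq_abs]
      split_ifs
      · rw [abs_le]; constructor <;> linarith [h1.1, h1.2, h2.1, h2.2]
      · simp; linarith
  have hb1 : |∫ s in Icc a b, (p s - q s) * (p s + L)| ≤ 4 * L * M := by
    rw [hswap, ← Real.norm_eq_abs]
    have := norm_setIntegral_le_of_norm_le_const (μ := volume) (s := Ioc (-L) L) (C := 2 * M)
      (f := fun l => ∫ s in Icc a b, (p s - q s) * (if l < p s then 1 else 0)) (by simp)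
      (fun l _ => by
        rw [Real.norm_eq_abs]
        exact abs_setIntegral_superlevel_le u v p q hp hq a b L M hab hpL hqL hu hv hM l)
    rw [Real.volume_real_Ioc_of_le (by linarith)] at this
    linarith
  have hb2 : |∫ s in Icc a b, (p s - q s)| ≤ 2 * M := by
    have := abs_setIntegral_superlevel_le u v p q hp hq a b L M hab hpL hqL hu hv hM (-L - 1)
    have e : (∫ s in Icc a b, (p s - q s) * (if -L - 1 < p s then 1 else 0)) =
        ∫ s in Icc a b, (p s - q s) := by
      refine setIntegral_congr_fun measurableSet_Icc (fun s hs => ?_)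
      have h1 := abs_le.1 (hpL s hs)
      rw [if_pos (by linarith [h1.1]), mul_one]
    rwa [e] at this
  have hsum : (∫ s in Icc a b, (p s - q s) * p s) =
      (∫ s in Icc a b, (p s - q s) * (p s + L)) - L * ∫ s in Icc a b, (p s - q s) := by
    rw [← integral_const_mul, ← integral_sub]
    · congr 1; ext s; ring
    · have hmeas : Measurable (fun s => (p s - q s) * (p s + L)) := (hp.sub hq).mul (hp.add_const L)
      refine bdd_integrableOn _ hmeas a b (4 * L ^ 2) (fun s hs => ?_)
      have h1 := abs_le.1 (hpL s hs)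
      have h2 := abs_le.1 (hqL s hs)
      rw [abs_le]
      constructor <;> nlinarith [h1.1, h1.2, h2.1, h2.2]
    · exact (hip.sub hiq).const_mul L
  rw [hsum]
  have h1 := abs_le.1 hb1
  have h2 := abs_le.1 hb2
  rw [abs_le]
  constructor <;> nlinarith [h1.1, h1.2, h2.1, h2.2]

theorem integral_sq_le (u v p q : ℝ → ℝ) (hp : Measurable p) (hq : Measurable q)
    (a b L M : ℝ) (hab : a ≤ b)
    (hpL : ∀ s ∈ Icc a b, |p s| ≤ L) (hqL : ∀ s ∈ Icc a b, |q s| ≤ L)
    (hu : ∀ s ∈ Icc a b, ∀ t ∈ Icc a b, u s + p s * (t - s) ≤ u t)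
    (hv : ∀ s ∈ Icc a b, ∀ t ∈ Icc a b, v s + q s * (t - s) ≤ v t)
    (hM : ∀ s ∈ Icc a b, |u s - v s| ≤ M) :
    ∫ s in Icc a b, (p s - q s) ^ 2 ≤ 12 * L * M := by
  have h1 := abs_integral_mul_le u v p q hp hq a b L M hab hpL hqL hu hv hM
  have h2 := abs_integral_mul_le v u q p hq hp a b L M hab hqL hpL hv hu
    (fun s hs => by rw [abs_sub_comm]; exact hM s hs)
  have hb : ∀ f g : ℝ → ℝ, Measurable f → Measurable g → (∀ s ∈ Icc a b, |f s| ≤ L) →
      (∀ s ∈ Icc a b, |g s| ≤ L) → IntegrableOn (fun s => (f s - g s) * f s) (Icc a b) := by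
    intro f g hf hg hfL hgL
    refine bdd_integrableOn _ ((hf.sub hg).mul hf) a b (2 * L ^ 2) (fun s hs => ?_)
    have h1 := abs_le.1 (hfL s hs)
    have h2 := abs_le.1 (hgL s hs)
    have h3 : |f s - g s| ≤ 2 * L := by rw [abs_le]; constructor <;> linarith [h1.1, h1.2, h2.1, h2.2]
    have h4 : |((f - g) * f) s| = |f s - g s| * |f s| := by simp [abs_mul]
    rw [h4]
    nlinarith [abs_nonneg (f s - g s), abs_nonneg (f s), hfL s hs]
  have e : (∫ s in Icc a b, (p s - q s) ^ 2) =
      (∫ s in Icc a b, (p s - q s) * p s) + ∫ s in Icc a b, (q s - p s) * q s := by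
    rw [← integral_add (hb p q hp hq hpL hqL) (hb q p hq hp hqL hpL)]
    congr 1; ext s; ring
  rw [e]
  linarith [(abs_le.1 h1).2, (abs_le.1 h2).2]

theorem subgrad_lip (u p : ℝ → ℝ) (a b L : ℝ) (hpL : ∀ s ∈ Icc a b, |p s| ≤ L)
    (hu : ∀ s ∈ Icc a b, ∀ t ∈ Icc a b, u s + p s * (t - s) ≤ u t)
    (s : ℝ) (hs : s ∈ Icc a b) (t : ℝ) (ht : t ∈ Icc a b) : |u s - u t| ≤ L * |s - t| := by
  have h1 := hu s hs t ht
  have h2 := hu t ht s hs
  have h3 : |p s * (t - s)| ≤ L * |s - t| := by
    rw [abs_mul, abs_sub_comm t s]; exact mul_le_mul_of_nonneg_right (hpL s hs) (abs_nonneg _)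
  have h4 : |p t * (s - t)| ≤ L * |s - t| := by
    rw [abs_mul]; exact mul_le_mul_of_nonneg_right (hpL t ht) (abs_nonneg _)
  rw [abs_le] at h3 h4 ⊢
  constructor <;> linarith [h3.1, h3.2, h4.1, h4.2]

theorem oneD (u v p q : ℝ → ℝ) (hp : Measurable p) (hq : Measurable q)
    (a b L t : ℝ) (hab : a ≤ b) (hL : 0 < L) (ht : 0 < t)
    (hpL : ∀ s ∈ Icc a b, |p s| ≤ L) (hqL : ∀ s ∈ Icc a b, |q s| ≤ L)
    (hu : ∀ s ∈ Icc a b, ∀ t ∈ Icc a b, u s + p s * (t - s) ≤ u t)
    (hv : ∀ s ∈ Icc a b, ∀ t ∈ Icc a b, v s + q s * (t - s) ≤ v t) :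
    ∫ s in Icc a b, (p s - q s) ^ 2 ≤
      9216 * L ^ 4 / t ^ 2 * (∫ s in Icc a b, (u s - v s) ^ 2) + 2 * t / 3 := by
  set J := ∫ s in Icc a b, (p s - q s) ^ 2 with hJ
  set W := ∫ s in Icc a b, (u s - v s) ^ 2 with hW
  have hJ0 : 0 ≤ J := setIntegral_nonneg measurableSet_Icc (fun s _ => sq_nonneg _)
  have hwlip : ∀ s ∈ Icc a b, ∀ t ∈ Icc a b, |(u s - v s) - (u t - v t)| ≤ 2 * L * |s - t| := by
    intro s hs t ht
    have h1 := abs_le.1 (subgrad_lip u p a b L hpL hu s hs t ht)
    have h2 := abs_le.1 (subgrad_lip v q a b L hqL hv s hs t ht)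
    rw [abs_le]
    constructor <;> linarith [h1.1, h1.2, h2.1, h2.2]
  have hwcont : ContinuousOn (fun s => u s - v s) (Icc a b) := by
    have : LipschitzOnWith (Real.toNNReal (2 * L)) (fun s => u s - v s) (Icc a b) := by
      refine LipschitzOnWith.of_dist_le_mul (fun s hs t ht => ?_)
      rw [Real.dist_eq, Real.dist_eq, Real.coe_toNNReal _ (by linarith)]
      exact hwlip s hs t ht
    exact this.continuousOn
  have hw2 : IntegrableOn (fun s => (u s - v s) ^ 2) (Icc a b) :=
    (hwcont.pow 2).integrableOn_compact isCompact_Icc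
  obtain ⟨s0, hs0, hmax⟩ := isCompact_Icc.exists_isMaxOn ⟨a, ⟨le_rfl, hab⟩⟩ hwcont.abs
  set M := |u s0 - v s0| with hM
  have hMle : ∀ s ∈ Icc a b, |u s - v s| ≤ M := fun s hs => hmax hs
  have hM0 : 0 ≤ M := abs_nonneg _
  have hJ1 : J ≤ 12 * L * M := integral_sq_le u v p q hp hq a b L M hab hpL hqL hu hv hMle
  have hJ2 : J ≤ 4 * L ^ 2 * (b - a) := by
    have hb : ∀ s ∈ Icc a b, |(p s - q s) ^ 2| ≤ 4 * L ^ 2 := by
      intro s hs
      have h1 := abs_le.1 (hpL s hs)
      have h2 := abs_le.1 (hqL s hs)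
      rw [abs_of_nonneg (sq_nonneg _)]
      nlinarith [h1.1, h1.2, h2.1, h2.2]
    have := norm_setIntegral_le_of_norm_le_const (μ := volume) (s := Icc a b) (C := 4 * L ^ 2)
      (f := fun s => (p s - q s) ^ 2) (by simp) (fun s hs => by rw [Real.norm_eq_abs]; exact hb s hs)
    rw [Real.volume_real_Icc_of_le hab, Real.norm_eq_abs, abs_of_nonneg hJ0] at this
    exact this
  have hkey : J ^ 3 ≤ 27648 * L ^ 4 * W := by
    set r := min (b - a) (M / (4 * L)) with hr
    have hr0 : 0 ≤ r := le_min (by linarith) (by positivity)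
    have hrab : r ≤ b - a := min_le_left _ _
    have hrM : r ≤ M / (4 * L) := min_le_right _ _
    have hrM' : 4 * L * r ≤ M := by
      rw [le_div_iff₀ (by positivity)] at hrM; linarith
    set c := max a (s0 - r) with hc
    have hca : a ≤ c := le_max_left _ _
    have hcs : s0 - r ≤ c := le_max_right _ _
    have hcb : c + r ≤ b := by
      rcases max_choice a (s0 - r) with h | h
      · rw [hc, h]; linarith
      · rw [hc, h]; linarith [hs0.2]
    have hcu : c + r ≤ s0 + r := by
      rcases max_choice a (s0 - r) with h | h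
      · rw [hc, h]; linarith [hs0.1]
      · rw [hc, h]; linarith
    have hsub : Icc c (c + r) ⊆ Icc a b := Icc_subset_Icc hca hcb
    have hlow : ∀ s ∈ Icc c (c + r), (M / 2) ^ 2 ≤ (u s - v s) ^ 2 := by
      intro s hs
      have hsr : |s0 - s| ≤ r := by
        rw [abs_le]; constructor <;> linarith [hs.1, hs.2]
      have h1 := hwlip s0 hs0 s (hsub hs)
      have h2 : 2 * L * |s0 - s| ≤ M / 2 := by nlinarith
      have h3 : M / 2 ≤ |u s - v s| := by
        have := abs_sub_abs_le_abs_sub (u s0 - v s0) (u s - v s)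
        linarith
      rw [← sq_abs (u s - v s)]
      exact pow_le_pow_left₀ (by linarith) h3 2
    have hW1 : (M / 2) ^ 2 * r ≤ W := by
      calc (M / 2) ^ 2 * r = ∫ s in Icc c (c + r), (M / 2) ^ 2 := by
            rw [setIntegral_const, Real.volume_real_Icc_of_le (by linarith)]
            simp only [smul_eq_mul]; ring
        _ ≤ ∫ s in Icc c (c + r), (u s - v s) ^ 2 :=
            setIntegral_mono_on (integrableOn_const (by simp)) (hw2.mono_set hsub) measurableSet_Icc hlow
        _ ≤ W := setIntegral_mono_set hw2 (Filter.Eventually.of_forall fun s => sq_nonneg _)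
            hsub.eventuallyLE
    have hrJ : J ≤ 48 * L ^ 2 * r := by
      rcases min_choice (b - a) (M / (4 * L)) with h | h
      · rw [hr, h]; nlinarith [sq_nonneg L]
      · rw [hr, h]
        have : 48 * L ^ 2 * (M / (4 * L)) = 12 * L * M := by field_simp; ring
        rw [this]; exact hJ1
    have e1 : J ^ 2 ≤ 144 * L ^ 2 * M ^ 2 := by nlinarith
    calc J ^ 3 = J ^ 2 * J := by ring
      _ ≤ (144 * L ^ 2 * M ^ 2) * (48 * L ^ 2 * r) := by
          apply mul_le_mul e1 hrJ hJ0 (by positivity)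
      _ = 27648 * L ^ 4 * ((M / 2) ^ 2 * r) := by ring
      _ ≤ 27648 * L ^ 4 * W := by
          apply mul_le_mul_of_nonneg_left hW1 (by positivity)
  have hamgm : 0 ≤ (J - t) ^ 2 * (J + 2 * t) := by positivity
  have h3 : 3 * J * t ^ 2 ≤ 27648 * L ^ 4 * W + 2 * t ^ 3 := by nlinarith
  have e2 : 9216 * L ^ 4 / t ^ 2 * W + 2 * t / 3 = (27648 * L ^ 4 * W + 2 * t ^ 3) / (3 * t ^ 2) := by
    field_simp; ring
  rw [e2, le_div_iff₀ (by positivity)]
  linarith

/-- The line through the point with deleted coordinates `y` in direction `k`. -/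
noncomputable def lineMap {n : ℕ} (k : Fin (n + 1)) (y : Fin n → ℝ) (s : ℝ) :
    EuclideanSpace ℝ (Fin (n + 1)) :=
  WithLp.toLp 2 (k.insertNth s y)

theorem lineMap_eq {n : ℕ} (k : Fin (n + 1)) (y : Fin n → ℝ) (s : ℝ) :
    lineMap k y s = lineMap k y 0 + s • EuclideanSpace.single k (1 : ℝ) := by
  ext i
  rcases Fin.eq_self_or_eq_succAbove k i with h | ⟨j, hj⟩
  · subst h; simp [lineMap]
  · subst hj; simp [lineMap, Fin.succAbove_ne]

theorem lineMap_self {n : ℕ} (k : Fin (n + 1)) (y : Fin n → ℝ) (s : ℝ) :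
    lineMap k y s k = s := by simp [lineMap]

theorem lineMap_succAbove {n : ℕ} (k : Fin (n + 1)) (y : Fin n → ℝ) (s : ℝ) (j : Fin n) :
    lineMap k y s (k.succAbove j) = y j := by simp [lineMap]

theorem lineMap_continuous {n : ℕ} (k : Fin (n + 1)) (y : Fin n → ℝ) :
    Continuous (lineMap k y) := by
  have : lineMap k y = fun s => lineMap k y 0 + s • EuclideanSpace.single k (1 : ℝ) := by
    ext1 s; exact lineMap_eq k y s
  rw [this]; fun_prop

theorem line_bound (n : ℕ) (K : Set (EuclideanSpace ℝ (Fin (n+1)))) (hKc : IsCompact K)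
    (hKv : Convex ℝ K) (L R t : ℝ) (hL : 0 < L) (ht : 0 < t)
    (hR : ∀ x ∈ K, ‖x‖ ≤ R)
    (u v : EuclideanSpace ℝ (Fin (n+1)) → ℝ)
    (p q : EuclideanSpace ℝ (Fin (n+1)) → EuclideanSpace ℝ (Fin (n+1)))
    (hp : Measurable p) (hq : Measurable q) (hpL : ∀ x ∈ K, ‖p x‖ ≤ L) (hqL : ∀ x ∈ K, ‖q x‖ ≤ L)
    (hu : ∀ x ∈ K, ∀ x' ∈ K, u x + inner ℝ (p x) (x' - x) ≤ u x')
    (hv : ∀ x ∈ K, ∀ x' ∈ K, v x + inner ℝ (q x) (x' - x) ≤ v x')
    (k : Fin (n + 1)) (y : Fin n → ℝ) :
    ∫ s, K.indicator (fun x => (p x k - q x k) ^ 2 - 9216 * L ^ 4 / t ^ 2 * (u x - v x) ^ 2)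
      (lineMap k y s) ≤ (Metric.closedBall (0 : Fin n → ℝ) R).indicator (fun _ => 2 * t / 3) y := by
  set S : Set ℝ := {s | lineMap k y s ∈ K} with hS
  rcases S.eq_empty_or_nonempty with hE | hne
  · have : ∀ s, lineMap k y s ∉ K := fun s hs => by
      have : s ∈ S := hs
      rw [hE] at this; exact this
    simp only [indicator_of_notMem (this _), integral_zero]
    exact indicator_nonneg (fun _ _ => by positivity) _
  · have hcont := lineMap_continuous k y
    have hSclosed : IsClosed S := hKc.isClosed.preimage hcont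
    have hsR : ∀ s ∈ S, |s| ≤ R := by
      intro s hs
      have h1 := PiLp.norm_apply_le (lineMap k y s) k
      rw [lineMap_self, Real.norm_eq_abs] at h1
      exact h1.trans (hR _ hs)
    have hyR : y ∈ Metric.closedBall (0 : Fin n → ℝ) R := by
      obtain ⟨s, hs⟩ := hne
      have hR0 : 0 ≤ R := (norm_nonneg _).trans (hR _ hs)
      rw [mem_closedBall_zero_iff, pi_norm_le_iff_of_nonneg hR0]
      intro j
      have h1 := PiLp.norm_apply_le (lineMap k y s) (k.succAbove j)
      rw [lineMap_succAbove] at h1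
      exact h1.trans (hR _ hs)
    have hScomp : IsCompact S := by
      refine (isCompact_Icc (a := -R) (b := R)).of_isClosed_subset hSclosed (fun s hs => ?_)
      exact abs_le.1 (hsR s hs)
    have hSconv : Convex ℝ S := by
      intro s hs s' hs' a b ha hb hab
      have h1 := hKv hs hs' ha hb hab
      have h2 : a • lineMap k y s + b • lineMap k y s' = lineMap k y (a • s + b • s') := by
        rw [lineMap_eq k y s, lineMap_eq k y s', lineMap_eq k y (a • s + b • s')]
        have : lineMap k y 0 = (a + b) • lineMap k y 0 := by rw [hab, one_smul]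
        nth_rewrite 3 [this]
        simp only [smul_eq_mul]
        module
      rw [h2] at h1
      exact h1
    have hSeq : S = Icc (sInf S) (sSup S) :=
      eq_Icc_of_connected_compact ⟨hne, hSconv.isPreconnected⟩ hScomp
    set α := sInf S with hα
    set β := sSup S with hβ
    have hαβ : α ≤ β := by
      obtain ⟨s, hs⟩ := hne
      rw [hSeq] at hs
      exact hs.1.trans hs.2
    have hmemK : ∀ s ∈ Icc α β, lineMap k y s ∈ K := by
      intro s hs
      have : s ∈ S := by rw [hSeq]; exact hs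
      exact this
    rw [indicator_of_mem hyR]
    have hpk : Measurable (fun s => p (lineMap k y s) k) :=
      (measurable_pi_apply k).comp ((WithLp.measurable_ofLp 2 _).comp (hp.comp hcont.measurable))
    have hqk : Measurable (fun s => q (lineMap k y s) k) :=
      (measurable_pi_apply k).comp ((WithLp.measurable_ofLp 2 _).comp (hq.comp hcont.measurable))
    have hpk1 : ∀ s ∈ Icc α β, |p (lineMap k y s) k| ≤ L := fun s hs =>
      (PiLp.norm_apply_le (p (lineMap k y s)) k).trans (hpL _ (hmemK s hs))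
    have hqk1 : ∀ s ∈ Icc α β, |q (lineMap k y s) k| ≤ L := fun s hs =>
      (PiLp.norm_apply_le (q (lineMap k y s)) k).trans (hqL _ (hmemK s hs))
    have hdiff : ∀ s s', lineMap k y s' - lineMap k y s = (s' - s) • EuclideanSpace.single k (1 : ℝ) := by
      intro s s'
      rw [lineMap_eq k y s, lineMap_eq k y s']
      module
    have hinner : ∀ (w : EuclideanSpace ℝ (Fin (n+1))) (s s' : ℝ),
        inner ℝ w (lineMap k y s' - lineMap k y s) = w k * (s' - s) := by
      intro w s s'
      rw [hdiff, inner_smul_right, EuclideanSpace.inner_single_right]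
      simp [mul_comm]
    have hu1 : ∀ s ∈ Icc α β, ∀ s' ∈ Icc α β,
        u (lineMap k y s) + p (lineMap k y s) k * (s' - s) ≤ u (lineMap k y s') := by
      intro s hs s' hs'
      have := hu _ (hmemK s hs) _ (hmemK s' hs')
      rwa [hinner] at this
    have hv1 : ∀ s ∈ Icc α β, ∀ s' ∈ Icc α β,
        v (lineMap k y s) + q (lineMap k y s) k * (s' - s) ≤ v (lineMap k y s') := by
      intro s hs s' hs'
      have := hv _ (hmemK s hs) _ (hmemK s' hs')
      rwa [hinner] at this
    have h1 := oneD (fun s => u (lineMap k y s)) (fun s => v (lineMap k y s))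
      (fun s => p (lineMap k y s) k) (fun s => q (lineMap k y s) k) hpk hqk α β L t hαβ hL ht
      hpk1 hqk1 hu1 hv1
    have e1 : (∫ s, K.indicator (fun x => (p x k - q x k) ^ 2 -
        9216 * L ^ 4 / t ^ 2 * (u x - v x) ^ 2) (lineMap k y s)) =
        ∫ s in Icc α β, ((p (lineMap k y s) k - q (lineMap k y s) k) ^ 2 -
        9216 * L ^ 4 / t ^ 2 * (u (lineMap k y s) - v (lineMap k y s)) ^ 2) := by
      rw [← integral_indicator measurableSet_Icc, ← hSeq]
      rfl
    rw [e1, integral_sub, integral_const_mul]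
    · linarith
    · refine bdd_integrableOn _ ((hpk.sub hqk).pow_const 2) α β (4 * L ^ 2) (fun s hs => ?_)
      have h1 := abs_le.1 (hpk1 s hs)
      have h2 := abs_le.1 (hqk1 s hs)
      rw [abs_of_nonneg (sq_nonneg _)]
      change ((p (lineMap k y s) k) - (q (lineMap k y s) k)) ^ 2 ≤ _
      nlinarith [h1.1, h1.2, h2.1, h2.2]
    · refine Integrable.const_mul ?_ _
      have hwcont : ContinuousOn (fun s => u (lineMap k y s) - v (lineMap k y s)) (Icc α β) := by
        have : LipschitzOnWith (Real.toNNReal (2 * L)) (fun s => u (lineMap k y s) - v (lineMap k y s))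
            (Icc α β) := by
          refine LipschitzOnWith.of_dist_le_mul (fun s hs s' hs' => ?_)
          rw [Real.dist_eq, Real.dist_eq, Real.coe_toNNReal _ (by linarith)]
          have h1 := abs_le.1 (subgrad_lip _ _ α β L hpk1 hu1 s hs s' hs')
          have h2 := abs_le.1 (subgrad_lip _ _ α β L hqk1 hv1 s hs s' hs')
          rw [abs_le]
          constructor <;> linarith [h1.1, h1.2, h2.1, h2.2]
        exact this.continuousOn
      exact (hwcont.pow 2).integrableOn_compact isCompact_Icc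

theorem subgrad_lipE {d : ℕ} (K : Set (EuclideanSpace ℝ (Fin d))) (L : ℝ)
    (u : EuclideanSpace ℝ (Fin d) → ℝ) (p : EuclideanSpace ℝ (Fin d) → EuclideanSpace ℝ (Fin d))
    (hpL : ∀ x ∈ K, ‖p x‖ ≤ L)
    (hu : ∀ x ∈ K, ∀ x' ∈ K, u x + inner ℝ (p x) (x' - x) ≤ u x')
    (x : EuclideanSpace ℝ (Fin d)) (hx : x ∈ K) (x' : EuclideanSpace ℝ (Fin d)) (hx' : x' ∈ K) :
    |u x - u x'| ≤ L * ‖x - x'‖ := by
  have h1 := hu x hx x' hx'
  have h2 := hu x' hx' x hx
  have h3 : |inner ℝ (p x) (x' - x)| ≤ L * ‖x - x'‖ := by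
    refine (abs_real_inner_le_norm _ _).trans ?_
    rw [norm_sub_rev x' x]
    exact mul_le_mul_of_nonneg_right (hpL x hx) (norm_nonneg _)
  have h4 : |inner ℝ (p x') (x - x')| ≤ L * ‖x - x'‖ := by
    refine (abs_real_inner_le_norm _ _).trans ?_
    exact mul_le_mul_of_nonneg_right (hpL x' hx') (norm_nonneg _)
  rw [abs_le] at h3 h4 ⊢
  constructor <;> linarith [h3.1, h3.2, h4.1, h4.2]

theorem continuousOn_of_subgrad {d : ℕ} (K : Set (EuclideanSpace ℝ (Fin d))) (L : ℝ) (hL : 0 ≤ L)
    (u : EuclideanSpace ℝ (Fin d) → ℝ) (p : EuclideanSpace ℝ (Fin d) → EuclideanSpace ℝ (Fin d))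
    (hpL : ∀ x ∈ K, ‖p x‖ ≤ L)
    (hu : ∀ x ∈ K, ∀ x' ∈ K, u x + inner ℝ (p x) (x' - x) ≤ u x') : ContinuousOn u K := by
  have : LipschitzOnWith (Real.toNNReal L) u K := by
    refine LipschitzOnWith.of_dist_le_mul (fun s hs t ht => ?_)
    rw [Real.dist_eq, dist_eq_norm, Real.coe_toNNReal _ hL]
    exact subgrad_lipE K L u p hpL hu s hs t ht
  exact this.continuousOn

/-- The measure preserving parametrisation of `ℝ^(n+1)` by `(s, y)`. -/
noncomputable def splitEquiv {n : ℕ} (k : Fin (n + 1)) :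
    (ℝ × (Fin n → ℝ)) ≃ᵐ EuclideanSpace ℝ (Fin (n + 1)) :=
  (MeasurableEquiv.piFinSuccAbove (fun _ => ℝ) k).symm.trans (MeasurableEquiv.toLp 2 (Fin (n + 1) → ℝ))

theorem splitEquiv_apply {n : ℕ} (k : Fin (n + 1)) (z : ℝ × (Fin n → ℝ)) :
    splitEquiv k z = lineMap k z.2 z.1 := rfl

theorem splitEquiv_mp {n : ℕ} (k : Fin (n + 1)) :
    MeasurePreserving (splitEquiv k) volume volume := by
  have h1 := (volume_preserving_piFinSuccAbove (fun _ : Fin (n + 1) => ℝ) k).symm
  have h2 := PiLp.volume_preserving_toLp (Fin (n + 1))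
  exact h2.comp h1

theorem coord_bound (n : ℕ) (K : Set (EuclideanSpace ℝ (Fin (n+1)))) (hKc : IsCompact K)
    (hKv : Convex ℝ K) (L R t : ℝ) (hL : 0 < L) (ht : 0 < t)
    (hR : ∀ x ∈ K, ‖x‖ ≤ R)
    (u v : EuclideanSpace ℝ (Fin (n+1)) → ℝ)
    (p q : EuclideanSpace ℝ (Fin (n+1)) → EuclideanSpace ℝ (Fin (n+1)))
    (hp : Measurable p) (hq : Measurable q) (hpL : ∀ x ∈ K, ‖p x‖ ≤ L) (hqL : ∀ x ∈ K, ‖q x‖ ≤ L)
    (hu : ∀ x ∈ K, ∀ x' ∈ K, u x + inner ℝ (p x) (x' - x) ≤ u x')
    (hv : ∀ x ∈ K, ∀ x' ∈ K, v x + inner ℝ (q x) (x' - x) ≤ v x')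
    (k : Fin (n + 1)) :
    ∫ x in K, (p x k - q x k) ^ 2 ≤ 9216 * L ^ 4 / t ^ 2 * (∫ x in K, (u x - v x) ^ 2) +
      2 * t / 3 * volume.real (Metric.closedBall (0 : Fin n → ℝ) R) := by
  have hKm : MeasurableSet K := hKc.measurableSet
  have huc := continuousOn_of_subgrad K L hL.le u p hpL hu
  have hvc := continuousOn_of_subgrad K L hL.le v q hqL hv
  have hw2 : IntegrableOn (fun x => (u x - v x) ^ 2) K :=
    ((huc.sub hvc).pow 2).integrableOn_compact hKc
  have hpk : Measurable (fun x => p x k) :=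
    (measurable_pi_apply k).comp ((WithLp.measurable_ofLp 2 _).comp hp)
  have hqk : Measurable (fun x => q x k) :=
    (measurable_pi_apply k).comp ((WithLp.measurable_ofLp 2 _).comp hq)
  have hfin : volume K ≠ ⊤ := hKc.measure_lt_top.ne
  have hpq : IntegrableOn (fun x => (p x k - q x k) ^ 2) K := by
    refine Integrable.mono' (g := fun _ => 4 * L ^ 2) (integrableOn_const hfin)
      ((hpk.sub hqk).pow_const 2).aestronglyMeasurable ?_
    refine (ae_restrict_iff' hKm).2 (Filter.Eventually.of_forall fun x hx => ?_)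
    have h1 := abs_le.1 ((PiLp.norm_apply_le (p x) k).trans (hpL _ hx))
    have h2 := abs_le.1 ((PiLp.norm_apply_le (q x) k).trans (hqL _ hx))
    rw [Real.norm_eq_abs, abs_of_nonneg (sq_nonneg _)]
    nlinarith [h1.1, h1.2, h2.1, h2.2]
  set G : EuclideanSpace ℝ (Fin (n+1)) → ℝ :=
    fun x => (p x k - q x k) ^ 2 - 9216 * L ^ 4 / t ^ 2 * (u x - v x) ^ 2 with hG
  have hGi : IntegrableOn G K := hpq.sub (hw2.const_mul _)
  have hGi' : Integrable (K.indicator G) := (integrable_indicator_iff hKm).2 hGi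
  have hGs : Integrable (fun z => K.indicator G (splitEquiv k z))
      ((volume : Measure ℝ).prod (volume : Measure (Fin n → ℝ))) := by
    have := ((splitEquiv_mp k).integrable_comp_emb (splitEquiv k).measurableEmbedding
      (g := K.indicator G)).2 hGi'
    exact this
  have e1 : ∫ x in K, G x = ∫ y : Fin n → ℝ, ∫ s : ℝ, K.indicator G (lineMap k y s) := by
    rw [← integral_indicator hKm, ← (splitEquiv_mp k).integral_comp (splitEquiv k).measurableEmbedding]
    have := integral_prod_symm (μ := (volume : Measure ℝ)) (ν := (volume : Measure (Fin n → ℝ))) _ hGs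
    exact this
  have hcb : volume (Metric.closedBall (0 : Fin n → ℝ) R) ≠ ⊤ := by
    exact (isCompact_closedBall (0 : Fin n → ℝ) R).measure_lt_top.ne
  have e2 : ∫ x in K, G x ≤ 2 * t / 3 * volume.real (Metric.closedBall (0 : Fin n → ℝ) R) := by
    rw [e1]
    calc ∫ y : Fin n → ℝ, ∫ s : ℝ, K.indicator G (lineMap k y s)
        ≤ ∫ y : Fin n → ℝ, (Metric.closedBall (0 : Fin n → ℝ) R).indicator (fun _ => 2 * t / 3) y := by
          refine integral_mono hGs.integral_prod_right ?_ (fun y => ?_)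
          · rw [integrable_indicator_iff Metric.isClosed_closedBall.measurableSet]
            exact integrableOn_const hcb
          · exact line_bound n K hKc hKv L R t hL ht hR u v p q hp hq hpL hqL hu hv k y
      _ = 2 * t / 3 * volume.real (Metric.closedBall (0 : Fin n → ℝ) R) := by
          rw [integral_indicator Metric.isClosed_closedBall.measurableSet, setIntegral_const,
            smul_eq_mul, mul_comm]
  have e3 : ∫ x in K, G x = (∫ x in K, (p x k - q x k) ^ 2) -
      9216 * L ^ 4 / t ^ 2 * (∫ x in K, (u x - v x) ^ 2) := by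
    rw [hG, integral_sub hpq (hw2.const_mul _), integral_const_mul]
  linarith

/-- **Chunk B**: `L²` gradient stability of convex functions. -/
theorem grad_diff_le (d : ℕ) (K : Set (EuclideanSpace ℝ (Fin d))) (hKc : IsCompact K)
    (hKv : Convex ℝ K) (L : ℝ) (hL : 0 ≤ L) :
    ∃ C : ℝ, 0 ≤ C ∧ ∀ (u v : EuclideanSpace ℝ (Fin d) → ℝ)
      (p q : EuclideanSpace ℝ (Fin d) → EuclideanSpace ℝ (Fin d)),
      Measurable p → Measurable q → (∀ x ∈ K, ‖p x‖ ≤ L) → (∀ x ∈ K, ‖q x‖ ≤ L) →
      (∀ x ∈ K, ∀ x' ∈ K, u x + inner ℝ (p x) (x' - x) ≤ u x') →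
      (∀ x ∈ K, ∀ x' ∈ K, v x + inner ℝ (q x) (x' - x) ≤ v x') →
      ∫ x in K, ‖p x - q x‖ ^ 2 ≤ C * (∫ x in K, (u x - v x) ^ 2) ^ (1 / 3 : ℝ) := by
  rcases d with _ | n
  · refine ⟨0, le_rfl, fun u v p q _ _ _ _ _ _ => ?_⟩
    have : ∀ x, p x - q x = 0 := fun x => Subsingleton.elim _ _
    simp [this]
  · obtain ⟨R, hR⟩ := hKc.isBounded.exists_norm_le
    set L' := L + 1 with hL'
    have hL'0 : 0 < L' := by linarith
    set V := volume.real (Metric.closedBall (0 : Fin n → ℝ) R) with hV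
    have hV0 : 0 ≤ V := measureReal_nonneg
    refine ⟨(n + 1) * (9216 * L' ^ 4 + V), by positivity, ?_⟩
    intro u v p q hp hq hpL hqL hu hv
    set W := ∫ x in K, (u x - v x) ^ 2 with hW
    have hW0 : 0 ≤ W := setIntegral_nonneg hKc.measurableSet (fun x _ => sq_nonneg _)
    have hpL' : ∀ x ∈ K, ‖p x‖ ≤ L' := fun x hx => (hpL x hx).trans (by linarith)
    have hqL' : ∀ x ∈ K, ‖q x‖ ≤ L' := fun x hx => (hqL x hx).trans (by linarith)
    have hfin : volume K ≠ ⊤ := hKc.measure_lt_top.ne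
    have hsum : ∫ x in K, ‖p x - q x‖ ^ 2 = ∑ k : Fin (n + 1), ∫ x in K, (p x k - q x k) ^ 2 := by
      rw [← integral_finsetSum]
      · congr 1; ext x
        rw [EuclideanSpace.norm_sq_eq]
        simp
      · intro k _
        have hpk : Measurable (fun x => p x k) :=
          (measurable_pi_apply k).comp ((WithLp.measurable_ofLp 2 _).comp hp)
        have hqk : Measurable (fun x => q x k) :=
          (measurable_pi_apply k).comp ((WithLp.measurable_ofLp 2 _).comp hq)
        refine Integrable.mono' (g := fun _ => 4 * L' ^ 2) (integrableOn_const hfin)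
          ((hpk.sub hqk).pow_const 2).aestronglyMeasurable ?_
        refine (ae_restrict_iff' hKc.measurableSet).2 (Filter.Eventually.of_forall fun x hx => ?_)
        have h1 := abs_le.1 ((PiLp.norm_apply_le (p x) k).trans (hpL' _ hx))
        have h2 := abs_le.1 ((PiLp.norm_apply_le (q x) k).trans (hqL' _ hx))
        rw [Real.norm_eq_abs, abs_of_nonneg (sq_nonneg _)]
        nlinarith [h1.1, h1.2, h2.1, h2.2]
    have hall : ∀ t : ℝ, 0 < t →
        ∫ x in K, ‖p x - q x‖ ^ 2 ≤ (n + 1) * (9216 * L' ^ 4 / t ^ 2 * W + 2 * t / 3 * V) := by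
      intro t ht
      rw [hsum]
      calc ∑ k : Fin (n + 1), ∫ x in K, (p x k - q x k) ^ 2
          ≤ ∑ k : Fin (n + 1), (9216 * L' ^ 4 / t ^ 2 * W + 2 * t / 3 * V) :=
            Finset.sum_le_sum fun k _ => coord_bound n K hKc hKv L' R t hL'0 ht hR u v p q hp hq
              hpL' hqL' hu hv k
        _ = (n + 1) * (9216 * L' ^ 4 / t ^ 2 * W + 2 * t / 3 * V) := by
            rw [Finset.sum_const, Finset.card_univ, Fintype.card_fin, nsmul_eq_mul]
            push_cast; ring
    rcases hW0.eq_or_lt with h0 | hpos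
    · rw [← h0, Real.zero_rpow (by norm_num), mul_zero]
      refine le_of_forall_pos_le_add (fun ε hε => ?_)
      have := hall (ε / ((n + 1) * (V + 1))) (by positivity)
      rw [← h0, mul_zero, zero_add] at this
      refine this.trans ?_
      rw [zero_add]
      have h1 : (n + 1 : ℝ) * (2 * (ε / ((n + 1) * (V + 1))) / 3 * V) = ε * (2 * V / (3 * (V + 1))) := by
        field_simp
      rw [h1]
      have h2 : 2 * V / (3 * (V + 1)) ≤ 1 := by
        rw [div_le_one (by positivity)]; linarith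
      nlinarith
    · set t := W ^ (1 / 3 : ℝ) with ht
      have ht0 : 0 < t := Real.rpow_pos_of_pos hpos _
      have ht3 : t ^ 3 = W := by
        rw [ht, ← Real.rpow_natCast, ← Real.rpow_mul hW0]; norm_num
      have := hall t ht0
      refine this.trans ?_
      have h1 : 9216 * L' ^ 4 / t ^ 2 * W = 9216 * L' ^ 4 * t := by
        rw [← ht3]; field_simp
      rw [h1]
      have h2 : (n + 1 : ℝ) * (9216 * L' ^ 4 * t + 2 * t / 3 * V) ≤ (n + 1) * (9216 * L' ^ 4 + V) * t := by
        have : (n + 1 : ℝ) * (9216 * L' ^ 4 + V) * t - (n + 1 : ℝ) * (9216 * L' ^ 4 * t + 2 * t / 3 * V) =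
          (n + 1 : ℝ) * (t / 3 * V) := by ring
        have h3 : 0 ≤ (n + 1 : ℝ) * (t / 3 * V) := by positivity
        linarith
      exact h2

end Crest.Agent.Lib.ConvexGN
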