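import Mathlib

/-!
Determinant inequalities for `D + K`, `D` positive definite and `K` skew-Hermitian
(helper94, row 341): Hua's inequality, the midpoint inequality
`|det(D+K)|² det D₁ det D₂ ≤ |det(D₁+K)| |det(D₂+K)| (det D)²` and the pinching inequality.
-/

set_option autoImplicit false
set_option linter.unusedSectionVars false
set_option linter.unusedSimpArgs false

open Matrix
open scoped ComplexOrder

namespace Crest.Agent.Lib.DetPinch

variable {n : Type*} [Fintype n] [DecidableEq n]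

theorem norm_det_mul (A B : Matrix n n ℂ) : ‖(A * B).det‖ = ‖A.det‖ * ‖B.det‖ := by
  rw [det_mul, norm_mul]

theorem norm_det_conjTranspose (A : Matrix n n ℂ) : ‖Aᴴ.det‖ = ‖A.det‖ := by
  rw [det_conjTranspose, norm_star]

theorem posDef_norm_pos {D : Matrix n n ℂ} (hD : D.PosDef) : 0 < ‖D.det‖ :=
  norm_pos_iff.2 hD.det_pos.ne'

theorem one_le_norm_det_one_add {H : Matrix n n ℂ} (hH : H.PosSemidef) : 1 ≤ ‖(1 + H).det‖ := by
  have h1 := hH.1.spectral_theorem
  rw [Unitary.conjStarAlgAut_apply] at h1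
  set U : Matrix n n ℂ := (hH.1.eigenvectorUnitary : Matrix n n ℂ) with hU
  have hUU : U * star U = 1 := (mem_unitaryGroup_iff).1 hH.1.eigenvectorUnitary.2
  have h2 : 1 + H = U * (diagonal fun i => ((1 + hH.1.eigenvalues i : ℝ) : ℂ)) * star U := by
    have h3 : (diagonal fun i => ((1 + hH.1.eigenvalues i : ℝ) : ℂ)) =
        1 + diagonal (RCLike.ofReal ∘ hH.1.eigenvalues) := by
      rw [← diagonal_one, diagonal_add]
      congr 1
      funext i
      simp
    rw [h3, mul_add, add_mul, mul_one, hUU]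
    conv_lhs => rw [h1]
  have h4 : ‖U.det‖ * ‖(star U).det‖ = 1 := by
    rw [← norm_mul, ← det_mul, hUU, det_one, norm_one]
  rw [h2, norm_det_mul, norm_det_mul, det_diagonal, norm_prod, mul_right_comm, h4, one_mul]
  apply Finset.one_le_prod
  intro i _
  have := hH.eigenvalues_nonneg i
  rw [Complex.norm_real, Real.norm_eq_abs, abs_of_nonneg (by linarith)]
  linarith

/-- Positive definite square root. -/
theorem exists_sqrt {D : Matrix n n ℂ} (hD : D.PosDef) :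
    ∃ L : Matrix n n ℂ, Lᴴ = L ∧ IsUnit L.det ∧ L * L = D := by
  obtain ⟨U, hU, hD'⟩ : ∃ U ∈ unitaryGroup n ℂ,
      D = U * diagonal (fun i => (hD.1.eigenvalues i : ℂ)) * star U := by
    refine ⟨hD.1.eigenvectorUnitary, hD.1.eigenvectorUnitary.2, ?_⟩
    conv_lhs => rw [hD.1.spectral_theorem, Unitary.conjStarAlgAut_apply]
    rfl
  have hUU : star U * U = 1 := (mem_unitaryGroup_iff').1 hU
  have hL : (U * diagonal (fun i => ((Real.sqrt (hD.1.eigenvalues i) : ℝ) : ℂ)) * star U) *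
      (U * diagonal (fun i => ((Real.sqrt (hD.1.eigenvalues i) : ℝ) : ℂ)) * star U) = D := by
    conv_rhs => rw [hD']
    rw [show ∀ A B C E F G : Matrix n n ℂ, (A * B * C) * (E * F * G) = A * (B * (C * E) * F) * G
      from fun A B C E F G => by simp only [mul_assoc], hUU, mul_one, diagonal_mul_diagonal]
    congr 3
    funext i
    rw [← Complex.ofReal_mul, Real.mul_self_sqrt (hD.eigenvalues_pos i).le]
  refine ⟨_, ?_, ?_, hL⟩
  · rw [conjTranspose_mul, conjTranspose_mul, diagonal_conjTranspose, star_eq_conjTranspose,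
      conjTranspose_conjTranspose, mul_assoc]
    congr 3
    funext i
    simp
  · rw [isUnit_iff_ne_zero]
    intro h0
    have := congrArg det hL
    rw [det_mul, h0, zero_mul] at this
    exact hD.det_pos.ne this

theorem norm_det_mono {X Y : Matrix n n ℂ} (hX : X.PosDef) (hXY : (Y - X).PosSemidef) :
    ‖X.det‖ ≤ ‖Y.det‖ := by
  obtain ⟨L, hL1, hL2, hL3⟩ := exists_sqrt hX
  have hLL : L * L⁻¹ = 1 := mul_nonsing_inv L hL2
  have hLL' : L⁻¹ * L = 1 := nonsing_inv_mul L hL2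
  have hLi : (L⁻¹)ᴴ = L⁻¹ := by rw [conjTranspose_nonsing_inv, hL1]
  have hH : (L⁻¹ * (Y - X) * L⁻¹).PosSemidef := by
    have := hXY.mul_mul_conjTranspose_same L⁻¹
    rwa [hLi] at this
  have hY : Y = L * (1 + L⁻¹ * (Y - X) * L⁻¹) * L := by
    rw [mul_add, add_mul, mul_one, hL3, ← mul_assoc, ← mul_assoc, hLL, one_mul, mul_assoc, hLL',
      mul_one]
    abel
  have h1 := one_le_norm_det_one_add hH
  calc ‖X.det‖ = ‖L.det‖ * ‖L.det‖ := by rw [← hL3, norm_det_mul]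
    _ ≤ ‖L.det‖ * ‖(1 + L⁻¹ * (Y - X) * L⁻¹).det‖ * ‖L.det‖ := by
      have := norm_nonneg L.det
      nlinarith [mul_nonneg (mul_nonneg this this) (sub_nonneg.2 h1)]
    _ = ‖Y.det‖ := by rw [← norm_det_mul, ← norm_det_mul, ← hY]

/-- Hua's determinant inequality (special case). -/
theorem hua {B : Matrix n n ℂ} (hB : (1 - Bᴴ * B).PosDef) :
    ‖(1 - Bᴴ * B).det‖ ≤ ‖(1 - B * B).det‖ := by
  set E : Matrix n n ℂ := 1 - Bᴴ * B with hE
  set W : Matrix n n ℂ := E⁻¹ with hW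
  have hdet : IsUnit E.det := isUnit_iff_ne_zero.2 hB.det_pos.ne'
  have hEW : E * W = 1 := mul_nonsing_inv E hdet
  have hWE : W * E = 1 := nonsing_inv_mul E hdet
  have hWpos : W.PosDef := hB.inv
  have hWH : Wᴴ = W := hWpos.1
  set V : Matrix n n ℂ := 1 + B * W * Bᴴ with hV
  have hBB : Bᴴ * B = 1 - E := by rw [hE]; abel
  -- V * (1 - B Bᴴ) = 1
  have hV1 : V * (1 - B * Bᴴ) = 1 := by
    have h1 : B * W * Bᴴ * (B * Bᴴ) = B * W * Bᴴ - B * Bᴴ := by
      calc B * W * Bᴴ * (B * Bᴴ) = B * W * (Bᴴ * B) * Bᴴ := by simp only [mul_assoc]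
        _ = B * W * (1 - E) * Bᴴ := by rw [hBB]
        _ = B * W * Bᴴ - B * (W * E) * Bᴴ := by
          simp only [mul_sub, sub_mul, mul_one, mul_assoc]
        _ = B * W * Bᴴ - B * Bᴴ := by rw [hWE, mul_one]
    rw [hV, add_mul, one_mul, mul_sub, mul_one, h1]
    abel
  have hdV : ‖V.det‖ * ‖E.det‖ = 1 := by
    have h2 : (1 - B * Bᴴ).det = E.det := by rw [hE, det_one_sub_mul_comm]
    rw [← h2, ← norm_mul, ← det_mul, hV1, det_one, norm_one]
  -- the identity
  have hl : (1 - Bᴴ * Bᴴ) * B = B - Bᴴ + Bᴴ * E := by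
    calc (1 - Bᴴ * Bᴴ) * B = B - Bᴴ * (Bᴴ * B) := by simp only [sub_mul, one_mul, mul_assoc]
      _ = B - Bᴴ * (1 - E) := by rw [hBB]
      _ = B - Bᴴ + Bᴴ * E := by rw [mul_sub, mul_one]; abel
  have hr : Bᴴ * (1 - B * B) = Bᴴ - B + E * B := by
    calc Bᴴ * (1 - B * B) = Bᴴ - (Bᴴ * B) * B := by simp only [mul_sub, mul_one, mul_assoc]
      _ = Bᴴ - (1 - E) * B := by rw [hBB]
      _ = Bᴴ - B + E * B := by rw [sub_mul, one_mul]; abel
  have hid : (1 - B * B)ᴴ * V * (1 - B * B) = E + (B - Bᴴ) * W * (B - Bᴴ)ᴴ := by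
    have h1 : (1 - B * B)ᴴ = 1 - Bᴴ * Bᴴ := by
      rw [conjTranspose_sub, conjTranspose_one, conjTranspose_mul]
    have h2 : (B - Bᴴ)ᴴ = Bᴴ - B := by rw [conjTranspose_sub, conjTranspose_conjTranspose]
    rw [h1, h2]
    calc (1 - Bᴴ * Bᴴ) * V * (1 - B * B)
        = (1 - Bᴴ * Bᴴ) * (1 - B * B) +
          ((1 - Bᴴ * Bᴴ) * B) * W * (Bᴴ * (1 - B * B)) := by
          rw [hV]
          simp only [mul_add, add_mul, mul_one, mul_assoc]
      _ = (1 - Bᴴ * Bᴴ) * (1 - B * B) +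
          (B - Bᴴ + Bᴴ * E) * W * (Bᴴ - B + E * B) := by rw [hl, hr]
      _ = (1 - Bᴴ * Bᴴ) * (1 - B * B) + ((B - Bᴴ) * W * (Bᴴ - B) + (B - Bᴴ) * (W * E) * B +
          Bᴴ * (E * W) * (Bᴴ - B) + Bᴴ * (E * W) * E * B) := by
          simp only [mul_add, add_mul, mul_assoc]
          abel
      _ = (1 - Bᴴ * Bᴴ) * (1 - B * B) + ((B - Bᴴ) * W * (Bᴴ - B) + (B - Bᴴ) * B +
          Bᴴ * (Bᴴ - B) + Bᴴ * E * B) := by rw [hWE, hEW, mul_one, mul_one]
      _ = E + (B - Bᴴ) * W * (Bᴴ - B) := by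
          have h3 : Bᴴ * E * B = Bᴴ * B - Bᴴ * (Bᴴ * B) * B := by
            rw [hE]; simp only [mul_sub, sub_mul, mul_one, mul_assoc]
          rw [h3, hE]
          simp only [mul_sub, sub_mul, mul_one, one_mul, mul_assoc]
          abel
  have hps : ((1 - B * B)ᴴ * V * (1 - B * B) - E).PosSemidef := by
    rw [hid, add_sub_cancel_left]
    exact hWpos.posSemidef.mul_mul_conjTranspose_same (B - Bᴴ)
  have h5 := norm_det_mono hB hps
  rw [norm_det_mul, norm_det_mul, norm_det_conjTranspose] at h5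
  have hEp : 0 < ‖E.det‖ := posDef_norm_pos hB
  have hx : 0 ≤ ‖(1 - B * B).det‖ := norm_nonneg _
  have h6 : ‖E.det‖ * ‖E.det‖ ≤ ‖(1 - B * B).det‖ * ‖(1 - B * B).det‖ := by
    calc ‖E.det‖ * ‖E.det‖
        ≤ (‖(1 - B * B).det‖ * ‖V.det‖ * ‖(1 - B * B).det‖) * ‖E.det‖ :=
          mul_le_mul_of_nonneg_right h5 hEp.le
      _ = ‖(1 - B * B).det‖ * ‖(1 - B * B).det‖ * (‖V.det‖ * ‖E.det‖) := by ring
      _ = ‖(1 - B * B).det‖ * ‖(1 - B * B).det‖ := by rw [hdV, mul_one]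
  exact (mul_self_le_mul_self_iff hEp.le hx).2 h6

theorem isUnit_one_add_skew {K : Matrix n n ℂ} (hK : Kᴴ = -K) : IsUnit (1 + K).det := by
  rw [isUnit_iff_ne_zero]
  intro h0
  have h1 : (1 + K)ᴴ * (1 + K) = 1 + Kᴴ * K := by
    rw [conjTranspose_add, conjTranspose_one, hK]
    simp only [mul_add, add_mul, mul_one, one_mul, neg_mul]
    abel
  have h2 := one_le_norm_det_one_add (posSemidef_conjTranspose_mul_self K)
  rw [← h1, norm_det_mul, h0, norm_zero, mul_zero] at h2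
  linarith

/-- the contraction step -/
theorem contraction {K Δ : Matrix n n ℂ} (hK : Kᴴ = -K) (hΔ : Δᴴ = Δ)
    (hpos : (1 - Δ * Δ).PosDef) :
    ‖(1 - Δ * Δ).det‖ ≤ ‖(1 - (1 + K)⁻¹ * Δ * ((1 + K)⁻¹ * Δ)).det‖ := by
  set Z : Matrix n n ℂ := 1 + K with hZ
  have hu : IsUnit Z.det := isUnit_one_add_skew hK
  set G : Matrix n n ℂ := Z⁻¹ with hG
  have hZG : Z * G = 1 := mul_nonsing_inv Z hu
  have hZZ : Zᴴ * Z = 1 + Kᴴ * K := by
    rw [hZ, conjTranspose_add, conjTranspose_one, hK]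
    simp only [mul_add, add_mul, mul_one, one_mul, neg_mul]
    abel
  have hGG : 1 - Gᴴ * G = (K * G)ᴴ * (K * G) := by
    have h1 : Gᴴ * (Zᴴ * Z) * G = 1 := by
      calc Gᴴ * (Zᴴ * Z) * G = (Z * G)ᴴ * (Z * G) := by
            rw [conjTranspose_mul]; simp only [mul_assoc]
        _ = 1 := by rw [hZG, conjTranspose_one, one_mul]
    rw [hZZ, mul_add, add_mul, mul_one] at h1
    rw [conjTranspose_mul]
    calc 1 - Gᴴ * G = (Gᴴ * G + Gᴴ * (Kᴴ * K) * G) - Gᴴ * G := by rw [h1]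
      _ = Gᴴ * Kᴴ * (K * G) := by rw [add_sub_cancel_left]; simp only [mul_assoc]
  have hdiff : (1 - (G * Δ)ᴴ * (G * Δ)) - (1 - Δ * Δ) = (K * G * Δ)ᴴ * (K * G * Δ) := by
    rw [conjTranspose_mul, conjTranspose_mul (K * G) Δ, hΔ]
    calc 1 - Δ * Gᴴ * (G * Δ) - (1 - Δ * Δ) = Δ * (1 - Gᴴ * G) * Δ := by
          simp only [mul_sub, sub_mul, mul_one, mul_assoc]
          abel
      _ = Δ * (K * G)ᴴ * (K * G * Δ) := by rw [hGG]; simp only [mul_assoc]
  have hps : ((1 - (G * Δ)ᴴ * (G * Δ)) - (1 - Δ * Δ)).PosSemidef := by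
    rw [hdiff]; exact posSemidef_conjTranspose_mul_self _
  have hB : (1 - (G * Δ)ᴴ * (G * Δ)).PosDef := by
    have := hpos.add_posSemidef hps
    rwa [add_sub_cancel] at this
  exact (norm_det_mono hpos hps).trans (hua hB)

theorem one_sub_sq_posDef {Δ : Matrix n n ℂ} (hΔ : Δᴴ = Δ) (h1 : (1 + Δ).PosDef)
    (h2 : (1 - Δ).PosDef) : (1 - Δ * Δ).PosDef := by
  have e1 : ((1 - Δ) * (1 + Δ) * (1 - Δ)ᴴ).PosDef := by
    refine h1.mul_mul_conjTranspose_same ?_
    have hu := h2.isUnit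
    rw [Matrix.vecMul_injective_iff_isUnit]
    exact hu
  have e2 : ((1 + Δ) * (1 - Δ) * (1 + Δ)ᴴ).PosDef := by
    refine h2.mul_mul_conjTranspose_same ?_
    have hu := h1.isUnit
    rw [Matrix.vecMul_injective_iff_isUnit]
    exact hu
  have e3 := (e1.add e2).smul (show (0 : ℝ) < 1 / 2 by norm_num)
  convert e3 using 1
  rw [conjTranspose_sub, conjTranspose_add, conjTranspose_one, hΔ]
  have : (1 - Δ) * (1 + Δ) * (1 - Δ) + (1 + Δ) * (1 - Δ) * (1 + Δ) =
      (1 - Δ * Δ) + (1 - Δ * Δ) := by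
    simp only [mul_sub, sub_mul, mul_add, add_mul, mul_one, one_mul, mul_assoc]
    abel
  rw [this, ← two_smul ℝ (1 - Δ * Δ), smul_smul]
  norm_num

theorem midpoint_aux {K Δ : Matrix n n ℂ} (hK : Kᴴ = -K) (hΔ : Δᴴ = Δ) (h1 : (1 + Δ).PosDef)
    (h2 : (1 - Δ).PosDef) :
    ‖(1 + K).det‖ ^ 2 * (‖(1 + Δ).det‖ * ‖(1 - Δ).det‖) ≤
      ‖(1 + Δ + K).det‖ * ‖(1 - Δ + K).det‖ := by
  have hpos := one_sub_sq_posDef hΔ h1 h2
  have hc := contraction hK hΔ hpos
  set Z : Matrix n n ℂ := 1 + K with hZ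
  have hu : IsUnit Z.det := isUnit_one_add_skew hK
  set G : Matrix n n ℂ := Z⁻¹ with hG
  have hZG : Z * G = 1 := mul_nonsing_inv Z hu
  have a1 : 1 + Δ + K = Z * (1 + G * Δ) := by
    rw [mul_add, ← mul_assoc, hZG, one_mul, mul_one, hZ]; abel
  have a2 : 1 - Δ + K = Z * (1 - G * Δ) := by
    rw [mul_sub, ← mul_assoc, hZG, one_mul, mul_one, hZ]; abel
  have a3 : 1 - G * Δ * (G * Δ) = (1 + G * Δ) * (1 - G * Δ) := by
    simp only [mul_sub, add_mul, mul_one, one_mul]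
    abel
  have a4 : 1 - Δ * Δ = (1 + Δ) * (1 - Δ) := by
    simp only [mul_sub, add_mul, mul_one, one_mul]
    abel
  rw [a3, a4, norm_det_mul, norm_det_mul] at hc
  rw [a1, a2, norm_det_mul, norm_det_mul]
  calc ‖Z.det‖ ^ 2 * (‖(1 + Δ).det‖ * ‖(1 - Δ).det‖)
      ≤ ‖Z.det‖ ^ 2 * (‖(1 + G * Δ).det‖ * ‖(1 - G * Δ).det‖) :=
        mul_le_mul_of_nonneg_left hc (by positivity)
    _ = _ := by ring

/-- The midpoint inequality. -/
theorem midpoint {D₁ D₂ K : Matrix n n ℂ} (hK : Kᴴ = -K) (h1 : D₁.PosDef) (h2 : D₂.PosDef) :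
    ‖((1 / 2 : ℝ) • (D₁ + D₂) + K).det‖ ^ 2 * (‖D₁.det‖ * ‖D₂.det‖) ≤
      ‖(D₁ + K).det‖ * ‖(D₂ + K).det‖ * ‖((1 / 2 : ℝ) • (D₁ + D₂)).det‖ ^ 2 := by
  have hD : ((1 / 2 : ℝ) • (D₁ + D₂)).PosDef := (h1.add h2).smul (by norm_num)
  set D : Matrix n n ℂ := (1 / 2 : ℝ) • (D₁ + D₂) with hDdef
  obtain ⟨L, hL1, hL2, hL3⟩ := exists_sqrt hD
  have hLL : L * L⁻¹ = 1 := mul_nonsing_inv L hL2
  have hLL' : L⁻¹ * L = 1 := nonsing_inv_mul L hL2
  have hLi : (L⁻¹)ᴴ = L⁻¹ := by rw [conjTranspose_nonsing_inv, hL1]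
  have conj_eq : ∀ A : Matrix n n ℂ, L * (L⁻¹ * A * L⁻¹) * L = A := by
    intro A
    calc L * (L⁻¹ * A * L⁻¹) * L = (L * L⁻¹) * A * (L⁻¹ * L) := by simp only [mul_assoc]
      _ = A := by rw [hLL, hLL', one_mul, mul_one]
  have one_eq : L⁻¹ * D * L⁻¹ = 1 := by
    calc L⁻¹ * D * L⁻¹ = (L⁻¹ * L) * (L * L⁻¹) := by rw [← hL3]; simp only [mul_assoc]
      _ = 1 := by rw [hLL, hLL', one_mul]
  set Δ : Matrix n n ℂ := L⁻¹ * ((1 / 2 : ℝ) • (D₁ - D₂)) * L⁻¹ with hΔdef
  set K' : Matrix n n ℂ := L⁻¹ * K * L⁻¹ with hK'def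
  have hΔ : Δᴴ = Δ := by
    rw [hΔdef, conjTranspose_mul, conjTranspose_mul, hLi, conjTranspose_smul, conjTranspose_sub,
      h1.1, h2.1, mul_assoc]
    simp
  have hK' : K'ᴴ = -K' := by
    rw [hK'def, conjTranspose_mul, conjTranspose_mul, hLi, hK, mul_assoc]
    simp
  have e1 : 1 + Δ = L⁻¹ * D₁ * L⁻¹ := by
    rw [← one_eq, hΔdef, ← add_mul, ← mul_add, hDdef, ← smul_add]
    congr 2
    rw [add_add_sub_cancel, ← two_smul ℝ D₁, smul_smul]
    norm_num
  have e2 : 1 - Δ = L⁻¹ * D₂ * L⁻¹ := by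
    rw [← one_eq, hΔdef, ← sub_mul, ← mul_sub, hDdef, ← smul_sub]
    congr 2
    rw [add_sub_sub_cancel, ← two_smul ℝ D₂, smul_smul]
    norm_num
  have hinj : Function.Injective (L⁻¹).vecMul := by
    rw [Matrix.vecMul_injective_iff_isUnit, Matrix.isUnit_nonsing_inv_iff,
      Matrix.isUnit_iff_isUnit_det]
    exact hL2
  have p1 : (1 + Δ).PosDef := by
    rw [e1]
    have := h1.mul_mul_conjTranspose_same (B := L⁻¹) hinj
    rwa [hLi] at this
  have p2 : (1 - Δ).PosDef := by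
    rw [e2]
    have := h2.mul_mul_conjTranspose_same (B := L⁻¹) hinj
    rwa [hLi] at this
  have hm := midpoint_aux hK' hΔ p1 p2
  have f0 : ‖(D + K).det‖ = ‖L.det‖ * ‖(1 + K').det‖ * ‖L.det‖ := by
    rw [← norm_det_mul, ← norm_det_mul, ← one_eq, hK'def, ← add_mul, ← mul_add, conj_eq]
  have f1 : ‖(D₁ + K).det‖ = ‖L.det‖ * ‖(1 + Δ + K').det‖ * ‖L.det‖ := by
    rw [← norm_det_mul, ← norm_det_mul, e1, hK'def, ← add_mul, ← mul_add, conj_eq]
  have f2 : ‖(D₂ + K).det‖ = ‖L.det‖ * ‖(1 - Δ + K').det‖ * ‖L.det‖ := by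
    rw [← norm_det_mul, ← norm_det_mul, e2, hK'def, ← add_mul, ← mul_add, conj_eq]
  have g1 : ‖D₁.det‖ = ‖L.det‖ * ‖(1 + Δ).det‖ * ‖L.det‖ := by
    rw [← norm_det_mul, ← norm_det_mul, e1, conj_eq]
  have g2 : ‖D₂.det‖ = ‖L.det‖ * ‖(1 - Δ).det‖ * ‖L.det‖ := by
    rw [← norm_det_mul, ← norm_det_mul, e2, conj_eq]
  have g0 : ‖D.det‖ = ‖L.det‖ * ‖L.det‖ := by rw [← norm_det_mul, hL3]
  rw [f0, f1, f2, g1, g2, g0]
  have hl : 0 ≤ ‖L.det‖ := norm_nonneg _
  calc (‖L.det‖ * ‖(1 + K').det‖ * ‖L.det‖) ^ 2 *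
        (‖L.det‖ * ‖(1 + Δ).det‖ * ‖L.det‖ * (‖L.det‖ * ‖(1 - Δ).det‖ * ‖L.det‖))
      = ‖L.det‖ ^ 8 * (‖(1 + K').det‖ ^ 2 * (‖(1 + Δ).det‖ * ‖(1 - Δ).det‖)) := by ring
    _ ≤ ‖L.det‖ ^ 8 * (‖(1 + Δ + K').det‖ * ‖(1 - Δ + K').det‖) :=
        mul_le_mul_of_nonneg_left hm (by positivity)
    _ = _ := by ring

/-- sign flip -/
theorem flip {D K S : Matrix n n ℂ} (hK : Kᴴ = -K) (hD : D.PosDef) (hS : Sᴴ = S) (hSS : S * S = 1)
    (hSK : S * K * S = K) :
    ‖((1 / 2 : ℝ) • (D + S * D * S) + K).det‖ * ‖D.det‖ ≤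
      ‖(D + K).det‖ * ‖((1 / 2 : ℝ) • (D + S * D * S)).det‖ := by
  have hsd : ‖S.det‖ * ‖S.det‖ = 1 := by rw [← norm_det_mul, hSS, det_one, norm_one]
  have hsu : IsUnit S := by
    rw [Matrix.isUnit_iff_isUnit_det, isUnit_iff_ne_zero]
    intro h0
    rw [h0, norm_zero, mul_zero] at hsd
    exact zero_ne_one hsd
  have hD2 : (S * D * S).PosDef := by
    have := hD.mul_mul_conjTranspose_same (B := S)
      (by rw [Matrix.vecMul_injective_iff_isUnit]; exact hsu)
    rwa [hS] at this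
  have hm := midpoint hK hD hD2
  have h1 : ‖(S * D * S).det‖ = ‖D.det‖ := by
    rw [norm_det_mul, norm_det_mul, mul_right_comm, hsd, one_mul]
  have h2 : ‖(S * D * S + K).det‖ = ‖(D + K).det‖ := by
    have : S * D * S + K = S * (D + K) * S := by rw [mul_add, add_mul, hSK]
    rw [this, norm_det_mul, norm_det_mul, mul_right_comm, hsd, one_mul]
  rw [h1, h2] at hm
  refine (mul_self_le_mul_self_iff (by positivity) (by positivity)).2 ?_
  nlinarith [hm]

section pinch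

variable {J : Type*} [DecidableEq J]

/-- sign matrix of a label -/
noncomputable def sgn (l : n → J) (j : J) : Matrix n n ℂ :=
  diagonal fun a => if l a = j then -1 else 1

theorem sgn_herm (l : n → J) (j : J) : (sgn l j)ᴴ = sgn l j := by
  rw [sgn, diagonal_conjTranspose]
  congr 1
  funext a
  by_cases h : l a = j <;> simp [h]

theorem sgn_sq (l : n → J) (j : J) : sgn l j * sgn l j = 1 := by
  rw [sgn, diagonal_mul_diagonal, ← diagonal_one]
  congr 1
  funext a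
  by_cases h : l a = j <;> simp [h]

theorem sgn_conj_apply (l : n → J) (j : J) (D : Matrix n n ℂ) (a b : n) :
    (sgn l j * D * sgn l j) a b =
      (if l a = j then -1 else 1) * D a b * (if l b = j then -1 else 1) := by
  rw [sgn, mul_diagonal, diagonal_mul]

/-- partial pinching -/
noncomputable def pin (l : n → J) (s : Finset J) (D : Matrix n n ℂ) : Matrix n n ℂ :=
  fun a b => if ∀ j ∈ s, (l a = j ↔ l b = j) then D a b else 0

theorem pin_empty (l : n → J) (D : Matrix n n ℂ) : pin l ∅ D = D := by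
  funext a b; simp [pin]

theorem pin_insert (l : n → J) (s : Finset J) (j : J) (D : Matrix n n ℂ) :
    pin l (insert j s) D =
      (1 / 2 : ℝ) • (pin l s D + sgn l j * pin l s D * sgn l j) := by
  ext a b
  rw [Matrix.smul_apply, Matrix.add_apply, sgn_conj_apply]
  simp only [pin, Finset.mem_insert, forall_eq_or_imp]
  by_cases h1 : ∀ i ∈ s, (l a = i ↔ l b = i)
  · by_cases ha : l a = j
    · by_cases hb : l b = j
      · rw [if_pos ⟨by rw [ha, hb], h1⟩, if_pos h1, if_pos ha, if_pos hb]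
        simp
        ring
      · have : ¬ (l a = j ↔ l b = j) := by tauto
        rw [if_neg (fun h => this h.1), if_pos h1, if_pos ha, if_neg hb]
        simp
    · by_cases hb : l b = j
      · have : ¬ (l a = j ↔ l b = j) := by tauto
        rw [if_neg (fun h => this h.1), if_pos h1, if_neg ha, if_pos hb]
        simp
      · have : (l a = j ↔ l b = j) := by tauto
        rw [if_pos ⟨this, h1⟩, if_pos h1, if_neg ha, if_neg hb]
        simp
        ring
  · rw [if_neg (fun h => h1 h.2), if_neg h1]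
    simp

theorem pinch_aux {D K : Matrix n n ℂ} (hK : Kᴴ = -K) (hD : D.PosDef) (l : n → J)
    (hKl : ∀ a b, l a ≠ l b → K a b = 0) (s : Finset J) :
    (pin l s D).PosDef ∧
      ‖(pin l s D + K).det‖ * ‖D.det‖ ≤ ‖(D + K).det‖ * ‖(pin l s D).det‖ := by
  induction s using Finset.induction_on with
  | empty => rw [pin_empty]; exact ⟨hD, le_rfl⟩
  | insert j s hj ih =>
    obtain ⟨ih1, ih2⟩ := ih
    have hSK : sgn l j * K * sgn l j = K := by
      ext a b
      rw [sgn_conj_apply]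
      by_cases hab : l a = l b
      · rw [hab]
        by_cases hb : l b = j <;> simp [hb]
      · rw [hKl a b hab]; simp
    have hf := flip hK ih1 (sgn_herm l j) (sgn_sq l j) hSK
    rw [← pin_insert] at hf
    have hD2 : (sgn l j * pin l s D * sgn l j).PosDef := by
      have hsu : IsUnit (sgn l j) := ⟨⟨_, _, sgn_sq l j, sgn_sq l j⟩, rfl⟩
      have := ih1.mul_mul_conjTranspose_same (B := sgn l j)
        (by rw [Matrix.vecMul_injective_iff_isUnit]; exact hsu)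
      rwa [sgn_herm] at this
    refine ⟨?_, ?_⟩
    · rw [pin_insert]
      exact (ih1.add hD2).smul (by norm_num)
    · have hp : 0 < ‖(pin l s D).det‖ := posDef_norm_pos ih1
      have hp0 : 0 < ‖D.det‖ := posDef_norm_pos hD
      refine le_of_mul_le_mul_right ?_ hp
      calc ‖(pin l (insert j s) D + K).det‖ * ‖D.det‖ * ‖(pin l s D).det‖
          = (‖(pin l (insert j s) D + K).det‖ * ‖(pin l s D).det‖) * ‖D.det‖ := by ring
        _ ≤ (‖(pin l s D + K).det‖ * ‖(pin l (insert j s) D).det‖) * ‖D.det‖ :=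
          mul_le_mul_of_nonneg_right hf hp0.le
        _ = (‖(pin l s D + K).det‖ * ‖D.det‖) * ‖(pin l (insert j s) D).det‖ := by ring
        _ ≤ (‖(D + K).det‖ * ‖(pin l s D).det‖) * ‖(pin l (insert j s) D).det‖ :=
          mul_le_mul_of_nonneg_right ih2 (norm_nonneg _)
        _ = _ := by ring

/-- Pinching inequality. -/
theorem pinch [Fintype J] {D K : Matrix n n ℂ} (hK : Kᴴ = -K) (hD : D.PosDef) (l : n → J)
    (hKl : ∀ a b, l a ≠ l b → K a b = 0) :
    ‖(of (fun a b => if l a = l b then D a b else 0) + K).det‖ * ‖D.det‖ ≤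
      ‖(D + K).det‖ * ‖(of (fun a b => if l a = l b then D a b else 0)).det‖ := by
  have h := (pinch_aux hK hD l hKl Finset.univ).2
  have e : pin l Finset.univ D = of (fun a b => if l a = l b then D a b else 0) := by
    ext a b
    have : (∀ j ∈ (Finset.univ : Finset J), (l a = j ↔ l b = j)) ↔ l a = l b := by
      constructor
      · intro h; exact ((h (l a) (Finset.mem_univ _)).1 rfl).symm
      · intro h j _; rw [h]
    simp only [pin, this, of_apply]
  rwa [e] at h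

end pinch

section block

variable {ι : Type*} [Fintype ι] [DecidableEq ι]

theorem det_diag_block (u v a : ι → ℝ) (hu : ∀ i, 0 < u i) :
    ‖(fromBlocks (diagonal fun i => (u i : ℂ)) (diagonal fun i => (a i : ℂ))
      (-diagonal fun i => (a i : ℂ)) (diagonal fun i => (v i : ℂ))).det‖ =
      ∏ i, |u i * v i + a i ^ 2| := by
  have hinv : (diagonal fun i => ((u i)⁻¹ : ℂ)) * (diagonal fun i => (u i : ℂ)) = 1 := by
    rw [diagonal_mul_diagonal, ← diagonal_one]
    congr 1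
    funext i
    rw [inv_mul_cancel₀]
    exact_mod_cast (hu i).ne'
  have hinv' : (diagonal fun i => (u i : ℂ)) * (diagonal fun i => ((u i)⁻¹ : ℂ)) = 1 := by
    rw [diagonal_mul_diagonal, ← diagonal_one]
    congr 1
    funext i
    rw [mul_inv_cancel₀]
    exact_mod_cast (hu i).ne'
  let _ : Invertible (diagonal fun i => (u i : ℂ)) := ⟨_, hinv, hinv'⟩
  rw [det_fromBlocks₁₁]
  have : ⅟(diagonal fun i => (u i : ℂ)) = diagonal fun i => ((u i)⁻¹ : ℂ) := rfl
  rw [this, neg_mul, neg_mul, diagonal_mul_diagonal, diagonal_mul_diagonal, sub_neg_eq_add,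
    diagonal_add, det_diagonal, det_diagonal, ← Finset.prod_mul_distrib, norm_prod]
  refine Finset.prod_congr rfl fun i _ => ?_
  have h0 : (u i : ℂ) ≠ 0 := by exact_mod_cast (hu i).ne'
  rw [show (u i : ℂ) * ((v i : ℂ) + (a i : ℂ) * (u i : ℂ)⁻¹ * (a i : ℂ)) =
    ((u i * v i + a i ^ 2 : ℝ) : ℂ) by push_cast; field_simp]
  rw [Complex.norm_real, Real.norm_eq_abs]

theorem posDef_fromBlocks_diag {κ : Type*} [Fintype κ] [DecidableEq κ] {U : Matrix ι ι ℂ}
    {V : Matrix κ κ ℂ} (hU : U.PosDef) (hV : V.PosDef) : (fromBlocks U 0 0 V).PosDef := by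
  have hUinv : IsUnit U.det := isUnit_iff_ne_zero.2 hU.det_pos.ne'
  let _ : Invertible U := U.invertibleOfIsUnitDet hUinv
  have hps : (fromBlocks U 0 0 V).PosSemidef := by
    have := (PosDef.fromBlocks₁₁ (A := U) 0 V hU).2 (by simpa using hV.posSemidef)
    simpa using this
  rw [hps.posDef_iff_det_ne_zero, det_fromBlocks_zero₁₂]
  exact mul_ne_zero hU.det_pos.ne' hV.det_pos.ne'

/-- The block pinching inequality. -/
theorem pinch_block {U V : Matrix ι ι ℂ} (hU : U.PosDef) (hV : V.PosDef) (a : ι → ℝ) :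
    (∏ i, ((U i i).re * (V i i).re + a i ^ 2)) * (‖U.det‖ * ‖V.det‖) ≤
      ‖(fromBlocks U (diagonal fun i => (a i : ℂ)) (-diagonal fun i => (a i : ℂ)) V).det‖ *
        ∏ i, ((U i i).re * (V i i).re) := by
  have hUd : ∀ i, U i i = ((U i i).re : ℂ) := fun i => by
    have := hU.1.apply i i
    exact (Complex.conj_eq_iff_re.1 this).symm
  have hVd : ∀ i, V i i = ((V i i).re : ℂ) := fun i => by
    have := hV.1.apply i i
    exact (Complex.conj_eq_iff_re.1 this).symm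
  have hUp : ∀ i, 0 < (U i i).re := fun i => (Complex.pos_iff.1 (hU.diag_pos (i := i))).1
  have hVp : ∀ i, 0 < (V i i).re := fun i => (Complex.pos_iff.1 (hV.diag_pos (i := i))).1
  set K : Matrix (ι ⊕ ι) (ι ⊕ ι) ℂ :=
    fromBlocks 0 (diagonal fun i => (a i : ℂ)) (-diagonal fun i => (a i : ℂ)) 0 with hKdef
  have hK : Kᴴ = -K := by
    rw [hKdef, fromBlocks_conjTranspose, fromBlocks_neg]
    simp [diagonal_conjTranspose, Pi.star_def]
  have hD : (fromBlocks U 0 0 V).PosDef := posDef_fromBlocks_diag hU hV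
  have hpin := pinch hK hD (Sum.elim id id : ι ⊕ ι → ι) (by
    rintro (a | a) (b | b) hab
    · rw [hKdef, fromBlocks_apply₁₁, Matrix.zero_apply]
    · rw [hKdef, fromBlocks_apply₁₂, diagonal_apply_ne _ (by simpa using hab)]
    · rw [hKdef, fromBlocks_apply₂₁, Matrix.neg_apply, diagonal_apply_ne _ (by simpa using hab),
        neg_zero]
    · rw [hKdef, fromBlocks_apply₂₂, Matrix.zero_apply])
  have e1 : (of (fun a b => if (Sum.elim id id : ι ⊕ ι → ι) a = (Sum.elim id id : ι ⊕ ι → ι) b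
      then (fromBlocks U 0 0 V) a b else 0)) =
      fromBlocks (diagonal fun i => ((U i i).re : ℂ)) 0 0 (diagonal fun i => ((V i i).re : ℂ)) := by
    ext a b
    rcases a with a | a <;> rcases b with b | b
    · by_cases h : a = b
      · subst h; simp [← hUd]
      · simp [h]
    · simp only [of_apply, fromBlocks_apply₁₂, Matrix.zero_apply, ite_self]
    · simp only [of_apply, fromBlocks_apply₂₁, Matrix.zero_apply, ite_self]
    · by_cases h : a = b
      · subst h; simp [← hVd]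
      · simp [h]
  rw [e1] at hpin
  have e2 : fromBlocks (diagonal fun i => ((U i i).re : ℂ)) 0 0
      (diagonal fun i => ((V i i).re : ℂ)) + K =
      fromBlocks (diagonal fun i => ((U i i).re : ℂ)) (diagonal fun i => (a i : ℂ))
      (-diagonal fun i => (a i : ℂ)) (diagonal fun i => ((V i i).re : ℂ)) := by
    rw [hKdef, fromBlocks_add]; simp
  have e3 : fromBlocks U 0 0 V + K = fromBlocks U (diagonal fun i => (a i : ℂ))
      (-diagonal fun i => (a i : ℂ)) V := by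
    rw [hKdef, fromBlocks_add]; simp
  rw [e2, e3, det_diag_block _ _ _ hUp] at hpin
  have e4 : ‖(fromBlocks U 0 0 V).det‖ = ‖U.det‖ * ‖V.det‖ := by
    rw [det_fromBlocks_zero₁₂, norm_mul]
  have e5 : ‖(fromBlocks (diagonal fun i => ((U i i).re : ℂ)) 0 0
      (diagonal fun i => ((V i i).re : ℂ))).det‖ = ∏ i, ((U i i).re * (V i i).re) := by
    rw [det_fromBlocks_zero₁₂, norm_mul, det_diagonal, det_diagonal, norm_prod, norm_prod,
      ← Finset.prod_mul_distrib]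
    refine Finset.prod_congr rfl fun i _ => ?_
    rw [Complex.norm_real, Complex.norm_real, Real.norm_eq_abs, Real.norm_eq_abs,
      abs_of_pos (hUp i), abs_of_pos (hVp i)]
  rw [e4, e5] at hpin
  convert hpin using 2
  refine Finset.prod_congr rfl fun i _ => ?_
  rw [abs_of_nonneg]
  have := mul_pos (hUp i) (hVp i)
  positivity

end block

end Crest.Agent.Lib.DetPinch
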