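import Mathlib

/-!
Scalar entropy inequalities (helper94, row 341): the `H_lemma` transferring inequalities for
`log (l + x)` to `negMulLog x`, and the three-block scalar function.
-/

set_option autoImplicit false
set_option linter.unusedSectionVars false
set_option linter.unusedSimpArgs false

open Filter Topology

namespace Crest.Agent.Lib.EntScalar

theorem H_lemma {ι : Type*} [Fintype ι] (c x : ι → ℝ) (hx : ∀ j, 0 ≤ x j)
    (h0 : ∑ j, c j * x j = 0)
    (h : ∀ l : ℝ, 0 < l → 0 ≤ ∑ j, c j * (Real.log (l + x j) - Real.log l)) :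
    0 ≤ ∑ j, c j * Real.negMulLog (x j) := by
  set H : ℝ → ℝ := fun l => ∑ j, c j * ((l + x j) * Real.log (l + x j) - l * Real.log l) with hH
  have hcont : Continuous H := by
    refine continuous_finsetSum _ fun j _ => ?_
    refine Continuous.mul continuous_const (Continuous.sub ?_ Real.continuous_mul_log)
    exact Real.continuous_mul_log.comp (continuous_id.add continuous_const)
  have hder : ∀ l : ℝ, 0 < l →
      HasDerivAt H (∑ j, c j * (Real.log (l + x j) - Real.log l)) l := by
    intro l hl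
    have : ∀ j ∈ (Finset.univ : Finset ι), HasDerivAt
        (fun l => c j * ((l + x j) * Real.log (l + x j) - l * Real.log l))
        (c j * (Real.log (l + x j) - Real.log l)) l := by
      intro j _
      have hp : 0 < l + x j := add_pos_of_pos_of_nonneg hl (hx j)
      have h1 := Real.hasDerivAt_mul_log hp.ne'
      have h2 : HasDerivAt (fun l : ℝ => l + x j) 1 l := (hasDerivAt_id l).add_const _
      have h3 := h1.comp l h2
      have h4 := Real.hasDerivAt_mul_log hl.ne'
      have h5 := (h3.sub h4).const_mul (c j)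
      refine h5.congr_deriv ?_
      ring
    exact HasDerivAt.fun_sum this
  have hmono : MonotoneOn H (Set.Ici 0) := by
    apply monotoneOn_of_deriv_nonneg (convex_Ici 0) hcont.continuousOn
    · rw [interior_Ici]
      exact fun l hl => (hder l hl).differentiableAt.differentiableWithinAt
    · rw [interior_Ici]
      intro l hl
      rw [(hder l hl).deriv]
      exact h l hl
  -- limit at infinity
  have hlim : Tendsto H atTop (𝓝 0) := by
    have h1 : ∀ᶠ l in atTop, H l = ∑ j, c j * ((l + x j) * Real.log (1 + x j / l)) := by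
      filter_upwards [eventually_gt_atTop (0 : ℝ)] with l hl
      have h2 : ∀ j, c j * ((l + x j) * Real.log (l + x j) - l * Real.log l) =
          c j * ((l + x j) * Real.log (1 + x j / l)) + Real.log l * (c j * x j) := by
        intro j
        have hp : 0 < 1 + x j / l := by have := hx j; positivity
        have : l + x j = l * (1 + x j / l) := by field_simp
        have h3 : Real.log (l + x j) = Real.log l + Real.log (1 + x j / l) := by
          conv_lhs => rw [this]
          rw [Real.log_mul hl.ne' hp.ne']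
        rw [h3]
        ring
      simp only [hH]
      rw [Finset.sum_congr rfl fun j _ => h2 j, Finset.sum_add_distrib, ← Finset.mul_sum, h0,
        mul_zero, add_zero]
    rw [tendsto_congr' h1]
    have h2 : ∀ j, Tendsto (fun l : ℝ => c j * ((l + x j) * Real.log (1 + x j / l))) atTop
        (𝓝 (c j * x j)) := by
      intro j
      have h3 := Real.tendsto_mul_log_one_add_div_atTop (x j)
      have h4 : Tendsto (fun l : ℝ => Real.log (1 + x j / l)) atTop (𝓝 0) := by
        have h5 : Tendsto (fun l : ℝ => 1 + x j / l) atTop (𝓝 (1 + 0)) :=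
          tendsto_const_nhds.add (tendsto_const_nhds.div_atTop tendsto_id)
        rw [add_zero] at h5
        have h6 := (Real.continuousAt_log (one_ne_zero)).tendsto.comp h5
        rw [Real.log_one] at h6
        exact h6
      have h5 := (h3.add (h4.const_mul (x j))).const_mul (c j)
      rw [mul_zero, add_zero] at h5
      refine h5.congr fun l => ?_
      ring
    have h3 := tendsto_finsetSum Finset.univ fun j _ => h2 j
    rwa [h0] at h3
  have hle : H 0 ≤ 0 := by
    refine ge_of_tendsto hlim ?_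
    filter_upwards [eventually_ge_atTop (0 : ℝ)] with l hl
    exact hmono (Set.mem_Ici.2 le_rfl) (Set.mem_Ici.2 hl) hl
  have : H 0 = -∑ j, c j * Real.negMulLog (x j) := by
    simp only [hH, Real.negMulLog]
    rw [← Finset.sum_neg_distrib]
    refine Finset.sum_congr rfl fun j _ => ?_
    simp
  linarith

/-! ### convexity of `log (uv + κ) - log u - log v` -/

theorem phi_convex {κ : ℝ} (hκ : 0 ≤ κ) :
    ConvexOn ℝ Set.univ (fun s : ℝ => Real.log (1 + κ * Real.exp (-s))) := by
  have hpos : ∀ s : ℝ, 0 < 1 + κ * Real.exp (-s) := fun s => by positivity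
  have hder : ∀ s : ℝ, HasDerivAt (fun s : ℝ => Real.log (1 + κ * Real.exp (-s)))
      (-κ / (Real.exp s + κ)) s := by
    intro s
    have h1 : HasDerivAt (fun s : ℝ => Real.exp (-s)) (-Real.exp (-s)) s := by
      have := (hasDerivAt_neg s).exp
      simpa using this
    have h2 := ((h1.const_mul κ).const_add 1).log (hpos s).ne'
    refine h2.congr_deriv ?_
    have h3 : 0 < Real.exp s + κ := by positivity
    have h4 : Real.exp (-s) * Real.exp s = 1 := by rw [← Real.exp_add]; simp
    rw [div_eq_div_iff (hpos s).ne' h3.ne']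
    linear_combination (-κ) * h4
  apply Monotone.convexOn_univ_of_deriv (fun s => (hder s).differentiableAt)
  intro s t hst
  rw [(hder s).deriv, (hder t).deriv, neg_div, neg_div, neg_le_neg_iff]
  apply div_le_div_of_nonneg_left hκ (by positivity)
  have := Real.exp_le_exp.2 hst
  linarith

theorem phi_antitone {κ : ℝ} (hκ : 0 ≤ κ) :
    Antitone (fun s : ℝ => Real.log (1 + κ * Real.exp (-s))) := by
  intro s t hst
  apply Real.log_le_log (by positivity)
  have := Real.exp_le_exp.2 (neg_le_neg hst)
  have := mul_le_mul_of_nonneg_left this hκ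
  linarith

/-- the open quadrant -/
def quad : Set (ℝ × ℝ) := {w | 0 < w.1 ∧ 0 < w.2}

theorem convex_quad : Convex ℝ quad := by
  have : quad = Set.Ioi (0 : ℝ) ×ˢ Set.Ioi (0 : ℝ) := by
    ext w; simp [quad]
  rw [this]
  exact (convex_Ioi 0).prod (convex_Ioi 0)

theorem logadd_concave : ConcaveOn ℝ quad (fun w : ℝ × ℝ => Real.log w.1 + Real.log w.2) := by
  have h1 : ConcaveOn ℝ quad (fun w : ℝ × ℝ => Real.log w.1) := by
    have := (strictConcaveOn_log_Ioi.concaveOn).comp_linearMap (LinearMap.fst ℝ ℝ ℝ)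
    exact this.subset (fun w hw => hw.1) convex_quad
  have h2 : ConcaveOn ℝ quad (fun w : ℝ × ℝ => Real.log w.2) := by
    have := (strictConcaveOn_log_Ioi.concaveOn).comp_linearMap (LinearMap.snd ℝ ℝ ℝ)
    exact this.subset (fun w hw => hw.2) convex_quad
  exact h1.add h2

theorem psi_eq {κ u v : ℝ} (hκ : 0 ≤ κ) (hu : 0 < u) (hv : 0 < v) :
    Real.log (u * v + κ) - Real.log u - Real.log v =
      Real.log (1 + κ * Real.exp (-(Real.log u + Real.log v))) := by
  have h1 : Real.exp (-(Real.log u + Real.log v)) = (u * v)⁻¹ := by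
    rw [← Real.log_mul hu.ne' hv.ne', Real.exp_neg, Real.exp_log (mul_pos hu hv)]
  have hp : 0 < 1 + κ * (u * v)⁻¹ := by positivity
  have h2 : u * v + κ = (u * v) * (1 + κ * (u * v)⁻¹) := by
    field_simp
  rw [h1, h2, Real.log_mul (mul_pos hu hv).ne' hp.ne', Real.log_mul hu.ne' hv.ne']
  ring

theorem psi_convex {κ : ℝ} (hκ : 0 ≤ κ) :
    ConvexOn ℝ quad (fun w : ℝ × ℝ => Real.log (w.1 * w.2 + κ) - Real.log w.1 - Real.log w.2) := by
  have him : (fun w : ℝ × ℝ => Real.log w.1 + Real.log w.2) '' quad = Set.univ := by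
    rw [Set.eq_univ_iff_forall]
    intro t
    refine ⟨(Real.exp t, 1), ⟨Real.exp_pos t, one_pos⟩, ?_⟩
    simp
  have h := ConvexOn.comp_concaveOn (g := fun s : ℝ => Real.log (1 + κ * Real.exp (-s)))
    (f := fun w : ℝ × ℝ => Real.log w.1 + Real.log w.2) (s := quad)
    (by rw [him]; exact phi_convex hκ) logadd_concave ((phi_antitone hκ).antitoneOn _)
  refine h.congr ?_
  intro w hw
  exact (psi_eq hκ hw.1 hw.2).symm

theorem psi_antitone {κ u v u' v' : ℝ} (hκ : 0 ≤ κ) (hu : 0 < u) (hv : 0 < v) (huu : u ≤ u')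
    (hvv : v ≤ v') :
    Real.log (u' * v' + κ) - Real.log u' - Real.log v' ≤
      Real.log (u * v + κ) - Real.log u - Real.log v := by
  rw [psi_eq hκ hu hv, psi_eq hκ (hu.trans_le huu) (hv.trans_le hvv)]
  apply phi_antitone hκ
  have := Real.log_le_log hu huu
  have := Real.log_le_log hv hvv
  linarith

/-! ### the two eigenvalues -/

noncomputable def lamP (p q r : ℝ) : ℝ := ((p + q + r) + √((p + q + r) ^ 2 - 4 * q * r)) / 2
noncomputable def lamM (p q r : ℝ) : ℝ := ((p + q + r) - √((p + q + r) ^ 2 - 4 * q * r)) / 2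
noncomputable def entm (p q r : ℝ) : ℝ := Real.negMulLog (lamP p q r) + Real.negMulLog (lamM p q r)

theorem disc_nonneg {p q r : ℝ} (hp : 0 ≤ p) (hq : 0 ≤ q) (hr : 0 ≤ r) :
    0 ≤ (p + q + r) ^ 2 - 4 * q * r := by
  nlinarith [sq_nonneg (q - r), mul_nonneg hp hq, mul_nonneg hp hr, sq_nonneg p]

theorem lam_add (p q r : ℝ) : lamP p q r + lamM p q r = p + q + r := by
  rw [lamP, lamM]; ring

theorem lam_mul {p q r : ℝ} (hp : 0 ≤ p) (hq : 0 ≤ q) (hr : 0 ≤ r) :
    lamP p q r * lamM p q r = q * r := by
  have := Real.sq_sqrt (disc_nonneg hp hq hr)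
  rw [lamP, lamM]
  nlinarith

theorem lamP_nonneg {p q r : ℝ} (hp : 0 ≤ p) (hq : 0 ≤ q) (hr : 0 ≤ r) : 0 ≤ lamP p q r := by
  rw [lamP]; positivity

theorem lamM_nonneg {p q r : ℝ} (hp : 0 ≤ p) (hq : 0 ≤ q) (hr : 0 ≤ r) : 0 ≤ lamM p q r := by
  rw [lamM]
  have h1 : √((p + q + r) ^ 2 - 4 * q * r) ≤ p + q + r := by
    rw [Real.sqrt_le_left (by positivity)]
    nlinarith [mul_nonneg hq hr]
  linarith

theorem lam_log {p q r l : ℝ} (hp : 0 ≤ p) (hq : 0 ≤ q) (hr : 0 ≤ r) (hl : 0 < l) :
    Real.log (l + lamP p q r) + Real.log (l + lamM p q r) =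
      Real.log ((l + q) * (l + r) + l * p) := by
  have h1 := lamP_nonneg hp hq hr
  have h2 := lamM_nonneg hp hq hr
  rw [← Real.log_mul (by positivity) (by positivity)]
  congr 1
  have h3 := lam_add p q r
  have h4 := lam_mul hp hq hr
  linear_combination l * h3 + h4

theorem entm_smul {t : ℝ} (ht : 0 ≤ t) (p q r : ℝ) :
    entm (t * p) (t * q) (t * r) = t * entm p q r + Real.negMulLog t * (p + q + r) := by
  have hs : √((t * p + t * q + t * r) ^ 2 - 4 * (t * q) * (t * r)) =
      t * √((p + q + r) ^ 2 - 4 * q * r) := by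
    rw [show (t * p + t * q + t * r) ^ 2 - 4 * (t * q) * (t * r) =
      t ^ 2 * ((p + q + r) ^ 2 - 4 * q * r) by ring, Real.sqrt_mul (sq_nonneg t),
      Real.sqrt_sq ht]
  have h1 : lamP (t * p) (t * q) (t * r) = t * lamP p q r := by
    rw [lamP, lamP, hs]; ring
  have h2 : lamM (t * p) (t * q) (t * r) = t * lamM p q r := by
    rw [lamM, lamM, hs]; ring
  rw [entm, entm, h1, h2, Real.negMulLog_mul, Real.negMulLog_mul, ← lam_add p q r]
  ring

/-! ### the three block function -/

noncomputable def G3 (p q r : ℝ) : ℝ :=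
  entm p q r - Real.negMulLog p - Real.negMulLog q - Real.negMulLog r

theorem G3_smul {t : ℝ} (ht : 0 ≤ t) (p q r : ℝ) : G3 (t * p) (t * q) (t * r) = t * G3 p q r := by
  rw [G3, G3, entm_smul ht, Real.negMulLog_mul, Real.negMulLog_mul, Real.negMulLog_mul]
  ring

theorem G3_zero {q r : ℝ} (hq : 0 ≤ q) (hr : 0 ≤ r) : G3 0 q r = 0 := by
  have hs : √((0 + q + r) ^ 2 - 4 * q * r) = |q - r| := by
    rw [show (0 + q + r) ^ 2 - 4 * q * r = (q - r) ^ 2 by ring, Real.sqrt_sq_eq_abs]
  rw [G3, entm, lamP, lamM, hs]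
  rcases le_total q r with h | h
  · rw [abs_of_nonpos (by linarith)]
    rw [show (0 + q + r + -(q - r)) / 2 = r by ring, show (0 + q + r - -(q - r)) / 2 = q by ring]
    simp
  · rw [abs_of_nonneg (by linarith)]
    rw [show (0 + q + r + (q - r)) / 2 = q by ring, show (0 + q + r - (q - r)) / 2 = r by ring]
    simp

theorem G3_antitone {p q r q' r' : ℝ} (hp : 0 ≤ p) (hq : 0 ≤ q) (hr : 0 ≤ r) (hqq : q ≤ q')
    (hrr : r ≤ r') : G3 p q' r' ≤ G3 p q r := by
  have hq' := hq.trans hqq
  have hr' := hr.trans hrr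
  have h := H_lemma (ι := Fin 8) ![1, 1, -1, -1, -1, -1, 1, 1]
    ![lamP p q r, lamM p q r, q, r, lamP p q' r', lamM p q' r', q', r'] (by
      have h1 := lamP_nonneg hp hq hr
      have h2 := lamM_nonneg hp hq hr
      have h3 := lamP_nonneg hp hq' hr'
      have h4 := lamM_nonneg hp hq' hr'
      intro j
      fin_cases j <;> simp <;> assumption) (by
      have h1 := lam_add p q r
      have h2 := lam_add p q' r'
      simp [Fin.sum_univ_eight]
      linarith) (by
      intro l hl
      have h1 := lam_log hp hq hr hl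
      have h2 := lam_log hp hq' hr' hl
      have h3 := psi_antitone (κ := l * p) (by positivity) (show 0 < l + q by positivity)
        (show 0 < l + r by positivity) (show l + q ≤ l + q' by linarith)
        (show l + r ≤ l + r' by linarith)
      simp [Fin.sum_univ_eight]
      linarith)
  simp [Fin.sum_univ_eight] at h
  rw [G3, G3, entm, entm]
  linarith

theorem G3_jensen {ι : Type*} [Fintype ι] {p : ℝ} (hp : 0 ≤ p) (w q r : ι → ℝ) (hw : ∀ j, 0 ≤ w j)
    (hw1 : ∑ j, w j = 1) (hq : ∀ j, 0 ≤ q j) (hr : ∀ j, 0 ≤ r j) :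
    G3 p (∑ j, w j * q j) (∑ j, w j * r j) ≤ ∑ j, w j * G3 p (q j) (r j) := by
  set Q := ∑ j, w j * q j with hQ
  set R := ∑ j, w j * r j with hR
  have hQ0 : 0 ≤ Q := Finset.sum_nonneg fun j _ => mul_nonneg (hw j) (hq j)
  have hR0 : 0 ≤ R := Finset.sum_nonneg fun j _ => mul_nonneg (hw j) (hr j)
  have hsum : ∀ (a : ℝ), ∑ j, w j * a = a := fun a => by rw [← Finset.sum_mul, hw1, one_mul]
  have h := H_lemma (ι := (ι ⊕ ι) ⊕ (ι ⊕ ι) ⊕ Fin 4)
    (Sum.elim (Sum.elim w w) (Sum.elim (Sum.elim (fun j => -w j) (fun j => -w j))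
      ![-1, -1, 1, 1]))
    (Sum.elim (Sum.elim (fun j => lamP p (q j) (r j)) (fun j => lamM p (q j) (r j)))
      (Sum.elim (Sum.elim q r) ![lamP p Q R, lamM p Q R, Q, R])) (by
      rintro ((j | j) | (j | j) | j)
      · exact lamP_nonneg hp (hq j) (hr j)
      · exact lamM_nonneg hp (hq j) (hr j)
      · exact hq j
      · exact hr j
      · have h1 := lamP_nonneg hp hQ0 hR0
        have h2 := lamM_nonneg hp hQ0 hR0
        fin_cases j <;> simp <;> assumption) (by
      simp only [Fintype.sum_sum_type, Sum.elim_inl, Sum.elim_inr, Fin.sum_univ_four]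
      have h1 := lam_add p Q R
      have h2 : ∑ j, w j * lamP p (q j) (r j) + ∑ j, w j * lamM p (q j) (r j) = p + Q + R := by
        rw [← Finset.sum_add_distrib]
        rw [Finset.sum_congr rfl fun j _ => (by
          rw [← mul_add, lam_add, mul_add, mul_add] :
          w j * lamP p (q j) (r j) + w j * lamM p (q j) (r j) =
            w j * p + w j * q j + w j * r j)]
        rw [Finset.sum_add_distrib, Finset.sum_add_distrib, hsum]
      simp only [neg_mul, Finset.sum_neg_distrib]
      simp
      linarith) (by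
      intro l hl
      simp only [Fintype.sum_sum_type, Sum.elim_inl, Sum.elim_inr, Fin.sum_univ_four]
      have h1 := lam_log hp hQ0 hR0 hl
      have h3 : ∀ j, Real.log (l + lamP p (q j) (r j)) + Real.log (l + lamM p (q j) (r j)) =
        Real.log ((l + q j) * (l + r j) + l * p) := fun j => lam_log hp (hq j) (hr j) hl
      have h4 := (psi_convex (κ := l * p) (by positivity)).map_sum_le (t := Finset.univ)
        (w := w) (p := fun j => (l + q j, l + r j)) (fun j _ => hw j) hw1
        (fun j _ => ⟨by have := hq j; positivity, by have := hr j; positivity⟩)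
      have h5 : (∑ j, w j • ((l + q j, l + r j) : ℝ × ℝ)) = (l + Q, l + R) := by
        ext
        · simp only [Prod.fst_sum, Prod.smul_mk, smul_eq_mul, mul_add, Finset.sum_add_distrib, hsum]
          rfl
        · simp only [Prod.snd_sum, Prod.smul_mk, smul_eq_mul, mul_add, Finset.sum_add_distrib, hsum]
          rfl
      rw [h5] at h4
      simp only [smul_eq_mul] at h4
      have h6 : ∑ j, w j * (Real.log (l + lamP p (q j) (r j)) - Real.log l) +
          ∑ j, w j * (Real.log (l + lamM p (q j) (r j)) - Real.log l) +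
          (∑ j, -w j * (Real.log (l + q j) - Real.log l) +
          ∑ j, -w j * (Real.log (l + r j) - Real.log l)) =
          ∑ j, w j * (Real.log ((l + q j) * (l + r j) + l * p) - Real.log (l + q j) -
            Real.log (l + r j)) := by
        rw [← Finset.sum_add_distrib, ← Finset.sum_add_distrib, ← Finset.sum_add_distrib]
        refine Finset.sum_congr rfl fun j _ => ?_
        rw [← h3 j]
        ring
      simp
      simp only [neg_mul, Finset.sum_neg_distrib] at h6
      linarith)
  simp only [Fintype.sum_sum_type, Sum.elim_inl, Sum.elim_inr, Fin.sum_univ_four] at h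
  have h7 : ∑ j, w j * G3 p (q j) (r j) = ∑ j, w j * Real.negMulLog (lamP p (q j) (r j)) +
      ∑ j, w j * Real.negMulLog (lamM p (q j) (r j)) + (∑ j, -w j * Real.negMulLog (q j) +
      ∑ j, -w j * Real.negMulLog (r j)) - Real.negMulLog p := by
    rw [← hsum (Real.negMulLog p), ← Finset.sum_add_distrib, ← Finset.sum_add_distrib,
      ← Finset.sum_add_distrib, ← Finset.sum_sub_distrib]
    refine Finset.sum_congr rfl fun j _ => ?_
    rw [G3, entm]
    ring
  rw [h7, G3, entm]
  simp at h
  simp only [neg_mul, Finset.sum_neg_distrib]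
  linarith

/-- superadditivity of `G3` -/
theorem G3_sum {ι : Type*} [Fintype ι] (p q r : ι → ℝ) (hp : ∀ j, 0 ≤ p j) (hq : ∀ j, 0 ≤ q j)
    (hr : ∀ j, 0 ≤ r j) : G3 (∑ j, p j) (∑ j, q j) (∑ j, r j) ≤ ∑ j, G3 (p j) (q j) (r j) := by
  set P := ∑ j, p j with hP
  have hP0 : 0 ≤ P := Finset.sum_nonneg fun j _ => hp j
  have hQ0 : 0 ≤ ∑ j, q j := Finset.sum_nonneg fun j _ => hq j
  have hR0 : 0 ≤ ∑ j, r j := Finset.sum_nonneg fun j _ => hr j
  rcases hP0.eq_or_lt with h0 | h0
  · have h1 : ∀ j, p j = 0 := by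
      intro j
      have := (Finset.sum_eq_zero_iff_of_nonneg (s := Finset.univ) (f := p)
        (fun j _ => hp j)).1 (by rw [← hP, ← h0]) j (Finset.mem_univ j)
      exact this
    rw [← h0, G3_zero hQ0 hR0]
    rw [Finset.sum_congr rfl fun j _ => by rw [h1 j, G3_zero (hq j) (hr j)]]
    simp
  · set w : ι → ℝ := fun j => p j / P with hw
    have hw0 : ∀ j, 0 ≤ w j := fun j => div_nonneg (hp j) hP0
    have hw1 : ∑ j, w j = 1 := by
      simp only [hw]
      rw [← Finset.sum_div, ← hP, div_self h0.ne']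
    have h1 : ∀ j, G3 (p j) (q j) (r j) = w j * G3 P (q j / w j) (r j / w j) := by
      intro j
      rcases (hp j).eq_or_lt with hj | hj
      · have : w j = 0 := by simp only [hw]; rw [← hj, zero_div]
        rw [this, ← hj, G3_zero (hq j) (hr j), zero_mul]
      · have hwj : 0 < w j := div_pos hj h0
        rw [← G3_smul (hw0 j)]
        congr 1
        · simp only [hw]; field_simp
        · field_simp
        · field_simp
    rw [Finset.sum_congr rfl fun j _ => h1 j]
    have h2 := G3_jensen hP0 w (fun j => q j / w j) (fun j => r j / w j) hw0 hw1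
      (fun j => div_nonneg (hq j) (hw0 j)) (fun j => div_nonneg (hr j) (hw0 j))
    refine le_trans ?_ h2
    have h3 : ∀ (f : ι → ℝ), (∀ j, 0 ≤ f j) → ∑ j, w j * (f j / w j) ≤ ∑ j, f j := by
      intro f hf
      refine Finset.sum_le_sum fun j _ => ?_
      rcases (hw0 j).eq_or_lt with hj | hj
      · rw [← hj]; simpa using hf j
      · rw [mul_div_cancel₀ _ hj.ne']
    exact G3_antitone hP0 (Finset.sum_nonneg fun j _ => mul_nonneg (hw0 j)
      (div_nonneg (hq j) (hw0 j))) (Finset.sum_nonneg fun j _ => mul_nonneg (hw0 j)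
      (div_nonneg (hr j) (hw0 j))) (h3 q hq) (h3 r hr)

end Crest.Agent.Lib.EntScalar
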