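import Crest.Agent.Lib.QEntropy2
import Crest.Prelude.Def_AmpDamp

/-!
Generalized amplitude damping: Kraus form, tensor powers, structure of outputs (helper94, row 341).
-/

set_option autoImplicit false
set_option linter.unusedSectionVars false
set_option linter.unusedSimpArgs false

open Matrix Crest.Quantum Crest.MathPhysics.AmpDamp Crest.Agent.Lib.QEntropy
open scoped ComplexOrder Kronecker

namespace Crest.Agent.Lib.GAD

section kraus

variable {d e J : Type*} [Fintype d] [Fintype e] [DecidableEq d] [DecidableEq e] [Fintype J]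

/-- `Φ` has Kraus operators `K`. -/
def HasKraus (Φ : Matrix d d ℂ → Matrix e e ℂ) (K : J → Matrix e d ℂ) : Prop :=
  ∀ M, Φ M = ∑ j, K j * M * (K j)ᴴ

theorem HasKraus.linear {Φ : Matrix d d ℂ → Matrix e e ℂ} {K : J → Matrix e d ℂ}
    (h : HasKraus Φ K) : IsLinearMap ℂ Φ := by
  constructor
  · intro x y
    rw [h, h, h, ← Finset.sum_add_distrib]
    refine Finset.sum_congr rfl fun j _ => ?_
    rw [Matrix.mul_add, Matrix.add_mul]
  · intro c x
    rw [h, h, Finset.smul_sum]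
    refine Finset.sum_congr rfl fun j _ => ?_
    rw [Matrix.mul_smul, Matrix.smul_mul]

theorem blockwise_kraus {k : Type*} [Fintype k] [DecidableEq k]
    {Φ : Matrix d d ℂ → Matrix e e ℂ} {K : J → Matrix e d ℂ}
    (h : HasKraus Φ K) (M : Matrix (k × d) (k × d) ℂ) :
    blockwise Φ M = ∑ j, ((1 : Matrix k k ℂ) ⊗ₖ K j) * M * ((1 : Matrix k k ℂ) ⊗ₖ K j)ᴴ := by
  ext ⟨s, i⟩ ⟨t, i'⟩
  rw [blockwise, Matrix.of_apply, h, Matrix.sum_apply, Matrix.sum_apply]
  refine Finset.sum_congr rfl fun j _ => ?_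
  simp only [mul_apply, Fintype.sum_prod_type, conjTranspose_apply, kroneckerMap_apply, star_mul',
    Finset.sum_mul, block, Matrix.of_apply]
  simp only [one_apply, apply_ite star, star_one, star_zero, ite_mul, mul_ite, one_mul, zero_mul,
    mul_zero, mul_one, Finset.sum_ite_irrel, Finset.sum_ite_eq', Finset.sum_ite_eq,
    Finset.mem_univ, if_true, Finset.sum_const_zero]

theorem HasKraus.posSemidef_blockwise {k : Type*} [Fintype k] [DecidableEq k]
    {Φ : Matrix d d ℂ → Matrix e e ℂ} {K : J → Matrix e d ℂ}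
    (h : HasKraus Φ K) {M : Matrix (k × d) (k × d) ℂ} (hM : M.PosSemidef) :
    (blockwise Φ M).PosSemidef := by
  rw [blockwise_kraus h]
  exact posSemidef_sum _ fun j _ => hM.mul_mul_conjTranspose_same _

theorem HasKraus.cp {Φ : Matrix d d ℂ → Matrix e e ℂ} {K : J → Matrix e d ℂ}
    (h : HasKraus Φ K) : IsCompletelyPositive Φ := fun _ _ hM => h.posSemidef_blockwise hM

theorem HasKraus.tp {Φ : Matrix d d ℂ → Matrix e e ℂ} {K : J → Matrix e d ℂ}
    (h : HasKraus Φ K) (hK : ∑ j, (K j)ᴴ * K j = 1) : IsTracePreserving Φ := by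
  intro M
  rw [h, trace_sum]
  calc ∑ j, (K j * M * (K j)ᴴ).trace = ∑ j, (M * ((K j)ᴴ * K j)).trace := by
        refine Finset.sum_congr rfl fun j _ => ?_
        rw [trace_mul_cycle, trace_mul_comm]
    _ = M.trace := by
        rw [← trace_sum, ← Finset.mul_sum, hK, mul_one]

theorem HasKraus.channel {Φ : Matrix d d ℂ → Matrix e e ℂ} {K : J → Matrix e d ℂ}
    (h : HasKraus Φ K) (hK : ∑ j, (K j)ᴴ * K j = 1) : IsChannel Φ :=
  ⟨h.linear, h.cp, h.tp hK⟩

theorem HasKraus.posSemidef {Φ : Matrix d d ℂ → Matrix e e ℂ} {K : J → Matrix e d ℂ}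
    (h : HasKraus Φ K) {M : Matrix d d ℂ} (hM : M.PosSemidef) : (Φ M).PosSemidef := by
  rw [h]
  exact posSemidef_sum _ fun j _ => hM.mul_mul_conjTranspose_same _

/-- A completely positive map acts blockwise positively for any finite index type. -/
theorem cp_blockwise {k : Type*} [Fintype k] [DecidableEq k] {Ψ : Matrix d d ℂ → Matrix e e ℂ}
    (h : IsCompletelyPositive Ψ) {M : Matrix (k × d) (k × d) ℂ} (hM : M.PosSemidef) :
    (blockwise Ψ M).PosSemidef := by
  let σ := Fintype.equivFin k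
  have h1 := h (Fintype.card k) (M.submatrix (Prod.map σ.symm id) (Prod.map σ.symm id))
    (hM.submatrix _)
  have h2 := h1.submatrix (Prod.map σ (id : e → e))
  convert h2 using 1
  ext ⟨s, i⟩ ⟨t, j⟩
  simp only [blockwise, Matrix.of_apply, submatrix_apply, Prod.map, block, id]
  simp

theorem cp_posSemidef {Ψ : Matrix d d ℂ → Matrix e e ℂ}
    (h : IsCompletelyPositive Ψ) {M : Matrix d d ℂ} (hM : M.PosSemidef) :
    (Ψ M).PosSemidef := by
  have h1 := cp_blockwise (k := Unit) h (M := M.submatrix Prod.snd Prod.snd) (hM.submatrix _)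
  have h2 := h1.submatrix (fun i : e => ((), i))
  convert h2 using 1
  ext i j
  rfl

end kraus

section power

variable {J : Type*} [Fintype J] [DecidableEq J]

/-- Kraus operators of the tensor power. -/
def powK (K : J → Matrix Bool Bool ℂ) (n : ℕ) (κ : Fin n → J) :
    Matrix (Fin n → Bool) (Fin n → Bool) ℂ :=
  Matrix.of fun σ τ => ∏ i, K (κ i) (σ i) (τ i)

theorem qubitCoeff_kraus {Φ : Matrix Bool Bool ℂ → Matrix Bool Bool ℂ} {K : J → Matrix Bool Bool ℂ}
    (h : HasKraus Φ K) (s t s' t' : Bool) :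
    qubitCoeff Φ s t s' t' = ∑ j, K j s s' * star (K j t t') := by
  rw [qubitCoeff, h, Matrix.sum_apply]
  refine Finset.sum_congr rfl fun j _ => ?_
  simp only [mul_apply, conjTranspose_apply, Fintype.sum_bool, single_apply]
  cases s' <;> cases t' <;> simp

theorem qubitPower_hasKraus {Φ : Matrix Bool Bool ℂ → Matrix Bool Bool ℂ}
    {K : J → Matrix Bool Bool ℂ} (h : HasKraus Φ K) (n : ℕ) :
    HasKraus (qubitPower n Φ) (powK K n) := by
  intro M
  ext σ τ
  rw [qubitPower, Matrix.of_apply, Matrix.sum_apply]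
  have h1 : ∀ σ' τ' : Fin n → Bool, (∏ i, qubitCoeff Φ (σ i) (τ i) (σ' i) (τ' i)) =
      ∑ κ : Fin n → J, powK K n κ σ σ' * star (powK K n κ τ τ') := by
    intro σ' τ'
    simp_rw [qubitCoeff_kraus h, powK, Matrix.of_apply, star_prod, ← Finset.prod_mul_distrib]
    rw [Finset.prod_univ_sum, Fintype.piFinset_univ]
  simp_rw [h1, mul_apply, conjTranspose_apply, Finset.sum_mul]
  rw [Finset.sum_comm]
  rw [Finset.sum_comm (s := (Finset.univ : Finset (Fin n → J)))]
  refine Finset.sum_congr rfl fun τ' _ => ?_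
  rw [Finset.sum_comm]
  refine Finset.sum_congr rfl fun κ _ => ?_
  refine Finset.sum_congr rfl fun σ' _ => ?_
  ring

theorem powK_tp {K : J → Matrix Bool Bool ℂ} (hK : ∑ j, (K j)ᴴ * K j = 1) (n : ℕ) :
    ∑ κ, (powK K n κ)ᴴ * powK K n κ = 1 := by
  have hK' : ∀ s t, ∑ j, ∑ x, star (K j x s) * K j x t = if s = t then 1 else 0 := by
    intro s t
    have := congrFun (congrFun hK s) t
    rw [Matrix.sum_apply, one_apply] at this
    simpa only [mul_apply, conjTranspose_apply] using this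
  ext σ τ
  rw [Matrix.sum_apply]
  simp only [mul_apply, conjTranspose_apply, powK, Matrix.of_apply, star_prod,
    ← Finset.prod_mul_distrib]
  have h1 : ∑ κ : Fin n → J, ∑ x : Fin n → Bool, ∏ i, (star (K (κ i) (x i) (σ i)) * K (κ i) (x i) (τ i))
      = ∏ i, ∑ j, ∑ x, star (K j x (σ i)) * K j x (τ i) := by
    rw [Finset.prod_univ_sum, Fintype.piFinset_univ]
    refine Finset.sum_congr rfl fun κ _ => ?_
    rw [Finset.prod_univ_sum, Fintype.piFinset_univ]
  rw [h1]
  simp_rw [hK']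
  rw [one_apply, Finset.prod_ite_zero]
  simp [funext_iff]

/-- The tensor power as an iterated tensor product. -/
theorem qubitPower_succ (Φ : Matrix Bool Bool ℂ → Matrix Bool Bool ℂ) (n : ℕ)
    (M : Matrix (Fin (n + 1) → Bool) (Fin (n + 1) → Bool) ℂ) :
    (qubitPower (n + 1) Φ M).submatrix (Fin.consEquiv fun _ => Bool) (Fin.consEquiv fun _ => Bool) =
      qubitTensor Φ (qubitPower n Φ)
        (M.submatrix (Fin.consEquiv fun _ => Bool) (Fin.consEquiv fun _ => Bool)) := by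
  ext ⟨s, σ⟩ ⟨t, τ⟩
  simp only [submatrix_apply, qubitPower, qubitTensor, Matrix.of_apply, block]
  rw [← (Fin.consEquiv fun _ : Fin (n + 1) => Bool).sum_comp, Fintype.sum_prod_type]
  refine Finset.sum_congr rfl fun s' _ => ?_
  have h1 : ∀ σ', ∑ τ' : Fin (n + 1) → Bool,
      (∏ i, qubitCoeff Φ ((Fin.consEquiv fun _ : Fin (n + 1) => Bool) (s, σ) i)
        ((Fin.consEquiv fun _ : Fin (n + 1) => Bool) (t, τ) i)
        ((Fin.consEquiv fun _ : Fin (n + 1) => Bool) (s', σ') i) (τ' i)) *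
        M ((Fin.consEquiv fun _ : Fin (n + 1) => Bool) (s', σ')) τ' =
      ∑ t' : Bool, ∑ τ' : Fin n → Bool,
      qubitCoeff Φ s t s' t' * (∏ i, qubitCoeff Φ (σ i) (τ i) (σ' i) (τ' i)) *
        M ((Fin.consEquiv fun _ : Fin (n + 1) => Bool) (s', σ'))
          ((Fin.consEquiv fun _ : Fin (n + 1) => Bool) (t', τ')) := by
    intro σ'
    rw [← (Fin.consEquiv fun _ : Fin (n + 1) => Bool).sum_comp, Fintype.sum_prod_type]
    refine Finset.sum_congr rfl fun t' _ => ?_
    refine Finset.sum_congr rfl fun τ' _ => ?_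
    rw [Fin.prod_univ_succ]
    simp [Fin.consEquiv]
  simp_rw [h1]
  rw [Finset.sum_comm]
  refine Finset.sum_congr rfl fun t' _ => ?_
  rw [Finset.mul_sum]
  refine Finset.sum_congr rfl fun σ' _ => ?_
  rw [Finset.mul_sum]
  refine Finset.sum_congr rfl fun τ' _ => ?_
  ring

end power

section gad

variable (γ ν : ℝ)

/-- Kraus operators of the generalized amplitude damping channel. -/
noncomputable def gadK (j : Fin 4) : Matrix Bool Bool ℂ :=
  Matrix.of fun s t =>
    match j with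
    | 0 => if s = false ∧ t = false then (Real.sqrt (1 - ν) : ℂ)
        else if s = true ∧ t = true then (Real.sqrt (1 - ν) : ℂ) * (Real.sqrt (1 - γ) : ℂ) else 0
    | 1 => if s = false ∧ t = true then (Real.sqrt (1 - ν) : ℂ) * (Real.sqrt γ : ℂ) else 0
    | 2 => if s = false ∧ t = false then (Real.sqrt ν : ℂ) * (Real.sqrt (1 - γ) : ℂ)
        else if s = true ∧ t = true then (Real.sqrt ν : ℂ) else 0
    | 3 => if s = true ∧ t = false then (Real.sqrt ν : ℂ) * (Real.sqrt γ : ℂ) else 0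

variable {γ ν}

theorem sqrt_sq_c {x : ℝ} (hx : 0 ≤ x) : (Real.sqrt x : ℂ) * (Real.sqrt x : ℂ) = x := by
  rw [← Complex.ofReal_mul, Real.mul_self_sqrt hx]

theorem gad_hasKraus (hγ : γ ∈ Set.Icc (0 : ℝ) 1) (hν : ν ∈ Set.Icc (0 : ℝ) 1) :
    HasKraus (gadMap γ ν) (gadK γ ν) := by
  intro M
  have h1 := sqrt_sq_c (x := 1 - ν) (by linarith [hν.2])
  have h2 := sqrt_sq_c (x := 1 - γ) (by linarith [hγ.2])
  have h3 := sqrt_sq_c (x := ν) hν.1
  have h4 := sqrt_sq_c (x := γ) hγ.1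
  push_cast at h1 h2
  ext s t
  rw [Matrix.sum_apply]
  simp only [mul_apply, conjTranspose_apply, Fintype.sum_bool, Fin.sum_univ_four, gadK,
    Matrix.of_apply, gadMap]
  cases s <;> cases t <;> simp
  · linear_combination (-M false false - M true true * (Real.sqrt γ * Real.sqrt γ)) * h1 -
      M true true * (1 - ν) * h4 - M false false * (Real.sqrt (1 - γ) * Real.sqrt (1 - γ)) * h3 -
      M false false * ν * h2
  · linear_combination (-(Real.sqrt (1-γ) : ℂ) * M false true) * h1 -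
      ((Real.sqrt (1-γ) : ℂ) * M false true) * h3
  · linear_combination (-(Real.sqrt (1-γ) : ℂ) * M true false) * h1 -
      ((Real.sqrt (1-γ) : ℂ) * M true false) * h3
  · linear_combination (-M true true * (Real.sqrt (1 - γ) * Real.sqrt (1 - γ))) * h1 -
      M true true * (1 - ν) * h2 - M true true * h3 -
      M false false * (Real.sqrt γ * Real.sqrt γ) * h3 - M false false * ν * h4

theorem gadK_tp (hγ : γ ∈ Set.Icc (0 : ℝ) 1) (hν : ν ∈ Set.Icc (0 : ℝ) 1) :
    ∑ j, (gadK γ ν j)ᴴ * gadK γ ν j = 1 := by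
  have h1 := sqrt_sq_c (x := 1 - ν) (by linarith [hν.2])
  have h2 := sqrt_sq_c (x := 1 - γ) (by linarith [hγ.2])
  have h3 := sqrt_sq_c (x := ν) hν.1
  have h4 := sqrt_sq_c (x := γ) hγ.1
  push_cast at h1 h2
  ext s t
  rw [Matrix.sum_apply]
  simp only [mul_apply, conjTranspose_apply, Fintype.sum_bool, Fin.sum_univ_four, gadK,
    Matrix.of_apply, one_apply]
  cases s <;> cases t <;> simp
  · linear_combination h1 + (Real.sqrt (1 - γ) * Real.sqrt (1 - γ)) * h3 +
      ν * h2 + (Real.sqrt γ * Real.sqrt γ) * h3 + ν * h4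
  · linear_combination (Real.sqrt (1 - γ) * Real.sqrt (1 - γ)) * h1 +
      (1 - ν) * h2 + (Real.sqrt γ * Real.sqrt γ) * h1 + (1 - ν) * h4 + h3

theorem gad_channel (hγ : γ ∈ Set.Icc (0 : ℝ) 1) (hν : ν ∈ Set.Icc (0 : ℝ) 1) :
    IsChannel (gadMap γ ν) := (gad_hasKraus hγ hν).channel (gadK_tp hγ hν)

theorem qubitPower_gad_channel (hγ : γ ∈ Set.Icc (0 : ℝ) 1) (hν : ν ∈ Set.Icc (0 : ℝ) 1) (n : ℕ) :
    IsChannel (qubitPower n (gadMap γ ν)) :=
  (qubitPower_hasKraus (gad_hasKraus hγ hν) n).channel (powK_tp (gadK_tp hγ hν) n)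

theorem gad_linear (γ ν : ℝ) : IsLinearMap ℂ (gadMap γ ν) := by
  constructor
  · intro x y
    ext s t
    cases s <;> cases t <;> simp [gadMap] <;> ring
  · intro c x
    ext s t
    cases s <;> cases t <;> simp [gadMap] <;> ring

end gad

section tensor

variable {d e : Type*} [Fintype d] [Fintype e] [DecidableEq d] [DecidableEq e]

theorem qubit_expand {Φ : Matrix Bool Bool ℂ → Matrix Bool Bool ℂ} (hΦ : IsLinearMap ℂ Φ)
    (ρ : Matrix Bool Bool ℂ) (s t : Bool) :
    Φ ρ s t = ∑ s', ∑ t', qubitCoeff Φ s t s' t' * ρ s' t' := by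
  have h1 : ρ = ∑ s', ∑ t', ρ s' t' • single s' t' (1 : ℂ) := by
    conv_lhs => rw [matrix_eq_sum_single ρ]
    simp [smul_single]
  let L := IsLinearMap.mk' Φ hΦ
  have h2 : Φ ρ = ∑ s', ∑ t', ρ s' t' • Φ (single s' t' (1 : ℂ)) := by
    conv_lhs => rw [h1]
    have : ∀ x, Φ x = L x := fun x => rfl
    simp only [this, map_sum, map_smul]
  rw [h2, Matrix.sum_apply]
  refine Finset.sum_congr rfl fun s' _ => ?_
  rw [Matrix.sum_apply]
  refine Finset.sum_congr rfl fun t' _ => ?_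
  rw [Matrix.smul_apply, smul_eq_mul, qubitCoeff, mul_comm]

theorem qubitTensor_eq (Φ : Matrix Bool Bool ℂ → Matrix Bool Bool ℂ)
    (Ψ : Matrix d d ℂ → Matrix e e ℂ) (M : Matrix (Bool × d) (Bool × d) ℂ) :
    qubitTensor Φ Ψ M = qubitTensor Φ id (blockwise Ψ M) := by
  ext ⟨s, i⟩ ⟨t, j⟩
  rfl

theorem qubitTensor_id_apply (γ ν : ℝ) (N : Matrix (Bool × e) (Bool × e) ℂ) (s t : Bool) (i j : e) :
    qubitTensor (gadMap γ ν) id N (s, i) (t, j) =
      gadMap γ ν (Matrix.of fun s' t' => N (s', i) (t', j)) s t := by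
  rw [qubit_expand (gad_linear γ ν)]
  rfl

theorem ptr₁_qubitTensor (γ ν : ℝ) (N : Matrix (Bool × e) (Bool × e) ℂ) :
    ptr₁ (qubitTensor (gadMap γ ν) id N) = block N false false + block N true true := by
  ext i j
  simp only [ptr₁, Matrix.of_apply, qubitTensor_id_apply, Fintype.sum_bool, gadMap, block,
    Matrix.add_apply]
  simp
  ring

theorem ptr₂_qubitTensor (γ ν : ℝ) (N : Matrix (Bool × e) (Bool × e) ℂ) :
    ptr₂ (qubitTensor (gadMap γ ν) id N) = gadMap γ ν (ptr₂ N) := by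
  ext s t
  simp only [ptr₂, Matrix.of_apply, qubitTensor_id_apply]
  cases s <;> cases t <;> simp [gadMap, Finset.sum_add_distrib, Finset.mul_sum]

theorem trace_qubitTensor (γ ν : ℝ) (N : Matrix (Bool × e) (Bool × e) ℂ) :
    (qubitTensor (gadMap γ ν) id N).trace = N.trace := by
  rw [← trace_ptr₁, ptr₁_qubitTensor, trace_add]
  simp [trace, Fintype.sum_prod_type, block]
  ring

theorem trace_block (N : Matrix (Bool × e) (Bool × e) ℂ) :
    (block N false false).trace + (block N true true).trace = N.trace := by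
  simp [trace, Fintype.sum_prod_type, block]
  ring

theorem block_posSemidef {N : Matrix (Bool × e) (Bool × e) ℂ} (hN : N.PosSemidef) (s : Bool) :
    (block N s s).PosSemidef := hN.submatrix (fun i => (s, i))

theorem qubitTensor_kraus {J : Type*} [Fintype J] [DecidableEq J] {Φ : Matrix Bool Bool ℂ → Matrix Bool Bool ℂ}
    {K : J → Matrix Bool Bool ℂ} (h : HasKraus Φ K) (N : Matrix (Bool × e) (Bool × e) ℂ) :
    qubitTensor Φ id N = ∑ j, (K j ⊗ₖ (1 : Matrix e e ℂ)) * N * (K j ⊗ₖ (1 : Matrix e e ℂ))ᴴ := by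
  ext ⟨s, i⟩ ⟨t, i'⟩
  rw [qubitTensor, Matrix.of_apply, Matrix.sum_apply]
  simp only [qubitCoeff_kraus h, Finset.sum_mul, block, Matrix.of_apply, id]
  simp only [mul_apply, Fintype.sum_prod_type, conjTranspose_apply, kroneckerMap_apply, star_mul',
    Finset.sum_mul]
  simp only [one_apply, apply_ite star, star_one, star_zero, ite_mul, mul_ite, one_mul, zero_mul,
    mul_zero, mul_one, Finset.sum_ite_irrel, Finset.sum_ite_eq', Finset.sum_ite_eq,
    Finset.mem_univ, if_true, Finset.sum_const_zero]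
  simp only [Fintype.sum_bool, ← Finset.sum_add_distrib]
  refine Finset.sum_congr rfl fun j _ => ?_
  ring

theorem qubitTensor_gad_posSemidef {γ ν : ℝ} (hγ : γ ∈ Set.Icc (0 : ℝ) 1)
    (hν : ν ∈ Set.Icc (0 : ℝ) 1) {N : Matrix (Bool × e) (Bool × e) ℂ} (hN : N.PosSemidef) :
    (qubitTensor (gadMap γ ν) id N).PosSemidef := by
  rw [qubitTensor_kraus (gad_hasKraus hγ hν)]
  exact posSemidef_sum _ fun j _ => hN.mul_mul_conjTranspose_same _

theorem block_kronecker (ρ₁ : Matrix Bool Bool ℂ) (ρ₂ : Matrix d d ℂ) (s t : Bool) :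
    block (ρ₁ ⊗ₖ ρ₂) s t = ρ₁ s t • ρ₂ := by
  ext i j
  simp [block]

theorem qubitTensor_kronecker {Φ : Matrix Bool Bool ℂ → Matrix Bool Bool ℂ}
    {Ψ : Matrix d d ℂ → Matrix e e ℂ} (hΦ : IsLinearMap ℂ Φ) (hΨ : IsLinearMap ℂ Ψ)
    (ρ₁ : Matrix Bool Bool ℂ) (ρ₂ : Matrix d d ℂ) :
    qubitTensor Φ Ψ (ρ₁ ⊗ₖ ρ₂) = Φ ρ₁ ⊗ₖ Ψ ρ₂ := by
  ext ⟨s, i⟩ ⟨t, j⟩
  rw [qubitTensor, Matrix.of_apply, kroneckerMap_apply, qubit_expand hΦ, Finset.sum_mul]
  refine Finset.sum_congr rfl fun s' _ => ?_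
  rw [Finset.sum_mul]
  refine Finset.sum_congr rfl fun t' _ => ?_
  rw [block_kronecker, hΨ.map_smul, Matrix.smul_apply, smul_eq_mul]
  ring

end tensor

section pure

/-- The pure qubit state with excited population `p` and real coherence of sign `σ`. -/
noncomputable def pureSt (p σ : ℝ) : Matrix Bool Bool ℂ :=
  vecMulVec (fun s => if s then ((σ * Real.sqrt p : ℝ) : ℂ) else ((Real.sqrt (1 - p) : ℝ) : ℂ))
    (star fun s => if s then ((σ * Real.sqrt p : ℝ) : ℂ) else ((Real.sqrt (1 - p) : ℝ) : ℂ))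

theorem pureSt_density {p σ : ℝ} (hp : p ∈ Set.Icc (0 : ℝ) 1) (hσ : σ ^ 2 = 1) :
    IsDensity (pureSt p σ) := by
  refine ⟨posSemidef_vecMulVec_self_star _, ?_⟩
  rw [pureSt, trace, Fintype.sum_bool]
  simp only [diag_apply, vecMulVec_apply, Pi.star_apply]
  simp
  have h1 := sqrt_sq_c (x := 1 - p) (by linarith [hp.2])
  have h2 := sqrt_sq_c (x := p) hp.1
  push_cast at h1
  have h3 : (σ : ℂ) ^ 2 = 1 := by exact_mod_cast hσ
  linear_combination h1 + (σ : ℂ) ^ 2 * h2 + p * h3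

theorem pureSt_ff {p : ℝ} (σ : ℝ) (hp : p ∈ Set.Icc (0 : ℝ) 1) :
    pureSt p σ false false = 1 - p := by
  have h1 := sqrt_sq_c (x := 1 - p) (by linarith [hp.2])
  push_cast at h1
  simp [pureSt, vecMulVec_apply, h1]

theorem pureSt_tt {p σ : ℝ} (hp : p ∈ Set.Icc (0 : ℝ) 1) (hσ : σ ^ 2 = 1) :
    pureSt p σ true true = p := by
  have h2 := sqrt_sq_c (x := p) hp.1
  have h3 : (σ : ℂ) ^ 2 = 1 := by exact_mod_cast hσ
  simp only [pureSt, vecMulVec_apply, Pi.star_apply]
  simp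
  linear_combination (σ : ℂ) ^ 2 * h2 + p * h3

theorem pureSt_ft (p σ : ℝ) :
    pureSt p σ false true = ((σ * (Real.sqrt p * Real.sqrt (1 - p)) : ℝ) : ℂ) := by
  simp only [pureSt, vecMulVec_apply, Pi.star_apply]
  simp
  ring

theorem pureSt_tf (p σ : ℝ) :
    pureSt p σ true false = ((σ * (Real.sqrt p * Real.sqrt (1 - p)) : ℝ) : ℂ) := by
  simp only [pureSt, vecMulVec_apply, Pi.star_apply]
  simp
  ring

theorem pureSt_off {p σ : ℝ} (hp : p ∈ Set.Icc (0 : ℝ) 1) (hσ : σ ^ 2 = 1) :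
    pureSt p σ false true * pureSt p σ true false = p * (1 - p) := by
  have h1 := sqrt_sq_c (x := 1 - p) (by linarith [hp.2])
  have h2 := sqrt_sq_c (x := p) hp.1
  push_cast at h1
  have h3 : (σ : ℂ) ^ 2 = 1 := by exact_mod_cast hσ
  rw [pureSt_ft, pureSt_tf]
  push_cast
  linear_combination (σ : ℂ) ^ 2 * (Real.sqrt (1 - p) * Real.sqrt (1 - p)) * h2 +
    (σ : ℂ) ^ 2 * p * h1 + p * (1 - p) * h3

theorem det_bool (A : Matrix Bool Bool ℂ) : A.det =
    A false false * A true true - A false true * A true false := by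
  rw [← det_submatrix_equiv_self finTwoEquiv, det_fin_two]
  simp [finTwoEquiv]

theorem gad_pure_entropy {γ ν p σ : ℝ} (hγ : γ ∈ Set.Icc (0 : ℝ) 1) (hν : ν ∈ Set.Icc (0 : ℝ) 1)
    (hp : p ∈ Set.Icc (0 : ℝ) 1) (hσ : σ ^ 2 = 1) :
    ent (gadMap γ ν (pureSt p σ)) = Real.binEntropy ((1 + Real.sqrt (1 - 4 * (γ * ν * (1 - ν) +
      γ * (1 - γ) * (p - ν) ^ 2))) / 2) := by
  have hρ := pureSt_density hp hσ
  have hps := (gad_hasKraus hγ hν).posSemidef hρ.1
  have htr : (gadMap γ ν (pureSt p σ)).trace = 1 := by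
    rw [(gad_channel hγ hν).2.2, hρ.2]
  rw [ent_bool hps.1 (by rw [htr]; rfl)]
  have hdet : (gadMap γ ν (pureSt p σ)).det.re = γ * ν * (1 - ν) + γ * (1 - γ) * (p - ν) ^ 2 := by
    have h4 := sqrt_sq_c (x := 1 - γ) (by linarith [hγ.2])
    push_cast at h4
    have h5 : (gadMap γ ν (pureSt p σ)).det =
        ((γ * ν * (1 - ν) + γ * (1 - γ) * (p - ν) ^ 2 : ℝ) : ℂ) := by
      have h6 := pureSt_off hp hσ
      rw [det_bool]
      simp only [gadMap, Matrix.of_apply]
      simp only [pureSt_ff σ hp, pureSt_tt hp hσ]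
      simp
      linear_combination (-(Real.sqrt (1 - γ) * Real.sqrt (1 - γ))) * h6 -
        (p * (1 - p)) * h4
    rw [h5, Complex.ofReal_re]
  rw [hdet]

end pure

end Crest.Agent.Lib.GAD
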