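import Crest.Agent.Lib.GADGlue

/-!
Convexity of the output entropy function `gadG` of the generalized amplitude damping channel
(helper94, row 341).
-/

set_option autoImplicit false
set_option linter.unusedSectionVars false
set_option linter.unusedSimpArgs false

open Matrix Crest.Quantum Crest.MathPhysics.AmpDamp

namespace Crest.Agent.Lib.GAD

theorem arsinh_concave : ConcaveOn ℝ (Set.Ici (0 : ℝ)) Real.arsinh := by
  refine AntitoneOn.concaveOn_of_deriv (convex_Ici 0) Real.continuous_arsinh.continuousOn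
    Real.differentiable_arsinh.differentiableOn ?_
  intro x hx y hy hxy
  rw [interior_Ici, Set.mem_Ioi] at hx hy
  rw [(Real.hasDerivAt_arsinh x).deriv, (Real.hasDerivAt_arsinh y).deriv]
  have h1 : √(1 + x ^ 2) ≤ √(1 + y ^ 2) := Real.sqrt_le_sqrt (by nlinarith)
  have h2 : 0 < √(1 + x ^ 2) := Real.sqrt_pos.2 (by positivity)
  exact inv_anti₀ h2 h1

theorem arsinh_div_antitone {s t : ℝ} (hs : 0 < s) (hst : s ≤ t) :
    Real.arsinh t / t ≤ Real.arsinh s / s := by
  have ht : 0 < t := hs.trans_le hst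
  have h := arsinh_concave.2 (show t ∈ Set.Ici (0 : ℝ) from ht.le)
    (show (0 : ℝ) ∈ Set.Ici (0 : ℝ) by simp) (show 0 ≤ s / t by positivity)
    (show 0 ≤ 1 - s / t by rw [sub_nonneg, div_le_one ht]; exact hst) (by ring)
  simp only [smul_eq_mul, Real.arsinh_zero, mul_zero, add_zero] at h
  rw [div_mul_cancel₀ _ ht.ne'] at h
  rw [le_div_iff₀ hs]
  calc Real.arsinh t / t * s = s / t * Real.arsinh t := by ring
    _ ≤ _ := h

theorem log_eq_arsinh {r : ℝ} (h0 : 0 < r) (h1 : r < 1) :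
    (Real.log (1 + r) - Real.log (1 - r)) / 2 = Real.arsinh (r / √(1 - r ^ 2)) := by
  have hp : 0 < 1 - r ^ 2 := by nlinarith
  have hC : 0 < √(1 - r ^ 2) := Real.sqrt_pos.2 hp
  have hC2 : √(1 - r ^ 2) ^ 2 = 1 - r ^ 2 := Real.sq_sqrt hp.le
  have h2 : √(1 + (r / √(1 - r ^ 2)) ^ 2) = 1 / √(1 - r ^ 2) := by
    rw [Real.sqrt_eq_iff_mul_self_eq (by positivity) (by positivity), div_pow, hC2,
      div_mul_div_comm, one_mul, ← sq, hC2]
    field_simp
    ring
  rw [Real.arsinh, h2, ← add_div, Real.log_div (by positivity) hC.ne', Real.log_sqrt hp.le,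
    show 1 - r ^ 2 = (1 + r) * (1 - r) by ring, Real.log_mul (by positivity) (by linarith)]
  rw [add_comm r 1]
  ring

/-- entropy as a function of the concurrence -/
noncomputable def entC (C : ℝ) : ℝ := Real.binEntropy ((1 + √(1 - C ^ 2)) / 2)

noncomputable def dentC (C : ℝ) : ℝ :=
  Real.arsinh (√(1 - C ^ 2) / C) / (√(1 - C ^ 2) / C)

theorem entC_hasDerivAt {C : ℝ} (h0 : 0 < C) (h1 : C < 1) : HasDerivAt entC (dentC C) C := by
  have hp : 0 < 1 - C ^ 2 := by nlinarith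
  have hr : 0 < √(1 - C ^ 2) := Real.sqrt_pos.2 hp
  have hr2 : √(1 - C ^ 2) ^ 2 = 1 - C ^ 2 := Real.sq_sqrt hp.le
  have hr1 : √(1 - C ^ 2) < 1 := by
    rw [Real.sqrt_lt' one_pos]; nlinarith
  have d1 : HasDerivAt (fun C : ℝ => 1 - C ^ 2) (-(2 * C)) C := by
    have := (hasDerivAt_pow 2 C).const_sub 1
    simpa using this
  have d2 := d1.sqrt hp.ne'
  have d3 : HasDerivAt (fun C : ℝ => (1 + √(1 - C ^ 2)) / 2)
      (-(2 * C) / (2 * √(1 - C ^ 2)) / 2) C := (d2.const_add 1).div_const 2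
  have d4 := (Real.hasDerivAt_binEntropy (p := (1 + √(1 - C ^ 2)) / 2) (by positivity)
    (by linarith)).comp C d3
  have e : (Real.log (1 - (1 + √(1 - C ^ 2)) / 2) - Real.log ((1 + √(1 - C ^ 2)) / 2)) *
      (-(2 * C) / (2 * √(1 - C ^ 2)) / 2) = dentC C := by
    rw [dentC]
    have h3 := log_eq_arsinh hr hr1
    rw [hr2, sub_sub_cancel, Real.sqrt_sq h0.le] at h3
    rw [← h3]
    rw [show 1 - (1 + √(1 - C ^ 2)) / 2 = (1 - √(1 - C ^ 2)) / 2 by ring,
      Real.log_div (by linarith) two_ne_zero, Real.log_div (by positivity) two_ne_zero]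
    field_simp
    ring
  rw [← e]
  exact d4

theorem dentC_mono {C D : ℝ} (h0 : 0 < C) (hCD : C ≤ D) (h1 : D < 1) : dentC C ≤ dentC D := by
  have hD0 : 0 < D := h0.trans_le hCD
  have hpD : 0 < 1 - D ^ 2 := by nlinarith
  have hrD : 0 < √(1 - D ^ 2) := Real.sqrt_pos.2 hpD
  have h2 : √(1 - D ^ 2) ≤ √(1 - C ^ 2) := Real.sqrt_le_sqrt (by nlinarith)
  exact arsinh_div_antitone (by positivity) (div_le_div₀ (Real.sqrt_nonneg _) h2 h0 hCD)

theorem dentC_nonneg {C : ℝ} (h0 : 0 < C) : 0 ≤ dentC C := by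
  have : 0 ≤ √(1 - C ^ 2) / C := by positivity
  exact div_nonneg (Real.arsinh_nonneg_iff.2 this) this

theorem entC_continuous : Continuous entC := by
  unfold entC
  exact Real.binEntropy_continuous.comp (by fun_prop)

theorem entC_convex : ConvexOn ℝ (Set.Icc 0 1) entC := by
  refine MonotoneOn.convexOn_of_deriv (convex_Icc 0 1) entC_continuous.continuousOn ?_ ?_
  · intro x hx
    rw [interior_Icc] at hx
    exact (entC_hasDerivAt hx.1 hx.2).differentiableAt.differentiableWithinAt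
  · intro x hx y hy hxy
    rw [interior_Icc] at hx hy
    rw [(entC_hasDerivAt hx.1 hx.2).deriv, (entC_hasDerivAt hy.1 hy.2).deriv]
    exact dentC_mono hx.1 hxy hy.2

theorem entC_mono : MonotoneOn entC (Set.Icc 0 1) := by
  refine monotoneOn_of_deriv_nonneg (convex_Icc 0 1) entC_continuous.continuousOn ?_ ?_
  · intro x hx
    rw [interior_Icc] at hx
    exact (entC_hasDerivAt hx.1 hx.2).differentiableAt.differentiableWithinAt
  · intro x hx
    rw [interior_Icc] at hx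
    rw [(entC_hasDerivAt hx.1 hx.2).deriv]
    exact dentC_nonneg hx.1

theorem sqrt_quad_convex {A B : ℝ} (hA : 0 ≤ A) (hB : 0 ≤ B) (ν : ℝ) :
    ConvexOn ℝ (Set.Icc (0 : ℝ) 1) (fun p => 2 * √(A + B * (p - ν) ^ 2)) := by
  refine ⟨convex_Icc 0 1, ?_⟩
  intro x _ y _ s t hs ht hst
  simp only [smul_eq_mul]
  set q := x - ν with hq
  set q' := y - ν with hq'
  have e1 : s * x + t * y - ν = s * q + t * q' := by
    rw [hq, hq']; linear_combination ν * hst
  rw [e1]
  have hu : 0 ≤ A + B * q ^ 2 := by positivity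
  have hw : 0 ≤ A + B * q' ^ 2 := by positivity
  have h1 : A + B * q * q' ≤ √(A + B * q ^ 2) * √(A + B * q' ^ 2) := by
    rw [← Real.sqrt_mul hu]
    apply Real.le_sqrt_of_sq_le
    nlinarith [mul_nonneg (mul_nonneg hA hB) (sq_nonneg (q - q'))]
  have h2 : √(A + B * (s * q + t * q') ^ 2) ≤ s * √(A + B * q ^ 2) + t * √(A + B * q' ^ 2) := by
    apply Real.sqrt_le_iff.2
    refine ⟨by positivity, ?_⟩
    have h3 := Real.sq_sqrt hu
    have h4 := Real.sq_sqrt hw
    have h5 := mul_le_mul_of_nonneg_left h1 (mul_nonneg hs ht)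
    have h6 : (s + t) ^ 2 = 1 := by rw [hst]; ring
    have h7 : (s * √(A + B * q ^ 2) + t * √(A + B * q' ^ 2)) ^ 2 =
        s ^ 2 * (A + B * q ^ 2) + t ^ 2 * (A + B * q' ^ 2) +
          2 * (s * t * (√(A + B * q ^ 2) * √(A + B * q' ^ 2))) := by
      rw [← h3, ← h4]; rw [h3, h4]; linear_combination s ^ 2 * h3 + t ^ 2 * h4
    rw [h7]
    have h8 : s ^ 2 * (A + B * q ^ 2) + t ^ 2 * (A + B * q' ^ 2) +
        2 * (s * t * (A + B * q * q')) = A + B * (s * q + t * q') ^ 2 := by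
      linear_combination A * h6
    linarith
  linarith

theorem gadG_convex {γ ν : ℝ} (hγ : γ ∈ Set.Icc (0 : ℝ) 1) (hν : ν ∈ Set.Icc (0 : ℝ) 1) :
    ConvexOn ℝ (Set.Icc 0 1) (gadG γ ν) := by
  obtain ⟨hγ0, hγ1⟩ := hγ
  obtain ⟨hν0, hν1⟩ := hν
  have hA : 0 ≤ γ * ν * (1 - ν) := mul_nonneg (mul_nonneg hγ0 hν0) (by linarith)
  have hB : 0 ≤ γ * (1 - γ) := mul_nonneg hγ0 (by linarith)
  have hC := sqrt_quad_convex hA hB ν
  have hbound : ∀ p ∈ Set.Icc (0 : ℝ) 1,
      4 * (γ * ν * (1 - ν) + γ * (1 - γ) * (p - ν) ^ 2) ≤ 1 := by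
    intro p hp
    have h1 : 0 ≤ (1 - γ) * (p * (1 - p)) :=
      mul_nonneg (by linarith) (mul_nonneg hp.1 (by linarith [hp.2]))
    nlinarith [sq_nonneg (1 - 2 * ((1 - γ) * p + γ * ν))]
  have hmaps : (fun p => 2 * √(γ * ν * (1 - ν) + γ * (1 - γ) * (p - ν) ^ 2)) '' Set.Icc 0 1 ⊆
      Set.Icc (0 : ℝ) 1 := by
    rintro _ ⟨p, hp, rfl⟩
    refine ⟨by positivity, ?_⟩
    have h1 : √(γ * ν * (1 - ν) + γ * (1 - γ) * (p - ν) ^ 2) ≤ 1 / 2 := by
      apply Real.sqrt_le_iff.2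
      refine ⟨by norm_num, ?_⟩
      have := hbound p hp
      norm_num
      linarith
    simp only
    linarith
  have hEq : gadG γ ν = entC ∘ fun p => 2 * √(γ * ν * (1 - ν) + γ * (1 - γ) * (p - ν) ^ 2) := by
    funext p
    have h0 : 0 ≤ γ * ν * (1 - ν) + γ * (1 - γ) * (p - ν) ^ 2 := by positivity
    simp only [gadG, entC, Function.comp]
    rw [mul_pow, Real.sq_sqrt h0]
    norm_num
  rw [hEq]
  have hconvimg : Convex ℝ ((fun p => 2 * √(γ * ν * (1 - ν) + γ * (1 - γ) * (p - ν) ^ 2)) ''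
      Set.Icc 0 1) := by
    have : IsPreconnected ((fun p => 2 * √(γ * ν * (1 - ν) + γ * (1 - γ) * (p - ν) ^ 2)) ''
        Set.Icc (0 : ℝ) 1) := isPreconnected_Icc.image _ (by fun_prop)
    exact this.ordConnected.convex
  exact (entC_convex.subset hmaps hconvimg).comp hC (entC_mono.mono hmaps)

end Crest.Agent.Lib.GAD
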