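import Crest.Agent.Lib.GAD

/-!
Reduction of the additivity statements for the generalized amplitude damping channel to one key
entropy inequality `KI` (helper94, row 341).
-/

set_option autoImplicit false
set_option linter.unusedSectionVars false
set_option linter.unusedSimpArgs false

open Matrix Crest.Quantum Crest.MathPhysics.AmpDamp Crest.Agent.Lib.QEntropy
open scoped ComplexOrder Kronecker

namespace Crest.Agent.Lib.GAD

/-- The output entropy of a pure state with excited population `p`. -/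
noncomputable def gadG (γ ν p : ℝ) : ℝ :=
  Real.binEntropy ((1 + Real.sqrt (1 - 4 * (γ * ν * (1 - ν) + γ * (1 - γ) * (p - ν) ^ 2))) / 2)

/-- The key inequality. -/
def KI (γ ν : ℝ) : Prop :=
  ∀ (e : Type) [Fintype e] [DecidableEq e] (N : Matrix (Bool × e) (Bool × e) ℂ),
    N.PosSemidef → N.trace = 1 →
    gadG γ ν (block N true true).trace.re + ent (block N false false) + ent (block N true true) -
      Real.binEntropy (block N true true).trace.re ≤ ent (qubitTensor (gadMap γ ν) id N)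

section ensembles

variable {d e : Type*} [Fintype d] [Fintype e] [DecidableEq d] [DecidableEq e]

theorem IsEnsemble.congr {ι : Type*} [Fintype ι] (q : ι → ℝ) (ρ : ι → Matrix d d ℂ)
    (h0 : ∀ a, 0 ≤ q a) (h1 : ∑ a, q a = 1) (h2 : ∀ a, IsDensity (ρ a)) :
    IsEnsemble (q ∘ (Fintype.equivFin ι).symm) (ρ ∘ (Fintype.equivFin ι).symm) := by
  refine ⟨fun a => h0 _, ?_, fun a => h2 _⟩
  rw [← h1]
  exact (Fintype.equivFin ι).symm.sum_comp q

theorem holevo_congr {ι : Type*} [Fintype ι] (Φ : Matrix d d ℂ → Matrix e e ℂ) (q : ι → ℝ)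
    (ρ : ι → Matrix d d ℂ) :
    holevoInfo Φ (q ∘ (Fintype.equivFin ι).symm) (ρ ∘ (Fintype.equivFin ι).symm) =
      vnEntropy (∑ a, (q a : ℂ) • Φ (ρ a)) - ∑ a, q a * vnEntropy (Φ (ρ a)) := by
  rw [holevoInfo]
  congr 1
  · congr 1
    exact (Fintype.equivFin ι).symm.sum_comp (fun a => (q a : ℂ) • Φ (ρ a))
  · exact (Fintype.equivFin ι).symm.sum_comp (fun a => q a * vnEntropy (Φ (ρ a)))

theorem density_exists [Nonempty d] : ∃ ρ : Matrix d d ℂ, IsDensity ρ := by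
  obtain ⟨i⟩ := ‹Nonempty d›
  refine ⟨diagonal (Pi.single i (1 : ℂ)), ?_, ?_⟩
  · refine PosSemidef.diagonal ?_
    intro j
    by_cases h : j = i
    · subst h; simp
    · simp [Pi.single_eq_of_ne h]
  · rw [trace_diagonal, Finset.sum_pi_single']
    simp

theorem exists_density_smul [Nonempty d] {B : Matrix d d ℂ} (hB : B.PosSemidef) :
    ∃ ρ : Matrix d d ℂ, IsDensity ρ ∧ B = (B.trace.re : ℂ) • ρ := by
  by_cases h : B.trace.re = 0
  · obtain ⟨ρ, hρ⟩ := density_exists (d := d)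
    refine ⟨ρ, hρ, ?_⟩
    rw [h, eq_zero_of_trace_re hB h]
    simp
  · refine ⟨((B.trace.re⁻¹ : ℝ) : ℂ) • B, ⟨hB.smul ?_, ?_⟩, ?_⟩
    · exact_mod_cast inv_nonneg.2 (trace_re_nonneg hB)
    · have h3 := trace_eq_re hB
      rw [trace_smul, smul_eq_mul]
      generalize B.trace = z at h3 h
      rw [h3, Complex.ofReal_re, ← Complex.ofReal_mul, inv_mul_cancel₀ h, Complex.ofReal_one]
    · rw [smul_smul, ← Complex.ofReal_mul, mul_inv_cancel₀ h, Complex.ofReal_one, one_smul]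

theorem channel_density {Ψ : Matrix d d ℂ → Matrix e e ℂ} (hΨ : IsChannel Ψ) {ρ : Matrix d d ℂ}
    (hρ : IsDensity ρ) : IsDensity (Ψ ρ) :=
  ⟨cp_posSemidef hΨ.2.1 hρ.1, by rw [hΨ.2.2, hρ.2]⟩

theorem linear_sum {Ψ : Matrix d d ℂ → Matrix e e ℂ} (hΨ : IsLinearMap ℂ Ψ) {ι : Type*}
    (t : Finset ι) (c : ι → ℂ) (ρ : ι → Matrix d d ℂ) :
    Ψ (∑ a ∈ t, c a • ρ a) = ∑ a ∈ t, c a • Ψ (ρ a) := by
  let L := IsLinearMap.mk' Ψ hΨ
  have : ∀ x, Ψ x = L x := fun x => rfl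
  simp only [this, map_sum, map_smul]

theorem density_sum {ι : Type*} (t : Finset ι) (q : ι → ℝ) (ρ : ι → Matrix d d ℂ)
    (h0 : ∀ a ∈ t, 0 ≤ q a) (h1 : ∑ a ∈ t, q a = 1) (h2 : ∀ a ∈ t, IsDensity (ρ a)) :
    IsDensity (∑ a ∈ t, (q a : ℂ) • ρ a) := by
  constructor
  · refine posSemidef_sum t fun a ha => (h2 a ha).1.smul ?_
    exact_mod_cast h0 a ha
  · rw [trace_sum]
    have : ∀ a ∈ t, ((q a : ℂ) • ρ a).trace = (q a : ℂ) := by
      intro a ha
      rw [trace_smul, (h2 a ha).2, smul_eq_mul, mul_one]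
    rw [Finset.sum_congr rfl this]
    exact_mod_cast h1

theorem kron_density {ρ : Matrix d d ℂ} {σ : Matrix e e ℂ} (hρ : IsDensity ρ) (hσ : IsDensity σ) :
    IsDensity (ρ ⊗ₖ σ) := by
  refine ⟨?_, by rw [trace_kronecker, hρ.2, hσ.2, one_mul]⟩
  obtain ⟨U, hU, hρU⟩ := spectral' hρ.1.1
  obtain ⟨V, hV, hσV⟩ := spectral' hσ.1.1
  have h1 : ρ ⊗ₖ σ = (U ⊗ₖ V) * diagonal (fun p : d × e =>
      ((hρ.1.1.eigenvalues p.1 * hσ.1.1.eigenvalues p.2 : ℝ) : ℂ)) * (U ⊗ₖ V)ᴴ := by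
    conv_lhs => rw [hρU, hσV]
    rw [mul_kronecker_mul, mul_kronecker_mul, diagonal_kronecker_diagonal, star_eq_conjTranspose,
      star_eq_conjTranspose, conjTranspose_kronecker]
    simp
  rw [h1]
  refine PosSemidef.mul_mul_conjTranspose_same (PosSemidef.diagonal ?_) _
  intro p
  simp only [Pi.zero_apply]
  exact_mod_cast mul_nonneg (hρ.1.eigenvalues_nonneg p.1) (hσ.1.eigenvalues_nonneg p.2)

theorem vn_kron {ρ : Matrix d d ℂ} {σ : Matrix e e ℂ} (hρ : IsDensity ρ) (hσ : IsDensity σ) :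
    vnEntropy (ρ ⊗ₖ σ) = vnEntropy ρ + vnEntropy σ := by
  rw [vnEntropy_eq (kron_density hρ hσ).1.1, vnEntropy_eq hρ.1.1, vnEntropy_eq hσ.1.1,
    ent_kronecker hρ.1.1 hσ.1.1, hρ.2, hσ.2]
  simp

/-- Product ensembles. -/
theorem product_ensemble {Φ : Matrix Bool Bool ℂ → Matrix Bool Bool ℂ} (hΦ : IsChannel Φ)
    {Ψ : Matrix d d ℂ → Matrix e e ℂ} (hΨ : IsChannel Ψ)
    {m₁ : ℕ} {q₁ : Fin m₁ → ℝ} {ρ₁ : Fin m₁ → Matrix Bool Bool ℂ}
    {m₂ : ℕ} {q₂ : Fin m₂ → ℝ} {ρ₂ : Fin m₂ → Matrix d d ℂ} (h₁ : IsEnsemble q₁ ρ₁)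
    (h₂ : IsEnsemble q₂ ρ₂) :
    ∃ (m : ℕ) (q : Fin m → ℝ) (ρ : Fin m → Matrix (Bool × d) (Bool × d) ℂ), IsEnsemble q ρ ∧
      holevoInfo (qubitTensor Φ Ψ) q ρ = holevoInfo Φ q₁ ρ₁ + holevoInfo Ψ q₂ ρ₂ := by
  let ι := Fin m₁ × Fin m₂
  let q : ι → ℝ := fun a => q₁ a.1 * q₂ a.2
  let ρ : ι → Matrix (Bool × d) (Bool × d) ℂ := fun a => ρ₁ a.1 ⊗ₖ ρ₂ a.2
  refine ⟨_, _, _, IsEnsemble.congr q ρ (fun a => mul_nonneg (h₁.1 _) (h₂.1 _)) ?_
    (fun a => kron_density (h₁.2.2 _) (h₂.2.2 _)), ?_⟩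
  · simp only [q, ι, Fintype.sum_prod_type, ← Finset.mul_sum, h₂.2.1, mul_one, h₁.2.1]
  · rw [holevo_congr, holevoInfo, holevoInfo]
    have hout : ∀ a : ι, qubitTensor Φ Ψ (ρ a) = Φ (ρ₁ a.1) ⊗ₖ Ψ (ρ₂ a.2) := fun a =>
      qubitTensor_kronecker hΦ.1 hΨ.1 _ _
    have hd1 : ∀ a, IsDensity (Φ (ρ₁ a)) := fun a => channel_density hΦ (h₁.2.2 a)
    have hd2 : ∀ a, IsDensity (Ψ (ρ₂ a)) := fun a => channel_density hΨ (h₂.2.2 a)
    have hsum : ∑ a : ι, (q a : ℂ) • qubitTensor Φ Ψ (ρ a) =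
        (∑ a, (q₁ a : ℂ) • Φ (ρ₁ a)) ⊗ₖ (∑ a, (q₂ a : ℂ) • Ψ (ρ₂ a)) := by
      ext ⟨s, i⟩ ⟨t, j⟩
      simp only [hout, Matrix.sum_apply, Matrix.smul_apply, kroneckerMap_apply, smul_eq_mul, ι, q,
        Fintype.sum_prod_type, Finset.sum_mul_sum]
      refine Finset.sum_congr rfl fun a _ => Finset.sum_congr rfl fun b _ => ?_
      push_cast
      ring
    rw [hsum, vn_kron (density_sum _ _ _ (fun a _ => h₁.1 a) h₁.2.1 fun a _ => hd1 a)
      (density_sum _ _ _ (fun a _ => h₂.1 a) h₂.2.1 fun a _ => hd2 a)]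
    have hs2 : ∑ a : ι, q a * vnEntropy (qubitTensor Φ Ψ (ρ a)) =
        ∑ a, q₁ a * vnEntropy (Φ (ρ₁ a)) + ∑ a, q₂ a * vnEntropy (Ψ (ρ₂ a)) := by
      simp only [hout, vn_kron (hd1 _) (hd2 _)]
      simp only [ι, q, Fintype.sum_prod_type, mul_add, Finset.sum_add_distrib]
      congr 1
      · refine Finset.sum_congr rfl fun a _ => ?_
        calc ∑ b, q₁ a * q₂ b * vnEntropy (Φ (ρ₁ a))
            = ∑ b, q₂ b * (q₁ a * vnEntropy (Φ (ρ₁ a))) :=
              Finset.sum_congr rfl fun b _ => by ring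
          _ = _ := by rw [← Finset.sum_mul, h₂.2.1, one_mul]
      · rw [Finset.sum_comm]
        refine Finset.sum_congr rfl fun b _ => ?_
        calc ∑ a, q₁ a * q₂ b * vnEntropy (Ψ (ρ₂ b))
            = ∑ a, q₁ a * (q₂ b * vnEntropy (Ψ (ρ₂ b))) :=
              Finset.sum_congr rfl fun a _ => by ring
          _ = _ := by rw [← Finset.sum_mul, h₁.2.1, one_mul]
    rw [hs2]
    ring

/-- The rate function is attained by an ensemble of two pure qubit states. -/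
theorem rate_attained {γ ν : ℝ} (hγ : γ ∈ Set.Icc (0 : ℝ) 1) (hν : ν ∈ Set.Icc (0 : ℝ) 1) {p : ℝ}
    (hp : p ∈ Set.Icc (0 : ℝ) 1) :
    ∃ (q : Fin 2 → ℝ) (ρ : Fin 2 → Matrix Bool Bool ℂ), IsEnsemble q ρ ∧
      holevoInfo (gadMap γ ν) q ρ = gadRate γ ν p := by
  let σ : Fin 2 → ℝ := ![1, -1]
  have hσ : ∀ a, σ a ^ 2 = 1 := by
    intro a; fin_cases a <;> simp [σ]
  refine ⟨fun _ => 1 / 2, fun a => pureSt p (σ a), ⟨fun _ => by norm_num, by norm_num,
    fun a => pureSt_density hp (hσ a)⟩, ?_⟩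
  have hd : ∀ a, IsDensity (gadMap γ ν (pureSt p (σ a))) := fun a =>
    channel_density (gad_channel hγ hν) (pureSt_density hp (hσ a))
  rw [holevoInfo, gadRate]
  have havg : ∑ a : Fin 2, (((1 / 2 : ℝ)) : ℂ) • gadMap γ ν (pureSt p (σ a)) =
      diagonal (fun s => ((if s then (1 - γ) * p + γ * ν else 1 - ((1 - γ) * p + γ * ν) : ℝ) : ℂ)) := by
    have e1 : pureSt p (σ 0) false true + pureSt p (σ 1) false true = 0 := by
      rw [pureSt_ft, pureSt_ft]; simp [σ]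
    have e2 : pureSt p (σ 0) true false + pureSt p (σ 1) true false = 0 := by
      rw [pureSt_tf, pureSt_tf]; simp [σ]
    rw [Fin.sum_univ_two]
    ext s t
    cases s <;> cases t
    · simp [gadMap, pureSt_ff _ hp, pureSt_tt hp (hσ _)]; ring
    · simp [gadMap]
      linear_combination (1 / 2 : ℂ) * (Real.sqrt (1 - γ) : ℂ) * e1
    · simp [gadMap]
      linear_combination (1 / 2 : ℂ) * (Real.sqrt (1 - γ) : ℂ) * e2
    · simp [gadMap, pureSt_ff _ hp, pureSt_tt hp (hσ _)]; ring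
  rw [havg]
  have hH : (diagonal (fun s : Bool =>
      ((if s then (1 - γ) * p + γ * ν else 1 - ((1 - γ) * p + γ * ν) : ℝ) : ℂ))).IsHermitian := by
    rw [← havg]
    exact (density_sum _ _ _ (fun a _ => by norm_num) (by norm_num) fun a _ => hd a).1.1
  rw [vnEntropy_eq hH, ent, spec_diagonal, Fintype.sum_bool]
  simp only [if_true, Bool.false_eq_true, if_false]
  have hS : ∀ a, vnEntropy (gadMap γ ν (pureSt p (σ a))) = Real.binEntropy ((1 + Real.sqrt (1 - 4 *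
      (γ * ν * (1 - ν) + γ * (1 - γ) * (p - ν) ^ 2))) / 2) := fun a => by
    rw [vnEntropy_eq (hd a).1.1, gad_pure_entropy hγ hν hp (hσ a)]
  simp only [hS, Fin.sum_univ_two]
  rw [Real.binEntropy_eq_negMulLog_add_negMulLog_one_sub ((1 - γ) * p + γ * ν)]
  ring

end ensembles

section core

theorem block_blockwise {d e : Type*} [Fintype d] [Fintype e] [DecidableEq d] [DecidableEq e]
    (Ψ : Matrix d d ℂ → Matrix e e ℂ) (M : Matrix (Bool × d) (Bool × d) ℂ) (s t : Bool) :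
    block (blockwise Ψ M) s t = Ψ (block M s t) := rfl

theorem trace_blockwise {d e : Type*} [Fintype d] [Fintype e] [DecidableEq d] [DecidableEq e]
    {Ψ : Matrix d d ℂ → Matrix e e ℂ} (hΨ : IsTracePreserving Ψ)
    (M : Matrix (Bool × d) (Bool × d) ℂ) : (blockwise Ψ M).trace = M.trace := by
  rw [← trace_block, ← trace_block M, block_blockwise, block_blockwise, hΨ, hΨ]

/-- The pointwise consequence of the key inequality. -/
theorem out_entropy_ge {γ ν : ℝ} (hγ : γ ∈ Set.Icc (0 : ℝ) 1) (hν : ν ∈ Set.Icc (0 : ℝ) 1)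
    (hKI : KI γ ν) {d e : Type} [Fintype d] [Fintype e] [DecidableEq d] [DecidableEq e] [Nonempty d]
    {Ψ : Matrix d d ℂ → Matrix e e ℂ} (hΨ : IsChannel Ψ) {M : Matrix (Bool × d) (Bool × d) ℂ}
    (hM : IsDensity M) :
    ∃ (t : Bool → ℝ) (σ : Bool → Matrix d d ℂ), (∀ s, 0 ≤ t s) ∧ t false + t true = 1 ∧
      (∀ s, IsDensity (σ s)) ∧ (∀ s, block M s s = (t s : ℂ) • σ s) ∧
      IsDensity (qubitTensor (gadMap γ ν) Ψ M) ∧
      gadG γ ν (t true) + t false * vnEntropy (Ψ (σ false)) + t true * vnEntropy (Ψ (σ true)) ≤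
        vnEntropy (qubitTensor (gadMap γ ν) Ψ M) ∧
      ptr₁ (qubitTensor (gadMap γ ν) Ψ M) =
        (t false : ℂ) • Ψ (σ false) + (t true : ℂ) • Ψ (σ true) ∧
      ((ptr₂ (qubitTensor (gadMap γ ν) Ψ M)) true true).re = (1 - γ) * t true + γ * ν := by
  have hb : ∀ s, (block M s s).PosSemidef := block_posSemidef hM.1
  choose σ hσ hσ2 using fun s => exists_density_smul (hb s)
  have hsum : (block M false false).trace.re + (block M true true).trace.re = 1 := by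
    rw [← Complex.add_re, trace_block, hM.2, Complex.one_re]
  have hN : (blockwise Ψ M).PosSemidef := cp_blockwise hΨ.2.1 hM.1
  have hNt : (blockwise Ψ M).trace = 1 := by rw [trace_blockwise hΨ.2.2, hM.2]
  have hO : (qubitTensor (gadMap γ ν) Ψ M).PosSemidef := by
    rw [qubitTensor_eq]
    exact qubitTensor_gad_posSemidef hγ hν hN
  have hOt : (qubitTensor (gadMap γ ν) Ψ M).trace = 1 := by
    rw [qubitTensor_eq, trace_qubitTensor, hNt]
  have hbt : ∀ s, block (blockwise Ψ M) s s = ((block M s s).trace.re : ℂ) • Ψ (σ s) := by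
    intro s
    rw [block_blockwise]
    conv_lhs => rw [hσ2 s]
    rw [hΨ.1.map_smul]
  have hd : ∀ s, IsDensity (Ψ (σ s)) := fun s => channel_density hΨ (hσ s)
  have htr : ∀ s, (block (blockwise Ψ M) s s).trace = (block M s s).trace := by
    intro s
    rw [block_blockwise, hΨ.2.2]
  refine ⟨fun s => (block M s s).trace.re, σ, fun s => trace_re_nonneg (hb s), hsum, hσ, hσ2,
    ⟨hO, hOt⟩, ?_, ?_, ?_⟩
  · have h1 := hKI e (blockwise Ψ M) hN hNt
    rw [← qubitTensor_eq, htr, hbt, hbt, ent_smul_density _ (hd false),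
      ent_smul_density _ (hd true)] at h1
    rw [vnEntropy_eq (hd false).1.1, vnEntropy_eq (hd true).1.1, vnEntropy_eq hO.1]
    rw [Real.binEntropy_eq_negMulLog_add_negMulLog_one_sub] at h1
    have h2 : (block M false false).trace.re = 1 - (block M true true).trace.re := by linarith
    rw [← h2] at h1
    linarith
  · rw [qubitTensor_eq, ptr₁_qubitTensor, hbt, hbt]
  · rw [qubitTensor_eq, ptr₂_qubitTensor]
    have e1 : ∀ s, ptr₂ (blockwise Ψ M) s s = ((block M s s).trace.re : ℂ) := by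
      intro s
      have : ptr₂ (blockwise Ψ M) s s = (block (blockwise Ψ M) s s).trace := rfl
      rw [this, htr, ← trace_eq_re (hb s)]
    simp only [gadMap, Matrix.of_apply, e1]
    simp
    have h2 : (block M false false).trace.re = 1 - (block M true true).trace.re := by linarith
    rw [h2]
    ring

theorem core {γ ν : ℝ} (hγ : γ ∈ Set.Icc (0 : ℝ) 1) (hν : ν ∈ Set.Icc (0 : ℝ) 1)
    (hKI : KI γ ν) (hconv : ConvexOn ℝ (Set.Icc 0 1) (gadG γ ν))
    {d e : Type} [Fintype d] [Fintype e] [DecidableEq d] [DecidableEq e] [Nonempty d]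
    {Ψ : Matrix d d ℂ → Matrix e e ℂ} (hΨ : IsChannel Ψ) {m : ℕ} {q : Fin m → ℝ}
    {ρ : Fin m → Matrix (Bool × d) (Bool × d) ℂ} (h : IsEnsemble q ρ) :
    ∃ p ∈ Set.Icc (0 : ℝ) 1, ∃ (m₂ : ℕ) (q₂ : Fin m₂ → ℝ) (ρ₂ : Fin m₂ → Matrix d d ℂ),
      IsEnsemble q₂ ρ₂ ∧
      holevoInfo (qubitTensor (gadMap γ ν) Ψ) q ρ ≤ gadRate γ ν p + holevoInfo Ψ q₂ ρ₂ := by
  choose t σ ht0 ht1 hσ hσ2 hO hent hp1 hp2 using fun a => out_entropy_ge hγ hν hKI hΨ (h.2.2 a)
  let ι := Fin m × Bool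
  let q2 : ι → ℝ := fun a => q a.1 * t a.1 a.2
  let ρ2 : ι → Matrix d d ℂ := fun a => σ a.1 a.2
  have hd : ∀ a s, IsDensity (Ψ (σ a s)) := fun a s => channel_density hΨ (hσ a s)
  have htt : ∀ a, t a true ∈ Set.Icc (0 : ℝ) 1 := fun a =>
    ⟨ht0 a true, by linarith [ht0 a false, ht1 a]⟩
  have hq0 := h.1
  have hq1 := h.2.1
  refine ⟨∑ a, q a * t a true, ⟨Finset.sum_nonneg fun a _ => mul_nonneg (hq0 a) (ht0 a true), ?_⟩,
    _, _, _, IsEnsemble.congr q2 ρ2 (fun a => mul_nonneg (hq0 _) (ht0 _ _)) ?_ (fun a => hσ _ _),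
    ?_⟩
  · calc ∑ a, q a * t a true ≤ ∑ a, q a * 1 :=
        Finset.sum_le_sum fun a _ => mul_le_mul_of_nonneg_left (htt a).2 (hq0 a)
      _ = 1 := by simp [hq1]
  · simp only [ι, q2, Fintype.sum_prod_type, Fintype.sum_bool]
    rw [← hq1]
    refine Finset.sum_congr rfl fun a _ => ?_
    rw [← mul_add, add_comm, ht1, mul_one]
  · rw [holevo_congr, holevoInfo, gadRate]
    set O := ∑ a, (q a : ℂ) • qubitTensor (gadMap γ ν) Ψ (ρ a) with hOdef
    have hOd : IsDensity O := density_sum _ _ _ (fun a _ => hq0 a) hq1 fun a _ => hO a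
    have hsub := vnEntropy_subadditive hOd
    have hptr1 : ptr₁ O = ∑ a : ι, (q2 a : ℂ) • Ψ (ρ2 a) := by
      rw [hOdef, ptr₁_sum]
      simp only [ι, q2, ρ2, Fintype.sum_prod_type, Fintype.sum_bool]
      refine Finset.sum_congr rfl fun a _ => ?_
      rw [ptr₁_smul, hp1, smul_add, smul_smul, smul_smul, add_comm]
      push_cast
      rfl
    have hptr2 : ((ptr₂ O) true true).re = (1 - γ) * (∑ a, q a * t a true) + γ * ν := by
      rw [hOdef, ptr₂_sum, Matrix.sum_apply, Complex.re_sum]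
      calc ∑ a, (ptr₂ ((q a : ℂ) • qubitTensor (gadMap γ ν) Ψ (ρ a)) true true).re
          = ∑ a, (q a * ((1 - γ) * t a true) + q a * (γ * ν)) := by
            refine Finset.sum_congr rfl fun a _ => ?_
            rw [ptr₂_smul, Matrix.smul_apply, smul_eq_mul, Complex.re_ofReal_mul, hp2]
            ring
        _ = _ := by
            rw [Finset.sum_add_distrib, ← Finset.sum_mul, hq1, one_mul, Finset.mul_sum]
            congr 1
            refine Finset.sum_congr rfl fun a _ => ?_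
            ring
    have hptr2d : IsDensity (ptr₂ O) := ⟨ptr₂_posSemidef hOd.1, by rw [trace_ptr₂, hOd.2]⟩
    have hbin := ent_bool_le hptr2d
    rw [← vnEntropy_eq hptr2d.1.1, hptr2] at hbin
    have hg : gadG γ ν (∑ a, q a * t a true) ≤ ∑ a, q a * gadG γ ν (t a true) := by
      have := hconv.map_sum_le (t := Finset.univ) (w := q) (p := fun a => t a true)
        (fun a _ => hq0 a) hq1 (fun a _ => htt a)
      simpa using this
    have hS : ∑ a, q a * gadG γ ν (t a true) + ∑ a : ι, q2 a * vnEntropy (Ψ (ρ2 a)) ≤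
        ∑ a, q a * vnEntropy (qubitTensor (gadMap γ ν) Ψ (ρ a)) := by
      simp only [ι, q2, ρ2, Fintype.sum_prod_type, Fintype.sum_bool]
      rw [← Finset.sum_add_distrib]
      refine Finset.sum_le_sum fun a _ => ?_
      have := mul_le_mul_of_nonneg_left (hent a) (hq0 a)
      linarith
    rw [hptr1] at hsub
    have hgdef : gadG γ ν (∑ a, q a * t a true) = Real.binEntropy ((1 + Real.sqrt (1 - 4 *
      (γ * ν * (1 - ν) + γ * (1 - γ) * ((∑ a, q a * t a true) - ν) ^ 2))) / 2) := rfl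
    rw [← hgdef]
    linarith

end core

section final

theorem S0535_of_KI {γ ν : ℝ} (hγ : γ ∈ Set.Icc (0 : ℝ) 1) (hν : ν ∈ Set.Icc (0 : ℝ) 1)
    (hKI : KI γ ν) (hconv : ConvexOn ℝ (Set.Icc 0 1) (gadG γ ν))
    (d e : Type) [Fintype d] [Fintype e] [DecidableEq d] [DecidableEq e] [Nonempty d] [Nonempty e]
    (Ψ : Matrix d d ℂ → Matrix e e ℂ) (hΨ : IsChannel Ψ) :
    (∀ (m : ℕ) (q : Fin m → ℝ) (ρ : Fin m → Matrix (Bool × d) (Bool × d) ℂ), IsEnsemble q ρ →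
      ∀ ε > (0 : ℝ), ∃ (m₁ : ℕ) (q₁ : Fin m₁ → ℝ) (ρ₁ : Fin m₁ → Matrix Bool Bool ℂ)
        (m₂ : ℕ) (q₂ : Fin m₂ → ℝ) (ρ₂ : Fin m₂ → Matrix d d ℂ),
        IsEnsemble q₁ ρ₁ ∧ IsEnsemble q₂ ρ₂ ∧
          holevoInfo (qubitTensor (gadMap γ ν) Ψ) q ρ ≤
            holevoInfo (gadMap γ ν) q₁ ρ₁ + holevoInfo Ψ q₂ ρ₂ + ε) ∧
    (∀ (m₁ : ℕ) (q₁ : Fin m₁ → ℝ) (ρ₁ : Fin m₁ → Matrix Bool Bool ℂ)
      (m₂ : ℕ) (q₂ : Fin m₂ → ℝ) (ρ₂ : Fin m₂ → Matrix d d ℂ), IsEnsemble q₁ ρ₁ → IsEnsemble q₂ ρ₂ →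
      ∃ (m : ℕ) (q : Fin m → ℝ) (ρ : Fin m → Matrix (Bool × d) (Bool × d) ℂ), IsEnsemble q ρ ∧
        holevoInfo (gadMap γ ν) q₁ ρ₁ + holevoInfo Ψ q₂ ρ₂ ≤
          holevoInfo (qubitTensor (gadMap γ ν) Ψ) q ρ) ∧
    (∀ ρ : Matrix (Bool × d) (Bool × d) ℂ, IsDensity ρ → ∀ ε > (0 : ℝ),
      ∃ (ρ₁ : Matrix Bool Bool ℂ) (ρ₂ : Matrix d d ℂ), IsDensity ρ₁ ∧ IsDensity ρ₂ ∧
        vnEntropy (gadMap γ ν ρ₁) + vnEntropy (Ψ ρ₂) ≤ vnEntropy (qubitTensor (gadMap γ ν) Ψ ρ) + ε) ∧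
    (∀ (ρ₁ : Matrix Bool Bool ℂ) (ρ₂ : Matrix d d ℂ), IsDensity ρ₁ → IsDensity ρ₂ →
      ∃ ρ : Matrix (Bool × d) (Bool × d) ℂ, IsDensity ρ ∧
        vnEntropy (qubitTensor (gadMap γ ν) Ψ ρ) ≤ vnEntropy (gadMap γ ν ρ₁) + vnEntropy (Ψ ρ₂)) := by
  have hgad := gad_channel hγ hν
  refine ⟨?_, ?_, ?_, ?_⟩
  · intro m q ρ h ε hε
    obtain ⟨p, hp, m₂, q₂, ρ₂, h2, hle⟩ := core hγ hν hKI hconv hΨ h
    obtain ⟨q₁, ρ₁, h1, heq⟩ := rate_attained hγ hν hp
    exact ⟨2, q₁, ρ₁, m₂, q₂, ρ₂, h1, h2, by rw [heq]; linarith⟩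
  · intro m₁ q₁ ρ₁ m₂ q₂ ρ₂ h1 h2
    obtain ⟨m, q, ρ, h, heq⟩ := product_ensemble hgad hΨ h1 h2
    exact ⟨m, q, ρ, h, heq.ge⟩
  · intro ρ hρ ε hε
    obtain ⟨t, σ, ht0, ht1, hσ, -, -, hent, -, -⟩ := out_entropy_ge hγ hν hKI hΨ hρ
    have htt : t true ∈ Set.Icc (0 : ℝ) 1 := ⟨ht0 true, by linarith [ht0 false]⟩
    have hps := pureSt_density htt (σ := 1) (by norm_num)
    have hpe : vnEntropy (gadMap γ ν (pureSt (t true) 1)) = gadG γ ν (t true) := by
      rw [vnEntropy_eq (channel_density hgad hps).1.1, gad_pure_entropy hγ hν htt (by norm_num)]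
      rfl
    rcases le_total (vnEntropy (Ψ (σ false))) (vnEntropy (Ψ (σ true))) with hle | hle
    · refine ⟨pureSt (t true) 1, σ false, hps, hσ false, ?_⟩
      have h1 := mul_le_mul_of_nonneg_left hle (ht0 true)
      have h2 : vnEntropy (Ψ (σ false)) =
          t false * vnEntropy (Ψ (σ false)) + t true * vnEntropy (Ψ (σ false)) := by
        rw [← add_mul, ht1, one_mul]
      rw [hpe, h2]
      linarith
    · refine ⟨pureSt (t true) 1, σ true, hps, hσ true, ?_⟩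
      have h1 := mul_le_mul_of_nonneg_left hle (ht0 false)
      have h2 : vnEntropy (Ψ (σ true)) =
          t false * vnEntropy (Ψ (σ true)) + t true * vnEntropy (Ψ (σ true)) := by
        rw [← add_mul, ht1, one_mul]
      rw [hpe, h2]
      linarith
  · intro ρ₁ ρ₂ h1 h2
    refine ⟨ρ₁ ⊗ₖ ρ₂, kron_density h1 h2, ?_⟩
    rw [qubitTensor_kronecker hgad.1 hΨ.1, vn_kron (channel_density hgad h1) (channel_density hΨ h2)]

theorem holevo_submatrix {d d' : Type} [Fintype d] [DecidableEq d] [Fintype d'] [DecidableEq d']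
    (E : d' ≃ d) (Φ : Matrix d d ℂ → Matrix d d ℂ) (Φ' : Matrix d' d' ℂ → Matrix d' d' ℂ)
    (h : ∀ M, (Φ M).submatrix E E = Φ' (M.submatrix E E)) {m : ℕ} (q : Fin m → ℝ)
    (ρ : Fin m → Matrix d d ℂ) (hH : ∀ a, (Φ (ρ a)).IsHermitian) :
    holevoInfo Φ q ρ = holevoInfo Φ' q (fun a => (ρ a).submatrix E E) := by
  have hsum : (∑ a, (q a : ℂ) • Φ (ρ a)).IsHermitian := by
    rw [IsHermitian, conjTranspose_sum]
    refine Finset.sum_congr rfl fun a _ => ?_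
    rw [conjTranspose_smul, (hH a).eq]
    simp
  have e1 : vnEntropy (∑ a, (q a : ℂ) • Φ (ρ a)) =
      vnEntropy (∑ a, (q a : ℂ) • Φ' ((ρ a).submatrix E E)) := by
    have h2 : ∑ a, (q a : ℂ) • Φ' ((ρ a).submatrix E E) =
        (∑ a, (q a : ℂ) • Φ (ρ a)).submatrix E E := by
      ext i j
      simp only [← h, Matrix.sum_apply, Matrix.smul_apply, submatrix_apply]
    rw [h2, vnEntropy_eq hsum, vnEntropy_eq (hsum.submatrix E), ent, ent, spec_submatrix]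
  rw [holevoInfo, holevoInfo, e1]
  congr 1
  refine Finset.sum_congr rfl fun a _ => ?_
  rw [← h, vnEntropy_eq (hH a), vnEntropy_eq ((hH a).submatrix E), ent, ent, spec_submatrix]

theorem IsEnsemble.submatrix {d d' : Type} [Fintype d] [DecidableEq d] [Fintype d']
    [DecidableEq d'] (E : d' ≃ d) {m : ℕ} {q : Fin m → ℝ}
    {ρ : Fin m → Matrix d d ℂ} (h : IsEnsemble q ρ) :
    IsEnsemble q (fun a => (ρ a).submatrix E E) := by
  refine ⟨h.1, h.2.1, fun a => ⟨(h.2.2 a).1.submatrix _, ?_⟩⟩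
  rw [← (h.2.2 a).2]
  simp only [trace, diag_apply, submatrix_apply]
  exact E.sum_comp (fun i => ρ a i i)

theorem S0534_upper {γ ν : ℝ} (hγ : γ ∈ Set.Icc (0 : ℝ) 1) (hν : ν ∈ Set.Icc (0 : ℝ) 1)
    (hKI : KI γ ν) (hconv : ConvexOn ℝ (Set.Icc 0 1) (gadG γ ν)) (n : ℕ) :
    ∀ (m : ℕ) (q : Fin m → ℝ) (ρ : Fin m → Matrix (Fin n → Bool) (Fin n → Bool) ℂ),
        IsEnsemble q ρ → ∃ p ∈ Set.Icc (0 : ℝ) 1,
          holevoInfo (qubitPower n (gadMap γ ν)) q ρ ≤ n * gadRate γ ν p := by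
  induction n with
  | zero =>
    intro m q ρ h
    refine ⟨0, ⟨le_refl _, zero_le_one⟩, ?_⟩
    have hch := qubitPower_gad_channel hγ hν 0
    have hz : ∀ A : Matrix (Fin 0 → Bool) (Fin 0 → Bool) ℂ, IsDensity A → vnEntropy A = 0 := by
      intro A hA
      have hA1 : A = diagonal (fun _ => ((1 : ℝ) : ℂ)) := by
        ext i j
        have h2 := hA.2
        rw [trace, Fintype.sum_unique, diag_apply] at h2
        rw [diagonal_apply, if_pos (Subsingleton.elim i j), Complex.ofReal_one, ← h2]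
        exact congrArg₂ A (Subsingleton.elim _ _) (Subsingleton.elim _ _)
      rw [vnEntropy_eq hA.1.1, hA1, ent, spec_diagonal]
      simp
    rw [holevoInfo, hz _ (density_sum _ _ _ (fun a _ => h.1 a) h.2.1
      fun a _ => channel_density hch (h.2.2 a))]
    simp [fun a => hz _ (channel_density hch (h.2.2 a))]
  | succ n ih =>
    intro m q ρ h
    have hch := qubitPower_gad_channel hγ hν (n + 1)
    have hch' := qubitPower_gad_channel hγ hν n
    rw [holevo_submatrix (Fin.consEquiv fun _ => Bool) (qubitPower (n + 1) (gadMap γ ν))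
      (qubitTensor (gadMap γ ν) (qubitPower n (gadMap γ ν))) (qubitPower_succ _ n) q ρ
      (fun a => (channel_density hch (h.2.2 a)).1.1)]
    obtain ⟨p, hp, m₂, q₂, ρ₂, h2, hle⟩ := core hγ hν hKI hconv hch'
      (IsEnsemble.submatrix (Fin.consEquiv fun _ => Bool) h)
    obtain ⟨p', hp', hle'⟩ := ih m₂ q₂ ρ₂ h2
    push_cast
    rcases le_total (gadRate γ ν p) (gadRate γ ν p') with hpp | hpp
    · refine ⟨p', hp', ?_⟩
      nlinarith
    · refine ⟨p, hp, ?_⟩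
      have : (n : ℝ) * gadRate γ ν p' ≤ n * gadRate γ ν p :=
        mul_le_mul_of_nonneg_left hpp (Nat.cast_nonneg n)
      nlinarith

theorem S0534_lower {γ ν : ℝ} (hγ : γ ∈ Set.Icc (0 : ℝ) 1) (hν : ν ∈ Set.Icc (0 : ℝ) 1)
    (n : ℕ) {p : ℝ} (hp : p ∈ Set.Icc (0 : ℝ) 1) :
    ∃ (m : ℕ) (q : Fin m → ℝ) (ρ : Fin m → Matrix (Fin n → Bool) (Fin n → Bool) ℂ),
        IsEnsemble q ρ ∧ n * gadRate γ ν p ≤ holevoInfo (qubitPower n (gadMap γ ν)) q ρ := by
  induction n with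
  | zero =>
    have hch := qubitPower_gad_channel hγ hν 0
    obtain ⟨ρ, hρ⟩ := density_exists (d := Fin 0 → Bool)
    refine ⟨1, fun _ => 1, fun _ => ρ, ⟨fun _ => zero_le_one, by simp, fun _ => hρ⟩, ?_⟩
    rw [holevoInfo]
    simp
  | succ n ih =>
    obtain ⟨m₂, q₂, ρ₂, h2, hle⟩ := ih
    obtain ⟨q₁, ρ₁, h1, heq⟩ := rate_attained hγ hν hp
    have hch := qubitPower_gad_channel hγ hν (n + 1)
    have hch' := qubitPower_gad_channel hγ hν n
    obtain ⟨m, q, ρ, h, heq'⟩ := product_ensemble (gad_channel hγ hν) hch' h1 h2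
    have h3 := IsEnsemble.submatrix (Fin.consEquiv fun _ : Fin (n + 1) => Bool).symm h
    refine ⟨m, q, fun a => (ρ a).submatrix (Fin.consEquiv fun _ : Fin (n + 1) => Bool).symm
      (Fin.consEquiv fun _ : Fin (n + 1) => Bool).symm, h3, ?_⟩
    rw [holevo_submatrix (Fin.consEquiv fun _ => Bool) (qubitPower (n + 1) (gadMap γ ν))
      (qubitTensor (gadMap γ ν) (qubitPower n (gadMap γ ν))) (qubitPower_succ _ n) q _
      (fun a => (channel_density hch (h3.2.2 a)).1.1)]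
    have h4 : (fun a => ((ρ a).submatrix (Fin.consEquiv fun _ : Fin (n + 1) => Bool).symm
        (Fin.consEquiv fun _ : Fin (n + 1) => Bool).symm).submatrix
        (Fin.consEquiv fun _ : Fin (n + 1) => Bool) (Fin.consEquiv fun _ : Fin (n + 1) => Bool)) =
        ρ := by
      funext a
      ext i j
      simp
    rw [h4, heq', heq]
    push_cast
    linarith

end final

end Crest.Agent.Lib.GAD
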