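import Crest.Agent.Lib.ThreeBlock
import Crest.Agent.Lib.GADGlue

/-!
Proof of the key inequality `KI` for the generalized amplitude damping channel (helper94, row 341).
-/

set_option autoImplicit false
set_option linter.unusedSectionVars false
set_option linter.unusedSimpArgs false

open Matrix Crest.Quantum Crest.MathPhysics.AmpDamp Crest.Agent.Lib.QEntropy
  Crest.Agent.Lib.EntScalar Crest.Agent.Lib.ThreeBlock
open scoped ComplexOrder Kronecker

namespace Crest.Agent.Lib.GAD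

section types

variable {e : Type*} [Fintype e] [DecidableEq e]

/-- The `s`-rows of a square root factor. -/
def rows (S : Matrix (Bool × e) (Bool × e) ℂ) (s : Bool) : Matrix e (Bool × e) ℂ :=
  Matrix.of fun i k => star (S k (s, i))

theorem rows_mul (S : Matrix (Bool × e) (Bool × e) ℂ) (s t : Bool) :
    rows S s * (rows S t)ᴴ = block (Sᴴ * S) s t := by
  ext i j
  simp only [rows, block, mul_apply, conjTranspose_apply, of_apply, star_star]

def padJ (e : Type*) [DecidableEq e] : Matrix (Bool × e) e ℂ :=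
  Matrix.of fun k i => if k = (false, i) then 1 else 0

theorem padJ_iso : (padJ e)ᴴ * padJ e = 1 := by
  ext i j
  simp only [padJ, mul_apply, conjTranspose_apply, of_apply, one_apply]
  rw [Fintype.sum_prod_type, Fintype.sum_bool]
  simp [Prod.ext_iff, eq_comm]

theorem ent_smul' {A : Matrix e e ℂ} (hA : A.PosSemidef) (t : ℝ) :
    ent ((t : ℂ) • A) = t * (ent A - Real.negMulLog A.trace.re) +
      Real.negMulLog (t * A.trace.re) := by
  rw [ent_smul t hA.1, Real.negMulLog_mul]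
  ring

theorem smul_factor {p : ℝ} (hp : 0 ≤ p) (A B : Matrix e (Bool × e) ℂ) :
    (((√p : ℝ) : ℂ) • A) * (((√p : ℝ) : ℂ) • B)ᴴ = (p : ℂ) • (A * Bᴴ) := by
  rw [conjTranspose_smul, Matrix.smul_mul, Matrix.mul_smul, smul_smul]
  congr 1
  rw [Complex.star_def, Complex.conj_ofReal, ← Complex.ofReal_mul, Real.mul_self_sqrt hp]

theorem smul_factor' {p r c : ℝ} (hp : 0 ≤ p) (hc : 0 ≤ c) (h : p * r = c ^ 2)
    (A B : Matrix e (Bool × e) ℂ) :
    (((√p : ℝ) : ℂ) • A) * (((√r : ℝ) : ℂ) • B)ᴴ = (c : ℂ) • (A * Bᴴ) := by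
  rw [conjTranspose_smul, Matrix.smul_mul, Matrix.mul_smul, smul_smul]
  congr 1
  rw [Complex.star_def, Complex.conj_ofReal, ← Complex.ofReal_mul, ← Real.sqrt_mul hp, h,
    Real.sqrt_sq hc]

theorem re_trace_smul (t : ℝ) (A : Matrix e e ℂ) : ((t : ℂ) • A).trace.re = t * A.trace.re := by
  rw [trace_smul, smul_eq_mul, Complex.re_ofReal_mul]

/-- General form: factors `A0, A1`, `pr = c²`. -/
theorem type_gen (A0 A1 : Matrix e (Bool × e) ℂ) {Z : Matrix e e ℂ} (hZ : Z = A1 * A1ᴴ)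
    {p q r c : ℝ} (hp : 0 ≤ p) (hq : 0 ≤ q) (hr : 0 ≤ r) (hc : 0 ≤ c) (h : p * r = c ^ 2) :
    p * (ent (A0 * A0ᴴ) - Real.negMulLog (A0 * A0ᴴ).trace.re) +
      (q + r) * (ent Z - Real.negMulLog Z.trace.re) +
      entm (p * (A0 * A0ᴴ).trace.re) (q * Z.trace.re) (r * Z.trace.re) ≤
    ent (fromBlocks ((p : ℂ) • (A0 * A0ᴴ) + (q : ℂ) • Z) ((c : ℂ) • (A0 * A1ᴴ))
      ((c : ℂ) • (A1 * A0ᴴ)) ((r : ℂ) • Z)) := by
  have hX : (A0 * A0ᴴ).PosSemidef := posSemidef_self_mul_conjTranspose A0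
  have hZ' : Z.PosSemidef := hZ ▸ posSemidef_self_mul_conjTranspose A1
  have hQ : ((q : ℂ) • Z).PosSemidef := hZ'.smul (by exact_mod_cast hq)
  have h1 := three_rect (padJ_iso (e := e)) (((√p : ℝ) : ℂ) • A0) (((√r : ℝ) : ℂ) • A1) hQ
  rw [smul_factor hp, smul_factor hr, smul_factor' hp hc h,
    smul_factor' hr hc (by rw [mul_comm]; exact h), ← hZ, ent_smul' hX, ent_smul' hZ',
    ent_smul' hZ', re_trace_smul, re_trace_smul, re_trace_smul, G3] at h1
  linarith

theorem type_psd (A0 A1 : Matrix e (Bool × e) ℂ)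
    {p q r c : ℝ} (hp : 0 ≤ p) (hq : 0 ≤ q) (hr : 0 ≤ r) (hc : 0 ≤ c) (h : p * r = c ^ 2) :
    (fromBlocks ((p : ℂ) • (A0 * A0ᴴ) + (q : ℂ) • (A1 * A1ᴴ)) ((c : ℂ) • (A0 * A1ᴴ))
      ((c : ℂ) • (A1 * A0ᴴ)) ((r : ℂ) • (A1 * A1ᴴ))).PosSemidef := by
  have hZ' : (A1 * A1ᴴ).PosSemidef := posSemidef_self_mul_conjTranspose A1
  have hQ : ((q : ℂ) • (A1 * A1ᴴ)).PosSemidef := hZ'.smul (by exact_mod_cast hq)
  have h1 := three_posSemidef (((√p : ℝ) : ℂ) • A0) (((√r : ℝ) : ℂ) • A1) hQ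
  rwa [smul_factor hp, smul_factor hr, smul_factor' hp hc h,
    smul_factor' hr hc (by rw [mul_comm]; exact h)] at h1

theorem psd_swap {P B B' S : Matrix e e ℂ} (h : (fromBlocks P B B' S).PosSemidef) :
    (fromBlocks S B' B P).PosSemidef := by
  rw [← fromBlocks_submatrix_sum_swap_sum_swap P B B' S]
  exact h.submatrix _

/-- swapping the two blocks does not change the entropy -/
theorem ent_swap (P B B' S : Matrix e e ℂ) : ent (fromBlocks P B B' S) =
    ent (fromBlocks S B' B P) := by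
  rw [← fromBlocks_submatrix_sum_swap_sum_swap P B B' S, ent, ent,
    ← spec_submatrix Real.negMulLog (fromBlocks P B B' S) (Equiv.sumComm e e)]
  rfl

/-- entropy of the two level matrix -/
theorem entm_eq {p q r v : ℝ} (hs : p + q + r = 1) (hv : q * r = v) :
    entm p q r = Real.binEntropy ((1 + √(1 - 4 * v)) / 2) := by
  have h1 : (p + q + r) ^ 2 - 4 * q * r = 1 - 4 * v := by rw [hs, ← hv]; ring
  rw [entm, lamP, lamM, h1, hs, Real.binEntropy_eq_negMulLog_add_negMulLog_one_sub]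
  congr 2
  ring

theorem ent_mix {M1 M2 : Matrix (e ⊕ e) (e ⊕ e) ℂ} (h1 : M1.PosSemidef) (h2 : M2.PosSemidef)
    {s t : ℝ} (hs : 0 ≤ s) (ht : 0 ≤ t) (hst : s + t = 1) :
    s * ent M1 + t * ent M2 ≤ ent ((s : ℂ) • M1 + (t : ℂ) • M2) := by
  have := ent_concave (ι := Bool) Finset.univ (fun i => cond i s t) (fun i => cond i M1 M2)
    (by rintro (_ | _) _ <;> simpa) (by simpa using hst) (by rintro (_ | _) _ <;> simpa)
  simpa using this

theorem mix_eq (X Z Y Y' : Matrix e e ℂ) {s t p1 q1 r1 p2 q2 r2 a b c d f : ℝ}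
    (hst : s + t = 1) (e1 : s * p1 + t * r2 = a) (e2 : s * q1 = b) (e3 : t * q2 = d)
    (e4 : s * r1 + t * p2 = f) :
    (s : ℂ) • fromBlocks ((p1 : ℂ) • X + (q1 : ℂ) • Z) ((c : ℂ) • Y) ((c : ℂ) • Y')
      ((r1 : ℂ) • Z) + (t : ℂ) • fromBlocks ((r2 : ℂ) • X) ((c : ℂ) • Y) ((c : ℂ) • Y')
      ((p2 : ℂ) • Z + (q2 : ℂ) • X) =
    fromBlocks ((a : ℂ) • X + (b : ℂ) • Z) ((c : ℂ) • Y) ((c : ℂ) • Y')
      ((d : ℂ) • X + (f : ℂ) • Z) := by
  rw [fromBlocks_smul, fromBlocks_smul, fromBlocks_add, ← e1, ← e2, ← e3, ← e4]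
  have hs : (s : ℂ) = 1 - t := by
    rw [eq_sub_iff_add_eq]; exact_mod_cast hst
  congr 1
  · push_cast; module
  · rw [hs]; module
  · rw [hs]; module
  · push_cast; module

theorem ki_scalar {a b c d f x z m0 m1 v : ℝ} (haf : a * f = c ^ 2 + b * d)
    (hv : v = a * d * x ^ 2 + 2 * (b * d) * (x * z) + b * f * z ^ 2)
    (hm0 : m0 = a * x + b * z) (hm1 : m1 = d * x + f * z)
    (hx : x ≠ 0) (hz : z ≠ 0) (h0 : m0 ≠ 0) (h1 : m1 ≠ 0) (hv0 : v ≠ 0) :
    b * z * m1 / v + d * x * m0 / v = 1 ∧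
    b * z * m1 / v * (c ^ 2 * z / m1) + d * x * m0 / v * (m0 / x) = a ∧
    b * z * m1 / v * (v / (m1 * z)) = b ∧
    d * x * m0 / v * (v / (m0 * x)) = d ∧
    b * z * m1 / v * (m1 / z) + d * x * m0 / v * (c ^ 2 * x / m0) = f := by
  refine ⟨?_, ?_, ?_, ?_, ?_⟩
  · rw [← add_div, div_eq_one_iff_eq hv0, hv, hm0, hm1]; ring
  · have e1 : b * z * m1 / v * (c ^ 2 * z / m1) + d * x * m0 / v * (m0 / x) =
      (b * c ^ 2 * z ^ 2 + d * m0 ^ 2) / v := by field_simp
    rw [e1, div_eq_iff hv0, hv, hm0]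
    linear_combination (-(b * z ^ 2)) * haf
  · field_simp
  · field_simp
  · have e1 : b * z * m1 / v * (m1 / z) + d * x * m0 / v * (c ^ 2 * x / m0) =
      (b * m1 ^ 2 + d * c ^ 2 * x ^ 2) / v := by field_simp
    rw [e1, div_eq_iff hv0, hv, hm1]
    linear_combination (-(d * x ^ 2)) * haf

theorem ki_arith {s t p1 q1 r1 p2 q2 r2 a b d f g ξ ζ I II : ℝ} (hs : 0 ≤ s) (ht : 0 ≤ t)
    (hst : s + t = 1) (e1 : s * p1 + t * r2 = a) (e2 : s * q1 = b) (e3 : t * q2 = d)
    (e4 : s * r1 + t * p2 = f) (had : a + d = 1) (hbf : b + f = 1)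
    (hI : p1 * ξ + (q1 + r1) * ζ + g ≤ I) (hII : p2 * ζ + (q2 + r2) * ξ + g ≤ II) :
    g + ξ + ζ ≤ s * I + t * II := by
  have h1 := mul_le_mul_of_nonneg_left hI hs
  have h2 := mul_le_mul_of_nonneg_left hII ht
  have h3 : s * (p1 * ξ + (q1 + r1) * ζ + g) + t * (p2 * ζ + (q2 + r2) * ξ + g) = g + ξ + ζ := by
    linear_combination ξ * e1 + ζ * e2 + ξ * e3 + ζ * e4 + g * hst + ξ * had + ζ * hbf
  linarith

end types

section main

variable {e : Type*} [Fintype e] [DecidableEq e]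

/-- the output as a two by two block matrix -/
noncomputable def outM (γ ν : ℝ) (X Y Y' Z : Matrix e e ℂ) : Matrix (e ⊕ e) (e ⊕ e) ℂ :=
  fromBlocks (((1 - γ * ν : ℝ) : ℂ) • X + ((γ * (1 - ν) : ℝ) : ℂ) • Z)
    (((√(1 - γ) : ℝ) : ℂ) • Y) (((√(1 - γ) : ℝ) : ℂ) • Y')
    (((γ * ν : ℝ) : ℂ) • X + ((1 - γ + γ * ν : ℝ) : ℂ) • Z)

theorem ent_out (γ ν : ℝ) (N : Matrix (Bool × e) (Bool × e) ℂ) :
    ent (qubitTensor (gadMap γ ν) id N) = ent (outM γ ν (block N false false)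
      (block N false true) (block N true false) (block N true true)) := by
  rw [ent, ent, ← spec_submatrix Real.negMulLog (outM γ ν (block N false false)
      (block N false true) (block N true false) (block N true true)) (Equiv.boolProdEquivSum e)]
  congr 1
  ext ⟨s, i⟩ ⟨t, j⟩
  rw [qubitTensor_id_apply]
  cases s <;> cases t <;> simp [gadMap, outM, block, Equiv.boolProdEquivSum]


set_option maxHeartbeats 1000000 in
theorem ki_core {γ ν : ℝ} (hγ : γ ∈ Set.Icc (0 : ℝ) 1) (hν : ν ∈ Set.Icc (0 : ℝ) 1)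
    (A0 A1 : Matrix e (Bool × e) ℂ) {X Z : Matrix e e ℂ} (hX : X = A0 * A0ᴴ) (hZ : Z = A1 * A1ᴴ)
    (hxz : X.trace.re + Z.trace.re = 1) :
    gadG γ ν Z.trace.re + (ent X - Real.negMulLog X.trace.re) +
      (ent Z - Real.negMulLog Z.trace.re) ≤ ent (outM γ ν X (A0 * A1ᴴ) (A1 * A0ᴴ) Z) := by
  have hXp : X.PosSemidef := hX ▸ posSemidef_self_mul_conjTranspose A0
  have hZp : Z.PosSemidef := hZ ▸ posSemidef_self_mul_conjTranspose A1
  have hx0 : 0 ≤ X.trace.re := trace_re_nonneg hXp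
  have hz0 : 0 ≤ Z.trace.re := trace_re_nonneg hZp
  set x := X.trace.re with hx
  set z := Z.trace.re with hz
  obtain ⟨hγ0, hγ1⟩ := hγ
  obtain ⟨hν0, hν1⟩ := hν
  set a : ℝ := 1 - γ * ν with ha
  set b : ℝ := γ * (1 - ν) with hb
  set d : ℝ := γ * ν with hd
  set f : ℝ := 1 - γ + γ * ν with hf
  set c : ℝ := √(1 - γ) with hc
  have hc0 : 0 ≤ c := Real.sqrt_nonneg _
  have hc2 : c ^ 2 = 1 - γ := Real.sq_sqrt (by linarith)
  have ha0 : 0 ≤ a := by rw [ha]; nlinarith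
  have hb0 : 0 ≤ b := mul_nonneg hγ0 (by linarith)
  have hd0 : 0 ≤ d := mul_nonneg hγ0 hν0
  have hf0 : 0 ≤ f := by rw [hf]; nlinarith
  have had : a + d = 1 := by rw [ha, hd]; ring
  have hbf : b + f = 1 := by rw [hb, hf]; ring
  have haf : a * f = c ^ 2 + b * d := by rw [hc2, ha, hf, hb, hd]; ring
  set v : ℝ := γ * ν * (1 - ν) + γ * (1 - γ) * (z - ν) ^ 2 with hv
  have hx1 : x = 1 - z := by linarith
  have hv' : v = a * d * x ^ 2 + 2 * (b * d) * (x * z) + b * f * z ^ 2 := by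
    rw [hv, hx1, ha, hd, hb, hf]; ring
  have hG : gadG γ ν z = Real.binEntropy ((1 + √(1 - 4 * v)) / 2) := rfl
  have hout : outM γ ν X (A0 * A1ᴴ) (A1 * A0ᴴ) Z =
      fromBlocks ((a : ℂ) • X + (b : ℂ) • Z) ((c : ℂ) • (A0 * A1ᴴ)) ((c : ℂ) • (A1 * A0ᴴ))
        ((d : ℂ) • X + (f : ℂ) • Z) := rfl
  -- the two types
  have tI : ∀ p q r : ℝ, 0 ≤ p → 0 ≤ q → 0 ≤ r → p * r = c ^ 2 →
      p * (ent X - Real.negMulLog x) + (q + r) * (ent Z - Real.negMulLog z) +
        entm (p * x) (q * z) (r * z) ≤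
      ent (fromBlocks ((p : ℂ) • X + (q : ℂ) • Z) ((c : ℂ) • (A0 * A1ᴴ))
        ((c : ℂ) • (A1 * A0ᴴ)) ((r : ℂ) • Z)) := by
    intro p q r hp hq hr h
    have := type_gen A0 A1 hZ hp hq hr hc0 h
    rw [← hX] at this
    exact this
  have tII : ∀ p q r : ℝ, 0 ≤ p → 0 ≤ q → 0 ≤ r → p * r = c ^ 2 →
      p * (ent Z - Real.negMulLog z) + (q + r) * (ent X - Real.negMulLog x) +
        entm (p * z) (q * x) (r * x) ≤
      ent (fromBlocks ((r : ℂ) • X) ((c : ℂ) • (A0 * A1ᴴ))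
        ((c : ℂ) • (A1 * A0ᴴ)) ((p : ℂ) • Z + (q : ℂ) • X)) := by
    intro p q r hp hq hr h
    have := type_gen A1 A0 hX hp hq hr hc0 h
    rw [← hZ] at this
    rw [ent_swap]
    exact this
  by_cases hd1 : d = 0
  · -- type I
    have ha1 : a = 1 := by linarith
    have h := tI a b f ha0 hb0 hf0 (by rw [haf, hd1]; ring)
    have hE : entm (a * x) (b * z) (f * z) = gadG γ ν z := by
      rw [hG]
      refine entm_eq ?_ ?_
      · rw [ha1]; linear_combination hx1 + z * hbf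
      · rw [hv', hd1]; ring
    have hM : outM γ ν X (A0 * A1ᴴ) (A1 * A0ᴴ) Z =
        fromBlocks ((a : ℂ) • X + (b : ℂ) • Z) ((c : ℂ) • (A0 * A1ᴴ)) ((c : ℂ) • (A1 * A0ᴴ))
          ((f : ℂ) • Z) := by
      rw [hout, hd1]; simp
    rw [hM]
    rw [hE, ha1, hbf, one_mul, one_mul] at h
    rw [ha1]
    linarith
  by_cases hb1 : b = 0
  · have hf1 : f = 1 := by linarith
    have h := tII f d a hf0 hd0 ha0 (by rw [mul_comm, haf, hb1]; ring)
    have hE : entm (f * z) (d * x) (a * x) = gadG γ ν z := by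
      rw [hG]
      refine entm_eq ?_ ?_
      · rw [hf1]; linear_combination hx1 + x * had
      · rw [hv', hb1]; ring
    have hM : outM γ ν X (A0 * A1ᴴ) (A1 * A0ᴴ) Z =
        fromBlocks ((a : ℂ) • X) ((c : ℂ) • (A0 * A1ᴴ)) ((c : ℂ) • (A1 * A0ᴴ))
          ((f : ℂ) • Z + (d : ℂ) • X) := by
      rw [hout, hb1, add_comm ((d : ℂ) • X)]; simp
    rw [hM]
    rw [hE, hf1, add_comm d a, had, one_mul, one_mul] at h
    rw [hf1]
    linarith
  have hdp : 0 < d := lt_of_le_of_ne hd0 (Ne.symm hd1)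
  have hbp : 0 < b := lt_of_le_of_ne hb0 (Ne.symm hb1)
  have hap : 0 < a := by
    by_contra hcon
    have : a = 0 := le_antisymm (not_lt.1 hcon) ha0
    have h1 : d = 1 := by linarith
    have h2 : b * d ≤ 0 := by
      have : a * f = 0 := by rw [this, zero_mul]
      nlinarith [sq_nonneg c]
    nlinarith [mul_pos hbp hdp]
  have hfp : 0 < f := by
    by_contra hcon
    have : f = 0 := le_antisymm (not_lt.1 hcon) hf0
    have h2 : b * d ≤ 0 := by
      have : a * f = 0 := by rw [this, mul_zero]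
      nlinarith [sq_nonneg c]
    nlinarith [mul_pos hbp hdp]
  by_cases hxz0 : x = 0
  · have hX0 : X = 0 := eq_zero_of_trace_re hXp hxz0
    have hz1 : z = 1 := by linarith
    have h := tI (c ^ 2 / f) b f (by positivity) hb0 hf0 (by field_simp)
    have hE : entm (c ^ 2 / f * x) (b * z) (f * z) = gadG γ ν z := by
      rw [hG]
      refine entm_eq ?_ ?_
      · rw [hxz0, hz1]; linear_combination hbf
      · rw [hv', hxz0]; ring
    have hM : outM γ ν X (A0 * A1ᴴ) (A1 * A0ᴴ) Z =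
        fromBlocks (((c ^ 2 / f : ℝ) : ℂ) • X + (b : ℂ) • Z) ((c : ℂ) • (A0 * A1ᴴ))
          ((c : ℂ) • (A1 * A0ᴴ)) ((f : ℂ) • Z) := by
      rw [hout, hX0]; simp
    have hξ : ent X - Real.negMulLog x = 0 := by rw [hX0, ent_zero, hxz0]; simp
    rw [hM]
    rw [hE, hξ, hbf, one_mul, mul_zero] at h
    linarith
  by_cases hzz0 : z = 0
  · have hZ0 : Z = 0 := eq_zero_of_trace_re hZp hzz0
    have hx1 : x = 1 := by linarith
    have h := tII (c ^ 2 / a) d a (by positivity) hd0 ha0 (by field_simp)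
    have hE : entm (c ^ 2 / a * z) (d * x) (a * x) = gadG γ ν z := by
      rw [hG]
      refine entm_eq ?_ ?_
      · rw [hzz0, hx1]; linear_combination had
      · rw [hv', hzz0]; ring
    have hM : outM γ ν X (A0 * A1ᴴ) (A1 * A0ᴴ) Z =
        fromBlocks ((a : ℂ) • X) ((c : ℂ) • (A0 * A1ᴴ)) ((c : ℂ) • (A1 * A0ᴴ))
          (((c ^ 2 / a : ℝ) : ℂ) • Z + (d : ℂ) • X) := by
      rw [hout, hZ0]; simp
    have hζ : ent Z - Real.negMulLog z = 0 := by rw [hZ0, ent_zero, hzz0]; simp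
    rw [hM]
    rw [hE, hζ, add_comm d a, had, one_mul, mul_zero] at h
    linarith
  have hxp : 0 < x := lt_of_le_of_ne hx0 (Ne.symm hxz0)
  have hzp : 0 < z := lt_of_le_of_ne hz0 (Ne.symm hzz0)
  set m0 : ℝ := a * x + b * z with hm0
  set m1 : ℝ := d * x + f * z with hm1
  have hm0p : 0 < m0 := by positivity
  have hm1p : 0 < m1 := by positivity
  have hmm : m0 + m1 = 1 := by
    rw [hm0, hm1]; linear_combination x * had + z * hbf + hxz
  have hvp : 0 < v := by rw [hv']; positivity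
  have hvm : m0 * m1 = v + c ^ 2 * (x * z) := by
    rw [hm0, hm1, hv']; linear_combination (x * z) * haf
  have hI := tI (c ^ 2 * z / m1) (v / (m1 * z)) (m1 / z) (by positivity) (by positivity)
    (by positivity) (by field_simp)
  have hII := tII (c ^ 2 * x / m0) (v / (m0 * x)) (m0 / x) (by positivity) (by positivity)
    (by positivity) (by field_simp)
  have hEI : entm (c ^ 2 * z / m1 * x) (v / (m1 * z) * z) (m1 / z * z) = gadG γ ν z := by
    rw [hG]
    refine entm_eq ?_ ?_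
    · have h1 : v / (m1 * z) * z = v / m1 := by field_simp
      have h2 : m1 / z * z = m1 := by field_simp
      have h3 : c ^ 2 * z / m1 * x = c ^ 2 * (x * z) / m1 := by ring
      rw [h1, h2, h3, ← add_div, show c ^ 2 * (x * z) + v = m0 * m1 by linarith,
        mul_div_cancel_right₀ _ hm1p.ne', hmm]
    · field_simp
  have hEII : entm (c ^ 2 * x / m0 * z) (v / (m0 * x) * x) (m0 / x * x) = gadG γ ν z := by
    rw [hG]
    refine entm_eq ?_ ?_
    · have h1 : v / (m0 * x) * x = v / m0 := by field_simp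
      have h2 : m0 / x * x = m0 := by field_simp
      have h3 : c ^ 2 * x / m0 * z = c ^ 2 * (x * z) / m0 := by ring
      rw [h1, h2, h3, ← add_div, show c ^ 2 * (x * z) + v = m0 * m1 by linarith,
        mul_div_cancel_left₀ _ hm0p.ne', add_comm, hmm]
    · field_simp
  rw [hEI] at hI
  rw [hEII] at hII
  obtain ⟨k0, k1, k2, k3, k4⟩ := ki_scalar haf hv' hm0 hm1 hxz0 hzz0 hm0p.ne' hm1p.ne' hvp.ne'
  have hs : 0 ≤ b * z * m1 / v := by positivity
  have ht : 0 ≤ d * x * m0 / v := by positivity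
  have hMI := type_psd A0 A1 (p := c ^ 2 * z / m1) (q := v / (m1 * z)) (r := m1 / z)
    (by positivity) (by positivity) (by positivity) hc0 (by field_simp)
  have hMII := psd_swap (type_psd A1 A0 (p := c ^ 2 * x / m0) (q := v / (m0 * x)) (r := m0 / x)
    (by positivity) (by positivity) (by positivity) hc0 (by field_simp))
  rw [← hX, ← hZ] at hMI hMII
  have hmix := ent_mix hMI hMII hs ht k0
  rw [mix_eq X Z (A0 * A1ᴴ) (A1 * A0ᴴ) k0 k1 k2 k3 k4] at hmix
  rw [hout]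
  exact le_trans (ki_arith hs ht k0 k1 k2 k3 k4 had hbf hI hII) hmix

theorem KI_holds {γ ν : ℝ} (hγ : γ ∈ Set.Icc (0 : ℝ) 1) (hν : ν ∈ Set.Icc (0 : ℝ) 1) :
    KI γ ν := by
  intro e _ _ N hN hN1
  obtain ⟨S, hS⟩ := exists_factor hN
  have hb : ∀ s t, block N s t = rows S s * (rows S t)ᴴ := fun s t => by
    rw [rows_mul, ← hS]
  have htr : (block N false false).trace.re + (block N true true).trace.re = 1 := by
    rw [← Complex.add_re, trace_block, hN1, Complex.one_re]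
  have h := ki_core hγ hν (rows S false) (rows S true) (hb false false) (hb true true) htr
  rw [← hb false true, ← hb true false, ← ent_out] at h
  have h2 : Real.binEntropy (block N true true).trace.re =
      Real.negMulLog (block N false false).trace.re +
      Real.negMulLog (block N true true).trace.re := by
    rw [Real.binEntropy_eq_negMulLog_add_negMulLog_one_sub, ← htr, add_sub_cancel_right, add_comm]
  rw [h2]
  linarith

end main

end Crest.Agent.Lib.GAD
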