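import Mathlib

/-!
Area formulas for the Euclidean (Lebesgue normalised) 2-dimensional Hausdorff measure `μHE[2]`
in a real inner product space: images of planar sets under affine maps `(x,y) ↦ c + x a + y b`,
parallelograms and triangles.
-/

set_option autoImplicit false
open MeasureTheory
open scoped ENNReal

namespace Crest.Agent.Lib.MuHE2

abbrev E2 := EuclideanSpace ℝ (Fin 2)

section

variable {F : Type*} [NormedAddCommGroup F] [InnerProductSpace ℝ F]

/-- the area of the parallelogram spanned by `a, b` -/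
noncomputable def area (a b : F) : ℝ := Real.sqrt (‖a‖ ^ 2 * ‖b‖ ^ 2 - inner ℝ a b ^ 2)

lemma area_nonneg (a b : F) : 0 ≤ area a b := Real.sqrt_nonneg _

lemma gram_nonneg (a b : F) : 0 ≤ ‖a‖ ^ 2 * ‖b‖ ^ 2 - inner ℝ a b ^ 2 := by
  have h := abs_real_inner_le_norm a b
  have h2 : inner ℝ a b ^ 2 ≤ (‖a‖ * ‖b‖) ^ 2 := by
    rw [← sq_abs]
    exact pow_le_pow_left₀ (abs_nonneg _) h 2
  nlinarith

lemma area_sq (a b : F) : area a b ^ 2 = ‖a‖ ^ 2 * ‖b‖ ^ 2 - inner ℝ a b ^ 2 :=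
  Real.sq_sqrt (gram_nonneg a b)

/-- the linear map `x ↦ x 0 • a + x 1 • b` -/
noncomputable def lin (a b : F) : E2 →ₗ[ℝ] F where
  toFun x := x 0 • a + x 1 • b
  map_add' x y := by simp [add_smul]; abel
  map_smul' c x := by simp [mul_smul]

@[simp] lemma lin_apply (a b : F) (x : E2) : lin a b x = x 0 • a + x 1 • b := rfl

lemma normDet_lin (a b : F) : (lin a b).normDet = area a b := by
  have h := LinearMap.normDet_sq_eq_det_gram (lin a b) (EuclideanSpace.basisFun (Fin 2) ℝ)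
  have h2 : (lin a b).normDet ^ 2 = area a b ^ 2 := by
    rw [area_sq]
    have h3 : ((lin a b).normDet ^ 2 : ℝ) = (Matrix.gram ℝ (fun i => lin a b (EuclideanSpace.basisFun (Fin 2) ℝ i))).det := by
      simpa using h
    rw [h3, Matrix.det_fin_two]
    simp [Matrix.gram_apply, real_inner_comm]
    ring
  exact (pow_left_inj₀ (LinearMap.normDet_nonneg _) (area_nonneg a b) two_ne_zero).mp h2

variable [MeasurableSpace F] [BorelSpace F]

theorem muHE2_lin_image (a b : F) (S : Set E2) :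
    μHE[2] ((fun x : E2 => x 0 • a + x 1 • b) '' S) = ENNReal.ofReal (area a b) * volume S := by
  have h := LinearMap.euclideanHausdorffMeasure_image_eq_normDet_mul_volume (lin a b) S
  rw [normDet_lin] at h
  have h2 : Module.finrank ℝ E2 = 2 := by simp [E2]
  rw [h2] at h
  exact h

omit [InnerProductSpace ℝ F] in
theorem muHE2_translate (c : F) (S : Set F) : μHE[2] ((fun x => c + x) '' S) = μHE[2] S :=
  (isometry_add_left c).euclideanHausdorffMeasure_image S

theorem muHE2_affine_image (c a b : F) (S : Set E2) :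
    μHE[2] ((fun x : E2 => c + x 0 • a + x 1 • b) '' S) = ENNReal.ofReal (area a b) * volume S := by
  rw [← muHE2_lin_image a b S, ← muHE2_translate c ((fun x : E2 => x 0 • a + x 1 • b) '' S),
    Set.image_image]
  simp only [add_assoc]

/-- planar sets given as subsets of `ℝ × ℝ` -/
lemma volume_E2_prod (T : Set (ℝ × ℝ)) : volume {x : E2 | (x 0, x 1) ∈ T} = volume T := by
  have h1 : MeasurePreserving (MeasurableEquiv.toLp 2 (Fin 2 → ℝ)).symm :=
    (PiLp.volume_preserving_ofLp (Fin 2))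
  have h2 := volume_preserving_finTwoArrow ℝ
  have h3 := h2.comp h1
  have h4 : MeasurePreserving (((MeasurableEquiv.toLp 2 (Fin 2 → ℝ)).symm).trans MeasurableEquiv.finTwoArrow) := h3
  rw [← h4.measure_preimage_equiv T]
  rfl

theorem muHE2_prod_image (c a b : F) (T : Set (ℝ × ℝ)) :
    μHE[2] {x : F | ∃ s t : ℝ, (s, t) ∈ T ∧ x = c + s • a + t • b} =
      ENNReal.ofReal (area a b) * volume T := by
  rw [← volume_E2_prod T, ← muHE2_affine_image c a b]
  congr 1
  ext z
  simp only [Set.mem_image, Set.mem_ofPred_eq]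
  constructor
  · rintro ⟨s, t, h, rfl⟩
    exact ⟨!₂[s, t], by simpa using h, by simp⟩
  · rintro ⟨x, h, rfl⟩
    exact ⟨x 0, x 1, h, rfl⟩

/-- parallelogram -/
theorem muHE2_parallelogram (c a b : F) :
    μHE[2] {x : F | ∃ s ∈ Set.Icc (0 : ℝ) 1, ∃ t ∈ Set.Icc (0 : ℝ) 1, x = c + s • a + t • b} =
      ENNReal.ofReal (area a b) := by
  have h := muHE2_prod_image c a b (Set.Icc (0 : ℝ) 1 ×ˢ Set.Icc (0 : ℝ) 1)
  have hv : (volume (Set.Icc (0 : ℝ) 1 ×ˢ Set.Icc (0 : ℝ) 1) : ℝ≥0∞) = 1 := by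
    rw [Measure.volume_eq_prod, Measure.prod_prod]
    simp
  rw [hv, mul_one] at h
  rw [← h]
  congr 1
  ext z
  simp only [Set.mem_ofPred_eq, Set.mem_prod]
  constructor
  · rintro ⟨s, hs, t, ht, rfl⟩
    exact ⟨s, t, ⟨hs, ht⟩, rfl⟩
  · rintro ⟨s, t, ⟨hs, ht⟩, rfl⟩
    exact ⟨s, hs, t, ht, rfl⟩

lemma volume_triangle : volume {z : ℝ × ℝ | 0 ≤ z.1 ∧ 0 ≤ z.2 ∧ z.1 + z.2 ≤ 1} = ENNReal.ofReal (1/2) := by
  have hmeas : MeasurableSet {z : ℝ × ℝ | 0 ≤ z.1 ∧ 0 ≤ z.2 ∧ z.1 + z.2 ≤ 1} := by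
    apply IsClosed.measurableSet
    have h1 : IsClosed {z : ℝ × ℝ | 0 ≤ z.1} := isClosed_le continuous_const continuous_fst
    have h2 : IsClosed {z : ℝ × ℝ | 0 ≤ z.2} := isClosed_le continuous_const continuous_snd
    have h3 : IsClosed {z : ℝ × ℝ | z.1 + z.2 ≤ 1} :=
      isClosed_le (continuous_fst.add continuous_snd) continuous_const
    exact h1.inter (h2.inter h3)
  rw [Measure.volume_eq_prod, Measure.prod_apply hmeas]
  have h1 : ∀ x : ℝ, volume (Prod.mk x ⁻¹' {z : ℝ × ℝ | 0 ≤ z.1 ∧ 0 ≤ z.2 ∧ z.1 + z.2 ≤ 1}) =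
      (Set.Icc (0:ℝ) 1).indicator (fun x => ENNReal.ofReal (1 - x)) x := by
    intro x
    by_cases hx : x ∈ Set.Icc (0:ℝ) 1
    · rw [Set.indicator_of_mem hx]
      have : Prod.mk x ⁻¹' {z : ℝ × ℝ | 0 ≤ z.1 ∧ 0 ≤ z.2 ∧ z.1 + z.2 ≤ 1} = Set.Icc 0 (1 - x) := by
        ext y
        simp only [Set.mem_preimage, Set.mem_ofPred_eq, Set.mem_Icc]
        constructor
        · rintro ⟨_, h2, h3⟩; exact ⟨h2, by linarith⟩
        · rintro ⟨h2, h3⟩; exact ⟨hx.1, h2, by linarith⟩
      rw [this, Real.volume_Icc]; congr 1; ring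
    · rw [Set.indicator_of_notMem hx]
      have : Prod.mk x ⁻¹' {z : ℝ × ℝ | 0 ≤ z.1 ∧ 0 ≤ z.2 ∧ z.1 + z.2 ≤ 1} = ∅ := by
        ext y
        simp only [Set.mem_preimage, Set.mem_ofPred_eq, Set.mem_empty_iff_false, iff_false]
        rintro ⟨h1, h2, h3⟩
        exact hx ⟨h1, by linarith⟩
      rw [this]; simp
  simp_rw [h1]
  rw [lintegral_indicator measurableSet_Icc, ← ofReal_integral_eq_lintegral_ofReal]
  · congr 1
    rw [integral_Icc_eq_integral_Ioc, ← intervalIntegral.integral_of_le zero_le_one,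
      intervalIntegral.integral_sub (by simp) (by simp)]
    simp
    norm_num
  · apply Continuous.integrableOn_Icc
    fun_prop
  · filter_upwards [ae_restrict_mem measurableSet_Icc] with x hx
    simpa using hx.2

/-- triangle -/
theorem muHE2_triangle (p q r : F) :
    μHE[2] (convexHull ℝ ({p, q, r} : Set F)) = ENNReal.ofReal (area (q - p) (r - p) / 2) := by
  have h := muHE2_prod_image p (q - p) (r - p) {z : ℝ × ℝ | 0 ≤ z.1 ∧ 0 ≤ z.2 ∧ z.1 + z.2 ≤ 1}
  rw [volume_triangle, ← ENNReal.ofReal_mul (area_nonneg _ _)] at h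
  rw [show area (q - p) (r - p) / 2 = area (q - p) (r - p) * (1 / 2) by ring, ← h]
  congr 1
  ext z
  rw [convexHull_insert (by simp), convexHull_pair]
  simp only [Set.mem_ofPred_eq, convexJoin_singleton_left, Set.mem_iUnion, exists_prop]
  constructor
  · rintro ⟨w, ⟨a, b, ha, hb, hab, rfl⟩, c, d, hc, hd, hcd, rfl⟩
    refine ⟨d * a, d * b, ⟨by positivity, by positivity, ?_⟩, ?_⟩
    · show d * a + d * b ≤ 1
      rw [← mul_add, hab]; linarith
    · obtain rfl : c = 1 - d := by linarith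
      obtain rfl : a = 1 - b := by linarith
      module
  · rintro ⟨s, t, ⟨hs, ht, hst⟩, rfl⟩
    by_cases h0 : s + t = 0
    · have : s = 0 := by linarith
      have : t = 0 := by linarith
      subst_vars
      exact ⟨q, ⟨1, 0, by norm_num, by norm_num, by norm_num, by simp⟩, 1, 0, by norm_num, by norm_num,
        by norm_num, by simp⟩
    · have hpos : 0 < s + t := lt_of_le_of_ne (by linarith) (Ne.symm h0)
      refine ⟨(s / (s + t)) • q + (t / (s + t)) • r, ⟨s / (s+t), t / (s+t), by positivity, by positivity,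
        by field_simp, rfl⟩, 1 - (s + t), s + t, by linarith, by linarith, by ring, ?_⟩
      rw [smul_add, smul_smul, smul_smul, mul_div_cancel₀ _ h0, mul_div_cancel₀ _ h0]
      module

end

/-- the unnormalised Hausdorff measure is a constant multiple of the normalised one;
the constant is in `(0, ∞)`. -/
theorem exists_muH2_eq : ∃ κ : ℝ≥0∞, κ ≠ 0 ∧ κ ≠ ⊤ ∧
    ∀ (X : Type) [EMetricSpace X] [MeasurableSpace X] [BorelSpace X] (S : Set X),
      μH[2] S = κ * μHE[2] S := by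
  set k := Measure.addHaarScalarFactor (volume : Measure (EuclideanSpace ℝ (Fin 2))) μH[((2:ℕ):ℝ)] with hk
  have hk0 : k ≠ 0 := Measure.addHaarScalarFactor_volume_hausdorffMeasure_ne_zero 2
  refine ⟨(k : ℝ≥0∞)⁻¹, by simp, by simpa using hk0, ?_⟩
  intro X _ _ _ S
  have h : μHE[2] S = (k : ℝ≥0∞) * μH[((2:ℕ):ℝ)] S := by
    rw [Measure.euclideanHausdorffMeasure_def, ← hk]
    rfl
  rw [h, ← mul_assoc, ENNReal.inv_mul_cancel (by simpa using hk0) (by simp), one_mul]
  norm_num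

end Crest.Agent.Lib.MuHE2
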