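import Crest.Agent.Lib.OTStabDefs
import Mathlib

set_option autoImplicit false
open MeasureTheory Filter Topology
open scoped ENNReal NNReal
open Crest.AnalysisR.OT

namespace Crest.Agent.Lib.OTStab

section Approx

/-- perturbation making a finite family of pairs generic. -/
lemma exists_generic_perturb {d : ℕ} (hd : 2 ≤ d) (n : ℕ) (e : ℕ → EuclideanSpace ℝ (Fin d) × EuclideanSpace ℝ (Fin d))
    (η : ℝ) (hη : 0 < η) :
    ∃ v : EuclideanSpace ℝ (Fin d), (∀ k ≤ n, ‖(k : ℝ) • v‖ ≤ η) ∧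
      ∀ i j, i ≤ n → j ≤ n → i ≠ j → ∀ t ∈ Set.Icc (0 : ℝ) 1,
        (1 - t) • (((e i).1 + (i : ℝ) • v) - ((e j).1 + (j : ℝ) • v)) +
          t • (((e i).2 + (i : ℝ) • v) - ((e j).2 + (j : ℝ) • v)) ≠ 0 := by
  classical
  -- choose the direction
  set u : ℕ → ℕ → EuclideanSpace ℝ (Fin d) := fun i j => ((e i).2 - (e j).2) - ((e i).1 - (e j).1) with hu
  obtain ⟨w, hw⟩ : ∃ w : EuclideanSpace ℝ (Fin d), ∀ i j : Fin (n + 1), w ∉ Submodule.span ℝ {u i j} := by
    by_contra hcon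
    push Not at hcon
    have hcov : ⋃ q : Fin (n + 1) × Fin (n + 1),
        ((Submodule.span ℝ {u q.1 q.2} : Submodule ℝ (EuclideanSpace ℝ (Fin d))) :
          Set (EuclideanSpace ℝ (Fin d))) = Set.univ := by
      apply Set.eq_univ_of_forall
      intro w
      obtain ⟨i, j, hij⟩ := hcon w
      exact Set.mem_iUnion.2 ⟨(i, j), hij⟩
    obtain ⟨q, hq⟩ := Subspace.exists_eq_top_of_iUnion_eq_univ hcov
    have h1 := finrank_span_finset_le_card (R := ℝ) ({u q.1 q.2} : Finset (EuclideanSpace ℝ (Fin d)))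
    rw [Finset.coe_singleton, Finset.card_singleton, Set.finrank, hq, finrank_top, finrank_euclideanSpace_fin] at h1
    omega
  have hw0 : w ≠ 0 := by
    intro h
    exact hw 0 0 (h ▸ Submodule.zero_mem _)
  -- bad scalings
  set B : ℕ → ℕ → Set ℝ := fun i j => {δ | ∃ t ∈ Set.Icc (0 : ℝ) 1,
      (1 - t) • (((e i).1 + (i : ℝ) • (δ • w)) - ((e j).1 + (j : ℝ) • (δ • w))) +
          t • (((e i).2 + (i : ℝ) • (δ • w)) - ((e j).2 + (j : ℝ) • (δ • w))) = 0} with hB
  have hBs : ∀ i j, i ≤ n → j ≤ n → i ≠ j → (B i j).Subsingleton := by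
    intro i j hi hj hij δ hδ δ' hδ'
    obtain ⟨t, _, ht⟩ := hδ
    obtain ⟨t', _, ht'⟩ := hδ'
    by_contra hne
    have hid : ∀ (δ t : ℝ), (1 - t) • (((e i).1 + (i : ℝ) • (δ • w)) - ((e j).1 + (j : ℝ) • (δ • w))) +
          t • (((e i).2 + (i : ℝ) • (δ • w)) - ((e j).2 + (j : ℝ) • (δ • w))) =
          ((e i).1 - (e j).1) + t • u i j + (δ * ((i : ℝ) - j)) • w := by
      intro δ t
      simp only [hu]
      module
    rw [hid] at ht ht'
    have h2 : (t' - t) • u i j = ((δ - δ') * ((i : ℝ) - j)) • w := by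
      have h3 : ((e i).1 - (e j).1) + t • u i j + (δ * ((i : ℝ) - j)) • w =
        ((e i).1 - (e j).1) + t' • u i j + (δ' * ((i : ℝ) - j)) • w := by rw [ht, ht']
      have h4 : (t' - t) • u i j - ((δ - δ') * ((i : ℝ) - j)) • w =
        (((e i).1 - (e j).1) + t' • u i j + (δ' * ((i : ℝ) - j)) • w) -
        (((e i).1 - (e j).1) + t • u i j + (δ * ((i : ℝ) - j)) • w) := by module
      rw [← h3, sub_self] at h4
      exact sub_eq_zero.1 h4
    have hne2 : (δ - δ') * ((i : ℝ) - j) ≠ 0 := by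
      apply mul_ne_zero (sub_ne_zero.2 hne)
      exact sub_ne_zero.2 (by exact_mod_cast hij)
    apply hw ⟨i, by omega⟩ ⟨j, by omega⟩
    rw [Submodule.mem_span_singleton]
    refine ⟨((δ - δ') * ((i : ℝ) - j))⁻¹ * (t' - t), ?_⟩
    rw [mul_smul]
    show ((δ - δ') * ((i : ℝ) - j))⁻¹ • ((t' - t) • u i j) = w
    rw [h2, smul_smul, inv_mul_cancel₀ hne2, one_smul]
  have hfin : (⋃ i ∈ Finset.range (n + 1), ⋃ j ∈ Finset.range (n + 1), (if i = j then ∅ else B i j)).Finite := by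
    apply Set.Finite.biUnion (Finset.finite_toSet _)
    intro i hi
    apply Set.Finite.biUnion (Finset.finite_toSet _)
    intro j hj
    split_ifs with h
    · exact Set.finite_empty
    · have hi' := Finset.mem_range.1 (Finset.mem_coe.1 hi)
      have hj' := Finset.mem_range.1 (Finset.mem_coe.1 hj)
      exact (hBs i j (by omega) (by omega) h).finite
  have hpos : (0 : ℝ) < η / ((n + 1) * ‖w‖) := by
    have := norm_pos_iff.2 hw0
    positivity
  obtain ⟨δ, hδ1, hδ2⟩ := ((Set.Ioo_infinite hpos).sdiff hfin).nonempty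
  refine ⟨δ • w, ?_, ?_⟩
  · intro k hk
    rw [norm_smul, norm_smul, Real.norm_of_nonneg (Nat.cast_nonneg k), Real.norm_of_nonneg hδ1.1.le]
    have hwp := norm_pos_iff.2 hw0
    have h1 : δ * ((n + 1) * ‖w‖) ≤ η := by
      have := hδ1.2.le
      rwa [le_div_iff₀ (by positivity)] at this
    have h2 : (k : ℝ) ≤ n + 1 := by
      have : (k : ℝ) ≤ n := by exact_mod_cast hk
      linarith
    calc (k : ℝ) * (δ * ‖w‖) ≤ (n + 1) * (δ * ‖w‖) := by
          apply mul_le_mul_of_nonneg_right h2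
          have := hδ1.1
          positivity
      _ = δ * ((n + 1) * ‖w‖) := by ring
      _ ≤ η := h1
  · intro i j hi hj hij t ht h0
    apply hδ2
    simp only [Set.mem_iUnion]
    refine ⟨i, Finset.mem_range.2 (by omega), j, Finset.mem_range.2 (by omega), ?_⟩
    rw [if_neg hij]
    exact ⟨t, ht, h0⟩

/-- finite quantisation of a coupling, with generic atoms. -/
lemma approx_coupling {d : ℕ} (hd : 2 ≤ d) (Y : Set (EuclideanSpace ℝ (Fin d))) (hYc : IsCompact Y)
    (R : ℝ) (hYR : ∀ y ∈ Y, ‖y‖ + 1 ≤ R)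
    (π : Measure (EuclideanSpace ℝ (Fin d) × EuclideanSpace ℝ (Fin d))) [IsProbabilityMeasure π]
    (hπ : ∀ᵐ p ∂π, p.1 ∈ Y ∧ p.2 ∈ Y) (ε : ℝ) (hε : 0 < ε) (hε1 : ε ≤ 1) :
    ∃ (N : ℕ) (y z : Fin N → EuclideanSpace ℝ (Fin d)) (m : Fin N → ℝ)
      (A : EuclideanSpace ℝ (Fin d) × EuclideanSpace ℝ (Fin d) →
        EuclideanSpace ℝ (Fin d) × EuclideanSpace ℝ (Fin d)),
      (∀ i, ‖y i‖ ≤ R) ∧ (∀ i, ‖z i‖ ≤ R) ∧ Generic y z ∧ (∀ i, 0 < m i) ∧ ∑ i, m i = 1 ∧
      Measurable A ∧ (∀ p, ‖(A p).1‖ ≤ R ∧ ‖(A p).2‖ ≤ R) ∧ (∀ᵐ p ∂π, dist (A p) p ≤ ε) ∧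
      (∀ G : EuclideanSpace ℝ (Fin d) × EuclideanSpace ℝ (Fin d) → ℝ,
        ∑ i, m i * G (y i, z i) = ∫ p, G (A p) ∂π) := by
  classical
  -- base point
  obtain ⟨p0, hp0⟩ := hπ.exists
  have hcomp : IsCompact (Y ×ˢ Y) := hYc.prod hYc
  obtain ⟨s, hsY, hsf, hscov⟩ := hcomp.finite_cover_balls (half_pos hε)
  -- enumeration
  obtain ⟨n, e, heY, hecov⟩ : ∃ (n : ℕ) (e : ℕ → EuclideanSpace ℝ (Fin d) × EuclideanSpace ℝ (Fin d)),
      (∀ k, e k ∈ Y ×ˢ Y) ∧ ∀ p ∈ Y ×ˢ Y, ∃ k ≤ n, dist p (e k) < ε / 2 := by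
    set f := hsf.toFinset.equivFin with hf
    refine ⟨hsf.toFinset.card, fun k => if h : k < hsf.toFinset.card then (f.symm ⟨k, h⟩ : _ × _) else p0, ?_, ?_⟩
    · intro k
      by_cases h : k < hsf.toFinset.card
      · simp only [h, dif_pos]
        exact hsY (hsf.mem_toFinset.1 (f.symm ⟨k, h⟩).2)
      · simp only [h, dif_neg, not_false_eq_true]
        exact ⟨hp0.1, hp0.2⟩
    · intro p hp
      obtain ⟨x, hx, hpx⟩ := Set.mem_iUnion₂.1 (hscov hp)
      set i := f ⟨x, hsf.mem_toFinset.2 hx⟩ with hi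
      refine ⟨i, i.2.le, ?_⟩
      have hx' : (if h : (i : ℕ) < hsf.toFinset.card then
          ((f.symm ⟨i, h⟩ : hsf.toFinset) : EuclideanSpace ℝ (Fin d) × EuclideanSpace ℝ (Fin d)) else p0) = x := by
        rw [dif_pos i.2]
        simp [hi]
      show dist p (if h : (i : ℕ) < hsf.toFinset.card then
          ((f.symm ⟨i, h⟩ : hsf.toFinset) : EuclideanSpace ℝ (Fin d) × EuclideanSpace ℝ (Fin d)) else p0) < ε / 2
      rw [hx']
      exact hpx
  obtain ⟨v, hv1, hv2⟩ := exists_generic_perturb hd n e (ε / 2) (half_pos hε)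
  set q : ℕ → EuclideanSpace ℝ (Fin d) × EuclideanSpace ℝ (Fin d) :=
    fun k => ((e k).1 + (k : ℝ) • v, (e k).2 + (k : ℝ) • v) with hq
  set κ := SimpleFunc.nearestPtInd e n with hκ
  have hκn : ∀ p, κ p ≤ n := fun p => SimpleFunc.nearestPtInd_le e n p
  have hqn : ∀ k ≤ n, ‖(q k).1‖ ≤ R ∧ ‖(q k).2‖ ≤ R := by
    intro k hk
    have h1 := hv1 k hk
    obtain ⟨h2, h3⟩ := heY k
    constructor
    · refine (norm_add_le _ _).trans ?_
      have := hYR _ h2
      linarith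
    · refine (norm_add_le _ _).trans ?_
      have := hYR _ h3
      linarith
  -- the index set
  set I : Finset ℕ := (Finset.range (n + 1)).filter (fun k => π (κ ⁻¹' {k}) ≠ 0) with hI
  set σ : Fin I.card → ℕ := fun i => (I.equivFin.symm i : ℕ) with hσ
  have hσI : ∀ i, σ i ∈ I := fun i => (I.equivFin.symm i).2
  have hσinj : Function.Injective σ := by
    intro i j hij
    exact I.equivFin.symm.injective (Subtype.ext hij)
  have hsumσ : ∀ g : ℕ → ℝ, ∑ i, g (σ i) = ∑ k ∈ I, g k := by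
    intro g
    rw [← Finset.sum_coe_sort I]
    exact (Equiv.sum_comp I.equivFin.symm (fun k : I => g k))
  have hσn : ∀ i, σ i ≤ n := by
    intro i
    have := (Finset.mem_filter.1 (hσI i)).1
    exact Nat.lt_succ_iff.1 (Finset.mem_range.1 this)
  have hkey : ∀ G : EuclideanSpace ℝ (Fin d) × EuclideanSpace ℝ (Fin d) → ℝ,
      ∑ i, (π (κ ⁻¹' {σ i})).toReal * G (q (σ i)) = ∫ p, G (q (κ p)) ∂π := by
    intro G
    rw [hsumσ (fun k => (π (κ ⁻¹' {k})).toReal * G (q k))]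
    have h1 : ∑ k ∈ I, (π (κ ⁻¹' {k})).toReal * G (q k) =
        ∑ k ∈ Finset.range (n + 1), (π (κ ⁻¹' {k})).toReal * G (q k) := by
      apply Finset.sum_subset (Finset.filter_subset _ _)
      intro k hk hkI
      have : π (κ ⁻¹' {k}) = 0 := by
        by_contra h
        exact hkI (Finset.mem_filter.2 ⟨hk, h⟩)
      rw [this, ENNReal.toReal_zero, zero_mul]
    rw [h1]
    have h2 : ∀ p, G (q (κ p)) = ∑ k ∈ Finset.range (n + 1), (κ ⁻¹' {k}).indicator (fun _ => G (q k)) p := by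
      intro p
      rw [Finset.sum_eq_single (κ p)]
      · rw [Set.indicator_of_mem]
        rfl
      · intro k _ hk
        rw [Set.indicator_of_notMem]
        intro h
        exact hk h.symm
      · intro h
        exact absurd (Finset.mem_range.2 (Nat.lt_succ_iff.2 (hκn p))) h
    simp_rw [h2]
    rw [integral_finsetSum]
    · apply Finset.sum_congr rfl
      intro k _
      rw [integral_indicator_const _ (κ.measurableSet_preimage {k}), smul_eq_mul]
      rfl
    · intro k _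
      exact (integrable_const _).indicator (κ.measurableSet_preimage {k})
  refine ⟨I.card, fun i => (q (σ i)).1, fun i => (q (σ i)).2, fun i => (π (κ ⁻¹' {σ i})).toReal,
    fun p => q (κ p), fun i => (hqn _ (hσn i)).1, fun i => (hqn _ (hσn i)).2, ?_, ?_, ?_, ?_,
    fun p => hqn _ (hκn p), ?_, hkey⟩
  · intro i j hij t ht
    exact hv2 (σ i) (σ j) (hσn i) (hσn j) (fun h => hij (hσinj h)) t ht
  · intro i
    have := (Finset.mem_filter.1 (hσI i)).2
    exact ENNReal.toReal_pos this (measure_ne_top _ _)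
  · have := hkey (fun _ => 1)
    simpa using this
  · exact (measurable_from_nat (f := q)).comp κ.measurable
  · filter_upwards [hπ] with p hp
    obtain ⟨k, hk, hpk⟩ := hecov p ⟨hp.1, hp.2⟩
    have h1 : edist (e (κ p)) p ≤ edist (e k) p := SimpleFunc.edist_nearestPt_le e p hk
    have h2 : dist (e (κ p)) p ≤ dist (e k) p := by
      rw [edist_dist, edist_dist] at h1
      exact (ENNReal.ofReal_le_ofReal_iff dist_nonneg).1 h1
    have h3 : dist (q (κ p)) (e (κ p)) ≤ ε / 2 := by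
      rw [Prod.dist_eq]
      have := hv1 _ (hκn p)
      simp only [hq, dist_eq_norm, add_sub_cancel_left]
      exact max_le this this
    calc dist (q (κ p)) p ≤ dist (q (κ p)) (e (κ p)) + dist (e (κ p)) p := dist_triangle _ _ _
      _ ≤ ε / 2 + ε / 2 := by
        rw [dist_comm] at hpk
        linarith
      _ = ε := by ring

end Approx

end Crest.Agent.Lib.OTStab
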