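import Mathlib
import Crest.Prelude.Def_QuadraticTransport

/-!
Shared definitions for row 82 (S0109/S0110): Laguerre cells and the discrete stability property.
-/

set_option autoImplicit false
open MeasureTheory
open scoped ENNReal NNReal
open Crest.AnalysisR.OT

namespace Crest.Agent.Lib.OTStab

/-- Open Laguerre cell of index `i` for atoms `y` and dual weights `a`:
the points where `i` is the strict argmax of `⟨x, y j⟩ - a j`. -/
def Cell {d N : ℕ} (y : Fin N → EuclideanSpace ℝ (Fin d)) (a : Fin N → ℝ) (i : Fin N) :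
    Set (EuclideanSpace ℝ (Fin d)) :=
  {x | ∀ j, j ≠ i → inner ℝ x (y j) - a j < inner ℝ x (y i) - a i}

/-- The atoms `(1-t) y + t z` stay pairwise distinct for every `t ∈ [0,1]`. -/
def Generic {d N : ℕ} (y z : Fin N → EuclideanSpace ℝ (Fin d)) : Prop :=
  ∀ i j, i ≠ j → ∀ t ∈ Set.Icc (0 : ℝ) 1, (1 - t) • (y i - y j) + t • (z i - z j) ≠ 0

/-- Discrete stability of optimal maps with constant `C` for atoms in the ball of radius `R`. The
double sum is `∫ ‖T_y - T_z‖² dρ` for the optimal maps `T_y = y i on Cell y a i` etc. -/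
def DiscreteStable {d : ℕ} (K : Set (EuclideanSpace ℝ (Fin d))) (R C : ℝ) : Prop :=
  ∀ (N : ℕ) (y z : Fin N → EuclideanSpace ℝ (Fin d)) (m a b : Fin N → ℝ),
    (∀ i, ‖y i‖ ≤ R) → (∀ i, ‖z i‖ ≤ R) → Generic y z →
    (∀ i, 0 < m i) → ∑ i, m i = 1 →
    (∀ i, uniformProbOn K (Cell y a i) = ENNReal.ofReal (m i)) →
    (∀ i, uniformProbOn K (Cell z b i) = ENNReal.ofReal (m i)) →
    ∑ i, ∑ j, (uniformProbOn K (Cell y a i ∩ Cell z b j)).toReal * ‖y i - z j‖ ^ 2 ≤
      C * (∑ i, m i * ‖y i - z i‖ ^ 2) ^ (1 / 3 : ℝ)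

end Crest.Agent.Lib.OTStab
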