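import Crest.Agent.Lib.OTStabDefs

set_option autoImplicit false
open MeasureTheory Filter Topology
open scoped ENNReal NNReal
open Crest.AnalysisR.OT

namespace Crest.Agent.Lib.OTStab

section Weights

variable {d N : ℕ}

local notation "Ed" => EuclideanSpace ℝ (Fin d)

/-- tie hyperplane -/
def Tie (y : Fin N → EuclideanSpace ℝ (Fin d)) (a : Fin N → ℝ) (i j : Fin N) : Set (EuclideanSpace ℝ (Fin d)) :=
  {x | inner ℝ x (y i) - a i = inner ℝ x (y j) - a j}

lemma isOpen_Cell (y : Fin N → EuclideanSpace ℝ (Fin d)) (a : Fin N → ℝ) (i : Fin N) : IsOpen (Cell y a i) := by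
  have : Cell y a i = ⋂ j, {x | j ≠ i → inner ℝ x (y j) - a j < inner ℝ x (y i) - a i} := by
    ext x; simp [Cell]
  rw [this]
  apply isOpen_iInter_of_finite
  intro j
  by_cases h : j = i
  · simp [h]
  · simp only [ne_eq, h, not_false_eq_true, forall_true_left]
    exact isOpen_lt (by fun_prop) (by fun_prop)

lemma isClosed_Tie (y : Fin N → EuclideanSpace ℝ (Fin d)) (a : Fin N → ℝ) (i j : Fin N) :
    IsClosed (Tie y a i j) := isClosed_eq (by fun_prop) (by fun_prop)

lemma hyperplane_null (w : EuclideanSpace ℝ (Fin d)) (hw : w ≠ 0) (c : ℝ) :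
    volume {x : EuclideanSpace ℝ (Fin d) | inner ℝ x w = c} = 0 := by
  by_cases hne : ({x : EuclideanSpace ℝ (Fin d) | inner ℝ x w = c}).Nonempty
  · obtain ⟨x0, hx0⟩ := hne
    let K : Submodule ℝ (EuclideanSpace ℝ (Fin d)) := (ℝ ∙ w)ᗮ
    let S : AffineSubspace ℝ (EuclideanSpace ℝ (Fin d)) := AffineSubspace.mk' x0 K
    have hS : ({x : EuclideanSpace ℝ (Fin d) | inner ℝ x w = c}) = (S : Set (EuclideanSpace ℝ (Fin d))) := by
      ext x
      simp only [S, SetLike.mem_coe, AffineSubspace.mem_mk', K, vsub_eq_sub,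
        Submodule.mem_orthogonal_singleton_iff_inner_left, inner_sub_left]
      have hx0' : inner ℝ x0 w = c := hx0
      rw [hx0', sub_eq_zero]
      rfl
    rw [hS]
    apply Measure.addHaar_affineSubspace
    intro htop
    have h1 : x0 + w ∈ S := by rw [htop]; exact AffineSubspace.mem_top _ _ _
    simp only [S, AffineSubspace.mem_mk', K, vsub_eq_sub, add_sub_cancel_left,
      Submodule.mem_orthogonal_singleton_iff_inner_left] at h1
    exact hw (inner_self_eq_zero.mp h1)
  · rw [Set.not_nonempty_iff_eq_empty.mp hne, measure_empty]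

lemma Tie_null (y : Fin N → EuclideanSpace ℝ (Fin d)) (hy : Function.Injective y) (a : Fin N → ℝ) (i j : Fin N)
    (hij : i ≠ j) : volume (Tie y a i j) = 0 := by
  have h : Tie y a i j = {x | inner ℝ x (y i - y j) = a i - a j} := by
    ext x
    simp only [Tie, Set.mem_ofPred_eq, inner_sub_right]
    constructor <;> intro h <;> linarith
  rw [h]
  exact hyperplane_null _ (sub_ne_zero.mpr (fun h => hij (hy h))) _

variable (ρ : Measure (EuclideanSpace ℝ (Fin d))) [IsProbabilityMeasure ρ] (hac : ρ ≪ volume)

omit [IsProbabilityMeasure ρ] in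
include hac in
lemma ae_no_tie (y : Fin N → EuclideanSpace ℝ (Fin d)) (hy : Function.Injective y) (a : Fin N → ℝ) :
    ∀ᵐ x ∂ρ, ∀ i j, i ≠ j → x ∉ Tie y a i j := by
  rw [ae_all_iff]
  intro i
  rw [ae_all_iff]
  intro j
  by_cases hij : i = j
  · simp [hij]
  · have := hac (Tie_null y hy a i j hij)
    have h2 : ∀ᵐ x ∂ρ, x ∉ Tie y a i j := measure_eq_zero_iff_ae_notMem.mp this
    filter_upwards [h2] with x hx _
    exact hx

include hac in
lemma cell_continuous (y : Fin N → EuclideanSpace ℝ (Fin d)) (hy : Function.Injective y) (i : Fin N) :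
    Continuous (fun a : Fin N → ℝ => ρ (Cell y a i)) := by
  rw [continuous_iff_continuousAt]
  intro a₀
  apply tendsto_measure_of_ae_tendsto_indicator_of_isFiniteMeasure (𝓝 a₀) (isOpen_Cell y a₀ i).measurableSet
    (fun a => (isOpen_Cell y a i).measurableSet)
  filter_upwards [ae_no_tie ρ hac y hy a₀] with x hx
  by_cases hmem : x ∈ Cell y a₀ i
  · have h1 : ∀ j, ∀ᶠ a : Fin N → ℝ in 𝓝 a₀, j ≠ i → inner ℝ x (y j) - a j < inner ℝ x (y i) - a i := by
      intro j
      by_cases hji : j = i
      · simp [hji]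
      · have hlt := hmem j hji
        have hcont1 : Tendsto (fun a : Fin N → ℝ => inner ℝ x (y j) - a j) (𝓝 a₀) (𝓝 (inner ℝ x (y j) - a₀ j)) :=
          (by fun_prop : Continuous (fun a : Fin N → ℝ => inner ℝ x (y j) - a j)).tendsto a₀
        have hcont2 : Tendsto (fun a : Fin N → ℝ => inner ℝ x (y i) - a i) (𝓝 a₀) (𝓝 (inner ℝ x (y i) - a₀ i)) :=
          (by fun_prop : Continuous (fun a : Fin N → ℝ => inner ℝ x (y i) - a i)).tendsto a₀
        filter_upwards [hcont1.eventually_lt hcont2 hlt] with a ha _
        exact ha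
    have h2 : ∀ᶠ a : Fin N → ℝ in 𝓝 a₀, ∀ j, j ≠ i → inner ℝ x (y j) - a j < inner ℝ x (y i) - a i :=
      eventually_all.mpr h1
    filter_upwards [h2] with a ha
    exact ⟨fun _ => hmem, fun _ => ha⟩
  · have h0 : ∃ j, j ≠ i ∧ inner ℝ x (y i) - a₀ i ≤ inner ℝ x (y j) - a₀ j := by
      simp only [Cell, Set.mem_ofPred_eq] at hmem
      push Not at hmem
      exact hmem
    obtain ⟨j, hji, hle⟩ := h0
    have hne : inner ℝ x (y i) - a₀ i ≠ inner ℝ x (y j) - a₀ j := hx i j (Ne.symm hji)
    have hlt := lt_of_le_of_ne hle hne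
    have hcont1 : Tendsto (fun a : Fin N → ℝ => inner ℝ x (y j) - a j) (𝓝 a₀) (𝓝 (inner ℝ x (y j) - a₀ j)) :=
      (by fun_prop : Continuous (fun a : Fin N → ℝ => inner ℝ x (y j) - a j)).tendsto a₀
    have hcont2 : Tendsto (fun a : Fin N → ℝ => inner ℝ x (y i) - a i) (𝓝 a₀) (𝓝 (inner ℝ x (y i) - a₀ i)) :=
      (by fun_prop : Continuous (fun a : Fin N → ℝ => inner ℝ x (y i) - a i)).tendsto a₀
    filter_upwards [hcont2.eventually_lt hcont1 hlt] with a ha
    constructor
    · intro h
      exact absurd (h j hji) (not_lt.mpr ha.le)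
    · intro h; exact absurd h hmem

include hac in
lemma cell_sum (hN : 0 < N) (y : Fin N → EuclideanSpace ℝ (Fin d)) (hy : Function.Injective y) (a : Fin N → ℝ) :
    ∑ i, ρ (Cell y a i) = 1 := by
  have hdisj : Pairwise (Function.onFun Disjoint (fun i => Cell y a i)) := by
    intro i j hij
    rw [Function.onFun, Set.disjoint_left]
    intro x h1 h2
    have := h1 j (Ne.symm hij)
    have := h2 i hij
    linarith
  rw [← measure_biUnion_finset (fun i _ j _ hij => hdisj hij) (fun i _ => (isOpen_Cell y a i).measurableSet)]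
  rw [← prob_compl_eq_zero_iff (Finset.measurableSet_biUnion _ (fun i _ => (isOpen_Cell y a i).measurableSet))]
  apply measure_eq_zero_iff_ae_notMem.mpr
  filter_upwards [ae_no_tie ρ hac y hy a] with x hx hcompl
  apply hcompl
  have : Nonempty (Fin N) := ⟨⟨0, hN⟩⟩
  obtain ⟨i, hi⟩ := Finite.exists_max (fun i => inner ℝ x (y i) - a i)
  refine Set.mem_biUnion (Finset.mem_coe.mpr (Finset.mem_univ i)) ?_
  intro j hji
  exact lt_of_le_of_ne (hi j) (hx j i hji)

theorem exists_weights (d : ℕ) (ρ : Measure (EuclideanSpace ℝ (Fin d))) [IsProbabilityMeasure ρ] (hac : ρ ≪ volume) (R : ℝ)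
    (hR : ρ (Metric.closedBall 0 R)ᶜ = 0) (N : ℕ) (y : Fin N → EuclideanSpace ℝ (Fin d)) (hy : Function.Injective y)
    (m : Fin N → ℝ) (hm : ∀ i, 0 < m i) (hsum : ∑ i, m i = 1) :
    ∃ a : Fin N → ℝ, ∀ i, ρ (Cell y a i) = ENNReal.ofReal (m i) := by
  have hN : 0 < N := by
    rcases Nat.eq_zero_or_pos N with h | h
    · subst h; simp at hsum
    · exact h
  let i0 : Fin N := ⟨0, hN⟩
  -- R ≥ 0 wlog
  have hRball : ∀ᵐ x ∂ρ, ‖x‖ ≤ R := by
    have := measure_eq_zero_iff_ae_notMem.mp hR
    filter_upwards [this] with x hx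
    simpa using hx
  let S : Set (Fin N → ℝ) := {a | a i0 = 0 ∧ ∀ i, i ≠ i0 → ρ (Cell y a i) ≤ ENNReal.ofReal (m i)}
  have hSclosed : IsClosed S := by
    have : S = {a | a i0 = 0} ∩ ⋂ i, {a | i ≠ i0 → ρ (Cell y a i) ≤ ENNReal.ofReal (m i)} := by
      ext a; simp [S]
    rw [this]
    apply IsClosed.inter
    · exact isClosed_eq (by fun_prop) (by fun_prop)
    · apply isClosed_iInter
      intro i
      by_cases h : i = i0
      · simp [h]
      · simp only [ne_eq, h, not_false_eq_true, forall_true_left]
        exact isClosed_le (cell_continuous ρ hac y hy i) continuous_const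
  -- bounds
  let L : ℝ := ∑ i, |R| * ‖y i - y i0‖ + 1
  have hL : ∀ i, |R| * ‖y i - y i0‖ < L := by
    intro i
    have h1 : |R| * ‖y i - y i0‖ ≤ ∑ i, |R| * ‖y i - y i0‖ :=
      Finset.single_le_sum (f := fun i => |R| * ‖y i - y i0‖) (fun i _ => by positivity) (Finset.mem_univ i)
    simp only [L]
    linarith
  have hinner : ∀ᵐ x ∂ρ, ∀ i, |inner ℝ x (y i - y i0)| ≤ |R| * ‖y i - y i0‖ := by
    filter_upwards [hRball] with x hx i
    calc |inner ℝ x (y i - y i0)| ≤ ‖x‖ * ‖y i - y i0‖ := abs_real_inner_le_norm _ _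
      _ ≤ |R| * ‖y i - y i0‖ := by
          apply mul_le_mul_of_nonneg_right (hx.trans (le_abs_self R)) (norm_nonneg _)
  have hSne : (fun i => if i = i0 then 0 else L) ∈ S := by
    constructor
    · simp
    · intro i hi
      have : ρ (Cell y (fun i => if i = i0 then 0 else L) i) = 0 := by
        apply measure_eq_zero_iff_ae_notMem.mpr
        filter_upwards [hinner] with x hx hmem
        have h1 := hmem i0 (Ne.symm hi)
        simp only [if_true, if_neg hi] at h1
        have h2 := (abs_le.mp (hx i)).2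
        rw [inner_sub_right] at h2
        have := hL i
        linarith
      rw [this]
      exact zero_le
  have hlow : ∀ a ∈ S, ∀ i, -L ≤ a i := by
    intro a ha i
    by_contra hlt
    rw [not_le] at hlt
    have hi : i ≠ i0 := by
      intro h
      rw [h, ha.1] at hlt
      have := hL i0
      simp at this
      linarith
    have h0 : ρ (Cell y a i0) = 0 := by
      apply measure_eq_zero_iff_ae_notMem.mpr
      filter_upwards [hinner] with x hx hmem
      have h1 := hmem i hi
      rw [ha.1] at h1
      have h2 := (abs_le.mp (hx i)).1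
      rw [inner_sub_right] at h2
      have := hL i
      linarith
    have h1 := cell_sum ρ hac hN y hy a
    rw [← Finset.add_sum_erase _ _ (Finset.mem_univ i0), h0, zero_add] at h1
    have h2 : ∑ i ∈ Finset.univ.erase i0, ρ (Cell y a i) ≤ ∑ i ∈ Finset.univ.erase i0, ENNReal.ofReal (m i) :=
      Finset.sum_le_sum (fun i hi => ha.2 i (Finset.ne_of_mem_erase hi))
    rw [← ENNReal.ofReal_sum_of_nonneg (fun i _ => (hm i).le)] at h2
    rw [h1] at h2
    have h3 : ∑ i ∈ Finset.univ.erase i0, m i < 1 := by
      rw [← hsum, ← Finset.add_sum_erase _ m (Finset.mem_univ i0)]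
      linarith [hm i0]
    have h4 : ENNReal.ofReal (∑ i ∈ Finset.univ.erase i0, m i) < 1 := by
      rw [← ENNReal.ofReal_one]
      exact (ENNReal.ofReal_lt_ofReal_iff one_pos).mpr h3
    exact absurd h2 (not_le.mpr h4)
  -- minimise the sum over S
  obtain ⟨a, haS, hamin⟩ : ∃ a ∈ S, ∀ b ∈ S, ∑ i, a i ≤ ∑ i, b i := by
    let c : ℝ := ∑ i, (fun i => if i = i0 then 0 else L) i
    let T : Set (Fin N → ℝ) := S ∩ {a | ∑ i, a i ≤ c}
    have hT : IsCompact T := by
      apply Metric.isCompact_of_isClosed_isBounded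
      · exact hSclosed.inter (isClosed_le (by fun_prop) continuous_const)
      · rw [isBounded_iff_forall_norm_le]
        refine ⟨|c| + (N + 1) * L, ?_⟩
        rintro b ⟨hb, hbc⟩
        have hLpos : 0 < L := lt_of_le_of_lt (by positivity) (hL i0)
        rw [pi_norm_le_iff_of_nonneg (by positivity)]
        intro i
        rw [Real.norm_eq_abs, abs_le]
        constructor
        · have := hlow b hb i
          have : 0 ≤ |c| := abs_nonneg c
          have : (0:ℝ) ≤ N * L := by positivity
          nlinarith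
        · have h1 : ∑ j, b j = b i + ∑ j ∈ Finset.univ.erase i, b j := (Finset.add_sum_erase _ _ (Finset.mem_univ i)).symm
          have h2 : -(N * L) ≤ ∑ j ∈ Finset.univ.erase i, b j := by
            calc -(N * L) ≤ ∑ j ∈ Finset.univ.erase i, (-L) := by
                  rw [Finset.sum_const, Finset.card_erase_of_mem (Finset.mem_univ i)]
                  simp only [Finset.card_univ, Fintype.card_fin, nsmul_eq_mul]
                  rw [Nat.cast_sub hN]
                  push_cast
                  nlinarith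
              _ ≤ _ := Finset.sum_le_sum (fun j _ => hlow b hb j)
          have h3 : ∑ j, b j ≤ c := hbc
          have := le_abs_self c
          nlinarith
    have hTne : T.Nonempty := by
      refine ⟨_, hSne, ?_⟩
      show ∑ i, (if i = i0 then 0 else L) ≤ c
      exact le_refl _
    obtain ⟨a, haT, hmin⟩ := hT.exists_isMinOn hTne (f := fun a => ∑ i, a i) (by fun_prop)
    refine ⟨a, haT.1, ?_⟩
    intro b hb
    by_cases hbc : ∑ i, b i ≤ c
    · exact hmin ⟨hb, hbc⟩
    · rw [not_le] at hbc
      exact haT.2.trans hbc.le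
  -- equality for i ≠ i0
  have heq : ∀ i, i ≠ i0 → ρ (Cell y a i) = ENNReal.ofReal (m i) := by
    intro i hi
    by_contra hne
    have hlt : ρ (Cell y a i) < ENNReal.ofReal (m i) := lt_of_le_of_ne (haS.2 i hi) hne
    have hcont := (cell_continuous ρ hac y hy i).comp
      (continuous_pi (fun j => by
        by_cases h : j = i
        · simp only [h, if_true]; fun_prop
        · simp only [h, if_false]; fun_prop) :
        Continuous (fun t : ℝ => (fun j => if j = i then a i - t else a j : Fin N → ℝ)))
    have h0 : Tendsto (fun t : ℝ => ρ (Cell y (fun j => if j = i then a i - t else a j) i)) (𝓝 0) (𝓝 (ρ (Cell y a i))) := by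
      have := hcont.tendsto 0
      have e : (fun j => if j = i then a i - 0 else a j : Fin N → ℝ) = a := by
        funext j
        by_cases h : j = i
        · simp [h]
        · simp [h]
      simp only [Function.comp_def] at this
      rw [e] at this
      exact this
    have hev : ∀ᶠ t in 𝓝[>] (0:ℝ), ρ (Cell y (fun j => if j = i then a i - t else a j) i) < ENNReal.ofReal (m i) :=
      (h0.mono_left nhdsWithin_le_nhds).eventually_lt_const hlt
    obtain ⟨t, ht, htpos⟩ := (hev.and self_mem_nhdsWithin).exists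
    have htpos' : 0 < t := htpos
    have hmem : (fun j => if j = i then a i - t else a j : Fin N → ℝ) ∈ S := by
      constructor
      · simp only [if_neg (Ne.symm hi)]; exact haS.1
      · intro j hj
        by_cases hji : j = i
        · rw [hji]; exact ht.le
        · refine le_trans (measure_mono ?_) (haS.2 j hj)
          intro x hx k hk
          have h1 := hx k hk
          simp only [if_neg hji] at h1
          by_cases hki : k = i
          · subst hki
            simp only [if_true] at h1
            linarith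
          · simp only [if_neg hki] at h1
            exact h1
    have := hamin _ hmem
    have h2 : ∑ j, (if j = i then a i - t else a j) = ∑ j, a j - t := by
      have : ∀ j, (if j = i then a i - t else a j) = a j - (if j = i then t else 0) := by
        intro j
        by_cases h : j = i
        · simp [h]
        · simp [h]
      simp_rw [this]
      rw [Finset.sum_sub_distrib]
      simp
    rw [h2] at this
    linarith
  refine ⟨a, ?_⟩
  intro i
  by_cases hi : i = i0
  · rw [hi]
    have h1 := cell_sum ρ hac hN y hy a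
    rw [← Finset.add_sum_erase _ _ (Finset.mem_univ i0)] at h1
    rw [Finset.sum_congr rfl (fun i hi => heq i (Finset.ne_of_mem_erase hi)),
      ← ENNReal.ofReal_sum_of_nonneg (fun i _ => (hm i).le)] at h1
    have h2 : ∑ i ∈ Finset.univ.erase i0, m i = 1 - m i0 := by
      rw [← hsum, ← Finset.add_sum_erase _ m (Finset.mem_univ i0)]; ring
    have h3 : 0 ≤ ∑ i ∈ Finset.univ.erase i0, m i := Finset.sum_nonneg (fun i _ => (hm i).le)
    have h4 : (1 : ℝ≥0∞) = ENNReal.ofReal (m i0) + ENNReal.ofReal (∑ i ∈ Finset.univ.erase i0, m i) := by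
      rw [← ENNReal.ofReal_add (hm i0).le h3, h2]; simp
    rw [h4] at h1
    exact (ENNReal.add_left_inj (by simp)).mp h1
  · exact heq i hi

end Weights

end Crest.Agent.Lib.OTStab
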