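import Mathlib

/-!
The Prékopa–Leindler inequality in midpoint form on `ℝⁿ`.
-/

set_option autoImplicit false
open MeasureTheory Set
open scoped ENNReal

namespace Crest.Agent.Lib.PrekopaLeindler

/-- Volume of the set `{y | 2 * y - c ∈ A}`. -/
theorem volume_affine_preimage (A : Set ℝ) (c : ℝ) :
    2 * volume {y : ℝ | 2 * y - c ∈ A} = volume A := by
  have h1 : {y : ℝ | 2 * y - c ∈ A} = (fun y : ℝ => 2 * y) ⁻¹' ((fun y => y + (-c)) ⁻¹' A) := by
    ext y; simp [sub_eq_add_neg]
  rw [h1, Real.volume_preimage_mul_left (by norm_num : (2:ℝ) ≠ 0), measure_preimage_add_right,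
    ← mul_assoc]
  have : (2 : ℝ≥0∞) * ENNReal.ofReal |(2:ℝ)⁻¹| = 1 := by
    rw [show (2 : ℝ≥0∞) = ENNReal.ofReal 2 by simp, ← ENNReal.ofReal_mul (by norm_num)]
    norm_num
  rw [this, one_mul]

/-- One-dimensional Brunn–Minkowski for nonempty compact sets, midpoint form. -/
theorem bm_compact {A B C : Set ℝ} (hA : IsCompact A) (hB : IsCompact B) (hAne : A.Nonempty)
    (hBne : B.Nonempty) (hC : ∀ a ∈ A, ∀ b ∈ B, (1 / 2 : ℝ) * (a + b) ∈ C) :
    volume A + volume B ≤ 2 * volume C := by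
  obtain ⟨a0, ha0, hamax⟩ := hA.exists_isMaxOn hAne continuousOn_id
  obtain ⟨b0, hb0, hbmin⟩ := hB.exists_isMinOn hBne continuousOn_id
  have hamax' : ∀ a ∈ A, a ≤ a0 := fun a ha => hamax ha
  have hbmin' : ∀ b ∈ B, b0 ≤ b := fun b hb => hbmin hb
  have hA' := volume_affine_preimage A b0
  have hB' := volume_affine_preimage B a0
  set A' : Set ℝ := {y : ℝ | 2 * y - b0 ∈ A} with hA'def
  set B' : Set ℝ := {y : ℝ | 2 * y - a0 ∈ B} with hB'def
  have hBm : MeasurableSet B' := by
    have : Measurable (fun y : ℝ => 2 * y - a0) := by fun_prop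
    exact this hB.measurableSet
  have hint : A' ∩ B' ⊆ {(1 / 2 : ℝ) * (a0 + b0)} := by
    rintro y ⟨hyA, hyB⟩
    have h1 := hamax' _ hyA
    have h2 := hbmin' _ hyB
    simp only [mem_singleton_iff]
    linarith
  have hint0 : volume (A' ∩ B') = 0 :=
    measure_mono_null hint (by simp)
  have hsub : A' ∪ B' ⊆ C := by
    rintro y (hy | hy)
    · have := hC _ hy _ hb0
      convert this using 1
      ring
    · have := hC _ ha0 _ hy
      convert this using 1
      ring
  have key : volume A' + volume B' ≤ volume C := by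
    calc volume A' + volume B' = volume (A' ∪ B') + volume (A' ∩ B') :=
          (measure_union_add_inter A' hBm).symm
      _ = volume (A' ∪ B') := by rw [hint0, add_zero]
      _ ≤ volume C := measure_mono hsub
  calc volume A + volume B = 2 * (volume A' + volume B') := by rw [mul_add, hA', hB']
    _ ≤ 2 * volume C := by gcongr

/-- One-dimensional Brunn–Minkowski for nonempty measurable sets, midpoint form. -/
theorem bm_measurable {A B C : Set ℝ} (hA : MeasurableSet A) (hB : MeasurableSet B)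
    (hAne : A.Nonempty) (hBne : B.Nonempty)
    (hC : ∀ a ∈ A, ∀ b ∈ B, (1 / 2 : ℝ) * (a + b) ∈ C) :
    volume A + volume B ≤ 2 * volume C := by
  obtain ⟨a, ha⟩ := hAne
  obtain ⟨b, hb⟩ := hBne
  have h1 : volume A = ⨆ K, ⨆ (_ : K ⊆ A ∧ IsCompact K), volume K := by
    rw [hA.measure_eq_iSup_isCompact]; simp only [iSup_and]
  have h2 : volume B = ⨆ K, ⨆ (_ : K ⊆ B ∧ IsCompact K), volume K := by
    rw [hB.measure_eq_iSup_isCompact]; simp only [iSup_and]
  rw [h1, h2]
  refine ENNReal.biSup_add_biSup_le' ⟨∅, empty_subset _, isCompact_empty⟩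
    ⟨∅, empty_subset _, isCompact_empty⟩ ?_
  rintro K ⟨hKA, hK⟩ L ⟨hLB, hL⟩
  have := bm_compact (A := insert a K) (B := insert b L) (C := C) (hK.insert a) (hL.insert b)
    (insert_nonempty _ _) (insert_nonempty _ _)
    (fun x hx y hy => hC x (insert_subset ha hKA hx) y (insert_subset hb hLB hy))
  refine le_trans ?_ this
  gcongr
  · exact subset_insert _ _
  · exact subset_insert _ _

/-- AM–GM in `ℝ≥0∞`. -/
theorem amgm (a b : ℝ≥0∞) : a * b ≤ ((a + b) / 2) ^ 2 := by
  rcases eq_or_ne a ∞ with ha | ha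
  · subst ha
    simp only [top_add]
    rw [ENNReal.top_div_of_ne_top (by simp)]
    simp
  rcases eq_or_ne b ∞ with hb | hb
  · subst hb
    simp only [add_top]
    rw [ENNReal.top_div_of_ne_top (by simp)]
    simp
  lift a to NNReal using ha
  lift b to NNReal using hb
  have : (((a : ℝ≥0∞) + b) / 2) ^ 2 = (((a + b) / 2 : NNReal) ^ 2 : NNReal) := by
    push_cast
    rfl
  rw [this]
  norm_cast
  rw [← NNReal.coe_le_coe]
  push_cast
  nlinarith [sq_nonneg ((a : ℝ) - b)]

/-- The normalised one-dimensional inequality. -/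
theorem normalised {f g h : ℝ → ℝ≥0∞} (hf : Measurable f) (hg : Measurable g)
    (hh : Measurable h) (hf1 : ⨆ x, f x = 1) (hg1 : ⨆ x, g x = 1)
    (H : ∀ x y, f x * g y ≤ h ((1 / 2 : ℝ) * (x + y)) ^ 2) :
    (∫⁻ x, f x) + (∫⁻ x, g x) ≤ 2 * ∫⁻ x, h x := by
  have hfle : ∀ x, f x ≤ 1 := fun x => hf1 ▸ le_iSup f x
  have hgle : ∀ x, g x ≤ 1 := fun x => hg1 ▸ le_iSup g x
  set k : ℝ → ℝ≥0∞ := fun x => min (h x) 1 with hk
  have hkm : Measurable k := hh.min measurable_const
  have hkle : ∀ x, k x ≤ 1 := fun x => min_le_right _ _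
  have lc : ∀ (u : ℝ → ℝ≥0∞), Measurable u → (∀ x, u x ≤ 1) →
      ∫⁻ x, u x = ∫⁻ t in Ioi (0 : ℝ), volume {a : ℝ | t < (u a).toReal} := by
    intro u hu hu1
    rw [← lintegral_eq_lintegral_meas_lt volume (Filter.Eventually.of_forall fun x => ENNReal.toReal_nonneg)
      hu.ennreal_toReal.aemeasurable]
    refine lintegral_congr fun x => ?_
    rw [ENNReal.ofReal_toReal]
    exact ((hu1 x).trans_lt ENNReal.one_lt_top).ne
  have hkh : ∫⁻ x, k x ≤ ∫⁻ x, h x := lintegral_mono fun x => min_le_left _ _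
  refine le_trans ?_ (mul_le_mul_right hkh 2)
  rw [lc f hf hfle, lc g hg hgle, lc k hkm hkle]
  have hmf : Measurable fun t : ℝ => volume {a : ℝ | t < (f a).toReal} := by
    refine Antitone.measurable ?_
    intro s t hst
    exact measure_mono fun a ha => lt_of_le_of_lt hst ha
  rw [← lintegral_add_left hmf, ← lintegral_const_mul' _ _ (by simp)]
  refine lintegral_mono_ae ?_
  refine (ae_restrict_iff' measurableSet_Ioi).2 (Filter.Eventually.of_forall fun t ht => ?_)
  simp only [mem_Ioi] at ht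
  by_cases ht1 : t < 1
  · have hconv : ∀ (u : ℝ → ℝ≥0∞), (∀ x, u x ≤ 1) → ∀ x, (t < (u x).toReal ↔ ENNReal.ofReal t < u x) := by
      intro u hu x
      rw [ENNReal.ofReal_lt_iff_lt_toReal ht.le]
      exact ((hu x).trans_lt ENNReal.one_lt_top).ne
    have ne : ∀ (u : ℝ → ℝ≥0∞), (⨆ x, u x = 1) → (∀ x, u x ≤ 1) → {a : ℝ | t < (u a).toReal}.Nonempty := by
      intro u hu1 hu
      have : ENNReal.ofReal t < ⨆ x, u x := by
        rw [hu1]
        rw [← ENNReal.ofReal_one]
        exact (ENNReal.ofReal_lt_ofReal_iff (by norm_num)).2 ht1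
      obtain ⟨x, hx⟩ := lt_iSup_iff.1 this
      exact ⟨x, (hconv u hu x).2 hx⟩
    have ms : ∀ (u : ℝ → ℝ≥0∞), Measurable u → MeasurableSet {a : ℝ | t < (u a).toReal} := by
      intro u hu
      exact measurableSet_lt measurable_const hu.ennreal_toReal
    refine bm_measurable (ms f hf) (ms g hg) (ne f hf1 hfle) (ne g hg1 hgle) ?_
    intro a ha b hb
    simp only [mem_ofPred_eq] at ha hb ⊢
    rw [hconv f hfle] at ha
    rw [hconv g hgle] at hb
    rw [hconv k hkle]
    simp only [hk, lt_min_iff]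
    refine ⟨?_, ?_⟩
    · by_contra hcon
      push Not at hcon
      have h3 := H a b
      have h4 : h ((1 / 2 : ℝ) * (a + b)) ^ 2 ≤ ENNReal.ofReal t ^ 2 := by gcongr
      have h5 : ENNReal.ofReal t * ENNReal.ofReal t < f a * g b :=
        ENNReal.mul_lt_mul ha hb
      rw [sq (ENNReal.ofReal t)] at h4
      exact absurd (h5.trans_le (h3.trans h4)) (lt_irrefl _)
    · rw [← ENNReal.ofReal_one]
      exact (ENNReal.ofReal_lt_ofReal_iff (by norm_num)).2 ht1
  · push Not at ht1
    have : ∀ (u : ℝ → ℝ≥0∞), (∀ x, u x ≤ 1) → {a : ℝ | t < (u a).toReal} = ∅ := by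
      intro u hu
      ext x
      simp only [mem_ofPred_eq, mem_empty_iff_false, iff_false, not_lt]
      have : (u x).toReal ≤ 1 := by
        have := ENNReal.toReal_mono ENNReal.one_ne_top (hu x)
        simpa using this
      linarith
    rw [this f hfle, this g hgle]
    simp

/-- The one-dimensional inequality for bounded functions. -/
theorem bounded {f g h : ℝ → ℝ≥0∞} (hf : Measurable f) (hg : Measurable g)
    (hh : Measurable h) (hfb : ⨆ x, f x ≠ ∞) (hgb : ⨆ x, g x ≠ ∞)
    (H : ∀ x y, f x * g y ≤ h ((1 / 2 : ℝ) * (x + y)) ^ 2) :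
    (∫⁻ x, f x) * (∫⁻ x, g x) ≤ (∫⁻ x, h x) ^ 2 := by
  set F := ⨆ x, f x with hF
  set G := ⨆ x, g x with hG
  rcases eq_or_ne F 0 with hF0 | hF0
  · have : ∀ x, f x = 0 := fun x => le_antisymm (hF0 ▸ le_iSup f x) bot_le
    simp [this]
  rcases eq_or_ne G 0 with hG0 | hG0
  · have : ∀ x, g x = 0 := fun x => le_antisymm (hG0 ▸ le_iSup g x) bot_le
    simp [this]
  -- square root of F * G
  set S : ℝ≥0∞ := (F * G) ^ (1 / 2 : ℝ) with hS
  have hFG0 : F * G ≠ 0 := mul_ne_zero hF0 hG0
  have hFGt : F * G ≠ ∞ := ENNReal.mul_ne_top hfb hgb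
  have hS2 : S ^ 2 = F * G := by
    rw [hS, ← ENNReal.rpow_natCast, ← ENNReal.rpow_mul]
    norm_num
  have hS0 : S ≠ 0 := by
    intro h0; rw [h0] at hS2; apply hFG0; rw [← hS2]; simp
  have hSt : S ≠ ∞ := by
    intro h0; rw [h0] at hS2; apply hFGt; rw [← hS2]; simp
  have key := normalised (f := fun x => F⁻¹ * f x) (g := fun x => G⁻¹ * g x)
    (h := fun x => S⁻¹ * h x) (hf.const_mul _) (hg.const_mul _) (hh.const_mul _)
    (by rw [← ENNReal.mul_iSup]; exact ENNReal.inv_mul_cancel hF0 hfb)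
    (by rw [← ENNReal.mul_iSup]; exact ENNReal.inv_mul_cancel hG0 hgb)
    (by
      intro x y
      have h1 : F⁻¹ * f x * (G⁻¹ * g y) = (S ^ 2)⁻¹ * (f x * g y) := by
        rw [hS2, ENNReal.mul_inv (Or.inl hF0) (Or.inl hfb)]
        ring
      have h2 : (S⁻¹ * h ((1 / 2 : ℝ) * (x + y))) ^ 2
          = (S ^ 2)⁻¹ * h ((1 / 2 : ℝ) * (x + y)) ^ 2 := by
        rw [mul_pow, ENNReal.inv_pow]
      rw [h1, h2]
      gcongr
      exact H x y)
  rw [lintegral_const_mul _ hf, lintegral_const_mul _ hg, lintegral_const_mul _ hh] at key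
  set I := ∫⁻ x, f x
  set J := ∫⁻ x, g x
  set K := ∫⁻ x, h x
  have h3 : F⁻¹ * I * (G⁻¹ * J) ≤ (S⁻¹ * K) ^ 2 := by
    refine (amgm _ _).trans ?_
    gcongr
    rw [ENNReal.div_le_iff (by simp) (by simp)]
    rw [mul_comm _ (2 : ℝ≥0∞)]
    exact key
  have h4 : I * J = F * G * (F⁻¹ * I * (G⁻¹ * J)) := by
    calc I * J = (F * F⁻¹) * (G * G⁻¹) * (I * J) := by
          rw [ENNReal.mul_inv_cancel hF0 hfb, ENNReal.mul_inv_cancel hG0 hgb]; simp
      _ = _ := by ring
  have h5 : F * G * (S⁻¹ * K) ^ 2 = K ^ 2 := by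
    rw [← hS2, mul_pow, ← mul_assoc, ← mul_pow, ENNReal.mul_inv_cancel hS0 hSt]
    simp
  rw [h4, ← h5]
  gcongr

/-- Truncations increase to the function. -/
theorem lintegral_trunc {f : ℝ → ℝ≥0∞} (hf : Measurable f) :
    ∫⁻ x, f x = ⨆ n : ℕ, ∫⁻ x, min (f x) n := by
  rw [← lintegral_iSup (fun n => hf.min measurable_const)]
  · refine lintegral_congr fun x => ?_
    apply le_antisymm
    · rcases eq_or_ne (f x) ∞ with hx | hx
      · rw [hx]
        simp only [min_eq_right le_top]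
        rw [ENNReal.iSup_natCast]
      · obtain ⟨n, hn⟩ := ENNReal.exists_nat_gt hx
        exact le_iSup_of_le n (le_min le_rfl hn.le)
    · exact iSup_le fun n => min_le_left _ _
  · intro m n hmn x
    exact min_le_min le_rfl (by exact_mod_cast hmn)

/-- **Prékopa–Leindler in dimension one**, midpoint form. -/
theorem midpoint_real {f g h : ℝ → ℝ≥0∞} (hf : Measurable f) (hg : Measurable g)
    (hh : Measurable h) (H : ∀ x y, f x * g y ≤ h ((1 / 2 : ℝ) * (x + y)) ^ 2) :
    (∫⁻ x, f x) * (∫⁻ x, g x) ≤ (∫⁻ x, h x) ^ 2 := by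
  rw [lintegral_trunc hf, lintegral_trunc hg]
  rw [ENNReal.iSup_mul]
  refine iSup_le fun m => ?_
  rw [ENNReal.mul_iSup]
  refine iSup_le fun n => ?_
  refine bounded (hf.min measurable_const) (hg.min measurable_const) hh ?_ ?_ ?_
  · refine ((iSup_le fun x => min_le_right _ _).trans_lt (ENNReal.natCast_lt_top m)).ne
  · refine ((iSup_le fun x => min_le_right _ _).trans_lt (ENNReal.natCast_lt_top n)).ne
  · intro x y
    refine le_trans ?_ (H x y)
    gcongr
    · exact min_le_left _ _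
    · exact min_le_left _ _

/-- **Prékopa–Leindler on `Fin n → ℝ`**, midpoint form. -/
theorem midpoint_pi (n : ℕ) (f g h : (Fin n → ℝ) → ℝ≥0∞) (hf : Measurable f)
    (hg : Measurable g) (hh : Measurable h)
    (H : ∀ x y, f x * g y ≤ h ((1 / 2 : ℝ) • (x + y)) ^ 2) :
    (∫⁻ x, f x) * (∫⁻ y, g y) ≤ (∫⁻ z, h z) ^ 2 := by
  induction n with
  | zero =>
    have hi : ∀ u : (Fin 0 → ℝ) → ℝ≥0∞, ∫⁻ x, u x = u default := by
      intro u
      rw [lintegral_unique]
      simp only [volume_pi, Measure.pi_of_empty _ default, measure_univ, mul_one]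
      exact congrArg u (Subsingleton.elim _ _)
    rw [hi f, hi g, hi h]
    have := H default default
    rwa [Subsingleton.elim ((1 / 2 : ℝ) • ((default : Fin 0 → ℝ) + default)) default] at this
  | succ n ih =>
    set e := MeasurableEquiv.piFinSuccAbove (fun _ : Fin (n + 1) => ℝ) 0 with he
    have hpres := (volume_preserving_piFinSuccAbove (fun _ : Fin (n + 1) => ℝ) 0).symm
    have hes : ∀ (t : ℝ) (x : Fin n → ℝ), e.symm (t, x) = Fin.cons t x := by
      intro t x
      simp [he, MeasurableEquiv.piFinSuccAbove, Fin.insertNthEquiv]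
    have hi : ∀ u : (Fin (n + 1) → ℝ) → ℝ≥0∞, Measurable u →
        ∫⁻ x, u x = ∫⁻ t : ℝ, ∫⁻ x : Fin n → ℝ, u (e.symm (t, x)) := by
      intro u hu
      rw [← hpres.lintegral_comp hu]
      rw [Measure.volume_eq_prod]
      exact lintegral_prod _ (hu.comp e.symm.measurable).aemeasurable
    rw [hi f hf, hi g hg, hi h hh]
    refine midpoint_real ?_ ?_ ?_ ?_
    · exact (hf.comp e.symm.measurable).lintegral_prod_right'
    · exact (hg.comp e.symm.measurable).lintegral_prod_right'
    · exact (hh.comp e.symm.measurable).lintegral_prod_right'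
    · intro s t
      refine ih _ _ _ ?_ ?_ ?_ ?_
      · exact hf.comp (e.symm.measurable.comp measurable_prodMk_left)
      · exact hg.comp (e.symm.measurable.comp measurable_prodMk_left)
      · exact hh.comp (e.symm.measurable.comp measurable_prodMk_left)
      · intro x y
        have := H (e.symm (s, x)) (e.symm (t, y))
        refine this.trans (le_of_eq ?_)
        congr 2
        simp only [hes]
        ext i
        refine Fin.cases ?_ (fun j => ?_) i
        · simp
        · simp only [Pi.smul_apply, Pi.add_apply, Fin.cons_succ, smul_eq_mul]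

/-- **Prékopa–Leindler on Euclidean space**, midpoint form. -/
theorem midpoint_euclidean (n : ℕ) (f g h : EuclideanSpace ℝ (Fin n) → ℝ≥0∞)
    (hf : Measurable f) (hg : Measurable g) (hh : Measurable h)
    (H : ∀ x y, f x * g y ≤ h ((1 / 2 : ℝ) • (x + y)) ^ 2) :
    (∫⁻ x, f x) * (∫⁻ y, g y) ≤ (∫⁻ z, h z) ^ 2 := by
  have hp := PiLp.volume_preserving_toLp (Fin n)
  have hm : Measurable (WithLp.toLp 2 : (Fin n → ℝ) → EuclideanSpace ℝ (Fin n)) := hp.measurable
  rw [← hp.lintegral_comp hf, ← hp.lintegral_comp hg, ← hp.lintegral_comp hh]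
  refine midpoint_pi n _ _ _ (hf.comp hm) (hg.comp hm) (hh.comp hm) ?_
  intro x y
  have := H (WithLp.toLp 2 x) (WithLp.toLp 2 y)
  refine this.trans (le_of_eq ?_)
  congr 2

end Crest.Agent.Lib.PrekopaLeindler
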