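import Mathlib
import Crest.Prelude.Def_QuadraticTransport
import Crest.Agent.Lib.OTStabDefs
import Crest.Agent.Lib.OTWeights
import Crest.Agent.Lib.PrekopaLeindler

/-!
Row 82, chunk D, part A: the Prekopa-Leindler inequality on pairs of cells.
-/

set_option autoImplicit false
open MeasureTheory
open scoped ENNReal NNReal
open Crest.AnalysisR.OT

namespace Crest.Agent.Lib.OTStab

variable {d : ℕ} {K : Set (EuclideanSpace ℝ (Fin d))}

local notation "E" => EuclideanSpace ℝ (Fin d)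

lemma vol_ne_zero (hKi : (interior K).Nonempty) : volume K ≠ 0 := by
  have h := (isOpen_interior (s := K)).measure_pos volume hKi
  exact (h.trans_le (measure_mono interior_subset)).ne'

lemma vol_ne_top (hKc : IsCompact K) : volume K ≠ ⊤ := hKc.measure_lt_top.ne

lemma isProb_unif (hKc : IsCompact K) (hKi : (interior K).Nonempty) :
    IsProbabilityMeasure (uniformProbOn K) := by
  constructor
  unfold uniformProbOn
  rw [Measure.smul_apply, Measure.restrict_apply MeasurableSet.univ, Set.univ_inter, smul_eq_mul,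
    ENNReal.inv_mul_cancel (vol_ne_zero hKi) (vol_ne_top hKc)]

lemma ae_mem_unif (hKc : IsCompact K) : ∀ᵐ x ∂(uniformProbOn K), x ∈ K := by
  unfold uniformProbOn
  exact Measure.ae_smul_measure (ae_restrict_mem hKc.measurableSet) _

lemma unif_ac : uniformProbOn K ≪ (volume : Measure E) := by
  unfold uniformProbOn
  exact Measure.smul_absolutelyContinuous.trans Measure.absolutelyContinuous_restrict

lemma setLIntegral_unif (hKc : IsCompact K) (V : Set E) (hV : MeasurableSet V) (f : E → ℝ≥0∞) :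
    ∫⁻ x in V, f x ∂(uniformProbOn K) = (volume K)⁻¹ * ∫⁻ x, (V ∩ K).indicator f x := by
  unfold uniformProbOn
  rw [Measure.restrict_smul, Measure.restrict_restrict hV, lintegral_smul_measure, smul_eq_mul,
    lintegral_indicator (hV.inter hKc.measurableSet)]

/-- Prekopa-Leindler on cells, for the uniform measure on a convex set -/
theorem pl_lint (hKc : IsCompact K) (hKv : Convex ℝ K) (V0 V1 Vm : Set E)
    (h0 : MeasurableSet V0) (h1 : MeasurableSet V1) (hm : MeasurableSet Vm)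
    (hmid : ∀ x ∈ V0, ∀ y ∈ V1, (1 / 2 : ℝ) • (x + y) ∈ Vm)
    (F0 F1 G : E → ℝ≥0∞) (hF0 : Measurable F0) (hF1 : Measurable F1) (hG : Measurable G)
    (H : ∀ x ∈ K, ∀ y ∈ K, F0 x * F1 y ≤ G ((1 / 2 : ℝ) • (x + y)) ^ 2) :
    (∫⁻ x in V0, F0 x ∂(uniformProbOn K)) * (∫⁻ x in V1, F1 x ∂(uniformProbOn K)) ≤
      (∫⁻ x in Vm, G x ∂(uniformProbOn K)) ^ 2 := by
  rw [setLIntegral_unif hKc V0 h0, setLIntegral_unif hKc V1 h1, setLIntegral_unif hKc Vm hm]
  have hKm := hKc.measurableSet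
  have hPL := PrekopaLeindler.midpoint_euclidean d ((V0 ∩ K).indicator F0)
    ((V1 ∩ K).indicator F1) ((Vm ∩ K).indicator G)
    (hF0.indicator (h0.inter hKm)) (hF1.indicator (h1.inter hKm)) (hG.indicator (hm.inter hKm))
    (by
      intro x y
      by_cases hx : x ∈ V0 ∩ K
      · by_cases hy : y ∈ V1 ∩ K
        · have hxy : (1 / 2 : ℝ) • (x + y) ∈ Vm ∩ K := by
            refine ⟨hmid x hx.1 y hy.1, ?_⟩
            have := hKv hx.2 hy.2 (a := 1 / 2) (b := 1 / 2) (by norm_num) (by norm_num)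
              (by norm_num)
            rwa [← smul_add] at this
          rw [Set.indicator_of_mem hx, Set.indicator_of_mem hy, Set.indicator_of_mem hxy]
          exact H x hx.2 y hy.2
        · rw [Set.indicator_of_notMem hy, mul_zero]; exact zero_le
      · rw [Set.indicator_of_notMem hx, zero_mul]; exact zero_le)
  calc _ = (volume K)⁻¹ ^ 2 * ((∫⁻ x, (V0 ∩ K).indicator F0 x) *
        (∫⁻ x, (V1 ∩ K).indicator F1 x)) := by ring
    _ ≤ (volume K)⁻¹ ^ 2 * (∫⁻ x, (Vm ∩ K).indicator G x) ^ 2 := by gcongr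
    _ = _ := by ring

/-- real version for exponentials of continuous functions -/
theorem pl_real (hKc : IsCompact K) (hKv : Convex ℝ K) (hKi : (interior K).Nonempty)
    (V0 V1 Vm : Set E)
    (h0 : MeasurableSet V0) (h1 : MeasurableSet V1) (hm : MeasurableSet Vm)
    (hmid : ∀ x ∈ V0, ∀ y ∈ V1, (1 / 2 : ℝ) • (x + y) ∈ Vm)
    (f0 f1 g : E → ℝ) (hf0 : Continuous f0) (hf1 : Continuous f1) (hg : Continuous g)
    (H : ∀ x ∈ K, ∀ y ∈ K, f0 x + f1 y ≤ 2 * g ((1 / 2 : ℝ) • (x + y))) :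
    (∫ x in V0, Real.exp (f0 x) ∂(uniformProbOn K)) *
      (∫ x in V1, Real.exp (f1 x) ∂(uniformProbOn K)) ≤
      (∫ x in Vm, Real.exp (g x) ∂(uniformProbOn K)) ^ 2 := by
  have := isProb_unif hKc hKi
  -- integrability
  have hint : ∀ f : E → ℝ, Continuous f → Integrable f (uniformProbOn K) := by
    intro f hf
    obtain ⟨C, hC⟩ := hKc.exists_bound_of_continuousOn hf.continuousOn
    refine Integrable.of_bound hf.aestronglyMeasurable C ?_
    filter_upwards [ae_mem_unif hKc] with x hx using hC x hx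
  have hconv : ∀ (f : E → ℝ), Continuous f → ∀ V : Set E,
      ∫⁻ x in V, ENNReal.ofReal (Real.exp (f x)) ∂(uniformProbOn K) =
      ENNReal.ofReal (∫ x in V, Real.exp (f x) ∂(uniformProbOn K)) := by
    intro f hf V
    rw [ofReal_integral_eq_lintegral_ofReal]
    · exact (hint _ (Real.continuous_exp.comp hf)).integrableOn
    · exact ae_of_all _ fun x => (Real.exp_pos _).le
  have key := pl_lint hKc hKv V0 V1 Vm h0 h1 hm hmid
    (fun x => ENNReal.ofReal (Real.exp (f0 x))) (fun x => ENNReal.ofReal (Real.exp (f1 x)))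
    (fun x => ENNReal.ofReal (Real.exp (g x))) (by fun_prop) (by fun_prop) (by fun_prop)
    (by
      intro x hx y hy
      rw [← ENNReal.ofReal_mul (Real.exp_pos _).le, ← ENNReal.ofReal_pow (Real.exp_pos _).le,
        ← Real.exp_add, ← Real.exp_nat_mul]
      apply ENNReal.ofReal_le_ofReal
      apply Real.exp_le_exp.2
      have := H x hx y hy
      push_cast
      exact this)
  rw [hconv f0 hf0, hconv f1 hf1, hconv g hg] at key
  have hnn : ∀ (f : E → ℝ) (V : Set E), 0 ≤ ∫ x in V, Real.exp (f x) ∂(uniformProbOn K) :=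
    fun f V => integral_nonneg fun x => (Real.exp_pos _).le
  rw [← ENNReal.ofReal_mul (hnn _ _), ← ENNReal.ofReal_pow (hnn _ _)] at key
  exact (ENNReal.ofReal_le_ofReal_iff (by positivity)).1 key

lemma integrable_unif (hKc : IsCompact K) (hKi : (interior K).Nonempty) {G : Type*}
    [NormedAddCommGroup G] (f : E → G) (hf : Continuous f) :
    Integrable f (uniformProbOn K) := by
  have := isProb_unif hKc hKi
  obtain ⟨C, hC⟩ := hKc.exists_bound_of_continuousOn hf.continuousOn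
  refine Integrable.of_bound hf.aestronglyMeasurable C ?_
  filter_upwards [ae_mem_unif hKc] with x hx using hC x hx

/-- the weight -/
noncomputable def W (κ : ℝ) (x : E) : ℝ := Real.exp (-(κ * ‖x‖ ^ 2 / 2))

lemma W_pos (κ : ℝ) (x : E) : 0 < W κ x := Real.exp_pos _

@[fun_prop] lemma W_cont (κ : ℝ) : Continuous (W κ : E → ℝ) := by
  unfold W; fun_prop

lemma norm_midpoint_id (x y : E) :
    ‖(1 / 2 : ℝ) • (x + y)‖ ^ 2 = (‖x‖ ^ 2 + ‖y‖ ^ 2) / 2 - ‖x - y‖ ^ 2 / 4 := by
  have h := parallelogram_law_with_norm ℝ x y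
  rw [norm_smul, mul_pow]
  have h1 : ‖(1 / 2 : ℝ)‖ ^ 2 = 1 / 4 := by
    rw [Real.norm_eq_abs, abs_of_pos (by norm_num)]; norm_num
  rw [h1]
  nlinarith

/-- the key inequality for one pair of cells -/
theorem cell_ineq (hKc : IsCompact K) (hKv : Convex ℝ K) (hKi : (interior K).Nonempty)
    (V0 V1 Vm : Set E)
    (h0 : MeasurableSet V0) (h1 : MeasurableSet V1) (hm : MeasurableSet Vm)
    (hmid : ∀ x ∈ V0, ∀ y ∈ V1, (1 / 2 : ℝ) • (x + y) ∈ Vm)
    (κ : ℝ) (hκ : 0 < κ) (g : E → ℝ) (hg : Continuous g)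
    (hlip : ∀ x ∈ K, ∀ y ∈ K, |g x - g y| ≤ ‖x - y‖)
    (p r : ℝ) (hp : p = ∫ x in V0, W κ x ∂(uniformProbOn K))
    (hr : r = ∫ x in V1, W κ x ∂(uniformProbOn K)) (hp0 : 0 < p) (hr0 : 0 < r) (Δ : ℝ)
    (hΔ : Δ = (∫ x in V1, g x * W κ x ∂(uniformProbOn K)) / r -
      (∫ x in V0, g x * W κ x ∂(uniformProbOn K)) / p) :
    Real.sqrt (p * r) * (1 + κ * Δ ^ 2 / 8) ≤ ∫ x in Vm, W κ x ∂(uniformProbOn K) := by
  set ρ := uniformProbOn K with hρ
  have := isProb_unif hKc hKi
  set l : ℝ := κ * Δ with hl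
  set e0 : ℝ := (∫ x in V0, g x * W κ x ∂ρ) / p with he0
  set e1 : ℝ := (∫ x in V1, g x * W κ x ∂ρ) / r with he1
  set q : ℝ := ∫ x in Vm, W κ x ∂ρ with hq
  have hq0 : 0 ≤ q := integral_nonneg fun x => (W_pos κ x).le
  have hPL := pl_real hKc hKv hKi V0 V1 Vm h0 h1 hm hmid
    (fun x => -(κ * ‖x‖ ^ 2 / 2) - l * g x / 2)
    (fun x => -(κ * ‖x‖ ^ 2 / 2) + (l * g x / 2 - l ^ 2 / (4 * κ)))
    (fun x => -(κ * ‖x‖ ^ 2 / 2)) (by fun_prop) (by fun_prop) (by fun_prop)
    (by
      intro x hx y hy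
      rw [norm_midpoint_id]
      have h2 := hlip y hy x hx
      rw [norm_sub_rev] at h2
      have h3 : l * (g y - g x) / 2 ≤ |l| * ‖x - y‖ / 2 := by
        have : l * (g y - g x) ≤ |l| * |g y - g x| := by
          rw [← abs_mul]; exact le_abs_self _
        have h4 : |l| * |g y - g x| ≤ |l| * ‖x - y‖ := by gcongr
        linarith
      have h5 : |l| * ‖x - y‖ / 2 ≤ κ * ‖x - y‖ ^ 2 / 4 + l ^ 2 / (4 * κ) := by
        have h6 : κ * ‖x - y‖ ^ 2 / 4 + l ^ 2 / (4 * κ) - |l| * ‖x - y‖ / 2 =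
            (κ * ‖x - y‖ - |l|) ^ 2 / (4 * κ) := by
          have : l ^ 2 = |l| ^ 2 := (sq_abs l).symm
          rw [this]
          field_simp
          ring
        have h7 : 0 ≤ (κ * ‖x - y‖ - |l|) ^ 2 / (4 * κ) := by positivity
        linarith
      nlinarith)
  -- lower bounds by Jensen
  have hJ : ∀ (V : Set E) (l' e P : ℝ), MeasurableSet V → P = ∫ x in V, W κ x ∂ρ →
      e * P = ∫ x in V, g x * W κ x ∂ρ → ∀ c : ℝ,
      P * Real.exp (l' * e + c) ≤
        ∫ x in V, Real.exp (-(κ * ‖x‖ ^ 2 / 2) + (l' * g x + c)) ∂ρ := by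
    intro V l' e P hV hP he c
    have i1 : Integrable (W κ) ρ := integrable_unif hKc hKi _ (W_cont κ)
    have i2 : Integrable (fun x => g x * W κ x) ρ := integrable_unif hKc hKi _ (by fun_prop)
    have h2 : ∀ x, Real.exp (l' * e + c) * (W κ x + l' * (g x * W κ x) - l' * e * W κ x) ≤
        Real.exp (-(κ * ‖x‖ ^ 2 / 2) + (l' * g x + c)) := by
      intro x
      have h3 : Real.exp (-(κ * ‖x‖ ^ 2 / 2) + (l' * g x + c)) =
          Real.exp (l' * e + c) * (W κ x * Real.exp (l' * (g x - e))) := by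
        unfold W
        rw [← Real.exp_add, ← Real.exp_add]
        congr 1; ring
      rw [h3]
      have h4 := Real.add_one_le_exp (l' * (g x - e))
      have h5 : W κ x + l' * (g x * W κ x) - l' * e * W κ x = W κ x * (l' * (g x - e) + 1) := by
        ring
      rw [h5]
      exact mul_le_mul_of_nonneg_left (mul_le_mul_of_nonneg_left h4 (W_pos κ x).le)
        (Real.exp_pos _).le
    have h3 : ∫ x in V, Real.exp (l' * e + c) * (W κ x + l' * (g x * W κ x) - l' * e * W κ x) ∂ρ =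
        P * Real.exp (l' * e + c) := by
      rw [integral_const_mul]
      have i3 : Integrable (fun x => l' * (g x * W κ x)) ρ := i2.const_mul l'
      have i4 : Integrable (fun x => l' * e * W κ x) ρ := i1.const_mul (l' * e)
      have i13 : Integrable (fun x => W κ x + l' * (g x * W κ x)) ρ := i1.add i3
      rw [integral_sub i13.integrableOn i4.integrableOn,
        integral_add i1.integrableOn i3.integrableOn, integral_const_mul,
        integral_const_mul, ← hP, ← he]
      ring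
    rw [← h3]
    refine integral_mono ?_ ?_ h2
    · exact ((((i1.add (i2.const_mul l')).sub (i1.const_mul (l' * e))).const_mul _)).integrableOn
    · exact (integrable_unif hKc hKi _ (by fun_prop)).integrableOn
  have hA := hJ V0 (-(l / 2)) e0 p h0 hp (by rw [he0]; field_simp) 0
  have hB := hJ V1 (l / 2) e1 r h1 hr (by rw [he1]; field_simp) (-(l ^ 2 / (4 * κ)))
  have hA' : p * Real.exp (-(l / 2) * e0 + 0) ≤
      ∫ x in V0, Real.exp (-(κ * ‖x‖ ^ 2 / 2) - l * g x / 2) ∂ρ := by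
    refine hA.trans (le_of_eq ?_)
    congr 1; ext x; congr 1; ring
  have hB' : r * Real.exp (l / 2 * e1 + -(l ^ 2 / (4 * κ))) ≤
      ∫ x in V1, Real.exp (-(κ * ‖x‖ ^ 2 / 2) + (l * g x / 2 - l ^ 2 / (4 * κ))) ∂ρ := by
    refine hB.trans (le_of_eq ?_)
    congr 1; ext x; congr 1; ring
  have hAB : p * r * Real.exp (κ * Δ ^ 2 / 4) ≤ q ^ 2 := by
    have h2 : p * r * Real.exp (κ * Δ ^ 2 / 4) = (p * Real.exp (-(l / 2) * e0 + 0)) *
        (r * Real.exp (l / 2 * e1 + -(l ^ 2 / (4 * κ)))) := by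
      have h3 : Real.exp (κ * Δ ^ 2 / 4) = Real.exp (-(l / 2) * e0 + 0) *
          Real.exp (l / 2 * e1 + -(l ^ 2 / (4 * κ))) := by
        rw [← Real.exp_add]
        congr 1
        have h4 : Δ = e1 - e0 := hΔ
        rw [hl, h4]
        field_simp
        ring
      rw [h3]; ring
    rw [h2]
    refine (mul_le_mul hA' hB' (by positivity) (integral_nonneg fun x => (Real.exp_pos _).le)).trans
      ?_
    exact hPL
  have h2 : Real.sqrt (p * r) * Real.exp (κ * Δ ^ 2 / 8) ≤ q := by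
    have h3 : (Real.sqrt (p * r) * Real.exp (κ * Δ ^ 2 / 8)) ^ 2 ≤ q ^ 2 := by
      rw [mul_pow, Real.sq_sqrt (by positivity), ← Real.exp_nat_mul]
      have : ((2 : ℕ) : ℝ) * (κ * Δ ^ 2 / 8) = κ * Δ ^ 2 / 4 := by push_cast; ring
      rw [this]
      exact hAB
    exact (pow_le_pow_iff_left₀ (by positivity) hq0 two_ne_zero).1 h3
  refine le_trans ?_ h2
  refine mul_le_mul_of_nonneg_left ?_ (Real.sqrt_nonneg _)
  have := Real.add_one_le_exp (κ * Δ ^ 2 / 8)
  linarith

end Crest.Agent.Lib.OTStab
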