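import Crest.Agent.Lib.OTStabDefs

/-!
More shared definitions for row 82 (S0109): potentials and the Talagrand-type cell inequality.
-/

set_option autoImplicit false
open MeasureTheory
open scoped ENNReal NNReal
open Crest.AnalysisR.OT

namespace Crest.Agent.Lib.OTStab

/-- The Laguerre potential `x ↦ max_i (⟨x, y i⟩ - a i)`. -/
noncomputable def pot {d N : ℕ} (y : Fin N → EuclideanSpace ℝ (Fin d)) (a : Fin N → ℝ)
    (x : EuclideanSpace ℝ (Fin d)) : ℝ := ⨆ i, (inner ℝ x (y i) - a i)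

/-- The Talagrand-type inequality for Laguerre cells with the same atoms `y`: `a` are the weights
for `ρ`, `b` the weights for `r ρ` (density `r ∈ [1/2, 3/2]`), same masses `m`. -/
def TalagrandProp {d : ℕ} (K : Set (EuclideanSpace ℝ (Fin d))) (C : ℝ) : Prop :=
  ∀ (N : ℕ) (y : Fin N → EuclideanSpace ℝ (Fin d)) (a b m : Fin N → ℝ)
    (r : EuclideanSpace ℝ (Fin d) → ℝ), Function.Injective y → Measurable r →
    (∀ x, 1 / 2 ≤ r x) → (∀ x, r x ≤ 3 / 2) → (∀ i, 0 < m i) → ∑ i, m i = 1 →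
    (∀ i, uniformProbOn K (Cell y a i) = ENNReal.ofReal (m i)) →
    (∀ i, ∫ x in Cell y b i, r x ∂(uniformProbOn K) = m i) →
    ∑ i, (1 / m i) * ‖(∫ x in Cell y b i, r x • x ∂(uniformProbOn K)) -
        ∫ x in Cell y a i, x ∂(uniformProbOn K)‖ ^ 2 ≤
      C * ∫ x, (r x - 1) ^ 2 ∂(uniformProbOn K)

end Crest.Agent.Lib.OTStab
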