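import Mathlib
import Crest.Prelude.Def_QuadraticTransport
import Crest.Agent.Lib.OTStabDefs
import Crest.Agent.Lib.OTStabDefs2
import Crest.Agent.Lib.OTWeights
import Crest.Agent.Lib.OTBaryA

/-!
Row 82, chunk D: the Talagrand-type inequality for Laguerre cells (`bary_bound`,
`exists_talagrandProp`).
-/

set_option autoImplicit false
open MeasureTheory
open scoped ENNReal NNReal
open Crest.AnalysisR.OT

namespace Crest.Agent.Lib.OTStab

variable {d : ℕ} {K : Set (EuclideanSpace ℝ (Fin d))}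

local notation "E" => EuclideanSpace ℝ (Fin d)

lemma cell_meas {N : ℕ} (y : Fin N → E) (a : Fin N → ℝ) (i : Fin N) :
    MeasurableSet (Cell y a i) := (isOpen_Cell y a i).measurableSet

lemma cell_disj {N : ℕ} (y : Fin N → E) (a : Fin N → ℝ) :
    Pairwise (Function.onFun Disjoint (fun i => Cell y a i)) := by
  intro i j hij
  rw [Function.onFun, Set.disjoint_left]
  intro x h1 h2
  have := h1 j (Ne.symm hij)
  have := h2 i hij
  linarith

lemma cell_mid {N : ℕ} (y : Fin N → E) (a0 a1 : Fin N → ℝ) (i : Fin N) (x x' : E)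
    (hx : x ∈ Cell y a0 i) (hx' : x' ∈ Cell y a1 i) :
    (1 / 2 : ℝ) • (x + x') ∈ Cell y (fun j => (a0 j + a1 j) / 2) i := by
  intro j hj
  have h1 := hx j hj
  have h2 := hx' j hj
  simp only [real_inner_smul_left, inner_add_left]
  linarith

lemma sum_cell_le {N : ℕ} (ρ : Measure E) (y : Fin N → E) (a : Fin N → ℝ) (f : E → ℝ)
    (hf : Integrable f ρ) (hf0 : ∀ x, 0 ≤ f x) :
    ∑ i, ∫ x in Cell y a i, f x ∂ρ ≤ ∫ x, f x ∂ρ := by
  rw [← integral_iUnion_fintype (fun i => cell_meas y a i) (cell_disj y a)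
    (fun i => hf.integrableOn)]
  exact setIntegral_le_integral hf (ae_of_all _ hf0)

lemma cell_cover_bary {N : ℕ} (hN : 0 < N) (ρ : Measure E) [IsProbabilityMeasure ρ]
    (hac : ρ ≪ volume) (y : Fin N → E) (hy : Function.Injective y) (a : Fin N → ℝ) :
    ρ (⋃ i, Cell y a i)ᶜ = 0 := by
  have h := cell_sum ρ hac hN y hy a
  rw [prob_compl_eq_zero_iff (MeasurableSet.iUnion fun i => cell_meas y a i)]
  rw [measure_iUnion (cell_disj y a) (fun i => cell_meas y a i), tsum_fintype]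
  exact h

lemma sum_cell_eq {N : ℕ} (hN : 0 < N) (ρ : Measure E) [IsProbabilityMeasure ρ]
    (hac : ρ ≪ volume) (y : Fin N → E) (hy : Function.Injective y) (a : Fin N → ℝ) (f : E → ℝ)
    (hf : Integrable f ρ) :
    ∑ i, ∫ x in Cell y a i, f x ∂ρ = ∫ x, f x ∂ρ := by
  rw [← integral_iUnion_fintype (fun i => cell_meas y a i) (cell_disj y a)
    (fun i => hf.integrableOn)]
  rw [← setIntegral_univ (μ := ρ) (f := f)]
  refine setIntegral_congr_set ?_
  rw [ae_eq_univ]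
  exact cell_cover_bary hN ρ hac y hy a

/-- scalar summation step -/
lemma sum_step {N : ℕ} (p r q D : Fin N → ℝ) (Z κ : ℝ) (hp : ∀ i, 0 < p i)
    (hr : ∀ i, 0 < r i) (hpZ : ∑ i, p i = Z) (hrZ : ∑ i, r i = Z) (hqZ : ∑ i, q i ≤ Z)
    (h : ∀ i, Real.sqrt (p i * r i) * (1 + κ * D i ^ 2 / 8) ≤ q i) :
    (κ / 4) * ∑ i, Real.sqrt (p i * r i) * D i ^ 2 ≤ ∑ i, (p i - r i) ^ 2 / p i := by
  have h1 : ∀ i, (κ / 8) * (Real.sqrt (p i * r i) * D i ^ 2) ≤
      (q i - (p i + r i) / 2) + (p i - r i) ^ 2 / p i / 2 := by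
    intro i
    have h2 := h i
    have h3 : (p i + r i) / 2 - Real.sqrt (p i * r i) ≤ (p i - r i) ^ 2 / p i / 2 := by
      have hs : Real.sqrt (p i * r i) = Real.sqrt (p i) * Real.sqrt (r i) :=
        Real.sqrt_mul (hp i).le _
      set a := Real.sqrt (p i)
      set b := Real.sqrt (r i)
      have ha : a ^ 2 = p i := Real.sq_sqrt (hp i).le
      have hb : b ^ 2 = r i := Real.sq_sqrt (hr i).le
      have ha0 : 0 < a := Real.sqrt_pos.2 (hp i)
      have hb0 : 0 < b := Real.sqrt_pos.2 (hr i)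
      rw [hs, ← ha, ← hb]
      have : (a ^ 2 - b ^ 2) ^ 2 / a ^ 2 / 2 = (a - b) ^ 2 * ((a + b) ^ 2 / a ^ 2) / 2 := by
        field_simp
        ring
      rw [this]
      have h4 : 1 ≤ (a + b) ^ 2 / a ^ 2 := by
        rw [le_div_iff₀ (by positivity)]
        nlinarith
      nlinarith [sq_nonneg (a - b)]
    nlinarith
  have h2 := Finset.sum_le_sum (s := Finset.univ) (fun i _ => h1 i)
  rw [← Finset.mul_sum, Finset.sum_add_distrib, Finset.sum_sub_distrib] at h2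
  have h3 : ∑ i, (p i + r i) / 2 = Z := by
    rw [← Finset.sum_div, Finset.sum_add_distrib, hpZ, hrZ]; ring
  have h4 : ∑ i, (p i - r i) ^ 2 / p i / 2 = (∑ i, (p i - r i) ^ 2 / p i) / 2 := by
    rw [Finset.sum_div]
  rw [h3, h4] at h2
  linarith

/-- the inverse weight -/
noncomputable def T (κ : ℝ) (x : E) : ℝ := Real.exp (κ * ‖x‖ ^ 2 / 2)

@[fun_prop] lemma T_cont (κ : ℝ) : Continuous (T κ : E → ℝ) := by
  unfold T; fun_prop

lemma T_mul_W (κ : ℝ) (x : E) : T κ x * W κ x = 1 := by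
  unfold T W
  rw [← Real.exp_add]; simp

lemma one_le_T (κ : ℝ) (hκ : 0 ≤ κ) (x : E) : 1 ≤ T κ x := by
  unfold T
  exact Real.one_le_exp (by positivity)

lemma W_le_one (κ : ℝ) (hκ : 0 ≤ κ) (x : E) : W κ x ≤ 1 := by
  unfold W
  exact Real.exp_le_one_iff.2 (by have : 0 ≤ κ * ‖x‖ ^ 2 / 2 := by positivity
                                  linarith)

lemma T_le (R : ℝ) (hR : 0 < R) (x : E) (hx : ‖x‖ ≤ R) : T (1 / (64 * R ^ 2)) x ≤ 128 / 127 := by
  unfold T
  have h1 : 1 / (64 * R ^ 2) * ‖x‖ ^ 2 / 2 ≤ 1 / 128 := by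
    have h2 : ‖x‖ ^ 2 ≤ R ^ 2 := by gcongr
    have h3 : 1 / (64 * R ^ 2) * ‖x‖ ^ 2 / 2 ≤ 1 / (64 * R ^ 2) * R ^ 2 / 2 := by gcongr
    refine h3.trans (le_of_eq ?_)
    field_simp
    norm_num
  have h4 : Real.exp (1 / 128 : ℝ) ≤ 128 / 127 := by
    have h5 : 1 - (1 / 128 : ℝ) ≤ Real.exp (-(1 / 128)) := Real.one_sub_le_exp_neg _
    rw [Real.exp_neg] at h5
    have h6 := Real.exp_pos (1 / 128 : ℝ)
    have h7 : Real.exp (1 / 128 : ℝ) * (Real.exp (1 / 128 : ℝ))⁻¹ = 1 :=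
      mul_inv_cancel₀ h6.ne'
    nlinarith
  exact (Real.exp_le_exp.2 h1).trans h4

lemma T_lip (R : ℝ) (hR : 0 < R) (x y : E) (hx : ‖x‖ ≤ R) (hy : ‖y‖ ≤ R) :
    |T (1 / (64 * R ^ 2)) x - T (1 / (64 * R ^ 2)) y| ≤ 2 / (127 * R) * ‖x - y‖ := by
  -- reduce to the ordered case
  have key : ∀ x y : E, ‖x‖ ≤ R → ‖y‖ ≤ R →
      T (1 / (64 * R ^ 2)) x - T (1 / (64 * R ^ 2)) y ≤ 2 / (127 * R) * ‖x - y‖ := by
    intro x y hx hy
    set a := 1 / (64 * R ^ 2) * ‖x‖ ^ 2 / 2 with ha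
    set b := 1 / (64 * R ^ 2) * ‖y‖ ^ 2 / 2 with hb
    have h1 : T (1 / (64 * R ^ 2)) x - T (1 / (64 * R ^ 2)) y = Real.exp a - Real.exp b := rfl
    have h2 : Real.exp a - Real.exp b ≤ Real.exp a * (a - b) := by
      have h3 : 1 + (b - a) ≤ Real.exp (b - a) := by
        have := Real.add_one_le_exp (b - a); linarith
      have h4 : Real.exp b = Real.exp a * Real.exp (b - a) := by rw [← Real.exp_add]; ring_nf
      rw [h4]
      nlinarith [Real.exp_pos a]
    have h3 : a - b ≤ 1 / (64 * R) * ‖x - y‖ := by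
      have h5 : ‖x‖ - ‖y‖ ≤ ‖x - y‖ := norm_sub_norm_le x y
      have h6 : a - b = 1 / (64 * R ^ 2) / 2 * ((‖x‖ - ‖y‖) * (‖x‖ + ‖y‖)) := by
        rw [ha, hb]; ring
      rw [h6]
      have h7 : (‖x‖ - ‖y‖) * (‖x‖ + ‖y‖) ≤ ‖x - y‖ * (2 * R) := by
        have : 0 ≤ ‖x‖ + ‖y‖ := by positivity
        calc (‖x‖ - ‖y‖) * (‖x‖ + ‖y‖) ≤ ‖x - y‖ * (‖x‖ + ‖y‖) := by gcongr
          _ ≤ ‖x - y‖ * (2 * R) := by
            apply mul_le_mul_of_nonneg_left _ (norm_nonneg _)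
            linarith
      calc 1 / (64 * R ^ 2) / 2 * ((‖x‖ - ‖y‖) * (‖x‖ + ‖y‖)) ≤
          1 / (64 * R ^ 2) / 2 * (‖x - y‖ * (2 * R)) := by gcongr
        _ = 1 / (64 * R) * ‖x - y‖ := by field_simp
    have h4 : Real.exp a ≤ 128 / 127 := T_le R hR x hx
    rw [h1]
    have h5 : Real.exp a * (a - b) ≤ Real.exp a * (1 / (64 * R) * ‖x - y‖) := by gcongr
    have h6 : Real.exp a * (1 / (64 * R) * ‖x - y‖) ≤ 128 / 127 * (1 / (64 * R) * ‖x - y‖) := by
      gcongr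
    have h7 : 128 / 127 * (1 / (64 * R) * ‖x - y‖) = 2 / (127 * R) * ‖x - y‖ := by
      field_simp
      ring
    linarith
  rw [abs_le]
  constructor
  · have := key y x hy hx
    rw [norm_sub_rev] at this
    linarith
  · exact key x y hx hy

/-- K1: the summed Prekopa-Leindler inequality -/
lemma K1 (hKc : IsCompact K) (hKv : Convex ℝ K) (hKi : (interior K).Nonempty) {N : ℕ}
    (hN : 0 < N) (y : Fin N → E) (hy : Function.Injective y) (a0 a1 : Fin N → ℝ) (κ : ℝ)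
    (hκ : 0 < κ) (g : Fin N → E → ℝ) (hg : ∀ i, Continuous (g i))
    (hlip : ∀ i, ∀ x ∈ K, ∀ y ∈ K, |g i x - g i y| ≤ ‖x - y‖) (p r : Fin N → ℝ)
    (hp : ∀ i, p i = ∫ x in Cell y a0 i, W κ x ∂(uniformProbOn K))
    (hr : ∀ i, r i = ∫ x in Cell y a1 i, W κ x ∂(uniformProbOn K))
    (hp0 : ∀ i, 0 < p i) (hr0 : ∀ i, 0 < r i) :
    (κ / 4) * ∑ i, Real.sqrt (p i * r i) *
      ((∫ x in Cell y a1 i, g i x * W κ x ∂(uniformProbOn K)) / r i -
      (∫ x in Cell y a0 i, g i x * W κ x ∂(uniformProbOn K)) / p i) ^ 2 ≤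
      ∑ i, (p i - r i) ^ 2 / p i := by
  have hprob := isProb_unif hKc hKi
  have iW : Integrable (W κ) (uniformProbOn K) := integrable_unif hKc hKi _ (W_cont κ)
  refine sum_step p r (fun i => ∫ x in Cell y (fun j => (a0 j + a1 j) / 2) i, W κ x
    ∂(uniformProbOn K)) _ (∫ x, W κ x ∂(uniformProbOn K)) κ hp0 hr0 ?_ ?_ ?_ ?_
  · rw [← sum_cell_eq hN _ unif_ac y hy a0 _ iW]
    exact Finset.sum_congr rfl fun i _ => hp i
  · rw [← sum_cell_eq hN _ unif_ac y hy a1 _ iW]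
    exact Finset.sum_congr rfl fun i _ => hr i
  · exact sum_cell_le _ y _ _ iW fun x => (W_pos κ x).le
  · intro i
    exact cell_ineq hKc hKv hKi (Cell y a0 i) (Cell y a1 i) _ (cell_meas y a0 i)
      (cell_meas y a1 i) (cell_meas y _ i) (fun x hx x' hx' => cell_mid y a0 a1 i x x' hx hx')
      κ hκ (g i) (hg i) (hlip i) (p i) (r i) (hp i) (hr i) (hp0 i) (hr0 i) _ rfl

lemma rs_bound (P r n M : ℝ) (hP : 0 < P) (hr : 0 < r) (h1 : r ≤ n) (h2 : n ≤ 2 * M)
    (h3 : M ≤ 128 / 127 * P) : r ^ 2 / P ≤ 3 * Real.sqrt (P * r) := by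
  have h4 : r ≤ 256 / 127 * P := by linarith
  rw [div_le_iff₀ hP]
  have h5 : (r ^ 2) ^ 2 ≤ (3 * Real.sqrt (P * r) * P) ^ 2 := by
    rw [mul_pow, mul_pow, Real.sq_sqrt (by positivity)]
    have h6 : r ^ 3 ≤ (256 / 127 * P) ^ 3 := by gcongr
    have h7 : r ^ 3 ≤ 9 * P ^ 3 := by
      have : (256 / 127 * P) ^ 3 ≤ 9 * P ^ 3 := by
        have : 0 < P ^ 3 := by positivity
        nlinarith
      linarith
    nlinarith
  exact (pow_le_pow_iff_left₀ (by positivity) (by positivity) two_ne_zero).1 h5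

lemma scal1 (P r n M Fi l D : ℝ) (hP : 0 < P) (hr : 0 < r) (hPM : P ≤ M) (hl : 0 < l)
    (hM : M = n + Fi) (hD : D = (n / l) / r - (M / l) / P)
    (hrs : r ^ 2 / P ≤ 3 * Real.sqrt (P * r)) :
    (P - r) ^ 2 / P ≤ 2 * (Fi ^ 2 / P) + 6 * l ^ 2 * (Real.sqrt (P * r) * D ^ 2) := by
  have h1 : (M / P) * (P - r) = Fi + l * r * D := by
    rw [hD, hM]; field_simp; ring
  have h2 : 1 ≤ M / P := by rwa [one_le_div hP]
  have h3 : (P - r) ^ 2 ≤ (Fi + l * r * D) ^ 2 := by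
    rw [← h1, mul_pow]
    have : 1 ≤ (M / P) ^ 2 := one_le_pow₀ h2
    nlinarith [sq_nonneg (P - r)]
  have h4 : (P - r) ^ 2 ≤ 2 * Fi ^ 2 + 2 * l ^ 2 * r ^ 2 * D ^ 2 := by
    nlinarith [sq_nonneg (Fi - l * r * D)]
  have h5 : (P - r) ^ 2 / P ≤ (2 * Fi ^ 2 + 2 * l ^ 2 * r ^ 2 * D ^ 2) / P := by gcongr
  have h6 : (2 * Fi ^ 2 + 2 * l ^ 2 * r ^ 2 * D ^ 2) / P =
      2 * (Fi ^ 2 / P) + 2 * l ^ 2 * D ^ 2 * (r ^ 2 / P) := by ring
  rw [h6] at h5
  have h7 : 2 * l ^ 2 * D ^ 2 * (r ^ 2 / P) ≤ 2 * l ^ 2 * D ^ 2 * (3 * Real.sqrt (P * r)) := by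
    gcongr
  linarith

lemma scal2 (P r n M Ai Gi D R u b J : ℝ) (hP : 0 < P) (hPM : P ≤ M)
    (hMP : M ≤ 128 / 127 * P) (hn : n ≤ 2 * M) (hG : 0 ≤ Gi) (hAG : Ai ^ 2 ≤ n * Gi)
    (hR : 0 < R) (hu : u = 2 * r * D + (r / P - 1) * b + J) (hb : |b| ≤ R * M)
    (hJ : |J| ≤ R * Ai) (hrs : r ^ 2 / P ≤ 3 * Real.sqrt (P * r)) :
    u ^ 2 / M ≤ 36 * (Real.sqrt (P * r) * D ^ 2) + 6 * R ^ 2 * ((P - r) ^ 2 / P) +
      6 * R ^ 2 * Gi := by
  have hM : 0 < M := hP.trans_le hPM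
  have h1 : u ^ 2 ≤ 3 * ((2 * r * D) ^ 2 + ((r / P - 1) * b) ^ 2 + J ^ 2) := by
    rw [hu]
    nlinarith [sq_nonneg (2 * r * D - (r / P - 1) * b), sq_nonneg (2 * r * D - J),
      sq_nonneg ((r / P - 1) * b - J)]
  have h2 : (2 * r * D) ^ 2 / M ≤ 12 * (Real.sqrt (P * r) * D ^ 2) := by
    have : (2 * r * D) ^ 2 / M ≤ (2 * r * D) ^ 2 / P := by gcongr
    have h3 : (2 * r * D) ^ 2 / P = 4 * D ^ 2 * (r ^ 2 / P) := by ring
    have h4 : 4 * D ^ 2 * (r ^ 2 / P) ≤ 4 * D ^ 2 * (3 * Real.sqrt (P * r)) := by gcongr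
    linarith
  have h3 : ((r / P - 1) * b) ^ 2 / M ≤ 2 * R ^ 2 * ((P - r) ^ 2 / P) := by
    have hb2 : b ^ 2 ≤ (R * M) ^ 2 := sq_le_sq' (abs_le.1 hb).1 (abs_le.1 hb).2
    have : ((r / P - 1) * b) ^ 2 / M ≤ (r / P - 1) ^ 2 * (R * M) ^ 2 / M := by
      rw [mul_pow]; gcongr
    have h4 : (r / P - 1) ^ 2 * (R * M) ^ 2 / M = R ^ 2 * ((P - r) ^ 2 / P) * (M / P) := by
      field_simp
      ring
    have h5 : M / P ≤ 2 := by
      rw [div_le_iff₀ hP]; linarith
    have h6 : R ^ 2 * ((P - r) ^ 2 / P) * (M / P) ≤ R ^ 2 * ((P - r) ^ 2 / P) * 2 := by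
      gcongr
    linarith
  have h4 : J ^ 2 / M ≤ 2 * R ^ 2 * Gi := by
    have hJ2 : J ^ 2 ≤ (R * Ai) ^ 2 := sq_le_sq' (abs_le.1 hJ).1 (abs_le.1 hJ).2
    rw [div_le_iff₀ hM]
    have h5 : (R * Ai) ^ 2 ≤ R ^ 2 * (n * Gi) := by rw [mul_pow]; gcongr
    have h6 : n * Gi ≤ 2 * M * Gi := by gcongr
    have h7 : R ^ 2 * (n * Gi) ≤ R ^ 2 * (2 * M * Gi) := by gcongr
    nlinarith
  have h5 : u ^ 2 / M ≤ 3 * ((2 * r * D) ^ 2 + ((r / P - 1) * b) ^ 2 + J ^ 2) / M := by gcongr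
  have h6 : 3 * ((2 * r * D) ^ 2 + ((r / P - 1) * b) ^ 2 + J ^ 2) / M =
    3 * ((2 * r * D) ^ 2 / M + ((r / P - 1) * b) ^ 2 / M + J ^ 2 / M) := by ring
  rw [h6] at h5
  linarith

/-- Cauchy-Schwarz -/
lemma cs_int (μ : Measure E) [IsFiniteMeasure μ] (f : E → ℝ) (hf : Integrable f μ)
    (hf2 : Integrable (fun x => f x ^ 2) μ) (hn : 0 < μ.real Set.univ) :
    (∫ x, f x ∂μ) ^ 2 ≤ μ.real Set.univ * ∫ x, f x ^ 2 ∂μ := by
  set n := μ.real Set.univ
  set t := (∫ x, f x ∂μ) / n with ht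
  have h1 : 0 ≤ ∫ x, (f x - t) ^ 2 ∂μ := integral_nonneg fun x => sq_nonneg _
  have h2 : ∫ x, (f x - t) ^ 2 ∂μ = ∫ x, f x ^ 2 ∂μ - 2 * t * ∫ x, f x ∂μ + n * t ^ 2 := by
    have h3 : ∀ x, (f x - t) ^ 2 = f x ^ 2 - 2 * t * f x + t ^ 2 := fun x => by ring
    simp_rw [h3]
    have i1 : Integrable (fun x => 2 * t * f x) μ := hf.const_mul _
    have i2 : Integrable (fun x => f x ^ 2 - 2 * t * f x) μ := hf2.sub i1
    rw [integral_add i2 (integrable_const _), integral_sub hf2 i1, integral_const_mul,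
      integral_const, smul_eq_mul]
  rw [h2] at h1
  have h3 : (∫ x, f x ∂μ) = t * n := by rw [ht]; field_simp
  rw [h3] at h1 ⊢
  nlinarith

theorem bary_bound_aux (hKc : IsCompact K)
    (hKv : Convex ℝ K) (hKi : (interior K).Nonempty) :
    ∃ C : ℝ, 0 ≤ C ∧ ∀ (N : ℕ) (y : Fin N → EuclideanSpace ℝ (Fin d)), Function.Injective y →
      ∀ (m a0 a1 : Fin N → ℝ) (F : EuclideanSpace ℝ (Fin d) → ℝ), Measurable F →
      (∀ x, |F x| ≤ 1 / 2) → (∀ i, 0 < m i) → ∑ i, m i = 1 →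
      (∀ i, uniformProbOn K (Cell y a0 i) = ENNReal.ofReal (m i)) →
      (∀ i, ∫ x in Cell y a1 i, (1 + F x) ∂(uniformProbOn K) = m i) →
      ∑ i, ‖(∫ x in Cell y a1 i, (1 + F x) • x ∂(uniformProbOn K)) -
          ∫ x in Cell y a0 i, x ∂(uniformProbOn K)‖ ^ 2 / m i ≤
        C * ∫ x, F x ^ 2 ∂(uniformProbOn K) := by
  have hprob := isProb_unif hKc hKi
  obtain ⟨R, hR0, hR⟩ : ∃ R : ℝ, 0 < R ∧ ∀ x ∈ K, ‖x‖ ≤ R := by
    obtain ⟨R, hR⟩ := hKc.isBounded.exists_norm_le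
    exact ⟨max R 1, by positivity, fun x hx => (hR x hx).trans (le_max_left _ _)⟩
  refine ⟨3 * R ^ 2 * (3074 * 12 + 2), by positivity, ?_⟩
  intro N y hy m a0 a1 F hF hF2 hm hsum hV0 hV1
  have hN : 0 < N := by
    rcases Nat.eq_zero_or_pos N with h | h
    · subst h; simp at hsum
    · exact h
  set ρ := uniformProbOn K with hρ
  have hac : ρ ≪ volume := unif_ac
  have hmem : ∀ᵐ x ∂ρ, x ∈ K := ae_mem_unif hKc
  set κ : ℝ := 1 / (64 * R ^ 2) with hκ
  have hκ0 : 0 < κ := by positivity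
  set p : Fin N → ℝ := fun i => ∫ x in Cell y a0 i, W κ x ∂ρ with hp
  set r : Fin N → ℝ := fun i => ∫ x in Cell y a1 i, W κ x ∂ρ with hr
  set n : Fin N → ℝ := fun i => ρ.real (Cell y a1 i) with hn
  set Fi : Fin N → ℝ := fun i => ∫ x in Cell y a1 i, F x ∂ρ with hFi
  set Ai : Fin N → ℝ := fun i => ∫ x in Cell y a1 i, |F x| ∂ρ with hAi
  set Gi : Fin N → ℝ := fun i => ∫ x in Cell y a1 i, F x ^ 2 ∂ρ with hGi
  set Φ : ℝ := ∫ x, F x ^ 2 ∂ρ with hΦ
  -- integrability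
  have iW : Integrable (W κ) ρ := integrable_unif hKc hKi _ (W_cont κ)
  have i1 : Integrable (fun _ : E => (1 : ℝ)) ρ := integrable_const _
  have iF : Integrable F ρ := Integrable.of_bound hF.aestronglyMeasurable (1 / 2)
    (ae_of_all _ fun x => by rw [Real.norm_eq_abs]; exact hF2 x)
  have iA : Integrable (fun x => |F x|) ρ := iF.abs
  have iG : Integrable (fun x => F x ^ 2) ρ := by
    refine Integrable.of_bound (hF.pow_const 2).aestronglyMeasurable (1 / 4)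
      (ae_of_all _ fun x => ?_)
    rw [Real.norm_eq_abs, abs_of_nonneg (sq_nonneg _), ← sq_abs]
    have := hF2 x
    nlinarith [abs_nonneg (F x)]
  have ix : Integrable (fun x : E => x) ρ := integrable_unif hKc hKi _ continuous_id
  have iFx : Integrable (fun x : E => F x • x) ρ := by
    refine Integrable.of_bound (hF.aestronglyMeasurable.smul
      aestronglyMeasurable_id) (1 / 2 * R) ?_
    filter_upwards [hmem] with x hx
    rw [norm_smul, Real.norm_eq_abs]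
    exact mul_le_mul (hF2 x) (hR x hx) (norm_nonneg _) (by norm_num)
  have iFx' : Integrable (fun x : E => (1 + F x) • x) ρ := by
    have := ix.add iFx
    refine this.congr (ae_of_all _ fun x => ?_)
    simp [add_smul]
  -- masses
  have hm0 : ∀ i, ρ.real (Cell y a0 i) = m i := by
    intro i
    rw [Measure.real, hV0 i, ENNReal.toReal_ofReal (hm i).le]
  have hn0 : ∀ i, 0 ≤ n i := fun i => measureReal_nonneg
  have hMn : ∀ i, m i = n i + Fi i := by
    intro i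
    rw [← hV1 i, integral_add i1.integrableOn iF.integrableOn, integral_const, smul_eq_mul, mul_one]
    simp [hn, hFi]
  have hAi0 : ∀ i, 0 ≤ Ai i := fun i => integral_nonneg fun x => abs_nonneg _
  have hGi0 : ∀ i, 0 ≤ Gi i := fun i => integral_nonneg fun x => sq_nonneg _
  have hFA : ∀ i, |Fi i| ≤ Ai i := fun i => abs_integral_le_integral_abs
  have hAn : ∀ i, Ai i ≤ n i / 2 := by
    intro i
    have h1 : Ai i ≤ ∫ x in Cell y a1 i, (1 / 2 : ℝ) ∂ρ :=
      integral_mono iA.integrableOn (integrable_const _) fun x => hF2 x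
    rw [integral_const, smul_eq_mul] at h1
    simp only [measureReal_restrict_apply, MeasurableSet.univ, Set.univ_inter] at h1
    linarith
  have hnpos : ∀ i, 0 < n i := by
    intro i
    have h1 := hFA i
    have h2 := hAn i
    have h3 := hMn i
    have h4 := hm i
    have h5 := (abs_le.1 h1).2
    by_contra h
    have : n i = 0 := le_antisymm (not_lt.1 h) (hn0 i)
    linarith
  have hn2 : ∀ i, n i ≤ 2 * m i := by
    intro i
    have h1 := hFA i
    have h2 := hAn i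
    have h3 := hMn i
    have h5 := (abs_le.1 h1).1
    linarith
  -- comparison of weights
  have hWle : ∀ V : Set E, MeasurableSet V → ∫ x in V, W κ x ∂ρ ≤ ρ.real V := by
    intro V hV
    have h1 : ∫ x in V, W κ x ∂ρ ≤ ∫ x in V, (1 : ℝ) ∂ρ :=
      integral_mono iW.integrableOn (integrable_const _) fun x => W_le_one κ hκ0.le x
    rw [integral_const, smul_eq_mul, mul_one] at h1
    simpa using h1
  have hWge : ∀ V : Set E, MeasurableSet V → ρ.real V ≤ 128 / 127 * ∫ x in V, W κ x ∂ρ := by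
    intro V hV
    have h1 : ∫ x in V, (1 : ℝ) ∂ρ ≤ ∫ x in V, 128 / 127 * W κ x ∂ρ := by
      refine integral_mono_ae (integrable_const _) (iW.const_mul _).integrableOn ?_
      filter_upwards [ae_restrict_of_ae hmem] with x hx
      have h2 := T_le R hR0 x (hR x hx)
      have h3 := T_mul_W κ x
      have h4 := W_pos κ x
      rw [← hκ] at h2
      show (1 : ℝ) ≤ 128 / 127 * W κ x
      rw [← h3]
      gcongr
    rw [integral_const, smul_eq_mul, mul_one, integral_const_mul] at h1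
    simpa using h1
  have hpM : ∀ i, p i ≤ m i := fun i => by
    rw [← hm0 i]; exact hWle _ (cell_meas y a0 i)
  have hMp : ∀ i, m i ≤ 128 / 127 * p i := fun i => by
    rw [← hm0 i]; exact hWge _ (cell_meas y a0 i)
  have hrn : ∀ i, r i ≤ n i := fun i => hWle _ (cell_meas y a1 i)
  have hnr : ∀ i, n i ≤ 128 / 127 * r i := fun i => hWge _ (cell_meas y a1 i)
  have hp0 : ∀ i, 0 < p i := fun i => by have := hMp i; have := hm i; linarith
  have hr0 : ∀ i, 0 < r i := fun i => by have := hnr i; have := hnpos i; linarith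
  have hrs : ∀ i, r i ^ 2 / p i ≤ 3 * Real.sqrt (p i * r i) := fun i =>
    rs_bound (p i) (r i) (n i) (m i) (hp0 i) (hr0 i) (hrn i) (hn2 i) (hMp i)
  -- Cauchy-Schwarz
  have hCS : ∀ i, Ai i ^ 2 ≤ n i * Gi i := by
    intro i
    have hu : (ρ.restrict (Cell y a1 i)).real Set.univ = n i := by simp [hn]
    have h1 := cs_int (ρ.restrict (Cell y a1 i)) (fun x => |F x|) iA.integrableOn
      (by simp only [sq_abs]; exact iG.integrableOn) (by rw [hu]; exact hnpos i)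
    rw [hu] at h1
    simpa using h1
  have hGsum : ∑ i, Gi i = Φ := sum_cell_eq hN ρ hac y hy a1 _ iG
  have hΦ0 : 0 ≤ Φ := integral_nonneg fun x => sq_nonneg _
  set X : ℝ := ∑ i, (p i - r i) ^ 2 / p i with hX
  -- first test function
  set l : ℝ := 2 / (127 * R) with hl
  have hl0 : 0 < l := by positivity
  have hXle : X ≤ 12 * Φ := by
    have hk := K1 hKc hKv hKi hN y hy a0 a1 κ hκ0 (fun _ x => T κ x / l) (fun i => by fun_prop)
      (by
        intro i x hx x' hx'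
        have h1 := T_lip R hR0 x x' (hR x hx) (hR x' hx')
        rw [← hκ, ← hl] at h1
        rw [← sub_div, abs_div, abs_of_pos hl0, div_le_iff₀ hl0]
        linarith) p r (fun i => rfl) (fun i => rfl) hp0 hr0
    have hint : ∀ V : Set E, MeasurableSet V → ∫ x in V, T κ x / l * W κ x ∂ρ = ρ.real V / l := by
      intro V hV
      have : ∀ x : E, T κ x / l * W κ x = 1 / l := by
        intro x
        rw [div_mul_eq_mul_div, T_mul_W]
      simp_rw [this]
      rw [integral_const, smul_eq_mul]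
      simp [div_eq_mul_inv]
    set D : Fin N → ℝ := fun i => (n i / l) / r i - (m i / l) / p i with hD
    have hk2 : (κ / 4) * ∑ i, Real.sqrt (p i * r i) * D i ^ 2 ≤ X := by
      refine le_trans (le_of_eq ?_) hk
      congr 1
      refine Finset.sum_congr rfl fun i _ => ?_
      rw [hint _ (cell_meas y a1 i), hint _ (cell_meas y a0 i), hm0 i]
    have h1 : ∀ i, (p i - r i) ^ 2 / p i ≤ 2 * (Fi i ^ 2 / p i) +
        6 * l ^ 2 * (Real.sqrt (p i * r i) * D i ^ 2) := fun i =>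
      scal1 (p i) (r i) (n i) (m i) (Fi i) l (D i) (hp0 i) (hr0 i) (hpM i) hl0 (hMn i) rfl (hrs i)
    have h2 : ∀ i, Fi i ^ 2 / p i ≤ 3 * Gi i := by
      intro i
      have h3 : Fi i ^ 2 ≤ Ai i ^ 2 := sq_le_sq' (by have := (abs_le.1 (hFA i)).1; linarith)
        (abs_le.1 (hFA i)).2
      have h4 := hCS i
      rw [div_le_iff₀ (hp0 i)]
      have h5 : n i ≤ 3 * p i := by
        have := hn2 i; have := hMp i; have := hp0 i; linarith
      have h6 : n i * Gi i ≤ 3 * p i * Gi i := mul_le_mul_of_nonneg_right h5 (hGi0 i)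
      linarith
    have h3 : X ≤ 2 * (3 * Φ) + 6 * l ^ 2 * ∑ i, Real.sqrt (p i * r i) * D i ^ 2 := by
      have h4 := Finset.sum_le_sum (s := Finset.univ) (fun i _ => h1 i)
      rw [Finset.sum_add_distrib, ← Finset.mul_sum, ← Finset.mul_sum] at h4
      have h5 := Finset.sum_le_sum (s := Finset.univ) (fun i _ => h2 i)
      rw [← Finset.mul_sum, hGsum] at h5
      linarith
    have h4 : 6 * l ^ 2 = (24 * l ^ 2 / κ) * (κ / 4) := by field_simp; norm_num
    have h5 : 24 * l ^ 2 / κ ≤ 1 / 2 := by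
      rw [hl, hκ]
      have : 24 * (2 / (127 * R)) ^ 2 / (1 / (64 * R ^ 2)) = 24 * 4 * 64 / 127 ^ 2 := by
        field_simp
        norm_num
      rw [this]; norm_num
    have hX0 : 0 ≤ X := Finset.sum_nonneg fun i _ => div_nonneg (sq_nonneg _) (hp0 i).le
    have h6 : 6 * l ^ 2 * ∑ i, Real.sqrt (p i * r i) * D i ^ 2 ≤ 1 / 2 * X := by
      rw [h4, mul_assoc]
      exact mul_le_mul h5 hk2 (mul_nonneg (by positivity) (Finset.sum_nonneg fun i _ => by
        positivity)) (by norm_num)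
    linarith
  -- second test function
  set b0 : Fin N → E := fun i => ∫ x in Cell y a0 i, x ∂ρ with hb0
  set b1 : Fin N → E := fun i => ∫ x in Cell y a1 i, (1 + F x) • x ∂ρ with hb1
  set u : Fin N → E := fun i => b1 i - b0 i with hu
  set e : Fin N → E := fun i => (‖u i‖)⁻¹ • u i with he
  have he1 : ∀ i, ‖e i‖ ≤ 1 := by
    intro i
    rw [he]
    simp only [norm_smul, norm_inv, norm_norm]
    by_cases h : ‖u i‖ = 0
    · rw [h]; simp
    · rw [inv_mul_cancel₀ h]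
  have heu : ∀ i, inner ℝ (e i) (u i) = ‖u i‖ := by
    intro i
    rw [he]
    simp only [real_inner_smul_left, real_inner_self_eq_norm_sq]
    by_cases h : ‖u i‖ = 0
    · rw [h]; simp
    · field_simp
  have hk := K1 hKc hKv hKi hN y hy a0 a1 κ hκ0 (fun i x => inner ℝ (e i) x * T κ x / 2)
    (fun i => by fun_prop)
    (by
      intro i x hx x' hx'
      have h1 := T_lip R hR0 x x' (hR x hx) (hR x' hx')
      have h2 := T_le R hR0 x (hR x hx)
      rw [← hκ] at h1 h2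
      have h3 : inner ℝ (e i) x * T κ x / 2 - inner ℝ (e i) x' * T κ x' / 2 =
        (inner ℝ (e i) (x - x') * T κ x + inner ℝ (e i) x' * (T κ x - T κ x')) / 2 := by
        rw [inner_sub_right]; ring
      rw [h3, abs_div, abs_of_pos (by norm_num : (0 : ℝ) < 2), div_le_iff₀ (by norm_num)]
      have h4 : |inner ℝ (e i) (x - x') * T κ x| ≤ ‖x - x'‖ * (128 / 127) := by
        rw [abs_mul]
        have h5 : |inner ℝ (e i) (x - x')| ≤ ‖x - x'‖ := by
          refine (abs_real_inner_le_norm _ _).trans ?_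
          have := he1 i
          nlinarith [norm_nonneg (x - x')]
        have h6 : |T κ x| ≤ 128 / 127 := by
          rw [abs_of_nonneg (zero_le_one.trans (one_le_T κ hκ0.le x))]; exact h2
        exact mul_le_mul h5 h6 (abs_nonneg _) (norm_nonneg _)
      have h7 : |inner ℝ (e i) x' * (T κ x - T κ x')| ≤ R * (2 / (127 * R) * ‖x - x'‖) := by
        rw [abs_mul]
        have h5 : |inner ℝ (e i) x'| ≤ R := by
          refine (abs_real_inner_le_norm _ _).trans ?_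
          have h8 := he1 i
          have h9 := hR x' hx'
          calc ‖e i‖ * ‖x'‖ ≤ 1 * R := mul_le_mul h8 h9 (norm_nonneg _) (by norm_num)
            _ = R := one_mul _
        exact mul_le_mul h5 h1 (abs_nonneg _) hR0.le
      have h8 : R * (2 / (127 * R) * ‖x - x'‖) = 2 / 127 * ‖x - x'‖ := by
        field_simp
      have h9 := abs_add_le (inner ℝ (e i) (x - x') * T κ x) (inner ℝ (e i) x' * (T κ x - T κ x'))
      rw [h8] at h7
      have h10 := norm_nonneg (x - x')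
      linarith) p r (fun i => rfl) (fun i => rfl) hp0 hr0
  have hint : ∀ (i : Fin N) (V : Set E), MeasurableSet V →
      ∫ x in V, inner ℝ (e i) x * T κ x / 2 * W κ x ∂ρ =
      inner ℝ (e i) (∫ x in V, x ∂ρ) / 2 := by
    intro i V hV
    have : ∀ x, inner ℝ (e i) x * T κ x / 2 * W κ x = inner ℝ (e i) x / 2 := by
      intro x
      have := T_mul_W κ x
      calc inner ℝ (e i) x * T κ x / 2 * W κ x = inner ℝ (e i) x / 2 * (T κ x * W κ x) := by ring
        _ = _ := by rw [this, mul_one]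
    simp_rw [this]
    rw [integral_div, integral_inner ix.integrableOn]
  set β : Fin N → E := fun i => ∫ x in Cell y a1 i, x ∂ρ with hβ
  set D : Fin N → ℝ := fun i => (inner ℝ (e i) (β i) / 2) / r i -
    (inner ℝ (e i) (b0 i) / 2) / p i with hD
  have hk2 : (κ / 4) * ∑ i, Real.sqrt (p i * r i) * D i ^ 2 ≤ X := by
    refine le_trans (le_of_eq ?_) hk
    congr 1
    refine Finset.sum_congr rfl fun i _ => ?_
    rw [hint i _ (cell_meas y a1 i), hint i _ (cell_meas y a0 i)]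
  have hmain : ∀ i, ‖u i‖ ^ 2 / m i ≤ 36 * (Real.sqrt (p i * r i) * D i ^ 2) +
      6 * R ^ 2 * ((p i - r i) ^ 2 / p i) + 6 * R ^ 2 * Gi i := by
    intro i
    refine scal2 (p i) (r i) (n i) (m i) (Ai i) (Gi i) (D i) R ‖u i‖ (inner ℝ (e i) (b0 i))
      (inner ℝ (e i) (∫ x in Cell y a1 i, F x • x ∂ρ)) (hp0 i) (hpM i) (hMp i) (hn2 i)
      (hGi0 i) (hCS i) hR0 ?_ ?_ ?_ (hrs i)
    · rw [← heu i]
      have h1 : b1 i = β i + ∫ x in Cell y a1 i, F x • x ∂ρ := by
        rw [hb1, hβ]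
        simp only
        rw [← integral_add ix.integrableOn iFx.integrableOn]
        congr 1; ext1 x; rw [add_smul, one_smul]
      rw [hu]
      simp only
      rw [h1, inner_sub_right, inner_add_right, hD]
      have := (hr0 i).ne'
      have := (hp0 i).ne'
      field_simp
      ring
    · refine (abs_real_inner_le_norm _ _).trans ?_
      have h1 : ‖b0 i‖ ≤ R * m i := by
        rw [← hm0 i]
        refine norm_setIntegral_le_of_norm_le_const_ae (measure_lt_top _ _) ?_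
        filter_upwards [ae_restrict_of_ae hmem] with x hx using hR x hx
      have h2 := he1 i
      calc ‖e i‖ * ‖b0 i‖ ≤ 1 * (R * m i) := mul_le_mul h2 h1 (norm_nonneg _) (by norm_num)
        _ = R * m i := one_mul _
    · refine (abs_real_inner_le_norm _ _).trans ?_
      have h1 : ‖∫ x in Cell y a1 i, F x • x ∂ρ‖ ≤ R * Ai i := by
        refine (norm_integral_le_integral_norm _).trans ?_
        rw [hAi]
        simp only
        rw [← integral_const_mul]
        refine integral_mono_ae iFx.norm.integrableOn (iA.const_mul _).integrableOn ?_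
        filter_upwards [ae_restrict_of_ae hmem] with x hx
        rw [norm_smul, Real.norm_eq_abs, mul_comm]
        exact mul_le_mul_of_nonneg_right (hR x hx) (abs_nonneg _)
      have h2 := he1 i
      calc ‖e i‖ * ‖∫ x in Cell y a1 i, F x • x ∂ρ‖ ≤ 1 * (R * Ai i) :=
            mul_le_mul h2 h1 (norm_nonneg _) (by norm_num)
        _ = R * Ai i := one_mul _
  have hfin := Finset.sum_le_sum (s := Finset.univ) (fun i _ => hmain i)
  rw [Finset.sum_add_distrib, Finset.sum_add_distrib, ← Finset.mul_sum, ← Finset.mul_sum,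
    ← Finset.mul_sum, hGsum, ← hX] at hfin
  have h1 : 36 * ∑ i, Real.sqrt (p i * r i) * D i ^ 2 ≤ 9216 * R ^ 2 * X := by
    have h2 : 36 * ∑ i, Real.sqrt (p i * r i) * D i ^ 2 =
        (9216 * R ^ 2) * ((κ / 4) * ∑ i, Real.sqrt (p i * r i) * D i ^ 2) := by
      rw [hκ]; field_simp; ring
    rw [h2]
    gcongr
  have h3 : R ^ 2 * X ≤ R ^ 2 * (12 * Φ) := by gcongr
  have h4 : 0 ≤ R ^ 2 * Φ := by positivity
  calc _ ≤ _ := hfin
    _ ≤ _ := by nlinarith

theorem bary_bound (d : ℕ) (K : Set (EuclideanSpace ℝ (Fin d))) (hKc : IsCompact K)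
    (hKv : Convex ℝ K) (hKi : (interior K).Nonempty) :
    ∃ C : ℝ, 0 ≤ C ∧ ∀ (N : ℕ) (y : Fin N → EuclideanSpace ℝ (Fin d)), Function.Injective y →
      ∀ (m a0 a1 : Fin N → ℝ) (F : EuclideanSpace ℝ (Fin d) → ℝ), Measurable F →
      (∀ x, |F x| ≤ 1 / 2) → (∀ i, 0 < m i) → ∑ i, m i = 1 →
      (∀ i, uniformProbOn K (Cell y a0 i) = ENNReal.ofReal (m i)) →
      (∀ i, ∫ x in Cell y a1 i, (1 + F x) ∂(uniformProbOn K) = m i) →
      ∑ i, ‖(∫ x in Cell y a1 i, (1 + F x) • x ∂(uniformProbOn K)) -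
          ∫ x in Cell y a0 i, x ∂(uniformProbOn K)‖ ^ 2 / m i ≤
        C * ∫ x, F x ^ 2 ∂(uniformProbOn K) :=
  bary_bound_aux hKc hKv hKi

theorem exists_talagrandProp (d : ℕ) (K : Set (EuclideanSpace ℝ (Fin d))) (hKc : IsCompact K)
    (hKv : Convex ℝ K) (hKi : (interior K).Nonempty) :
    ∃ C : ℝ, 0 ≤ C ∧ TalagrandProp K C := by
  obtain ⟨C, hC0, hC⟩ := bary_bound d K hKc hKv hKi
  refine ⟨C, hC0, ?_⟩
  intro N y a b m r hy hr hr1 hr2 hm hsum ha hb
  have h1 := hC N y hy m a b (fun x => r x - 1) (hr.sub_const 1)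
    (fun x => by rw [abs_le]; constructor <;> [have := hr1 x; have := hr2 x] <;> linarith) hm hsum
    ha (fun i => by simpa using hb i)
  refine le_trans (le_of_eq ?_) h1
  refine Finset.sum_congr rfl fun i _ => ?_
  simp only [add_sub_cancel]
  ring

end Crest.Agent.Lib.OTStab
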