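import Crest.Agent.Lib.OTStabDefs
import Mathlib

set_option autoImplicit false
open MeasureTheory Filter Topology
open scoped ENNReal NNReal
open Crest.AnalysisR.OT

namespace Crest.Agent.Lib.OTStab

section General
variable {E : Type*} [NormedAddCommGroup E] [InnerProductSpace ℝ E] [FiniteDimensional ℝ E]

/-- pointwise sequential compactness of normalised Lipschitz functions. -/
lemma lip_subseq (R : ℝ≥0) (φ : ℕ → E → ℝ) (hφ : ∀ n, LipschitzWith R (φ n)) (h0 : ∀ n, φ n 0 = 0) :
    ∃ (ψ : ℕ → ℕ) (f : E → ℝ), StrictMono ψ ∧ LipschitzWith R f ∧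
      ∀ x, Tendsto (fun n => φ (ψ n) x) atTop (𝓝 (f x)) := by
  set D := TopologicalSpace.denseSeq E with hD
  have hbd : ∀ n x, |φ n x| ≤ R * ‖x‖ := by
    intro n x
    have := (hφ n).dist_le_mul x 0
    rw [h0 n, Real.dist_eq, dist_eq_norm, sub_zero, sub_zero] at this
    exact this
  have hcomp : IsCompact (Set.pi Set.univ (fun k => Set.Icc (-(R * ‖D k‖)) (R * ‖D k‖)) : Set (ℕ → ℝ)) :=
    isCompact_univ_pi (fun k => isCompact_Icc)
  obtain ⟨u, _, ψ, hψ, hu⟩ := hcomp.tendsto_subseq (x := fun n k => φ n (D k)) (by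
    intro n k _
    exact abs_le.1 (hbd n (D k)))
  have hu' : ∀ k, Tendsto (fun n => φ (ψ n) (D k)) atTop (𝓝 (u k)) := by
    intro k
    exact ((tendsto_pi_nhds.1 hu) k)
  have hcauchy : ∀ x, CauchySeq (fun n => φ (ψ n) x) := by
    intro x
    rw [Metric.cauchySeq_iff]
    intro ε hε
    obtain ⟨k, hk⟩ : ∃ k, dist x (D k) < ε / (4 * (R + 1)) := by
      have := (TopologicalSpace.denseRange_denseSeq E)
      have h1 := Metric.denseRange_iff.1 this x (ε / (4 * (R + 1))) (by positivity)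
      exact h1
    have h2 := (Metric.cauchySeq_iff.1 (hu' k).cauchySeq) (ε / 4) (by positivity)
    obtain ⟨N, hN⟩ := h2
    refine ⟨N, fun m hm n hn => ?_⟩
    have h3 := hN m hm n hn
    have h4 : ∀ j, dist (φ j x) (φ j (D k)) ≤ ε / 4 := by
      intro j
      refine ((hφ j).dist_le_mul x (D k)).trans ?_
      have h5 : (R : ℝ) * dist x (D k) ≤ (R + 1) * (ε / (4 * (R + 1))) := by
        apply mul_le_mul
        · linarith
        · exact hk.le
        · exact dist_nonneg
        · positivity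
      refine h5.trans (le_of_eq ?_)
      field_simp
    calc dist (φ (ψ m) x) (φ (ψ n) x) ≤ dist (φ (ψ m) x) (φ (ψ m) (D k)) +
          dist (φ (ψ m) (D k)) (φ (ψ n) (D k)) + dist (φ (ψ n) (D k)) (φ (ψ n) x) :=
          dist_triangle4 _ _ _ _
      _ ≤ ε / 4 + dist (φ (ψ m) (D k)) (φ (ψ n) (D k)) + ε / 4 := by
          have := h4 (ψ m)
          have h6 := h4 (ψ n)
          rw [dist_comm] at h6
          linarith
      _ < ε := by linarith
  choose f hf using fun x => cauchySeq_tendsto_of_complete (hcauchy x)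
  refine ⟨ψ, f, hψ, ?_, hf⟩
  apply LipschitzWith.of_dist_le_mul
  intro x y
  refine le_of_tendsto ((hf x).dist (hf y)) (Eventually.of_forall fun n => ?_)
  exact (hφ (ψ n)).dist_le_mul x y

/-- a subgradient at a differentiability point is the gradient. -/
lemma subgrad_eq (f : E → ℝ) (x q : E) (s : Set E) (hs : s ∈ 𝓝 x) (hf : DifferentiableAt ℝ f x)
    (h : ∀ x' ∈ s, f x + inner ℝ (x' - x) q ≤ f x') : q = gradient f x := by
  have h1 : HasFDerivAt (fun x' => f x' - inner ℝ (x' - x) q) (fderiv ℝ f x - innerSL ℝ q) x := by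
    refine hf.hasFDerivAt.sub ?_
    have h2 : (fun x' : E => (inner ℝ (x' - x) q : ℝ)) = fun x' => innerSL ℝ q x' - innerSL ℝ q x := by
      funext x'
      simp only [innerSL_apply_apply, ← inner_sub_right]
      rw [real_inner_comm]
    rw [h2]
    exact (innerSL ℝ q).hasFDerivAt.sub_const _
  have hmin : IsLocalMin (fun x' => f x' - inner ℝ (x' - x) q) x := by
    filter_upwards [hs] with x' hx'
    have := h x' hx'
    simp only [sub_self, inner_zero_left, sub_zero]
    linarith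
  have h3 := hmin.hasFDerivAt_eq_zero h1
  have h4 : fderiv ℝ f x = innerSL ℝ q := sub_eq_zero.1 h3
  rw [gradient, h4]
  apply ((InnerProductSpace.toDual ℝ E).injective)
  rw [LinearIsometryEquiv.apply_symm_apply]
  ext v
  simp

/-- convergence of subgradients at differentiability points of the limit. -/
lemma subgrad_tendsto (R : ℝ) (φ : ℕ → E → ℝ) (f : E → ℝ) (p : ℕ → E) (x : E)
    (hφ : ∀ y, Tendsto (fun n => φ n y) atTop (𝓝 (f y))) (hp : ∀ n, ‖p n‖ ≤ R)
    (hsub : ∀ n x', φ n x + inner ℝ (x' - x) (p n) ≤ φ n x') (hf : DifferentiableAt ℝ f x) :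
    Tendsto p atTop (𝓝 (gradient f x)) := by
  rw [tendsto_iff_ultrafilter]
  intro g hg
  have hcomp : IsCompact (Metric.closedBall (0 : E) R) := isCompact_closedBall 0 R
  obtain ⟨q, _, hq⟩ := hcomp.ultrafilter_le_nhds (g.map p) (by
    rw [le_principal_iff]
    show p ⁻¹' Metric.closedBall (0 : E) R ∈ (g : Filter ℕ)
    apply Filter.univ_mem'
    intro n
    simp only [Set.mem_preimage, Metric.mem_closedBall, dist_zero_right]
    exact hp n)
  have hq' : Tendsto p g (𝓝 q) := hq
  have : q = gradient f x := by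
    refine subgrad_eq f x q Set.univ univ_mem hf ?_
    intro x' _
    have t1 : Tendsto (fun n => φ n x + inner ℝ (x' - x) (p n)) g (𝓝 (f x + inner ℝ (x' - x) q)) :=
      ((hφ x).mono_left hg).add (tendsto_const_nhds.inner hq')
    have t2 : Tendsto (fun n => φ n x') g (𝓝 (f x')) := (hφ x').mono_left hg
    exact le_of_tendsto_of_tendsto t1 t2 (Eventually.of_forall fun n => hsub n x')
  rw [← this]
  exact hq'

lemma measurable_gradient' [MeasurableSpace E] [BorelSpace E] (f : E → ℝ) : Measurable (gradient f) := by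
  unfold gradient
  exact (InnerProductSpace.toDual ℝ E).symm.continuous.measurable.comp (measurable_fderiv ℝ f)

end General

section Unif
variable {d : ℕ}

lemma int3 {α : Type*} [MeasurableSpace α] {μ : Measure α} {f g h : α → ℝ} (hf : Integrable f μ)
    (hg : Integrable g μ) (hh : Integrable h μ) :
    ∫ x, (f x + g x - h x) ∂μ = ∫ x, f x ∂μ + ∫ x, g x ∂μ - ∫ x, h x ∂μ := by
  have e1 := integral_sub (hf.add hg) hh
  simp only [Pi.add_apply] at e1
  rw [e1, integral_add hf hg]

local notation "𝔼" => EuclideanSpace ℝ (Fin d)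

lemma unif_facts (K : Set (EuclideanSpace ℝ (Fin d))) (hKc : IsCompact K) (hKi : (interior K).Nonempty) :
    IsProbabilityMeasure (uniformProbOn K) ∧ (uniformProbOn K) ≪ volume ∧ (uniformProbOn K) Kᶜ = 0 := by
  have hpos : volume K ≠ 0 := (lt_of_lt_of_le (isOpen_interior.measure_pos volume hKi)
    (measure_mono interior_subset)).ne'
  have hfin : volume K ≠ ⊤ := hKc.measure_lt_top.ne
  refine ⟨⟨?_⟩, ?_, ?_⟩
  · unfold uniformProbOn
    rw [Measure.smul_apply, Measure.restrict_apply_univ, smul_eq_mul, ENNReal.inv_mul_cancel hpos hfin]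
  · unfold uniformProbOn
    exact (Measure.smul_absolutelyContinuous).trans Measure.restrict_le_self.absolutelyContinuous
  · unfold uniformProbOn
    rw [Measure.smul_apply, Measure.restrict_apply hKc.isClosed.measurableSet.compl]
    simp

/-- lintegral of squared norms. -/
lemma lint_sq {α : Type*} [MeasurableSpace α] {μ : Measure α} [IsFiniteMeasure μ]
    (f : α → EuclideanSpace ℝ (Fin d))
    (hf : AEStronglyMeasurable f μ) (C : ℝ) (hC : ∀ᵐ x ∂μ, ‖f x‖ ≤ C) :
    ∫⁻ x, ‖f x‖ₑ ^ 2 ∂μ = ENNReal.ofReal (∫ x, ‖f x‖ ^ 2 ∂μ) := by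
  rw [ofReal_integral_eq_lintegral_ofReal]
  · apply lintegral_congr
    intro x
    rw [← ofReal_norm, ENNReal.ofReal_pow (norm_nonneg _)]
  · refine Integrable.of_bound (hf.norm.pow 2) (C ^ 2) ?_
    filter_upwards [hC] with x hx
    rw [Real.norm_eq_abs, abs_of_nonneg (by positivity)]
    exact pow_le_pow_left₀ (norm_nonneg _) hx 2
  · exact Eventually.of_forall fun x => by positivity

/-- uniqueness of the optimal map: if the a.e. gradient of a Lipschitz function satisfying the
subgradient inequality pushes `ρ` to `μ`, every optimal map agrees with it. -/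
lemma optimal_ae_eq (K : Set (EuclideanSpace ℝ (Fin d))) (hKc : IsCompact K) (hKv : Convex ℝ K)
    (hKi : (interior K).Nonempty) (μ : Measure (EuclideanSpace ℝ (Fin d)))
    (T : EuclideanSpace ℝ (Fin d) → EuclideanSpace ℝ (Fin d))
    (hT : IsOptimalMap (uniformProbOn K) μ T) (R : ℝ≥0) (φ : EuclideanSpace ℝ (Fin d) → ℝ)
    (hφ : LipschitzWith R φ) (hmap : (uniformProbOn K).map (gradient φ) = μ)
    (hsub : ∀ᵐ x ∂(uniformProbOn K), ∀ x', φ x + inner ℝ (x' - x) (gradient φ x) ≤ φ x') :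
    T =ᵐ[uniformProbOn K] gradient φ := by
  obtain ⟨hprob, hac, hKcomp⟩ := unif_facts K hKc hKi
  set ρ := uniformProbOn K with hρ
  set S := gradient φ with hS
  have hSm : Measurable S := measurable_gradient' φ
  obtain ⟨hTm, hTmap, hTopt⟩ := hT
  have hSb : ∀ x, ‖S x‖ ≤ R := by
    intro x
    rw [hS]
    unfold gradient
    rw [LinearIsometryEquiv.norm_map]
    exact norm_fderiv_le_of_lipschitz ℝ hφ
  -- T is bounded a.e.
  have hTb : ∀ᵐ x ∂ρ, ‖T x‖ ≤ R := by
    have h1 : μ {y | ¬ ‖y‖ ≤ R} = 0 := by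
      rw [← hmap, Measure.map_apply hSm]
      · have : S ⁻¹' {y | ¬ ‖y‖ ≤ R} = ∅ := by
          ext x
          simp only [Set.mem_preimage, Set.mem_ofPred_eq, Set.mem_empty_iff_false, iff_false, not_not]
          exact hSb x
        rw [this, measure_empty]
      · exact (measurableSet_le measurable_norm measurable_const).compl
    rw [← hTmap, Measure.map_apply hTm] at h1
    · exact h1
    · exact (measurableSet_le measurable_norm measurable_const).compl
  have hKae : ∀ᵐ x ∂ρ, x ∈ K := hKcomp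
  obtain ⟨r, hr⟩ := hKc.isBounded.exists_norm_le
  have hr0 : 0 ≤ r := by
    obtain ⟨x, hx⟩ := hKi
    exact (norm_nonneg x).trans (hr x (interior_subset hx))
  have hKne : K.Nonempty := hKi.mono interior_subset
  -- integrability helper
  have hint : ∀ (f : EuclideanSpace ℝ (Fin d) → ℝ) (C : ℝ), AEStronglyMeasurable f ρ →
      (∀ᵐ x ∂ρ, ‖f x‖ ≤ C) → Integrable f ρ := fun f C hf hC => Integrable.of_bound hf C hC
  have hTs : AEStronglyMeasurable T ρ := hTm.aestronglyMeasurable
  have hSs : AEStronglyMeasurable S ρ := hSm.aestronglyMeasurable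
  have hids : AEStronglyMeasurable (fun x : EuclideanSpace ℝ (Fin d) => x) ρ := measurable_id.aestronglyMeasurable
  -- real cost inequality
  have hcost : ∫ x, ‖x - T x‖ ^ 2 ∂ρ ≤ ∫ x, ‖x - S x‖ ^ 2 ∂ρ := by
    have h1 := hTopt S hSm hmap
    rw [lint_sq (fun x => x - T x) (hids.sub hTs) (r + R), lint_sq (fun x => x - S x) (hids.sub hSs) (r + R)] at h1
    · rwa [ENNReal.ofReal_le_ofReal_iff] at h1
      exact integral_nonneg fun x => by positivity
    · filter_upwards [hKae] with x hx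
      exact (norm_sub_le _ _).trans (add_le_add (hr x hx) (hSb x))
    · filter_upwards [hKae, hTb] with x hx hx2
      exact (norm_sub_le _ _).trans (add_le_add (hr x hx) hx2)
  have hix : Integrable (fun x : EuclideanSpace ℝ (Fin d) => ‖x‖ ^ 2) ρ := by
    refine hint _ (r ^ 2) (hids.norm.pow 2) ?_
    filter_upwards [hKae] with x hx
    rw [Real.norm_eq_abs, abs_of_nonneg (by positivity)]
    exact pow_le_pow_left₀ (norm_nonneg _) (hr x hx) 2
  have hexp : ∀ U : EuclideanSpace ℝ (Fin d) → EuclideanSpace ℝ (Fin d), Measurable U → ρ.map U = μ →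
      (∀ᵐ x ∂ρ, ‖U x‖ ≤ R) → Integrable (fun x => (inner ℝ x (U x) : ℝ)) ρ ∧
      ∫ x, ‖x - U x‖ ^ 2 ∂ρ = ∫ x, ‖x‖ ^ 2 ∂ρ - 2 * ∫ x, (inner ℝ x (U x) : ℝ) ∂ρ + ∫ y, ‖y‖ ^ 2 ∂μ := by
    intro U hU hUm hUb
    have hi1 : Integrable (fun x => (inner ℝ x (U x) : ℝ)) ρ := by
      refine hint _ (r * R) (hids.inner hU.aestronglyMeasurable) ?_
      filter_upwards [hKae, hUb] with x hx hx2
      rw [Real.norm_eq_abs]
      refine (abs_real_inner_le_norm _ _).trans ?_
      exact mul_le_mul (hr x hx) hx2 (norm_nonneg _) hr0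
    have hi2 : Integrable (fun x => ‖U x‖ ^ 2) ρ := by
      refine hint _ (R ^ 2) (hU.aestronglyMeasurable.norm.pow 2) ?_
      filter_upwards [hUb] with x hx2
      rw [Real.norm_eq_abs, abs_of_nonneg (by positivity)]
      exact pow_le_pow_left₀ (norm_nonneg _) hx2 2
    refine ⟨hi1, ?_⟩
    have e1 : ∫ y, ‖y‖ ^ 2 ∂μ = ∫ x, ‖U x‖ ^ 2 ∂ρ := by
      rw [← hUm, integral_map hU.aemeasurable]
      exact (continuous_norm.pow 2).aestronglyMeasurable
    have e2 := int3 hix hi2 (hi1.const_mul 2)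
    rw [integral_const_mul] at e2
    rw [e1]
    have e3 : ∫ x, ‖x - U x‖ ^ 2 ∂ρ = ∫ x, (‖x‖ ^ 2 + ‖U x‖ ^ 2 - 2 * inner ℝ x (U x)) ∂ρ := by
      apply integral_congr_ae
      filter_upwards with x
      rw [norm_sub_sq_real x (U x)]
      ring
    rw [e3, e2]
    ring
  obtain ⟨hTi, hTe⟩ := hexp T hTm hTmap hTb
  obtain ⟨hSi, hSe⟩ := hexp S hSm hmap (Eventually.of_forall hSb)
  have hinner : ∫ x, (inner ℝ x (S x) : ℝ) ∂ρ ≤ ∫ x, (inner ℝ x (T x) : ℝ) ∂ρ := by
    rw [hTe, hSe] at hcost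
    linarith
  -- the c-transform relative to K
  set F : EuclideanSpace ℝ (Fin d) → ℝ := fun y => sSup ((fun x => (inner ℝ x y : ℝ) - φ x) '' K) with hF
  have hbdd : ∀ y, BddAbove ((fun x => (inner ℝ x y : ℝ) - φ x) '' K) := by
    intro y
    apply (hKc.image_of_continuousOn _).bddAbove
    exact ((continuous_id.inner continuous_const).sub hφ.continuous).continuousOn
  have hF1 : ∀ y, ∀ x ∈ K, (inner ℝ x y : ℝ) - φ x ≤ F y := by
    intro y x hx
    exact le_csSup (hbdd y) ⟨x, hx, rfl⟩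
  have hF2 : ∀ y c, (∀ x ∈ K, (inner ℝ x y : ℝ) - φ x ≤ c) → F y ≤ c := by
    intro y c h
    apply csSup_le (hKne.image _)
    rintro _ ⟨x, hx, rfl⟩
    exact h x hx
  have hFlip : ∀ y y', F y ≤ F y' + r * ‖y - y'‖ := by
    intro y y'
    apply hF2
    intro x hx
    have h1 := hF1 y' x hx
    have h2 : (inner ℝ x y : ℝ) = inner ℝ x y' + inner ℝ x (y - y') := by
      rw [inner_sub_right]; ring
    have h3 : (inner ℝ x (y - y') : ℝ) ≤ r * ‖y - y'‖ :=
      (real_inner_le_norm _ _).trans (mul_le_mul_of_nonneg_right (hr x hx) (norm_nonneg _))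
    linarith
  have hFc : Continuous F := by
    have : LipschitzWith (Real.toNNReal r) F := by
      apply LipschitzWith.of_dist_le_mul
      intro y y'
      rw [Real.coe_toNNReal r hr0, Real.dist_eq, dist_eq_norm, abs_le]
      have h1 := hFlip y y'
      have h2 := hFlip y' y
      rw [norm_sub_rev] at h2
      constructor <;> linarith
    exact this.continuous
  -- integrability of F ∘ U
  obtain ⟨CF, hCF⟩ := (isCompact_closedBall (0 : EuclideanSpace ℝ (Fin d)) R).exists_bound_of_continuousOn hFc.continuousOn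
  obtain ⟨Cφ, hCφ⟩ := hKc.exists_bound_of_continuousOn hφ.continuous.continuousOn
  have hiφ : Integrable φ ρ := by
    refine hint _ Cφ hφ.continuous.aestronglyMeasurable ?_
    filter_upwards [hKae] with x hx using hCφ x hx
  have hiF : ∀ U : EuclideanSpace ℝ (Fin d) → EuclideanSpace ℝ (Fin d), Measurable U → ρ.map U = μ →
      (∀ᵐ x ∂ρ, ‖U x‖ ≤ R) → Integrable (fun x => F (U x)) ρ ∧ ∫ x, F (U x) ∂ρ = ∫ y, F y ∂μ := by
    intro U hU hUm hUb
    constructor
    · refine hint _ CF (hFc.measurable.comp hU).aestronglyMeasurable ?_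
      filter_upwards [hUb] with x hx
      exact hCF _ (by simpa using hx)
    · rw [← hUm, integral_map hU.aemeasurable hFc.aestronglyMeasurable]
  obtain ⟨hFT, hFTe⟩ := hiF T hTm hTmap hTb
  obtain ⟨hFS, hFSe⟩ := hiF S hSm hmap (Eventually.of_forall hSb)
  set Gp : EuclideanSpace ℝ (Fin d) → ℝ := fun x => φ x + F (T x) - inner ℝ x (T x) with hGp
  have hG0 : 0 ≤ᵐ[ρ] Gp := by
    filter_upwards [hKae] with x hx
    have := hF1 (T x) x hx
    simp only [hGp, Pi.zero_apply]
    linarith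
  have hGi : Integrable Gp ρ := (hiφ.add hFT).sub hTi
  have hGle : ∫ x, Gp x ∂ρ ≤ 0 := by
    have e1 : ∫ x, Gp x ∂ρ = ∫ x, φ x ∂ρ + ∫ x, F (T x) ∂ρ - ∫ x, (inner ℝ x (T x) : ℝ) ∂ρ := by
      exact int3 hiφ hFT hTi
    have e2 : ∫ x, (φ x + F (S x) - inner ℝ x (S x)) ∂ρ =
        ∫ x, φ x ∂ρ + ∫ x, F (S x) ∂ρ - ∫ x, (inner ℝ x (S x) : ℝ) ∂ρ := by
      exact int3 hiφ hFS hSi
    have e3 : ∫ x, (φ x + F (S x) - inner ℝ x (S x)) ∂ρ ≤ 0 := by
      apply integral_nonpos_of_ae
      filter_upwards [hKae, hsub] with x hx hx2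
      have : F (S x) ≤ inner ℝ x (S x) - φ x := by
        apply hF2
        intro x' _
        have h5 := hx2 x'
        rw [inner_sub_left] at h5
        linarith
      simp only [Pi.zero_apply]
      linarith
    rw [e1, hFTe]
    rw [e2, hFSe] at e3
    linarith
  have hG : Gp =ᵐ[ρ] 0 := by
    rw [← integral_eq_zero_iff_of_nonneg_ae hG0 hGi]
    exact le_antisymm hGle (integral_nonneg_of_ae hG0)
  have hdiff : ∀ᵐ x ∂ρ, DifferentiableAt ℝ φ x := hac.ae_le hφ.ae_differentiableAt
  have hfr : ∀ᵐ x ∂ρ, x ∉ frontier K := by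
    have : (volume : Measure (EuclideanSpace ℝ (Fin d))) (frontier K) = 0 := hKv.addHaar_frontier volume
    have h2 := hac this
    rw [ae_iff]
    simpa using h2
  filter_upwards [hG, hKae, hdiff, hfr] with x h1 h2 h3 h4
  have hxi : x ∈ interior K := by
    by_contra hxn
    exact h4 ⟨subset_closure h2, hxn⟩
  refine subgrad_eq φ x (T x) K (mem_interior_iff_mem_nhds.1 hxi) h3 ?_
  intro x' hx'
  have h5 := hF1 (T x) x' hx'
  simp only [hGp, Pi.zero_apply] at h1
  rw [inner_sub_left]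
  linarith

end Unif

end Crest.Agent.Lib.OTStab
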