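import Crest.Agent.Lib.OTStabDefs
import Crest.Agent.Lib.OTLimit
import Crest.Agent.Lib.OTWeights
import Mathlib

set_option autoImplicit false
open MeasureTheory Filter Topology
open scoped ENNReal NNReal
open Crest.AnalysisR.OT

namespace Crest.Agent.Lib.OTStab

section CellMap

lemma integral_of_cells {α ι : Type*} [MeasurableSpace α] [Fintype ι] {ρ : Measure α} [IsProbabilityMeasure ρ]
    (C : ι → Set α) (hC : ∀ i, MeasurableSet (C i)) (hd : ∀ i j, i ≠ j → Disjoint (C i) (C j))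
    (hcov : ∀ᵐ x ∂ρ, ∃ i, x ∈ C i) (h : α → ℝ) (c : ι → ℝ) (hc : ∀ i, ∀ x ∈ C i, h x = c i) :
    ∫ x, h x ∂ρ = ∑ i, (ρ (C i)).toReal * c i := by
  classical
  have h1 : h =ᵐ[ρ] fun x => ∑ i, (C i).indicator (fun _ => c i) x := by
    filter_upwards [hcov] with x hx
    obtain ⟨i, hi⟩ := hx
    rw [Finset.sum_eq_single i]
    · rw [Set.indicator_of_mem hi, hc i x hi]
    · intro j _ hji
      rw [Set.indicator_of_notMem]
      intro hj
      exact Set.disjoint_left.1 (hd j i hji) hj hi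
    · intro h
      exact absurd (Finset.mem_univ i) h
  rw [integral_congr_ae h1, integral_finsetSum]
  · apply Finset.sum_congr rfl
    intro k _
    rw [integral_indicator_const _ (hC k), smul_eq_mul]
    rfl
  · intro k _
    exact (integrable_const _).indicator (hC k)

lemma cell_disjoint {d N : ℕ} (y : Fin N → EuclideanSpace ℝ (Fin d)) (a : Fin N → ℝ) (i j : Fin N) (h : i ≠ j) :
    Disjoint (Cell y a i) (Cell y a j) := by
  rw [Set.disjoint_left]
  intro x hi hj
  exact absurd (hi j h.symm) (not_lt.2 (hj i h).le)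

lemma cell_cover {d N : ℕ} (ρ : Measure (EuclideanSpace ℝ (Fin d))) [IsProbabilityMeasure ρ]
    (y : Fin N → EuclideanSpace ℝ (Fin d)) (a m : Fin N → ℝ) (hm : ∀ i, 0 < m i) (hsum : ∑ i, m i = 1)
    (hcell : ∀ i, ρ (Cell y a i) = ENNReal.ofReal (m i)) : ∀ᵐ x ∂ρ, ∃ i, x ∈ Cell y a i := by
  have h1 : ρ (⋃ i, Cell y a i) = 1 := by
    rw [measure_iUnion (fun i j h => cell_disjoint y a i j h) (fun i => (isOpen_Cell y a i).measurableSet)]
    simp_rw [hcell]
    rw [tsum_fintype, ← ENNReal.ofReal_sum_of_nonneg (fun i _ => (hm i).le), hsum, ENNReal.ofReal_one]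
  have h2 : MeasurableSet (⋃ i, Cell y a i) := (isOpen_iUnion fun i => isOpen_Cell y a i).measurableSet
  have h3 := (prob_compl_eq_zero_iff h2).2 h1
  have h4 : ∀ᵐ x ∂ρ, x ∈ ⋃ i, Cell y a i := h3
  filter_upwards [h4] with x hx
  exact Set.mem_iUnion.1 hx

lemma cell_map {d N : ℕ} (ρ : Measure (EuclideanSpace ℝ (Fin d))) [IsProbabilityMeasure ρ]
    (y : Fin N → EuclideanSpace ℝ (Fin d)) (a m : Fin N → ℝ) (hm : ∀ i, 0 < m i) (hsum : ∑ i, m i = 1)
    (R : ℝ≥0) (hyR : ∀ i, ‖y i‖ ≤ R) (hcell : ∀ i, ρ (Cell y a i) = ENNReal.ofReal (m i)) :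
    ∃ (S : EuclideanSpace ℝ (Fin d) → EuclideanSpace ℝ (Fin d)) (φ : EuclideanSpace ℝ (Fin d) → ℝ),
      Measurable S ∧ (∀ x, ‖S x‖ ≤ R) ∧ LipschitzWith R φ ∧ φ 0 = 0 ∧
      (∀ i, ∀ x ∈ Cell y a i, S x = y i) ∧
      (∀ᵐ x ∂ρ, ∀ x', φ x + inner ℝ (x' - x) (S x) ≤ φ x') ∧
      (∀ g : EuclideanSpace ℝ (Fin d) → ℝ, ∫ x, g (S x) ∂ρ = ∑ i, m i * g (y i)) := by
  classical
  have hne : Nonempty (Fin N) := by
    by_contra h
    rw [not_nonempty_iff] at h
    rw [Finset.univ_eq_empty, Finset.sum_empty] at hsum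
    exact zero_ne_one hsum
  set S : EuclideanSpace ℝ (Fin d) → EuclideanSpace ℝ (Fin d) :=
    fun x => ∑ i, (Cell y a i).indicator (fun _ => y i) x with hS
  set φ0 : EuclideanSpace ℝ (Fin d) → ℝ := fun x => ⨆ i, ((inner ℝ x (y i) : ℝ) - a i) with hφ0
  have hSc : ∀ i, ∀ x ∈ Cell y a i, S x = y i := by
    intro i x hx
    simp only [hS]
    rw [Finset.sum_eq_single i]
    · rw [Set.indicator_of_mem hx]
    · intro j _ hji
      rw [Set.indicator_of_notMem]
      intro hj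
      exact Set.disjoint_left.1 (cell_disjoint y a j i hji) hj hx
    · intro h
      exact absurd (Finset.mem_univ i) h
  have hφle : ∀ x i, (inner ℝ x (y i) : ℝ) - a i ≤ φ0 x := fun x i =>
    le_ciSup (f := fun i => (inner ℝ x (y i) : ℝ) - a i) (Set.finite_range _).bddAbove i
  have hφub : ∀ x c, (∀ i, (inner ℝ x (y i) : ℝ) - a i ≤ c) → φ0 x ≤ c := fun x c h => ciSup_le h
  have hφlip : ∀ x x', φ0 x ≤ φ0 x' + R * ‖x - x'‖ := by
    intro x x'
    apply hφub
    intro i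
    have h1 := hφle x' i
    have h2 : (inner ℝ x (y i) : ℝ) = inner ℝ x' (y i) + inner ℝ (x - x') (y i) := by
      rw [inner_sub_left]; ring
    have h3 : (inner ℝ (x - x') (y i) : ℝ) ≤ R * ‖x - x'‖ := by
      refine (real_inner_le_norm _ _).trans ?_
      rw [mul_comm]
      exact mul_le_mul_of_nonneg_right (hyR i) (norm_nonneg _)
    linarith
  refine ⟨S, fun x => φ0 x - φ0 0, ?_, ?_, ?_, sub_self _, hSc, ?_, ?_⟩
  · apply Finset.measurable_fun_sum
    intro i _
    exact measurable_const.indicator (isOpen_Cell y a i).measurableSet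
  · intro x
    by_cases h : ∃ i, x ∈ Cell y a i
    · obtain ⟨i, hi⟩ := h
      rw [hSc i x hi]
      exact hyR i
    · have : S x = 0 := by
        simp only [hS]
        apply Finset.sum_eq_zero
        intro i _
        rw [Set.indicator_of_notMem]
        intro hi
        exact h ⟨i, hi⟩
      rw [this, norm_zero]
      exact R.2
  · apply LipschitzWith.of_dist_le_mul
    intro x x'
    rw [Real.dist_eq, dist_eq_norm, abs_le]
    have h1 := hφlip x x'
    have h2 := hφlip x' x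
    rw [norm_sub_rev] at h2
    constructor <;> linarith
  · filter_upwards [cell_cover ρ y a m hm hsum hcell] with x hx x'
    obtain ⟨i, hi⟩ := hx
    rw [hSc i x hi, inner_sub_left]
    have h1 : φ0 x ≤ (inner ℝ x (y i) : ℝ) - a i := by
      apply hφub
      intro j
      by_cases hj : j = i
      · rw [hj]
      · exact (hi j hj).le
    have h2 := hφle x' i
    linarith
  · intro g
    rw [integral_of_cells (Cell y a) (fun i => (isOpen_Cell y a i).measurableSet) (cell_disjoint y a)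
      (cell_cover ρ y a m hm hsum hcell) (fun x => g (S x)) (fun i => g (y i))
      (fun i x hx => by rw [hSc i x hx])]
    apply Finset.sum_congr rfl
    intro i _
    rw [hcell i, ENNReal.toReal_ofReal (hm i).le]

/-- the L² distance of two cell maps. -/
lemma cell_map_dist {d N : ℕ} (ρ : Measure (EuclideanSpace ℝ (Fin d))) [IsProbabilityMeasure ρ]
    (y z : Fin N → EuclideanSpace ℝ (Fin d)) (a b m : Fin N → ℝ) (hm : ∀ i, 0 < m i) (hsum : ∑ i, m i = 1)
    (hcell : ∀ i, ρ (Cell y a i) = ENNReal.ofReal (m i))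
    (hcell' : ∀ i, ρ (Cell z b i) = ENNReal.ofReal (m i))
    (S S' : EuclideanSpace ℝ (Fin d) → EuclideanSpace ℝ (Fin d))
    (hS : ∀ i, ∀ x ∈ Cell y a i, S x = y i) (hS' : ∀ i, ∀ x ∈ Cell z b i, S' x = z i) :
    ∫ x, ‖S x - S' x‖ ^ 2 ∂ρ =
      ∑ i, ∑ j, (ρ (Cell y a i ∩ Cell z b j)).toReal * ‖y i - z j‖ ^ 2 := by
  rw [integral_of_cells (fun q : Fin N × Fin N => Cell y a q.1 ∩ Cell z b q.2)
    (fun q => ((isOpen_Cell y a q.1).inter (isOpen_Cell z b q.2)).measurableSet) ?_ ?_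
    (fun x => ‖S x - S' x‖ ^ 2) (fun q => ‖y q.1 - z q.2‖ ^ 2) ?_]
  · rw [Fintype.sum_prod_type]
  · intro q q' hqq
    rw [Set.disjoint_left]
    rintro x ⟨h1, h2⟩ ⟨h3, h4⟩
    apply hqq
    apply Prod.ext
    · by_contra h
      exact Set.disjoint_left.1 (cell_disjoint y a _ _ h) h1 h3
    · by_contra h
      exact Set.disjoint_left.1 (cell_disjoint z b _ _ h) h2 h4
  · filter_upwards [cell_cover ρ y a m hm hsum hcell, cell_cover ρ z b m hm hsum hcell'] with x hx hx'
    obtain ⟨i, hi⟩ := hx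
    obtain ⟨j, hj⟩ := hx'
    exact ⟨(i, j), hi, hj⟩
  · rintro q x ⟨h1, h2⟩
    rw [hS _ x h1, hS' _ x h2]

/-- subsequential a.e. convergence of cell maps to the optimal map. -/
lemma optimal_subseq {d : ℕ} (K : Set (EuclideanSpace ℝ (Fin d))) (hKc : IsCompact K) (hKv : Convex ℝ K)
    (hKi : (interior K).Nonempty) (μ : Measure (EuclideanSpace ℝ (Fin d)))
    (T : EuclideanSpace ℝ (Fin d) → EuclideanSpace ℝ (Fin d))
    (hT : IsOptimalMap (uniformProbOn K) μ T) (R : ℝ≥0)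
    (S : ℕ → EuclideanSpace ℝ (Fin d) → EuclideanSpace ℝ (Fin d))
    (φ : ℕ → EuclideanSpace ℝ (Fin d) → ℝ)
    (hSm : ∀ n, Measurable (S n)) (hSb : ∀ n x, ‖S n x‖ ≤ R)
    (hφ : ∀ n, LipschitzWith R (φ n)) (h0 : ∀ n, φ n 0 = 0)
    (hsub : ∀ n, ∀ᵐ x ∂(uniformProbOn K), ∀ x', φ n x + inner ℝ (x' - x) (S n x) ≤ φ n x')
    (hlim : ∀ g : EuclideanSpace ℝ (Fin d) → ℝ, Continuous g → (∃ C, ∀ x, ‖g x‖ ≤ C) →
      Tendsto (fun n => ∫ x, g (S n x) ∂(uniformProbOn K)) atTop (𝓝 (∫ y, g y ∂μ))) :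
    ∃ ψ : ℕ → ℕ, StrictMono ψ ∧
      ∀ᵐ x ∂(uniformProbOn K), Tendsto (fun n => S (ψ n) x) atTop (𝓝 (T x)) := by
  obtain ⟨hprob, hac, hKcomp⟩ := unif_facts K hKc hKi
  set ρ := uniformProbOn K with hρ
  obtain ⟨ψ, f, hψ, hf, hlf⟩ := lip_subseq R φ hφ h0
  have hdiff : ∀ᵐ x ∂ρ, DifferentiableAt ℝ f x := hac.ae_le hf.ae_differentiableAt
  have hsub' : ∀ᵐ x ∂ρ, ∀ n, ∀ x', φ n x + inner ℝ (x' - x) (S n x) ≤ φ n x' := ae_all_iff.2 hsub
  have hconv : ∀ᵐ x ∂ρ, Tendsto (fun n => S (ψ n) x) atTop (𝓝 (gradient f x)) := by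
    filter_upwards [hdiff, hsub'] with x h1 h2
    exact subgrad_tendsto R (fun n => φ (ψ n)) f (fun n => S (ψ n) x) x hlf (fun n => hSb _ x)
      (fun n => h2 (ψ n)) h1
  have hsubf : ∀ᵐ x ∂ρ, ∀ x', f x + inner ℝ (x' - x) (gradient f x) ≤ f x' := by
    filter_upwards [hconv, hsub'] with x h1 h2 x'
    exact le_of_tendsto_of_tendsto ((hlf x).add (tendsto_const_nhds.inner h1)) (hlf x')
      (Eventually.of_forall fun n => h2 (ψ n) x')
  have hgm : Measurable (gradient f) := measurable_gradient' f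
  have hμ : IsProbabilityMeasure μ := by
    rw [← hT.2.1]
    exact Measure.isProbabilityMeasure_map hT.1.aemeasurable
  have hmap : ρ.map (gradient f) = μ := by
    have : IsProbabilityMeasure (ρ.map (gradient f)) := Measure.isProbabilityMeasure_map hgm.aemeasurable
    apply ext_of_forall_integral_eq_of_IsFiniteMeasure
    intro g
    rw [integral_map hgm.aemeasurable g.continuous.aestronglyMeasurable]
    have t1 : Tendsto (fun n => ∫ x, g (S (ψ n) x) ∂ρ) atTop (𝓝 (∫ x, g (gradient f x) ∂ρ)) := by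
      apply tendsto_integral_of_dominated_convergence (fun _ => ‖g‖)
      · intro n
        exact (g.continuous.measurable.comp (hSm _)).aestronglyMeasurable
      · exact integrable_const _
      · intro n
        exact Eventually.of_forall fun x => g.norm_coe_le_norm _
      · filter_upwards [hconv] with x hx
        exact (g.continuous.tendsto _).comp hx
    have t2 := (hlim g g.continuous ⟨‖g‖, g.norm_coe_le_norm⟩).comp hψ.tendsto_atTop
    exact tendsto_nhds_unique t1 t2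
  have hTae := optimal_ae_eq K hKc hKv hKi μ T hT R f hf hmap hsubf
  refine ⟨ψ, hψ, ?_⟩
  filter_upwards [hconv, hTae] with x h1 h2
  rw [h2]
  exact h1

end CellMap

end Crest.Agent.Lib.OTStab
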