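import Crest.Agent.Lib.OTStabDefs2
import Crest.Agent.Lib.OTCellMap
import Crest.Agent.Lib.ConvexGN

/-!
Row 82 (S0109): assembly of the discrete stability property from the variance bound (chunk E), the
Talagrand-type inequality (chunk D) and the gradient comparison (chunk B).
-/

set_option autoImplicit false
open MeasureTheory Filter Topology
open scoped ENNReal NNReal
open Crest.AnalysisR.OT

namespace Crest.Agent.Lib.OTStab

section Sel

variable {d N : ℕ}

/-- A measurable selection of the maximising atom, defined everywhere. -/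
lemma exists_sel (hN : 0 < N) (y : Fin N → EuclideanSpace ℝ (Fin d)) (a : Fin N → ℝ) :
    ∃ p : EuclideanSpace ℝ (Fin d) → EuclideanSpace ℝ (Fin d), Measurable p ∧
      (∀ i, ∀ x ∈ Cell y a i, p x = y i) ∧ (∀ x, ∃ i, p x = y i) ∧
      (∀ x x', pot y a x + inner ℝ (p x) (x' - x) ≤ pot y a x') := by
  classical
  have hne : Nonempty (Fin N) := ⟨⟨0, hN⟩⟩
  let f : Fin N → EuclideanSpace ℝ (Fin d) → ℝ := fun i x => inner ℝ x (y i) - a i
  have hf : ∀ i, Measurable (f i) := fun i => by
    have : Continuous (f i) := by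
      simp only [f]
      fun_prop
    exact this.measurable
  let s : EuclideanSpace ℝ (Fin d) → Finset (Fin N) :=
    fun x => Finset.univ.filter fun i => ∀ j, f j x ≤ f i x
  have hs : ∀ x, (s x).Nonempty := by
    intro x
    obtain ⟨i, hi⟩ := Finite.exists_max (fun i => f i x)
    exact ⟨i, by simpa [s] using hi⟩
  let idx : EuclideanSpace ℝ (Fin d) → Fin N := fun x => (s x).min' (hs x)
  have hidx : ∀ x j, f j x ≤ f (idx x) x := by
    intro x
    have := Finset.min'_mem (s x) (hs x)
    simp only [s, Finset.mem_filter, Finset.mem_univ, true_and] at this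
    exact this
  have hmeas : Measurable idx := by
    apply measurable_to_countable'
    intro i
    have : idx ⁻¹' {i} = {x | (∀ j, f j x ≤ f i x) ∧ ∀ k, (∀ j, f j x ≤ f k x) → i ≤ k} := by
      ext x
      simp only [Set.mem_preimage, Set.mem_singleton_iff, Set.mem_ofPred_eq]
      constructor
      · intro h
        refine ⟨fun j => h ▸ hidx x j, fun k hk => ?_⟩
        rw [← h]
        exact Finset.min'_le _ _ (by simpa [s] using hk)
      · rintro ⟨h1, h2⟩
        apply le_antisymm
        · exact Finset.min'_le _ _ (by simpa [s] using h1)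
        · exact h2 _ (hidx x)
    have e : idx ⁻¹' {i} = (⋂ j, {x | f j x ≤ f i x}) ∩
        ⋂ k, ((⋂ j, {x | f j x ≤ f k x})ᶜ ∪ {_x | i ≤ k}) := by
      rw [this]
      ext x
      simp only [Set.mem_inter_iff, Set.mem_union, Set.mem_compl_iff, Set.mem_iInter,
        Set.mem_ofPred_eq]
      refine and_congr Iff.rfl (forall_congr' fun k => ?_)
      tauto
    rw [e]
    refine (MeasurableSet.iInter fun j => measurableSet_le (hf j) (hf i)).inter
      (MeasurableSet.iInter fun k =>
        ((MeasurableSet.iInter fun j => measurableSet_le (hf j) (hf k)).compl).union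
        (MeasurableSet.const _))
  refine ⟨fun x => y (idx x), (measurable_of_countable y).comp hmeas, ?_, fun x => ⟨idx x, rfl⟩, ?_⟩
  · intro i x hx
    by_contra h
    have hne' : idx x ≠ i := fun h' => h (by simp only [h'])
    have h1 := hx (idx x) hne'
    have h2 := hidx x i
    simp only [f] at h2
    linarith
  · intro x x'
    have h1 : pot y a x ≤ f (idx x) x := ciSup_le fun i => hidx x i
    have h2 : f (idx x) x' ≤ pot y a x' :=
      le_ciSup (f := fun i => (inner ℝ x' (y i) : ℝ) - a i) (Set.finite_range _).bddAbove (idx x)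
    have h3 : f (idx x) x' = f (idx x) x + inner ℝ (y (idx x)) (x' - x) := by
      simp only [f]
      rw [inner_sub_right, real_inner_comm (y (idx x)) x', real_inner_comm (y (idx x)) x]
      ring
    linarith

end Sel

lemma integral_unif {d : ℕ} {K : Set (EuclideanSpace ℝ (Fin d))}
    (f : EuclideanSpace ℝ (Fin d) → ℝ) :
    ∫ x, f x ∂(uniformProbOn K) = (volume K).toReal⁻¹ * ∫ x in K, f x := by
  rw [uniformProbOn, integral_smul_measure, ENNReal.toReal_inv, smul_eq_mul]

/-- **Chunk G**: discrete stability from the Talagrand-type inequality. -/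
theorem discreteStable_of (d : ℕ) (K : Set (EuclideanSpace ℝ (Fin d)))
    (hKc : IsCompact K) (hKv : Convex ℝ K) (hKi : (interior K).Nonempty) (C : ℝ) (hC : 0 ≤ C)
    (hE : ∀ (N : ℕ) (y z : Fin N → EuclideanSpace ℝ (Fin d)) (m a b : Fin N → ℝ),
      Generic y z → (∀ i, 0 < m i) → ∑ i, m i = 1 →
      (∀ i, uniformProbOn K (Cell y a i) = ENNReal.ofReal (m i)) →
      (∀ i, uniformProbOn K (Cell z b i) = ENNReal.ofReal (m i)) →
      ∃ c : ℝ, ∫ x, (pot z b x - pot y a x - c) ^ 2 ∂(uniformProbOn K) ≤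
        C * ∑ i, m i * ‖y i - z i‖ ^ 2) (R : ℝ) :
    ∃ C' : ℝ, 0 ≤ C' ∧ DiscreteStable K R C' := by
  obtain ⟨CB, hCB, hB⟩ := Crest.Agent.Lib.ConvexGN.grad_diff_le d K hKc hKv |R| (abs_nonneg _)
  have hvol : 0 < volume K :=
    lt_of_lt_of_le (isOpen_interior.measure_pos volume hKi) (measure_mono interior_subset)
  have hV : 0 < (volume K).toReal := ENNReal.toReal_pos hvol.ne' hKc.measure_lt_top.ne
  set V := (volume K).toReal with hVdef
  have hprob : IsProbabilityMeasure (uniformProbOn K) := ⟨by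
    simp only [uniformProbOn, Measure.smul_apply, Measure.restrict_apply_univ, smul_eq_mul]
    exact ENNReal.inv_mul_cancel hvol.ne' hKc.measure_lt_top.ne⟩
  refine ⟨V⁻¹ * CB * (V * C) ^ (1 / 3 : ℝ), by positivity, ?_⟩
  intro N y z m a b hy hz hG hm hs ha hb
  have hN : 0 < N := by
    rcases Nat.eq_zero_or_pos N with rfl | h
    · simp at hs
    · exact h
  obtain ⟨c, hc⟩ := hE N y z m a b hG hm hs ha hb
  obtain ⟨p, hp, hpc, hpe, hps⟩ := exists_sel hN z b
  obtain ⟨q, hq, hqc, hqe, hqs⟩ := exists_sel hN y a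
  have hcost : 0 ≤ ∑ i, m i * ‖y i - z i‖ ^ 2 :=
    Finset.sum_nonneg fun i _ => mul_nonneg (hm i).le (sq_nonneg _)
  have key := hB (fun x => pot z b x) (fun x => pot y a x + c) p q hp hq
    (fun x _ => by
      obtain ⟨i, hi⟩ := hpe x
      rw [hi]; exact (hz i).trans (le_abs_self R))
    (fun x _ => by
      obtain ⟨i, hi⟩ := hqe x
      rw [hi]; exact (hy i).trans (le_abs_self R))
    (fun x _ x' _ => hps x x')
    (fun x _ x' _ => by
      have := hqs x x'
      linarith)
  have e1 : ∑ i, ∑ j, (uniformProbOn K (Cell y a i ∩ Cell z b j)).toReal * ‖y i - z j‖ ^ 2 =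
      ∫ x, ‖p x - q x‖ ^ 2 ∂(uniformProbOn K) := by
    rw [integral_of_cells (ι := Fin N × Fin N) (fun ij => Cell y a ij.1 ∩ Cell z b ij.2)
      (fun ij => ((isOpen_Cell y a _).inter (isOpen_Cell z b _)).measurableSet) ?_ ?_
      (fun x => ‖p x - q x‖ ^ 2) (fun ij => ‖y ij.1 - z ij.2‖ ^ 2) ?_, Fintype.sum_prod_type]
    · rintro ⟨i, j⟩ ⟨i', j'⟩ hne
      by_cases h : i = i'
      · have h' : j ≠ j' := fun hj => hne (by rw [h, hj])
        exact (cell_disjoint z b j j' h').mono Set.inter_subset_right Set.inter_subset_right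
      · exact (cell_disjoint y a i i' h).mono Set.inter_subset_left Set.inter_subset_left
    · filter_upwards [cell_cover _ y a m hm hs ha, cell_cover _ z b m hm hs hb] with x h1 h2
      obtain ⟨i, hi⟩ := h1
      obtain ⟨j, hj⟩ := h2
      exact ⟨(i, j), hi, hj⟩
    · rintro ⟨i, j⟩ x ⟨hi, hj⟩
      simp only
      rw [hpc j x hj, hqc i x hi, norm_sub_rev]
  have e2 : ∫ x in K, (pot z b x - (pot y a x + c)) ^ 2 =
      V * ∫ x, (pot z b x - pot y a x - c) ^ 2 ∂(uniformProbOn K) := by
    rw [integral_unif, ← mul_assoc, mul_inv_cancel₀ hV.ne', one_mul]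
    congr 1
    funext x
    ring
  rw [e1, integral_unif]
  calc V⁻¹ * ∫ x in K, ‖p x - q x‖ ^ 2
      ≤ V⁻¹ * (CB * (∫ x in K, (pot z b x - (pot y a x + c)) ^ 2) ^ (1 / 3 : ℝ)) := by gcongr
    _ ≤ V⁻¹ * (CB * (V * (C * ∑ i, m i * ‖y i - z i‖ ^ 2)) ^ (1 / 3 : ℝ)) := by
        rw [e2]
        have h0 : 0 ≤ ∫ x, (pot z b x - pot y a x - c) ^ 2 ∂(uniformProbOn K) :=
          integral_nonneg fun x => sq_nonneg _
        gcongr
    _ = V⁻¹ * CB * (V * C) ^ (1 / 3 : ℝ) * (∑ i, m i * ‖y i - z i‖ ^ 2) ^ (1 / 3 : ℝ) := by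
        rw [← mul_assoc V C, Real.mul_rpow (by positivity) hcost]
        ring

end Crest.Agent.Lib.OTStab
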