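import Crest.Agent.Lib.OTStabDefs
import Crest.Agent.Lib.OTWeights
import Crest.Agent.Lib.OTLimit
import Crest.Agent.Lib.OTApprox
import Crest.Agent.Lib.OTCellMap
import Mathlib

/-!
Reduction of the stability of quadratic optimal transport maps to finitely supported targets
(row 82, S0109/S0110, chunk F).
-/

set_option autoImplicit false
open MeasureTheory Filter Topology
open scoped ENNReal NNReal
open Crest.AnalysisR.OT

namespace Crest.Agent.Lib.OTStab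

/-- discrete stability for generic atoms implies stability for all targets. -/
theorem stable_of_discreteStable (d : ℕ) (hd : 2 ≤ d) (K : Set (EuclideanSpace ℝ (Fin d)))
    (hKc : IsCompact K) (hKv : Convex ℝ K) (hKi : (interior K).Nonempty)
    (Y : Set (EuclideanSpace ℝ (Fin d))) (hYc : IsCompact Y)
    (R : ℝ) (hYR : ∀ y ∈ Y, ‖y‖ + 1 ≤ R) (C : ℝ) (hC : 0 ≤ C) (hD : DiscreteStable K R C) :
    ∀ μ ν : Measure (EuclideanSpace ℝ (Fin d)), IsProbabilityOn Y μ → IsProbabilityOn Y ν →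
      ∀ Tμ Tν, IsOptimalMap (uniformProbOn K) μ Tμ → IsOptimalMap (uniformProbOn K) ν Tν →
        ∀ π, IsPairCoupling μ ν π → ∫⁻ x, ‖Tμ x - Tν x‖ₑ ^ 2 ∂(uniformProbOn K) ≤
          (C.toNNReal : ℝ≥0∞) * quadCost π ^ (1 / 3 : ℝ) := by
  intro μ ν hμ hν Tμ Tν hTμ hTν π hπ
  obtain ⟨hprob, hac, hKcomp⟩ := unif_facts K hKc hKi
  obtain ⟨hμp, hμY⟩ := hμ
  obtain ⟨hνp, hνY⟩ := hν
  obtain ⟨hπ1, hπ2⟩ := hπ
  have hπp : IsProbabilityMeasure π := by
    constructor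
    have := hμp.measure_univ
    rwa [← hπ1, Measure.map_apply measurable_fst MeasurableSet.univ, Set.preimage_univ] at this
  have hπY : ∀ᵐ p ∂π, p.1 ∈ Y ∧ p.2 ∈ Y := by
    have h1 : ∀ᵐ p ∂π, p.1 ∈ Y := by
      have : π (Prod.fst ⁻¹' Yᶜ) = 0 := by
        rw [← Measure.map_apply measurable_fst hYc.measurableSet.compl, hπ1]
        exact hμY
      exact this
    have h2 : ∀ᵐ p ∂π, p.2 ∈ Y := by
      have : π (Prod.snd ⁻¹' Yᶜ) = 0 := by
        rw [← Measure.map_apply measurable_snd hYc.measurableSet.compl, hπ2]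
        exact hνY
      exact this
    exact h1.and h2
  have hR0 : 0 ≤ R := by
    obtain ⟨p, hp⟩ := hπY.exists
    have := hYR _ hp.1
    have := norm_nonneg p.1
    linarith
  lift R to ℝ≥0 using hR0
  obtain ⟨r, hr⟩ := hKc.isBounded.subset_closedBall (0 : EuclideanSpace ℝ (Fin d))
  have hρr : uniformProbOn K (Metric.closedBall 0 r)ᶜ = 0 :=
    measure_mono_null (Set.compl_subset_compl.2 hr) hKcomp
  -- the approximating sequence
  have hseq : ∀ n : ℕ, ∃ (S S' : EuclideanSpace ℝ (Fin d) → EuclideanSpace ℝ (Fin d))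
      (φ φ' : EuclideanSpace ℝ (Fin d) → ℝ)
      (A : EuclideanSpace ℝ (Fin d) × EuclideanSpace ℝ (Fin d) →
        EuclideanSpace ℝ (Fin d) × EuclideanSpace ℝ (Fin d)),
      (Measurable S ∧ (∀ x, ‖S x‖ ≤ R) ∧ LipschitzWith R φ ∧ φ 0 = 0 ∧
        (∀ᵐ x ∂(uniformProbOn K), ∀ x', φ x + inner ℝ (x' - x) (S x) ≤ φ x') ∧
        (∀ g : EuclideanSpace ℝ (Fin d) → ℝ, ∫ x, g (S x) ∂(uniformProbOn K) = ∫ p, g (A p).1 ∂π)) ∧
      (Measurable S' ∧ (∀ x, ‖S' x‖ ≤ R) ∧ LipschitzWith R φ' ∧ φ' 0 = 0 ∧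
        (∀ᵐ x ∂(uniformProbOn K), ∀ x', φ' x + inner ℝ (x' - x) (S' x) ≤ φ' x') ∧
        (∀ g : EuclideanSpace ℝ (Fin d) → ℝ, ∫ x, g (S' x) ∂(uniformProbOn K) = ∫ p, g (A p).2 ∂π)) ∧
      Measurable A ∧ (∀ p, ‖(A p).1‖ ≤ R ∧ ‖(A p).2‖ ≤ R) ∧
      (∀ᵐ p ∂π, dist (A p) p ≤ 1 / ((n : ℝ) + 1)) ∧
      ∫ x, ‖S x - S' x‖ ^ 2 ∂(uniformProbOn K) ≤ C * (∫ p, ‖(A p).1 - (A p).2‖ ^ 2 ∂π) ^ (1 / 3 : ℝ) := by
    intro n
    obtain ⟨N, y, z, m, A, hy, hz, hgen, hm, hsum, hAm, hAR, hAd, hAG⟩ :=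
      approx_coupling hd Y hYc R hYR π hπY (1 / ((n : ℝ) + 1)) (by positivity) (by
        rw [div_le_one (by positivity)]
        have : (0 : ℝ) ≤ n := Nat.cast_nonneg n
        linarith)
    have hyi : Function.Injective y := by
      intro i j hij
      by_contra hne
      have := hgen i j hne 0 ⟨le_refl _, zero_le_one⟩
      apply this
      rw [hij]
      simp
    have hzi : Function.Injective z := by
      intro i j hij
      by_contra hne
      have := hgen i j hne 1 ⟨zero_le_one, le_refl _⟩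
      apply this
      rw [hij]
      simp
    obtain ⟨a, ha⟩ := exists_weights d (uniformProbOn K) hac r hρr N y hyi m hm hsum
    obtain ⟨b, hb⟩ := exists_weights d (uniformProbOn K) hac r hρr N z hzi m hm hsum
    obtain ⟨S, φ, hS1, hS2, hS3, hS4, hS5, hS6, hS7⟩ := cell_map (uniformProbOn K) y a m hm hsum R hy ha
    obtain ⟨S', φ', hS1', hS2', hS3', hS4', hS5', hS6', hS7'⟩ :=
      cell_map (uniformProbOn K) z b m hm hsum R hz hb
    refine ⟨S, S', φ, φ', A, ⟨hS1, hS2, hS3, hS4, hS6, ?_⟩, ⟨hS1', hS2', hS3', hS4', hS6', ?_⟩,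
      hAm, hAR, hAd, ?_⟩
    · intro g
      rw [hS7 g]
      exact hAG (fun p => g p.1)
    · intro g
      rw [hS7' g]
      exact hAG (fun p => g p.2)
    · rw [cell_map_dist (uniformProbOn K) y z a b m hm hsum ha hb S S' hS5 hS5']
      refine (hD N y z m a b hy hz hgen hm hsum ha hb).trans (le_of_eq ?_)
      rw [hAG (fun p => ‖p.1 - p.2‖ ^ 2)]
  choose S S' φ φ' A hS hS' hAm hAR hAd hest using hseq
  have hA : ∀ᵐ p ∂π, Tendsto (fun n => A n p) atTop (𝓝 p) := by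
    filter_upwards [ae_all_iff.2 hAd] with p hp
    rw [tendsto_iff_dist_tendsto_zero]
    exact squeeze_zero (fun n => dist_nonneg) hp tendsto_one_div_add_atTop_nhds_zero_nat
  have hGlim : ∀ G : EuclideanSpace ℝ (Fin d) × EuclideanSpace ℝ (Fin d) → ℝ, Continuous G →
      (∃ C, ∀ p, ‖p.1‖ ≤ R → ‖p.2‖ ≤ R → ‖G p‖ ≤ C) →
      Tendsto (fun n => ∫ p, G (A n p) ∂π) atTop (𝓝 (∫ p, G p ∂π)) := by
    rintro G hG ⟨c, hc⟩
    apply tendsto_integral_of_dominated_convergence (fun _ => c)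
    · intro n
      exact (hG.measurable.comp (hAm n)).aestronglyMeasurable
    · exact integrable_const _
    · intro n
      exact Eventually.of_forall fun p => hc _ (hAR n p).1 (hAR n p).2
    · filter_upwards [hA] with p hp
      exact (hG.tendsto _).comp hp
  have hμint : ∀ g : EuclideanSpace ℝ (Fin d) → ℝ, Continuous g → ∫ y, g y ∂μ = ∫ p, g p.1 ∂π := by
    intro g hg
    rw [← hπ1, integral_map measurable_fst.aemeasurable hg.aestronglyMeasurable]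
  have hνint : ∀ g : EuclideanSpace ℝ (Fin d) → ℝ, Continuous g → ∫ y, g y ∂ν = ∫ p, g p.2 ∂π := by
    intro g hg
    rw [← hπ2, integral_map measurable_snd.aemeasurable hg.aestronglyMeasurable]
  obtain ⟨ψ, hψ, hc1⟩ := optimal_subseq K hKc hKv hKi μ Tμ hTμ R S φ (fun n => (hS n).1)
    (fun n => (hS n).2.1) (fun n => (hS n).2.2.1) (fun n => (hS n).2.2.2.1) (fun n => (hS n).2.2.2.2.1) (by
      rintro g hg ⟨c, hc⟩
      rw [hμint g hg]
      simp_rw [fun n => (hS n).2.2.2.2.2 g]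
      exact hGlim (fun p => g p.1) (hg.comp continuous_fst) ⟨c, fun p _ _ => hc _⟩)
  obtain ⟨χ, hχ, hc2⟩ := optimal_subseq K hKc hKv hKi ν Tν hTν R (fun n => S' (ψ n)) (fun n => φ' (ψ n))
    (fun n => (hS' _).1) (fun n => (hS' _).2.1) (fun n => (hS' _).2.2.1) (fun n => (hS' _).2.2.2.1)
    (fun n => (hS' _).2.2.2.2.1) (by
      rintro g hg ⟨c, hc⟩
      rw [hνint g hg]
      simp_rw [fun n => (hS' (ψ n)).2.2.2.2.2 g]
      exact (hGlim (fun p => g p.2) (hg.comp continuous_snd) ⟨c, fun p _ _ => hc _⟩).comp hψ.tendsto_atTop)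
  -- Fatou
  have hfat : ∫⁻ x, ‖Tμ x - Tν x‖ₑ ^ 2 ∂(uniformProbOn K) ≤
      liminf (fun n => ∫⁻ x, ‖S (ψ (χ n)) x - S' (ψ (χ n)) x‖ₑ ^ 2 ∂(uniformProbOn K)) atTop := by
    refine le_trans (le_of_eq ?_) (lintegral_liminf_le (fun n => ?_))
    · apply lintegral_congr_ae
      filter_upwards [hc1, hc2] with x h1 h2
      symm
      apply Tendsto.liminf_eq
      have h3 : Tendsto (fun n => S (ψ (χ n)) x - S' (ψ (χ n)) x) atTop (𝓝 (Tμ x - Tν x)) :=
        (h1.comp hχ.tendsto_atTop).sub h2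
      exact (((ENNReal.continuous_pow 2).comp continuous_enorm).tendsto _).comp h3
    · exact ((((hS _).1).sub ((hS' _).1)).enorm).pow_const 2
  refine hfat.trans ?_
  have hle : ∀ n, ∫⁻ x, ‖S (ψ (χ n)) x - S' (ψ (χ n)) x‖ₑ ^ 2 ∂(uniformProbOn K) ≤
      ENNReal.ofReal (C * (∫ p, ‖(A (ψ (χ n)) p).1 - (A (ψ (χ n)) p).2‖ ^ 2 ∂π) ^ (1 / 3 : ℝ)) := by
    intro n
    rw [lint_sq (fun x => S (ψ (χ n)) x - S' (ψ (χ n)) x)
      (((hS _).1).sub ((hS' _).1)).aestronglyMeasurable (R + R)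
      (Eventually.of_forall fun x => (norm_sub_le _ _).trans
        (add_le_add ((hS _).2.1 x) ((hS' _).2.1 x)))]
    exact ENNReal.ofReal_le_ofReal (hest _)
  refine (liminf_le_liminf (Eventually.of_forall hle)).trans ?_
  have hlimI : Tendsto (fun n => ∫ p, ‖(A (ψ (χ n)) p).1 - (A (ψ (χ n)) p).2‖ ^ 2 ∂π) atTop
      (𝓝 (∫ p, ‖p.1 - p.2‖ ^ 2 ∂π)) := by
    have := hGlim (fun p => ‖p.1 - p.2‖ ^ 2) (by fun_prop) ⟨((R : ℝ) + R) ^ 2, fun p h1 h2 => by
      rw [Real.norm_eq_abs, abs_of_nonneg (by positivity)]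
      exact pow_le_pow_left₀ (norm_nonneg _) ((norm_sub_le _ _).trans (add_le_add h1 h2)) 2⟩
    exact this.comp (hψ.tendsto_atTop.comp hχ.tendsto_atTop)
  have hlim2 : Tendsto (fun n => ENNReal.ofReal
      (C * (∫ p, ‖(A (ψ (χ n)) p).1 - (A (ψ (χ n)) p).2‖ ^ 2 ∂π) ^ (1 / 3 : ℝ))) atTop
      (𝓝 (ENNReal.ofReal (C * (∫ p, ‖p.1 - p.2‖ ^ 2 ∂π) ^ (1 / 3 : ℝ)))) := by
    apply (ENNReal.continuous_ofReal.tendsto _).comp
    apply Tendsto.const_mul
    exact hlimI.rpow_const (Or.inr (by norm_num))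
  rw [hlim2.liminf_eq]
  apply le_of_eq
  have hq : quadCost π = ENNReal.ofReal (∫ p, ‖p.1 - p.2‖ ^ 2 ∂π) := by
    unfold quadCost
    apply lint_sq (fun p : EuclideanSpace ℝ (Fin d) × EuclideanSpace ℝ (Fin d) => p.1 - p.2)
      (measurable_fst.sub measurable_snd).aestronglyMeasurable (R + R)
    filter_upwards [hπY] with p hp
    have h1 := hYR _ hp.1
    have h2 := hYR _ hp.2
    refine (norm_sub_le _ _).trans ?_
    linarith
  rw [hq, ENNReal.ofReal_mul hC, ENNReal.ofReal_rpow_of_nonneg (integral_nonneg fun p => by positivity) (by norm_num)]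
  rfl

end Crest.Agent.Lib.OTStab
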