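import Crest.Agent.Lib.OTStabDefs
import Crest.Agent.Lib.OTStabDefs2
import Crest.Agent.Lib.OTWeights

/-!
Row 82 (S0109), chunk E: variance of the difference of the Laguerre potentials is bounded by the
transport cost, given the Talagrand-type inequality for cells.
-/

set_option autoImplicit false
open MeasureTheory Filter Topology
open scoped ENNReal NNReal
open Crest.AnalysisR.OT

namespace Crest.Agent.Lib.OTStab

namespace Var

section Variance

variable {d N : ℕ}

/-! ### the uniform probability -/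

lemma unif_prob {K : Set (EuclideanSpace ℝ (Fin d))} (hKc : IsCompact K)
    (hKi : (interior K).Nonempty) : IsProbabilityMeasure (uniformProbOn K) := by
  constructor
  have h1 : volume K ≠ 0 := by
    have := isOpen_interior.measure_pos volume hKi
    exact (this.trans_le (measure_mono interior_subset)).ne'
  have h2 : volume K ≠ ⊤ := hKc.measure_lt_top.ne
  simp [uniformProbOn, ENNReal.inv_mul_cancel h1 h2]

lemma unif_ac (K : Set (EuclideanSpace ℝ (Fin d))) : uniformProbOn K ≪ volume := by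
  unfold uniformProbOn
  exact (Measure.smul_absolutelyContinuous).trans Measure.restrict_le_self.absolutelyContinuous

lemma unif_ae_mem {K : Set (EuclideanSpace ℝ (Fin d))} (hKc : IsCompact K) :
    ∀ᵐ x ∂(uniformProbOn K), x ∈ K := by
  unfold uniformProbOn
  apply Measure.ae_smul_measure
  exact ae_restrict_mem hKc.measurableSet

lemma unif_ae_mem_interior {K : Set (EuclideanSpace ℝ (Fin d))} (hKc : IsCompact K)
    (hKv : Convex ℝ K) : ∀ᵐ x ∂(uniformProbOn K), x ∈ interior K := by
  have h1 : uniformProbOn K (frontier K) = 0 := unif_ac K (hKv.addHaar_frontier _)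
  have h2 : ∀ᵐ x ∂(uniformProbOn K), x ∉ frontier K := measure_eq_zero_iff_ae_notMem.mp h1
  filter_upwards [h2, unif_ae_mem hKc] with x hx hxK
  rw [hKc.isClosed.frontier_eq] at hx
  by_contra h
  exact hx ⟨hxK, h⟩

lemma unif_null_open {K : Set (EuclideanSpace ℝ (Fin d))} (hKc : IsCompact K)
    (U : Set (EuclideanSpace ℝ (Fin d))) (hU : IsOpen U) (hUK : U ⊆ K)
    (h : uniformProbOn K U = 0) : U = ∅ := by
  have h2 : volume K ≠ ⊤ := hKc.measure_lt_top.ne
  by_contra hne
  rw [← ne_eq, ← Set.nonempty_iff_ne_empty] at hne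
  have h3 := hU.measure_pos volume hne
  simp only [uniformProbOn, Measure.smul_apply, smul_eq_mul, mul_eq_zero, ENNReal.inv_eq_zero] at h
  rcases h with h | h
  · exact h2 h
  · rw [Measure.restrict_apply hU.measurableSet, Set.inter_eq_self_of_subset_left hUK] at h
    exact h3.ne' h

/-! ### the potential -/

lemma pot_bdd (y : Fin N → EuclideanSpace ℝ (Fin d)) (a : Fin N → ℝ) (x : EuclideanSpace ℝ (Fin d)) :
    BddAbove (Set.range (fun i => inner ℝ x (y i) - a i)) := Set.finite_range _ |>.bddAbove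

lemma le_pot (y : Fin N → EuclideanSpace ℝ (Fin d)) (a : Fin N → ℝ) (x : EuclideanSpace ℝ (Fin d))
    (i : Fin N) : inner ℝ x (y i) - a i ≤ pot y a x := le_ciSup (pot_bdd y a x) i

lemma pot_le [Nonempty (Fin N)] (y : Fin N → EuclideanSpace ℝ (Fin d)) (a : Fin N → ℝ) (x : EuclideanSpace ℝ (Fin d))
    (c : ℝ) (h : ∀ i, inner ℝ x (y i) - a i ≤ c) : pot y a x ≤ c := ciSup_le h

lemma pot_eq_of_mem (y : Fin N → EuclideanSpace ℝ (Fin d)) (a : Fin N → ℝ) (x : EuclideanSpace ℝ (Fin d))
    (i : Fin N) (hx : x ∈ Cell y a i) : pot y a x = inner ℝ x (y i) - a i := by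
  have : Nonempty (Fin N) := ⟨i⟩
  apply le_antisymm _ (le_pot y a x i)
  apply pot_le
  intro j
  by_cases h : j = i
  · rw [h]
  · exact (hx j h).le

lemma continuous_pot (y : Fin N → EuclideanSpace ℝ (Fin d)) (a : Fin N → ℝ) :
    Continuous (pot y a) := by
  rcases Nat.eq_zero_or_pos N with h | h
  · subst h
    have : pot y a = fun _ => 0 := by
      funext x
      simp [pot]
    rw [this]; exact continuous_const
  · have : Nonempty (Fin N) := ⟨⟨0, h⟩⟩
    have : pot y a = fun x => Finset.univ.sup' Finset.univ_nonempty (fun i => inner ℝ x (y i) - a i) := by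
      funext x
      rw [pot, Finset.sup'_univ_eq_ciSup]
    rw [this]
    apply Continuous.finset_sup'_apply
    intro i _
    fun_prop

lemma pot_sub_le (y : Fin N → EuclideanSpace ℝ (Fin d)) (a b : Fin N → ℝ) (x : EuclideanSpace ℝ (Fin d)) :
    |pot y a x - pot y b x| ≤ dist a b := by
  rcases Nat.eq_zero_or_pos N with h | h
  · subst h
    simp [pot]
  · have : Nonempty (Fin N) := ⟨⟨0, h⟩⟩
    rw [abs_le]
    constructor
    · have : pot y b x ≤ pot y a x + dist a b := by
        apply pot_le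
        intro i
        have h1 := le_pot y a x i
        have h2 := dist_le_pi_dist a b i
        rw [Real.dist_eq] at h2
        have := (abs_le.mp h2).2
        linarith
      linarith
    · have : pot y a x ≤ pot y b x + dist a b := by
        apply pot_le
        intro i
        have h1 := le_pot y b x i
        have h2 := dist_le_pi_dist a b i
        rw [Real.dist_eq] at h2
        have := (abs_le.mp h2).1
        linarith
      linarith

/-! ### cells partition -/

variable (ρ : Measure (EuclideanSpace ℝ (Fin d))) [IsProbabilityMeasure ρ] (hac : ρ ≪ volume)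

lemma cell_disjoint (y : Fin N → EuclideanSpace ℝ (Fin d)) (a : Fin N → ℝ) :
    Pairwise (Function.onFun Disjoint (fun i => Cell y a i)) := by
  intro i j hij
  rw [Function.onFun, Set.disjoint_left]
  intro x h1 h2
  have := h1 j (Ne.symm hij)
  have := h2 i hij
  linarith

omit [IsProbabilityMeasure ρ] in
include hac in
lemma ae_mem_cell (hN : 0 < N) (y : Fin N → EuclideanSpace ℝ (Fin d)) (hy : Function.Injective y)
    (a : Fin N → ℝ) : ∀ᵐ x ∂ρ, x ∈ ⋃ i, Cell y a i := by
  filter_upwards [ae_no_tie ρ hac y hy a] with x hx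
  have : Nonempty (Fin N) := ⟨⟨0, hN⟩⟩
  obtain ⟨i, hi⟩ := Finite.exists_max (fun i => inner ℝ x (y i) - a i)
  refine Set.mem_iUnion.mpr ⟨i, ?_⟩
  intro j hji
  exact lt_of_le_of_ne (hi j) (hx j i hji)

omit [IsProbabilityMeasure ρ] in
include hac in
lemma integral_cells (hN : 0 < N) (y : Fin N → EuclideanSpace ℝ (Fin d)) (hy : Function.Injective y)
    (a : Fin N → ℝ) (f : EuclideanSpace ℝ (Fin d) → ℝ) (hf : Integrable f ρ) :
    ∫ x, f x ∂ρ = ∑ i, ∫ x in Cell y a i, f x ∂ρ := by
  have h1 : ρ.restrict (⋃ i, Cell y a i) = ρ :=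
    Measure.restrict_eq_self_of_ae_mem (ae_mem_cell ρ hac hN y hy a)
  conv_lhs => rw [← h1]
  rw [integral_iUnion_fintype (fun i => (isOpen_Cell y a i).measurableSet) (cell_disjoint y a)
    (fun i => hf.integrableOn)]

/-! ### weighted barycentres and duality -/

/-- weighted barycentre vector of a cell -/
noncomputable def bar (ρ : Measure (EuclideanSpace ℝ (Fin d))) (r : EuclideanSpace ℝ (Fin d) → ℝ)
    (y : Fin N → EuclideanSpace ℝ (Fin d)) (a : Fin N → ℝ) (i : Fin N) : EuclideanSpace ℝ (Fin d) :=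
  ∫ x in Cell y a i, r x • x ∂ρ

lemma int_smul {F : Type*} [NormedAddCommGroup F] [NormedSpace ℝ F]
    {K : Set (EuclideanSpace ℝ (Fin d))} (hKc : IsCompact K) (hK : ∀ᵐ x ∂ρ, x ∈ K)
    (r : EuclideanSpace ℝ (Fin d) → ℝ) (hrm : Measurable r) (B : ℝ) (hB : ∀ x, |r x| ≤ B)
    (f : EuclideanSpace ℝ (Fin d) → F) (hf : Continuous f) : Integrable (fun x => r x • f x) ρ := by
  obtain ⟨C, hC⟩ := hKc.exists_bound_of_continuousOn hf.continuousOn
  apply Integrable.of_bound (C := B * C)
    (hrm.aestronglyMeasurable.smul hf.aestronglyMeasurable)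
  filter_upwards [hK] with x hx
  show ‖r x • f x‖ ≤ B * C
  rw [norm_smul]
  exact mul_le_mul (hB x) (hC x hx) (norm_nonneg _) ((abs_nonneg _).trans (hB x))

include hac in
lemma dual_le {K : Set (EuclideanSpace ℝ (Fin d))} (hKc : IsCompact K) (hK : ∀ᵐ x ∂ρ, x ∈ K)
    (hN : 0 < N) (y : Fin N → EuclideanSpace ℝ (Fin d)) (hy : Function.Injective y)
    (a : Fin N → ℝ) (r : EuclideanSpace ℝ (Fin d) → ℝ) (hrm : Measurable r) (B : ℝ)
    (hr0 : ∀ x, 0 ≤ r x) (hB : ∀ x, r x ≤ B) (y' : Fin N → EuclideanSpace ℝ (Fin d)) (a' : Fin N → ℝ) :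
    ∑ i, (inner ℝ (bar ρ r y a i) (y' i) - a' i * ∫ x in Cell y a i, r x ∂ρ) ≤
      ∫ x, r x * pot y' a' x ∂ρ := by
  have hB' : ∀ x, |r x| ≤ B := fun x => by rw [abs_of_nonneg (hr0 x)]; exact hB x
  have hI1 : Integrable (fun x => r x * pot y' a' x) ρ :=
    int_smul ρ hKc hK r hrm B hB' (pot y' a') (continuous_pot y' a')
  rw [integral_cells ρ hac hN y hy a _ hI1]
  apply Finset.sum_le_sum
  intro i _
  have hI2 : Integrable (fun x => r x • x) ρ := int_smul ρ hKc hK r hrm B hB' (fun x => x) continuous_id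
  have hI3 : Integrable (fun x => r x) ρ := by
    have := int_smul ρ hKc hK r hrm B hB' (fun _ => (1:ℝ)) continuous_const
    simpa using this
  have e1 : inner ℝ (bar ρ r y a i) (y' i) = ∫ x in Cell y a i, r x * inner ℝ x (y' i) ∂ρ := by
    rw [bar, real_inner_comm, ← integral_inner hI2.integrableOn]
    apply integral_congr_ae
    filter_upwards with x
    rw [inner_smul_right, real_inner_comm]
  have hI4 : Integrable (fun x => r x * inner ℝ x (y' i)) ρ :=
    int_smul ρ hKc hK r hrm B hB' (fun x => inner ℝ x (y' i)) (by fun_prop)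
  rw [e1, ← integral_const_mul, ← integral_sub hI4.integrableOn (hI3.const_mul _).integrableOn]
  apply integral_mono (hI4.sub (hI3.const_mul _)).integrableOn hI1.integrableOn
  intro x
  have := le_pot y' a' x i
  have h2 := mul_le_mul_of_nonneg_left this (hr0 x)
  show r x * inner ℝ x (y' i) - a' i * r x ≤ r x * pot y' a' x
  linarith

include hac in
lemma dual_eq {K : Set (EuclideanSpace ℝ (Fin d))} (hKc : IsCompact K) (hK : ∀ᵐ x ∂ρ, x ∈ K)
    (hN : 0 < N) (y : Fin N → EuclideanSpace ℝ (Fin d)) (hy : Function.Injective y)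
    (a : Fin N → ℝ) (r : EuclideanSpace ℝ (Fin d) → ℝ) (hrm : Measurable r) (B : ℝ)
    (hr0 : ∀ x, 0 ≤ r x) (hB : ∀ x, r x ≤ B) :
    ∑ i, (inner ℝ (bar ρ r y a i) (y i) - a i * ∫ x in Cell y a i, r x ∂ρ) =
      ∫ x, r x * pot y a x ∂ρ := by
  have hB' : ∀ x, |r x| ≤ B := fun x => by rw [abs_of_nonneg (hr0 x)]; exact hB x
  have hI1 : Integrable (fun x => r x * pot y a x) ρ :=
    int_smul ρ hKc hK r hrm B hB' (pot y a) (continuous_pot y a)
  rw [integral_cells ρ hac hN y hy a _ hI1]
  apply Finset.sum_congr rfl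
  intro i _
  have hI2 : Integrable (fun x => r x • x) ρ := int_smul ρ hKc hK r hrm B hB' (fun x => x) continuous_id
  have hI3 : Integrable (fun x => r x) ρ := by
    have := int_smul ρ hKc hK r hrm B hB' (fun _ => (1:ℝ)) continuous_const
    simpa using this
  have e1 : inner ℝ (bar ρ r y a i) (y i) = ∫ x in Cell y a i, r x * inner ℝ x (y i) ∂ρ := by
    rw [bar, real_inner_comm, ← integral_inner hI2.integrableOn]
    apply integral_congr_ae
    filter_upwards with x
    rw [inner_smul_right, real_inner_comm]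
  have hI4 : Integrable (fun x => r x * inner ℝ x (y i)) ρ :=
    int_smul ρ hKc hK r hrm B hB' (fun x => inner ℝ x (y i)) (by fun_prop)
  rw [e1, ← integral_const_mul, ← integral_sub hI4.integrableOn (hI3.const_mul _).integrableOn]
  apply setIntegral_congr_fun (isOpen_Cell y a i).measurableSet
  intro x hx
  have := pot_eq_of_mem y a x i hx
  show r x * inner ℝ x (y i) - a i * r x = r x * pot y a x
  rw [this]; ring

/-! ### grid argument -/

/-- comparison of increments of two convex functions through subgradients -/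
lemma grid_le (f1 g1 f2 g2 : ℝ → ℝ) (S : ℝ)
    (h1 : ∀ s ∈ Set.Icc (0:ℝ) 1, ∀ t ∈ Set.Icc (0:ℝ) 1, f1 t + (s - t) * g1 t ≤ f1 s)
    (h2 : ∀ s ∈ Set.Icc (0:ℝ) 1, ∀ t ∈ Set.Icc (0:ℝ) 1, f2 t + (s - t) * g2 t ≤ f2 s)
    (hS : ∀ t ∈ Set.Icc (0:ℝ) 1, g1 t - g2 t ≤ S) :
    (f1 1 - f1 0) - (f2 1 - f2 0) ≤ S := by
  have key : ∀ n : ℕ, 0 < n → (f1 1 - f1 0) - (f2 1 - f2 0) ≤ S + (g2 1 - g2 0) * (n : ℝ)⁻¹ := by
    intro n hn
    have hn' : (0:ℝ) < n := by exact_mod_cast hn
    have step : ∀ k : ℕ, k ≤ n → (f1 (k / n) - f1 0) - (f2 (k / n) - f2 0) ≤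
        S * (k / n) + (g2 (k / n) - g2 0) * (n : ℝ)⁻¹ := by
      intro k
      induction k with
      | zero => intro _; simp
      | succ k ih =>
        intro hk
        have ih' := ih (by omega)
        have hk' : ((k + 1 : ℕ) : ℝ) ≤ n := by exact_mod_cast hk
        have m1 : ((k : ℝ) / n) ∈ Set.Icc (0:ℝ) 1 := by
          refine ⟨by positivity, ?_⟩
          rw [div_le_one hn']
          push_cast at hk'; linarith
        have m2 : (((k + 1 : ℕ) : ℝ) / n) ∈ Set.Icc (0:ℝ) 1 := by
          refine ⟨by positivity, ?_⟩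
          rw [div_le_one hn']; exact hk'
        have a1 := h1 _ m1 _ m2
        have a2 := h2 _ m2 _ m1
        have a3 := hS _ m2
        have e : (k : ℝ) / n - ((k + 1 : ℕ) : ℝ) / n = - (n : ℝ)⁻¹ := by
          push_cast; field_simp; ring
        have e' : ((k + 1 : ℕ) : ℝ) / n - (k : ℝ) / n = (n : ℝ)⁻¹ := by
          push_cast; field_simp; ring
        rw [e] at a1
        rw [e'] at a2
        have hinv : 0 < (n : ℝ)⁻¹ := by positivity
        have a4 := mul_le_mul_of_nonneg_right a3 hinv.le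
        have e2 : S * (((k + 1 : ℕ) : ℝ) / n) = S * ((k : ℝ) / n) + S * (n : ℝ)⁻¹ := by
          push_cast; field_simp
        rw [e2]
        nlinarith
    have := step n le_rfl
    rw [div_self hn'.ne'] at this
    linarith
  have hlim : Tendsto (fun n : ℕ => S + (g2 1 - g2 0) * (n : ℝ)⁻¹) atTop (𝓝 (S + (g2 1 - g2 0) * 0)) :=
    (tendsto_inv_atTop_nhds_zero_nat.const_mul _).const_add _
  have := ge_of_tendsto hlim (eventually_atTop.mpr ⟨1, fun n hn => key n (by omega)⟩)
  linarith

/-! ### weights for a density -/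

include hac in
lemma exists_weights_r {K : Set (EuclideanSpace ℝ (Fin d))} (hKc : IsCompact K)
    (hK : ∀ᵐ x ∂ρ, x ∈ K) (y : Fin N → EuclideanSpace ℝ (Fin d)) (hy : Function.Injective y)
    (m : Fin N → ℝ) (hm : ∀ i, 0 < m i) (hs : ∑ i, m i = 1)
    (r : EuclideanSpace ℝ (Fin d) → ℝ) (hrm : Measurable r) (B : ℝ)
    (hr0 : ∀ x, 0 ≤ r x) (hB : ∀ x, r x ≤ B) (hr : ∫ x, r x ∂ρ = 1) :
    ∃ a : Fin N → ℝ, ∀ i, ∫ x in Cell y a i, r x ∂ρ = m i := by
  have hB' : ∀ x, |r x| ≤ B := fun x => by rw [abs_of_nonneg (hr0 x)]; exact hB x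
  have hI : Integrable (fun x => r x) ρ := by
    have := int_smul ρ hKc hK r hrm B hB' (fun _ => (1:ℝ)) continuous_const
    simpa using this
  have hσ : ∀ A : Set (EuclideanSpace ℝ (Fin d)), MeasurableSet A →
      ρ.withDensity (fun x => ENNReal.ofReal (r x)) A = ENNReal.ofReal (∫ x in A, r x ∂ρ) := by
    intro A hA
    rw [withDensity_apply _ hA, ofReal_integral_eq_lintegral_ofReal hI.integrableOn
      (Eventually.of_forall hr0)]
  have hP : IsProbabilityMeasure (ρ.withDensity (fun x => ENNReal.ofReal (r x))) := by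
    constructor
    rw [hσ _ MeasurableSet.univ, Measure.restrict_univ, hr]; simp
  obtain ⟨R, hR⟩ := hKc.isBounded.subset_closedBall 0
  have hball : ρ.withDensity (fun x => ENNReal.ofReal (r x)) (Metric.closedBall 0 R)ᶜ = 0 := by
    apply withDensity_absolutelyContinuous ρ
    apply measure_eq_zero_iff_ae_notMem.mpr
    filter_upwards [hK] with x hx
    simpa using hR hx
  obtain ⟨a, ha⟩ := exists_weights d (ρ.withDensity (fun x => ENNReal.ofReal (r x)))
    ((withDensity_absolutelyContinuous ρ _).trans hac) R hball N y hy m hm hs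
  refine ⟨a, fun i => ?_⟩
  have h1 := ha i
  rw [hσ _ (isOpen_Cell y a i).measurableSet] at h1
  have h2 : 0 ≤ ∫ x in Cell y a i, r x ∂ρ := integral_nonneg (fun x => hr0 x)
  exact (ENNReal.ofReal_eq_ofReal_iff h2 (hm i).le).mp h1

omit [IsProbabilityMeasure ρ] in
lemma setInt_one (A : Set (EuclideanSpace ℝ (Fin d))) (c : ℝ) (hc : 0 < c)
    (h : ρ A = ENNReal.ofReal c) : ∫ _x in A, (1:ℝ) ∂ρ = c := by
  simp [Measure.real, h, hc.le]

/-! ### main inequality for a density -/

lemma cs_weighted (u v : Fin N → EuclideanSpace ℝ (Fin d)) (m : Fin N → ℝ) (hm : ∀ i, 0 < m i) :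
    ∑ i, inner ℝ (u i) (v i) ≤ √(∑ i, (1 / m i) * ‖u i‖ ^ 2) * √(∑ i, m i * ‖v i‖ ^ 2) := by
  have h1 := Real.sum_mul_le_sqrt_mul_sqrt Finset.univ (fun i => ‖u i‖ / √(m i)) (fun i => √(m i) * ‖v i‖)
  have e1 : ∀ i, (‖u i‖ / √(m i)) ^ 2 = (1 / m i) * ‖u i‖ ^ 2 := by
    intro i
    rw [div_pow, Real.sq_sqrt (hm i).le]; ring
  have e2 : ∀ i, (√(m i) * ‖v i‖) ^ 2 = m i * ‖v i‖ ^ 2 := by
    intro i
    rw [mul_pow, Real.sq_sqrt (hm i).le]
  simp only [e1, e2] at h1
  refine le_trans (Finset.sum_le_sum (fun i _ => ?_)) h1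
  have h3 : 0 < √(m i) := Real.sqrt_pos.mpr (hm i)
  have : ‖u i‖ / √(m i) * (√(m i) * ‖v i‖) = ‖u i‖ * ‖v i‖ := by field_simp
  rw [this]
  exact real_inner_le_norm _ _

/-- interpolated atoms -/
def interp (y z : Fin N → EuclideanSpace ℝ (Fin d)) (t : ℝ) (i : Fin N) : EuclideanSpace ℝ (Fin d) :=
  (1 - t) • y i + t • z i

lemma interp_zero (y z : Fin N → EuclideanSpace ℝ (Fin d)) : interp y z 0 = y := by
  funext i; simp [interp]

lemma interp_one (y z : Fin N → EuclideanSpace ℝ (Fin d)) : interp y z 1 = z := by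
  funext i; simp [interp]

lemma interp_inj (y z : Fin N → EuclideanSpace ℝ (Fin d)) (hG : Generic y z) (t : ℝ)
    (ht : t ∈ Set.Icc (0:ℝ) 1) : Function.Injective (interp y z t) := by
  intro i j hij
  by_contra hne
  apply hG i j hne t ht
  have h : interp y z t i - interp y z t j = 0 := sub_eq_zero.mpr hij
  simp only [interp] at h
  rw [← h]
  module

include hac in
/-- subgradient inequality along the interpolation, for a density `r` -/
lemma subgrad {K : Set (EuclideanSpace ℝ (Fin d))} (hKc : IsCompact K)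
    (hK : ∀ᵐ x ∂ρ, x ∈ K) (hN : 0 < N) (y z : Fin N → EuclideanSpace ℝ (Fin d)) (hG : Generic y z)
    (m : Fin N → ℝ) (r : EuclideanSpace ℝ (Fin d) → ℝ) (hrm : Measurable r) (B : ℝ)
    (hr0 : ∀ x, 0 ≤ r x) (hB : ∀ x, r x ≤ B) (A : ℝ → Fin N → ℝ)
    (hA : ∀ t ∈ Set.Icc (0:ℝ) 1, ∀ i, ∫ x in Cell (interp y z t) (A t) i, r x ∂ρ = m i)
    (s : ℝ) (hs : s ∈ Set.Icc (0:ℝ) 1) (t : ℝ) (ht : t ∈ Set.Icc (0:ℝ) 1) :
    (∑ i, inner ℝ (bar ρ r (interp y z t) (A t) i) (interp y z t i)) +
      (s - t) * (∑ i, inner ℝ (bar ρ r (interp y z t) (A t) i) (z i - y i)) ≤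
    ∑ i, inner ℝ (bar ρ r (interp y z s) (A s) i) (interp y z s i) := by
  have h1 := dual_le ρ hac hKc hK hN (interp y z t) (interp_inj y z hG t ht) (A t) r hrm B hr0 hB
    (interp y z s) (A s)
  have h2 := dual_eq ρ hac hKc hK hN (interp y z s) (interp_inj y z hG s hs) (A s) r hrm B hr0 hB
  rw [← h2] at h1
  simp only [Finset.sum_sub_distrib, hA t ht, hA s hs] at h1
  have h3 : ∑ i, inner ℝ (bar ρ r (interp y z t) (A t) i) (interp y z s i) =
      (∑ i, inner ℝ (bar ρ r (interp y z t) (A t) i) (interp y z t i)) +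
      (s - t) * (∑ i, inner ℝ (bar ρ r (interp y z t) (A t) i) (z i - y i)) := by
    rw [Finset.mul_sum, ← Finset.sum_add_distrib]
    apply Finset.sum_congr rfl
    intro i _
    rw [← inner_smul_right, ← inner_add_right]
    congr 1
    simp only [interp]
    module
  linarith

theorem main_ineq {K : Set (EuclideanSpace ℝ (Fin d))} (hKc : IsCompact K)
    (hKi : (interior K).Nonempty) (C : ℝ) (hT : TalagrandProp K C)
    (y z : Fin N → EuclideanSpace ℝ (Fin d)) (m a : Fin N → ℝ) (hG : Generic y z)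
    (hm : ∀ i, 0 < m i) (hs : ∑ i, m i = 1)
    (ha : ∀ i, uniformProbOn K (Cell y a i) = ENNReal.ofReal (m i))
    (r : EuclideanSpace ℝ (Fin d) → ℝ) (hrm : Measurable r) (hr1 : ∀ x, 1 / 2 ≤ r x)
    (hr2 : ∀ x, r x ≤ 3 / 2) (hr : ∫ x, r x ∂(uniformProbOn K) = 1) :
    ∃ b' : Fin N → ℝ, (∀ i, ∫ x in Cell z b' i, r x ∂(uniformProbOn K) = m i) ∧
      ∫ x, (r x - 1) * (pot z b' x - pot y a x) ∂(uniformProbOn K) ≤
        √(C * ∫ x, (r x - 1) ^ 2 ∂(uniformProbOn K)) * √(∑ i, m i * ‖y i - z i‖ ^ 2) := by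
  have hP : IsProbabilityMeasure (uniformProbOn K) := unif_prob hKc hKi
  have hac := unif_ac K
  have hK := unif_ae_mem hKc
  set ρ := uniformProbOn K with hρ
  have hN : 0 < N := by
    rcases Nat.eq_zero_or_pos N with h | h
    · subst h; simp at hs
    · exact h
  have hr0 : ∀ x, 0 ≤ r x := fun x => by linarith [hr1 x]
  have h10 : ∀ x : EuclideanSpace ℝ (Fin d), (0:ℝ) ≤ (fun _ => (1:ℝ)) x := fun x => zero_le_one
  have h11 : ∀ x : EuclideanSpace ℝ (Fin d), (fun _ => (1:ℝ)) x ≤ 1 := fun x => le_rfl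
  have h1m : Measurable (fun _ : EuclideanSpace ℝ (Fin d) => (1:ℝ)) := measurable_const
  -- choose weights
  obtain ⟨R, hR⟩ := hKc.isBounded.subset_closedBall 0
  have hball : ρ (Metric.closedBall 0 R)ᶜ = 0 := by
    apply measure_eq_zero_iff_ae_notMem.mpr
    filter_upwards [hK] with x hx
    simpa using hR hx
  have hexA : ∀ t : ℝ, ∃ A : Fin N → ℝ, t ∈ Set.Icc (0:ℝ) 1 →
      ∀ i, ρ (Cell (interp y z t) A i) = ENNReal.ofReal (m i) := by
    intro t
    by_cases ht : t ∈ Set.Icc (0:ℝ) 1
    · obtain ⟨A, hA⟩ := exists_weights d ρ hac R hball N (interp y z t) (interp_inj y z hG t ht) m hm hs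
      exact ⟨A, fun _ => hA⟩
    · exact ⟨a, fun h => absurd h ht⟩
  choose A hA using hexA
  have hexB : ∀ t : ℝ, ∃ B : Fin N → ℝ, t ∈ Set.Icc (0:ℝ) 1 →
      ∀ i, ∫ x in Cell (interp y z t) B i, r x ∂ρ = m i := by
    intro t
    by_cases ht : t ∈ Set.Icc (0:ℝ) 1
    · obtain ⟨B, hB⟩ := exists_weights_r ρ hac hKc hK (interp y z t) (interp_inj y z hG t ht) m hm hs
        r hrm (3/2) hr0 hr2 hr
      exact ⟨B, fun _ => hB⟩
    · exact ⟨a, fun h => absurd h ht⟩
  choose B hB using hexB
  have hA' : ∀ t ∈ Set.Icc (0:ℝ) 1, ∀ i, ∫ _x in Cell (interp y z t) (A t) i, (1:ℝ) ∂ρ = m i :=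
    fun t ht i => setInt_one ρ _ _ (hm i) (hA t ht i)
  have m0 : (0:ℝ) ∈ Set.Icc (0:ℝ) 1 := ⟨le_rfl, zero_le_one⟩
  have m1 : (1:ℝ) ∈ Set.Icc (0:ℝ) 1 := ⟨zero_le_one, le_rfl⟩
  have hgrid := grid_le
    (fun t => ∑ i, inner ℝ (bar ρ r (interp y z t) (B t) i) (interp y z t i))
    (fun t => ∑ i, inner ℝ (bar ρ r (interp y z t) (B t) i) (z i - y i))
    (fun t => ∑ i, inner ℝ (bar ρ (fun _ => 1) (interp y z t) (A t) i) (interp y z t i))
    (fun t => ∑ i, inner ℝ (bar ρ (fun _ => 1) (interp y z t) (A t) i) (z i - y i))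
    (√(C * ∫ x, (r x - 1) ^ 2 ∂ρ) * √(∑ i, m i * ‖y i - z i‖ ^ 2))
    (fun s hs' t ht => subgrad ρ hac hKc hK hN y z hG m r hrm (3/2) hr0 hr2 B hB s hs' t ht)
    (fun s hs' t ht => subgrad ρ hac hKc hK hN y z hG m (fun _ => 1) h1m 1 h10 h11 A hA' s hs' t ht)
    (by
      intro t ht
      rw [← Finset.sum_sub_distrib]
      simp_rw [← inner_sub_left]
      refine (cs_weighted _ _ m hm).trans ?_
      have e : ∑ i, m i * ‖y i - z i‖ ^ 2 = ∑ i, m i * ‖z i - y i‖ ^ 2 := by
        simp_rw [norm_sub_rev (y _)]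
      rw [e]
      apply mul_le_mul_of_nonneg_right _ (Real.sqrt_nonneg _)
      apply Real.sqrt_le_sqrt
      have := hT N (interp y z t) (A t) (B t) m r (interp_inj y z hG t ht) hrm hr1 hr2 hm hs
        (hA t ht) (hB t ht)
      simpa [bar] using this)
  refine ⟨B 1, ?_, ?_⟩
  · have := hB 1 m1
    rw [interp_one] at this
    exact this
  -- endpoint 1
  have hI : ∀ f : EuclideanSpace ℝ (Fin d) → ℝ, Continuous f → Integrable (fun x => r x * f x) ρ :=
    fun f hf => int_smul ρ hKc hK r hrm (3/2) (fun x => by rw [abs_of_nonneg (hr0 x)]; exact hr2 x) f hf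
  have hI1 : ∀ f : EuclideanSpace ℝ (Fin d) → ℝ, Continuous f → Integrable (fun x => (1:ℝ) * f x) ρ :=
    fun f hf => int_smul ρ hKc hK (fun _ => 1) h1m 1 (fun x => by simp) f hf
  have e1 := dual_eq ρ hac hKc hK hN z (by have := interp_inj y z hG 1 m1; rwa [interp_one] at this)
    (B 1) r hrm (3/2) hr0 hr2
  have e2 := dual_le ρ hac hKc hK hN z (by have := interp_inj y z hG 1 m1; rwa [interp_one] at this)
    (A 1) (fun _ => 1) h1m 1 h10 h11 z (B 1)
  have e3 := dual_le ρ hac hKc hK hN y (by have := interp_inj y z hG 0 m0; rwa [interp_zero] at this)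
    (B 0) r hrm (3/2) hr0 hr2 y a
  have e4 := dual_eq ρ hac hKc hK hN y (by have := interp_inj y z hG 0 m0; rwa [interp_zero] at this)
    a (fun _ => 1) h1m 1 h10 h11
  have e5 := dual_le ρ hac hKc hK hN y (by have := interp_inj y z hG 0 m0; rwa [interp_zero] at this)
    a (fun _ => 1) h1m 1 h10 h11 y (A 0)
  have e6 := dual_eq ρ hac hKc hK hN y (by have := interp_inj y z hG 0 m0; rwa [interp_zero] at this)
    (A 0) (fun _ => 1) h1m 1 h10 h11
  have hB1 := hB 1 m1
  have hB0 := hB 0 m0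
  have hA1 := hA' 1 m1
  have hA0 := hA' 0 m0
  rw [interp_one] at hB1 hA1
  rw [interp_zero] at hB0 hA0
  have ha' : ∀ i, ∫ _x in Cell y a i, (1:ℝ) ∂ρ = m i := fun i => setInt_one ρ _ _ (hm i) (ha i)
  simp only [Finset.sum_sub_distrib, hB1, hB0, hA1, hA0, ha', interp_one, interp_zero] at e1 e2 e3 e4 e5 e6 hgrid
  have f1 : ∫ x, (r x - 1) * (pot z (B 1) x - pot y a x) ∂ρ =
      (∫ x, r x * pot z (B 1) x ∂ρ - ∫ x, 1 * pot z (B 1) x ∂ρ) -
      (∫ x, r x * pot y a x ∂ρ - ∫ x, 1 * pot y a x ∂ρ) := by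
    have g1 : ∀ f : EuclideanSpace ℝ (Fin d) → ℝ, Continuous f →
        ∫ x, (r x - 1) * f x ∂ρ = ∫ x, r x * f x ∂ρ - ∫ x, 1 * f x ∂ρ := by
      intro f hf
      rw [← integral_sub (hI _ hf) (hI1 _ hf)]
      apply integral_congr_ae
      filter_upwards with x
      ring
    have hJ : ∀ f : EuclideanSpace ℝ (Fin d) → ℝ, Continuous f → Integrable (fun x => (r x - 1) * f x) ρ := by
      intro f hf
      have := (hI f hf).sub (hI1 f hf)
      refine this.congr ?_
      filter_upwards with x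
      simp only [Pi.sub_apply]
      ring
    rw [← g1 _ (continuous_pot _ _), ← g1 _ (continuous_pot _ _),
      ← integral_sub (hJ _ (continuous_pot _ _)) (hJ _ (continuous_pot _ _))]
    apply integral_congr_ae
    filter_upwards with x
    ring
  rw [f1]
  linarith

/-! ### uniqueness of the weights -/

theorem weights_unique {K : Set (EuclideanSpace ℝ (Fin d))} (hKc : IsCompact K)
    (hKv : Convex ℝ K) (hKi : (interior K).Nonempty)
    (z : Fin N → EuclideanSpace ℝ (Fin d)) (hz : Function.Injective z) (m b b' : Fin N → ℝ)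
    (hm : ∀ i, 0 < m i) (hs : ∑ i, m i = 1)
    (hb : ∀ i, uniformProbOn K (Cell z b i) = ENNReal.ofReal (m i))
    (hb' : ∀ i, uniformProbOn K (Cell z b' i) = ENNReal.ofReal (m i)) :
    ∃ c : ℝ, ∀ i, b i - b' i = c := by
  have hP : IsProbabilityMeasure (uniformProbOn K) := unif_prob hKc hKi
  have hac := unif_ac K
  have hK := unif_ae_mem hKc
  have hKint := unif_ae_mem_interior hKc hKv
  have hnull := unif_null_open hKc
  set ρ := uniformProbOn K with hρ
  have hN : 0 < N := by
    rcases Nat.eq_zero_or_pos N with h | h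
    · subst h; simp at hs
    · exact h
  have hcontI : ∀ f : EuclideanSpace ℝ (Fin d) → ℝ, Continuous f → Integrable f ρ := by
    intro f hf
    have := int_smul ρ hKc hK (fun _ => 1) measurable_const 1 (fun x => by simp) f hf
    simpa using this
  let D : EuclideanSpace ℝ (Fin d) → ℝ := fun x => pot z b' x - pot z b x
  have hDc : Continuous D := (continuous_pot z b').sub (continuous_pot z b)
  -- lower bounds on cells
  have hlow : ∀ i, ∀ x ∈ Cell z b i, 0 ≤ D x - (b i - b' i) := by
    intro i x hx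
    have h1 := pot_eq_of_mem z b x i hx
    have h2 := le_pot z b' x i
    simp only [D]
    linarith
  have hup : ∀ i, ∀ x ∈ Cell z b' i, 0 ≤ (b i - b' i) - D x := by
    intro i x hx
    have h1 := pot_eq_of_mem z b' x i hx
    have h2 := le_pot z b x i
    simp only [D]
    linarith
  have hc1 : ∀ i, ∀ c : ℝ, ∫ _x in Cell z b i, c ∂ρ = c * m i := by
    intro i c
    have := setInt_one ρ (Cell z b i) (m i) (hm i) (hb i)
    have h2 : ∫ _x in Cell z b i, c ∂ρ = c * ∫ _x in Cell z b i, (1:ℝ) ∂ρ := by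
      rw [← integral_const_mul]; simp
    rw [h2, this]
  have hc2 : ∀ i, ∀ c : ℝ, ∫ _x in Cell z b' i, c ∂ρ = c * m i := by
    intro i c
    have := setInt_one ρ (Cell z b' i) (m i) (hm i) (hb' i)
    have h2 : ∫ _x in Cell z b' i, c ∂ρ = c * ∫ _x in Cell z b' i, (1:ℝ) ∂ρ := by
      rw [← integral_const_mul]; simp
    rw [h2, this]
  have hint1 : ∑ i, ∫ x in Cell z b i, (D x - (b i - b' i)) ∂ρ = ∫ x, D x ∂ρ - ∑ i, (b i - b' i) * m i := by
    rw [integral_cells ρ hac hN z hz b D (hcontI D hDc), ← Finset.sum_sub_distrib]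
    apply Finset.sum_congr rfl
    intro i _
    rw [integral_sub (hcontI D hDc).integrableOn (hcontI _ continuous_const).integrableOn, hc1]
  have hint2 : ∑ i, ∫ x in Cell z b' i, ((b i - b' i) - D x) ∂ρ = ∑ i, (b i - b' i) * m i - ∫ x, D x ∂ρ := by
    rw [integral_cells ρ hac hN z hz b' D (hcontI D hDc), ← Finset.sum_sub_distrib]
    apply Finset.sum_congr rfl
    intro i _
    rw [integral_sub (hcontI _ continuous_const).integrableOn (hcontI D hDc).integrableOn, hc2]
  have hn1 : ∀ i, 0 ≤ ∫ x in Cell z b i, (D x - (b i - b' i)) ∂ρ := fun i =>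
    setIntegral_nonneg (isOpen_Cell z b i).measurableSet (hlow i)
  have hn2 : ∀ i, 0 ≤ ∫ x in Cell z b' i, ((b i - b' i) - D x) ∂ρ := fun i =>
    setIntegral_nonneg (isOpen_Cell z b' i).measurableSet (hup i)
  have hzero : ∀ i, ∫ x in Cell z b i, (D x - (b i - b' i)) ∂ρ = 0 := by
    have h1 : ∑ i, ∫ x in Cell z b i, (D x - (b i - b' i)) ∂ρ = 0 := by
      have := Finset.sum_nonneg (s := Finset.univ) (fun i _ => hn1 i)
      have := Finset.sum_nonneg (s := Finset.univ) (fun i _ => hn2 i)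
      linarith
    intro i
    exact (Finset.sum_eq_zero_iff_of_nonneg (fun i _ => hn1 i)).mp h1 i (Finset.mem_univ i)
  have hae : ∀ i, ∀ᵐ x ∂ρ, x ∈ Cell z b i → D x = b i - b' i := by
    intro i
    have hI : Integrable (fun x => D x - (b i - b' i)) ρ := hcontI _ (hDc.sub continuous_const)
    have h1 := (setIntegral_eq_zero_iff_of_nonneg_ae
      ((ae_restrict_iff' (isOpen_Cell z b i).measurableSet).mpr (Eventually.of_forall (hlow i)))
      hI.integrableOn).mp (hzero i)
    have h2 := (ae_restrict_iff' (isOpen_Cell z b i).measurableSet).mp h1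
    filter_upwards [h2] with x hx hxi
    have := hx hxi
    simp only [Pi.zero_apply] at this
    linarith
  have haeall : ∀ᵐ x ∂ρ, ∀ i, x ∈ Cell z b i → D x = b i - b' i := ae_all_iff.mpr hae
  let T : Set ℝ := Set.range (fun i => b i - b' i)
  have hTfin : T.Finite := Set.finite_range _
  have hDT : Set.MapsTo D (interior K) T := by
    intro x hx
    by_contra hxT
    let U : Set (EuclideanSpace ℝ (Fin d)) := interior K ∩ D ⁻¹' Tᶜ
    have hUo : IsOpen U := isOpen_interior.inter (hTfin.isClosed.isOpen_compl.preimage hDc)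
    have hUK : U ⊆ K := fun w hw => interior_subset hw.1
    have hU0 : ρ U = 0 := by
      apply measure_eq_zero_iff_ae_notMem.mpr
      filter_upwards [haeall, ae_mem_cell ρ hac hN z hz b] with w hw hwc hwU
      obtain ⟨i, hi⟩ := Set.mem_iUnion.mp hwc
      exact hwU.2 ⟨i, (hw i hi).symm⟩
    have := hnull U hUo hUK hU0
    have hxU : x ∈ U := ⟨hx, hxT⟩
    rw [this] at hxU
    exact hxU
  have : Finite T := hTfin.to_subtype
  have hne : T.Nonempty := ⟨_, ⟨⟨0, hN⟩, rfl⟩⟩
  obtain ⟨c, _, hc⟩ := hKv.interior.isPreconnected.eqOn_const_of_mapsTo hTfin.isDiscrete hDc.continuousOn hDT hne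
  refine ⟨c, fun i => ?_⟩
  have hpos : ρ (Cell z b i) ≠ 0 := by
    rw [hb i]; simp [hm i]
  have : ∃ x, x ∈ Cell z b i ∧ x ∈ interior K ∧ D x = b i - b' i := by
    by_contra hno
    push Not at hno
    apply hpos
    apply measure_eq_zero_iff_ae_notMem.mpr
    filter_upwards [hae i, hKint] with x h1 h2 h3
    exact hno x h3 h2 (h1 h3)
  obtain ⟨x, hx1, hx2, hx3⟩ := this
  rw [← hx3]
  exact hc hx2

lemma cell_shift (z : Fin N → EuclideanSpace ℝ (Fin d)) (b : Fin N → ℝ) (c : ℝ) (i : Fin N) :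
    Cell z (fun j => b j + c) i = Cell z b i := by
  ext x
  simp only [Cell, Set.mem_ofPred_eq]
  constructor
  · intro h j hj; have := h j hj; linarith
  · intro h j hj; have := h j hj; linarith

lemma pot_shift (hN : 0 < N) (z : Fin N → EuclideanSpace ℝ (Fin d)) (b : Fin N → ℝ) (c : ℝ)
    (x : EuclideanSpace ℝ (Fin d)) : pot z (fun j => b j + c) x = pot z b x - c := by
  have : Nonempty (Fin N) := ⟨⟨0, hN⟩⟩
  apply le_antisymm
  · apply pot_le
    intro i
    have := le_pot z b x i
    linarith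
  · have : pot z b x ≤ pot z (fun j => b j + c) x + c := by
      apply pot_le
      intro i
      have := le_pot z (fun j => b j + c) x i
      linarith
    linarith

end Variance

end Var

open Var in
/-- **Chunk E**: the variance of the difference of the potentials is at most `C` times the cost. -/
theorem variance_le (d : ℕ) (K : Set (EuclideanSpace ℝ (Fin d))) (hKc : IsCompact K)
    (hKv : Convex ℝ K) (hKi : (interior K).Nonempty) (C : ℝ) (hC : 0 ≤ C) (hT : TalagrandProp K C)
    (N : ℕ) (y z : Fin N → EuclideanSpace ℝ (Fin d)) (m a b : Fin N → ℝ) (hG : Generic y z)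
    (hm : ∀ i, 0 < m i) (hs : ∑ i, m i = 1)
    (ha : ∀ i, uniformProbOn K (Cell y a i) = ENNReal.ofReal (m i))
    (hb : ∀ i, uniformProbOn K (Cell z b i) = ENNReal.ofReal (m i)) :
    ∃ c : ℝ, ∫ x, (pot z b x - pot y a x - c) ^ 2 ∂(uniformProbOn K) ≤
      C * ∑ i, m i * ‖y i - z i‖ ^ 2 := by
  have hP : IsProbabilityMeasure (uniformProbOn K) := unif_prob hKc hKi
  have hac := unif_ac K
  have hK := unif_ae_mem hKc
  have hzinj : Function.Injective z := by
    have := interp_inj y z hG 1 ⟨zero_le_one, le_rfl⟩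
    rwa [interp_one] at this
  have hmain := fun r hrm hr1 hr2 hr => main_ineq hKc hKi C hT y z m a hG hm hs ha r hrm hr1 hr2 hr
  have huniq := fun b' hb' => weights_unique hKc hKv hKi z hzinj m b b' hm hs hb hb'
  set ρ := uniformProbOn K with hρ
  have hN : 0 < N := by
    rcases Nat.eq_zero_or_pos N with h | h
    · subst h; simp at hs
    · exact h
  let i0 : Fin N := ⟨0, hN⟩
  have hcontI : ∀ f : EuclideanSpace ℝ (Fin d) → ℝ, Continuous f → Integrable f ρ := by
    intro f hf
    have := int_smul ρ hKc hK (fun _ => 1) measurable_const 1 (fun x => by simp) f hf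
    simpa using this
  let u : EuclideanSpace ℝ (Fin d) → ℝ := fun x => pot z b x - pot y a x
  have huc : Continuous u := (continuous_pot z b).sub (continuous_pot y a)
  let c : ℝ := ∫ x, u x ∂ρ
  let h : EuclideanSpace ℝ (Fin d) → ℝ := K.indicator (fun x => u x - c)
  have hhm : Measurable h := (huc.sub continuous_const).measurable.indicator hKc.measurableSet
  have hhae : ∀ᵐ x ∂ρ, h x = u x - c := by
    filter_upwards [hK] with x hx
    simp only [h, Set.indicator_of_mem hx]
  obtain ⟨M0, hM0⟩ := hKc.exists_bound_of_continuousOn (huc.sub (continuous_const (y := c))).continuousOn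
  let M : ℝ := |M0| + 1
  have hMpos : 0 < M := by simp only [M]; positivity
  have hhM : ∀ x, |h x| ≤ M := by
    intro x
    by_cases hx : x ∈ K
    · have h1 := hM0 x hx
      simp only [h, Set.indicator_of_mem hx]
      rw [Real.norm_eq_abs] at h1
      exact h1.trans ((le_abs_self M0).trans (by simp [M]))
    · simp only [h, Set.indicator_of_notMem hx, abs_zero]
      exact hMpos.le
  have hhI : Integrable h ρ := by
    have := int_smul ρ hKc hK h hhm M hhM (fun _ => (1:ℝ)) continuous_const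
    simpa using this
  have hhf : ∀ f : EuclideanSpace ℝ (Fin d) → ℝ, Continuous f → Integrable (fun x => h x * f x) ρ :=
    fun f hf => int_smul ρ hKc hK h hhm M hhM f hf
  have hh0 : ∫ x, h x ∂ρ = 0 := by
    rw [integral_congr_ae hhae, integral_sub (hcontI u huc) (hcontI _ continuous_const)]
    simp [c]
  refine ⟨c, ?_⟩
  set V : ℝ := ∫ x, (pot z b x - pot y a x - c) ^ 2 ∂ρ with hV
  have hV0 : 0 ≤ V := integral_nonneg (fun x => sq_nonneg _)
  have hVh : ∫ x, (h x) ^ 2 ∂ρ = V := by
    apply integral_congr_ae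
    filter_upwards [hhae] with x hx
    rw [hx]
  have hVu : ∫ x, h x * u x ∂ρ = V := by
    have e1 : ∫ x, h x * (u x - c) ∂ρ = V := by
      apply integral_congr_ae
      filter_upwards [hhae] with x hx
      rw [hx]
      simp only [u]
      ring
    have e2 : ∫ x, h x * (u x - c) ∂ρ = ∫ x, h x * u x ∂ρ - ∫ x, h x * c ∂ρ := by
      rw [← integral_sub (hhf u huc) (hhf _ continuous_const)]
      apply integral_congr_ae
      filter_upwards with x
      ring
    rw [integral_mul_const, hh0, zero_mul, sub_zero] at e2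
    rw [← e2, e1]
  set cost : ℝ := ∑ i, m i * ‖y i - z i‖ ^ 2 with hcost
  have hcost0 : 0 ≤ cost := Finset.sum_nonneg (fun i _ => mul_nonneg (hm i).le (sq_nonneg _))
  -- the perturbation
  let ε : ℕ → ℝ := fun n => 1 / (2 * M * (n + 1))
  have hεpos : ∀ n, 0 < ε n := fun n => by simp only [ε]; positivity
  have hεM : ∀ n, ε n * M ≤ 1 / 2 := by
    intro n
    simp only [ε]
    rw [div_mul_eq_mul_div, div_le_div_iff₀ (by positivity) (by norm_num)]
    have : (0:ℝ) ≤ n := Nat.cast_nonneg n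
    nlinarith
  have hεlim : Tendsto ε atTop (𝓝 0) := by
    have h1 : Tendsto (fun n : ℕ => (1 / (2 * M)) * (1 / ((n : ℝ) + 1))) atTop (𝓝 ((1 / (2 * M)) * 0)) :=
      tendsto_one_div_add_atTop_nhds_zero_nat.const_mul _
    rw [mul_zero] at h1
    refine h1.congr (fun n => ?_)
    simp only [ε]
    field_simp
  have hstep : ∀ n : ℕ, ∃ b' : Fin N → ℝ, b' i0 = b i0 ∧
      (∀ i, |(ρ (Cell z b' i)).toReal - m i| ≤ ε n * M) ∧ (∀ i, 0 < (ρ (Cell z b' i)).toReal) ∧
      ∫ x, h x * (pot z b' x - pot y a x) ∂ρ ≤ √(C * V) * √cost := by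
    intro n
    have hr1 : ∀ x, 1 / 2 ≤ 1 + ε n * h x := by
      intro x
      have h1 := (abs_le.mp (hhM x)).1
      have h2 := mul_le_mul_of_nonneg_left h1 (hεpos n).le
      have h3 := hεM n
      linarith
    have hr2 : ∀ x, 1 + ε n * h x ≤ 3 / 2 := by
      intro x
      have h1 := (abs_le.mp (hhM x)).2
      have h2 := mul_le_mul_of_nonneg_left h1 (hεpos n).le
      have h3 := hεM n
      linarith
    have hr : ∫ x, (1 + ε n * h x) ∂ρ = 1 := by
      rw [integral_add (integrable_const _) (hhI.const_mul _), integral_const_mul, hh0]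
      simp
    obtain ⟨b1, hb1, hle⟩ := hmain (fun x => 1 + ε n * h x) (measurable_const.add (hhm.const_mul _))
      hr1 hr2 hr
    let s : ℝ := b i0 - b1 i0
    have hmass : ∀ i, (ρ (Cell z b1 i)).toReal + ε n * ∫ x in Cell z b1 i, h x ∂ρ = m i := by
      intro i
      rw [← hb1 i, integral_add (integrable_const _) (hhI.const_mul _).integrableOn, integral_const_mul]
      simp [Measure.real]
    refine ⟨fun j => b1 j + s, by simp [s], ?_, ?_, ?_⟩
    · intro i
      rw [cell_shift]
      have h1 : |∫ x in Cell z b1 i, h x ∂ρ| ≤ M := by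
        have h2 := norm_setIntegral_le_of_norm_le_const (μ := ρ) (s := Cell z b1 i) (f := h) (C := M)
          (measure_lt_top ρ _) (fun x _ => hhM x)
        rw [Real.norm_eq_abs] at h2
        refine h2.trans ?_
        have h3 : ρ.real (Cell z b1 i) ≤ 1 := measureReal_le_one
        nlinarith
      have h2 : (ρ (Cell z b1 i)).toReal - m i = -(ε n * ∫ x in Cell z b1 i, h x ∂ρ) := by
        linarith [hmass i]
      rw [h2, abs_neg, abs_mul, abs_of_pos (hεpos n)]
      exact mul_le_mul_of_nonneg_left h1 (hεpos n).le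
    · intro i
      rw [cell_shift]
      by_contra hnot
      have h0 : (ρ (Cell z b1 i)).toReal = 0 := le_antisymm (not_lt.mp hnot) ENNReal.toReal_nonneg
      have h00 : ρ (Cell z b1 i) = 0 := by
        rcases (ENNReal.toReal_eq_zero_iff _).mp h0 with h | h
        · exact h
        · exact absurd h (measure_ne_top ρ _)
      have h1 := hb1 i
      rw [setIntegral_measure_zero _ h00] at h1
      linarith [hm i]
    · have e1 : ∫ x, (1 + ε n * h x - 1) ^ 2 ∂ρ = (ε n) ^ 2 * V := by
        rw [← hVh, ← integral_const_mul]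
        apply integral_congr_ae
        filter_upwards with x
        ring
      have e2 : ∫ x, (1 + ε n * h x - 1) * (pot z b1 x - pot y a x) ∂ρ =
          ε n * ∫ x, h x * (pot z b1 x - pot y a x) ∂ρ := by
        rw [← integral_const_mul]
        apply integral_congr_ae
        filter_upwards with x
        ring
      have e3 : √(C * ((ε n) ^ 2 * V)) = ε n * √(C * V) := by
        rw [show C * ((ε n) ^ 2 * V) = (ε n) ^ 2 * (C * V) by ring, Real.sqrt_mul (sq_nonneg _),
          Real.sqrt_sq (hεpos n).le]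
      rw [e1, e2, e3, mul_assoc] at hle
      have hle2 := le_of_mul_le_mul_left hle (hεpos n)
      have e4 : ∫ x, h x * (pot z (fun j => b1 j + s) x - pot y a x) ∂ρ =
          ∫ x, h x * (pot z b1 x - pot y a x) ∂ρ - ∫ x, h x * s ∂ρ := by
        rw [← integral_sub (hhf (fun x => pot z b1 x - pot y a x)
          ((continuous_pot _ _).sub (continuous_pot _ _))) (hhf _ continuous_const)]
        apply integral_congr_ae
        filter_upwards with x
        rw [pot_shift hN]
        ring
      rw [e4, integral_mul_const, hh0, zero_mul, sub_zero]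
      exact hle2
  choose bn hbn0 hbnm hbnpos hbnle using hstep
  obtain ⟨R0, hR0⟩ := hKc.isBounded.subset_closedBall 0
  have hbox : ∀ n, bn n ∈ Set.pi Set.univ (fun i => Set.Icc (b i0 - |R0| * ‖z i - z i0‖)
      (b i0 + |R0| * ‖z i - z i0‖)) := by
    intro n i _
    have hex : ∀ i, ∃ x ∈ K, x ∈ Cell z (bn n) i := by
      intro i
      by_contra hno
      push Not at hno
      have : ρ (Cell z (bn n) i) = 0 := by
        apply measure_eq_zero_iff_ae_notMem.mpr
        filter_upwards [hK] with x hx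
        exact hno x hx
      have h2 := hbnpos n i
      rw [this] at h2
      simp at h2
    by_cases hi : i = i0
    · rw [hi, hbn0 n]; simp
    · obtain ⟨x1, hx1K, hx1⟩ := hex i
      obtain ⟨x2, hx2K, hx2⟩ := hex i0
      have h1 := hx1 i0 (Ne.symm hi)
      have h2 := hx2 i hi
      rw [hbn0 n] at h1 h2
      have hn : ∀ x ∈ K, |inner ℝ x (z i) - inner ℝ x (z i0)| ≤ |R0| * ‖z i - z i0‖ := by
        intro x hx
        rw [← inner_sub_right]
        refine (abs_real_inner_le_norm _ _).trans ?_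
        apply mul_le_mul_of_nonneg_right _ (norm_nonneg _)
        have := hR0 hx
        rw [mem_closedBall_zero_iff] at this
        exact this.trans (le_abs_self _)
      have h3 := (abs_le.mp (hn x1 hx1K)).2
      have h4 := (abs_le.mp (hn x2 hx2K)).1
      constructor
      · linarith
      · linarith
  obtain ⟨bs, _, φ, hφ, hlim⟩ := (isCompact_univ_pi (fun i => isCompact_Icc)).tendsto_subseq hbox
  have hbs0 : bs i0 = b i0 := by
    have h1 : Tendsto (fun n => (bn (φ n)) i0) atTop (𝓝 (bs i0)) :=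
      ((continuous_apply i0).tendsto bs).comp hlim
    simp only [hbn0] at h1
    exact tendsto_nhds_unique h1 tendsto_const_nhds |>.symm ▸ rfl
  have hbsm : ∀ i, ρ (Cell z bs i) = ENNReal.ofReal (m i) := by
    intro i
    have h1 : Tendsto (fun n => ρ (Cell z (bn (φ n)) i)) atTop (𝓝 (ρ (Cell z bs i))) :=
      ((cell_continuous ρ hac z hzinj i).tendsto bs).comp hlim
    have h2 : Tendsto (fun n => (ρ (Cell z (bn (φ n)) i)).toReal) atTop (𝓝 ((ρ (Cell z bs i)).toReal)) :=
      (ENNReal.tendsto_toReal (measure_ne_top ρ _)).comp h1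
    have h3 : Tendsto (fun n => (ρ (Cell z (bn (φ n)) i)).toReal) atTop (𝓝 (m i)) := by
      have h4 : Tendsto (fun n => ε (φ n) * M) atTop (𝓝 (0 * M)) :=
        (hεlim.comp hφ.tendsto_atTop).mul_const M
      rw [zero_mul] at h4
      rw [tendsto_iff_dist_tendsto_zero]
      exact squeeze_zero (fun n => dist_nonneg) (fun n => by
        rw [Real.dist_eq]; exact hbnm (φ n) i) h4
    have h5 := tendsto_nhds_unique h2 h3
    rw [← h5, ENNReal.ofReal_toReal (measure_ne_top ρ _)]
  obtain ⟨c', hc'⟩ := huniq bs hbsm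
  have hc0 : c' = 0 := by
    have := hc' i0
    rw [hbs0] at this
    linarith
  have hbsb : bs = b := by
    funext i
    have := hc' i
    rw [hc0] at this
    linarith
  have hfin : Tendsto (fun n => ∫ x, h x * (pot z (bn (φ n)) x - pot y a x) ∂ρ) atTop
      (𝓝 (∫ x, h x * u x ∂ρ)) := by
    rw [tendsto_iff_dist_tendsto_zero]
    have h4 : Tendsto (fun n => M * dist (bn (φ n)) b) atTop (𝓝 (M * 0)) := by
      apply Tendsto.const_mul
      rw [← hbsb]
      exact tendsto_iff_dist_tendsto_zero.mp hlim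
    rw [mul_zero] at h4
    refine squeeze_zero (fun n => dist_nonneg) (fun n => ?_) h4
    rw [Real.dist_eq, ← integral_sub (hhf (fun x => pot z (bn (φ n)) x - pot y a x)
      ((continuous_pot _ _).sub (continuous_pot _ _))) (hhf u huc)]
    have h5 := norm_integral_le_of_norm_le_const (μ := ρ)
      (f := fun x => h x * (pot z (bn (φ n)) x - pot y a x) - h x * u x) (C := M * dist (bn (φ n)) b)
      (Eventually.of_forall (fun x => by
        have e : h x * (pot z (bn (φ n)) x - pot y a x) - h x * u x =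
            h x * (pot z (bn (φ n)) x - pot z b x) := by simp only [u]; ring
        rw [e, Real.norm_eq_abs, abs_mul]
        exact mul_le_mul (hhM x) (pot_sub_le z _ _ x) (abs_nonneg _) hMpos.le))
    rw [Real.norm_eq_abs] at h5
    simpa using h5
  have hVle : V ≤ √(C * V) * √cost := by
    rw [hVu] at hfin
    exact le_of_tendsto hfin (Eventually.of_forall (fun n => hbnle (φ n)))
  -- conclude
  rcases hV0.eq_or_lt with h0 | h0
  · rw [← h0]; positivity
  · rw [← Real.sqrt_mul (by positivity)] at hVle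
    have h1 : V ^ 2 ≤ C * V * cost := by
      have := Real.sq_sqrt (show 0 ≤ C * V * cost by positivity)
      rw [← this]
      exact pow_le_pow_left₀ hV0 hVle 2
    have h2 : V * V ≤ V * (C * cost) := by nlinarith
    exact le_of_mul_le_mul_left h2 h0

end Crest.Agent.Lib.OTStab

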