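import Mathlib
import Crest.Prelude.Def_QState
import Crest.Prelude.Def_QChannel

/-!
Finite-dimensional quantum entropy library (helper94, row 341).

`spec f A` is the sum of `f` over the (real parts of the) roots of the characteristic polynomial of
`A`; for Hermitian `A` it is `∑ i, f (eigenvalues i)`, i.e. `tr f(A)`.
-/

set_option autoImplicit false
set_option linter.unusedSectionVars false
set_option linter.unusedSimpArgs false

open Matrix Crest.Quantum
open scoped ComplexOrder Kronecker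

namespace Crest.Agent.Lib.QEntropy

section basic

variable {d e : Type*} [Fintype d] [Fintype e] [DecidableEq d] [DecidableEq e]

/-- Sum of `f` over the real parts of the roots of the characteristic polynomial. -/
noncomputable def spec (f : ℝ → ℝ) (A : Matrix d d ℂ) : ℝ :=
  (A.charpoly.roots.map fun z => f z.re).sum

/-- The (unnormalised) entropy functional `tr (-A log A)`. -/
noncomputable abbrev ent (A : Matrix d d ℂ) : ℝ := spec Real.negMulLog A

theorem spec_eq (f : ℝ → ℝ) {A : Matrix d d ℂ} (hA : A.IsHermitian) :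
    spec f A = ∑ i, f (hA.eigenvalues i) := by
  rw [spec, hA.roots_charpoly_eq_eigenvalues]
  simp [Multiset.map_map, Function.comp_def]

theorem vnEntropy_eq {A : Matrix d d ℂ} (hA : A.IsHermitian) : vnEntropy A = ent A := by
  rw [ent, spec_eq _ hA, vnEntropy, dif_pos hA, ← Finset.sum_neg_distrib]
  simp [Real.negMulLog]

theorem spec_congr (f : ℝ → ℝ) {A : Matrix d d ℂ} {B : Matrix e e ℂ}
    (h : A.charpoly = B.charpoly) : spec f A = spec f B := by
  rw [spec, spec, h]

theorem spec_unitary_conj (f : ℝ → ℝ) (A : Matrix d d ℂ) {U : Matrix d d ℂ}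
    (hU : U ∈ unitaryGroup d ℂ) : spec f (U * A * star U) = spec f A := by
  apply spec_congr
  rw [charpoly_mul_comm, ← mul_assoc, (mem_unitaryGroup_iff').1 hU, one_mul]

theorem spec_unitary_conj' (f : ℝ → ℝ) (A : Matrix d d ℂ) {U : Matrix d d ℂ}
    (hU : U ∈ unitaryGroup d ℂ) : spec f (star U * A * U) = spec f A := by
  apply spec_congr
  rw [charpoly_mul_comm, ← mul_assoc, (mem_unitaryGroup_iff).1 hU, one_mul]

theorem spec_reindex (f : ℝ → ℝ) (A : Matrix d d ℂ) (σ : d ≃ e) :
    spec f (A.reindex σ σ) = spec f A :=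
  spec_congr f (charpoly_reindex σ A)

theorem spec_submatrix (f : ℝ → ℝ) (A : Matrix d d ℂ) (σ : e ≃ d) :
    spec f (A.submatrix σ σ) = spec f A := by
  have := spec_reindex f A σ.symm
  rwa [reindex_apply, Equiv.symm_symm] at this

theorem spec_diagonal (f : ℝ → ℝ) (x : d → ℝ) :
    spec f (diagonal fun i => (x i : ℂ)) = ∑ i, f (x i) := by
  rw [spec, charpoly_diagonal, Polynomial.roots_prod]
  · simp [Multiset.map_map]
  · simp [Finset.prod_ne_zero_iff, Polynomial.X_sub_C_ne_zero]

theorem charpoly_ne_zero (A : Matrix d d ℂ) : A.charpoly ≠ 0 := A.charpoly_monic.ne_zero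

/-- Block diagonal matrices. -/
theorem spec_fromBlocks_diag (f : ℝ → ℝ) (A : Matrix d d ℂ) (D : Matrix e e ℂ) :
    spec f (fromBlocks A 0 0 D) = spec f A + spec f D := by
  rw [spec, charpoly_fromBlocks_zero₁₂,
    Polynomial.roots_mul (mul_ne_zero (charpoly_ne_zero A) (charpoly_ne_zero D))]
  simp [spec]

/-- `tr f(AB) = tr f(BA)` for rectangular matrices if `f 0 = 0`. -/
theorem spec_mul_comm (f : ℝ → ℝ) (hf : f 0 = 0) (A : Matrix d e ℂ) (B : Matrix e d ℂ) :
    spec f (A * B) = spec f (B * A) := by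
  have h := charpoly_mul_comm' A B
  have hX : ∀ k : ℕ, ((Polynomial.X : Polynomial ℂ) ^ k) ≠ 0 := fun k =>
    pow_ne_zero _ Polynomial.X_ne_zero
  have h1 := congrArg Polynomial.roots h
  rw [Polynomial.roots_mul (mul_ne_zero (hX _) (charpoly_ne_zero _)),
    Polynomial.roots_mul (mul_ne_zero (hX _) (charpoly_ne_zero _)),
    Polynomial.roots_X_pow, Polynomial.roots_X_pow] at h1
  have h2 := congrArg (fun s : Multiset ℂ => (s.map fun z => f z.re).sum) h1
  simpa [Multiset.map_nsmul, Multiset.sum_nsmul, hf, spec] using h2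

theorem spec_mul_conjTranspose (f : ℝ → ℝ) (hf : f 0 = 0) (A : Matrix d e ℂ) :
    spec f (A * Aᴴ) = spec f (Aᴴ * A) := spec_mul_comm f hf A Aᴴ

end basic

section peierls

variable {d e : Type*} [Fintype d] [Fintype e] [DecidableEq d] [DecidableEq e]

/-- spectral theorem in product form -/
theorem spectral' {A : Matrix d d ℂ} (hA : A.IsHermitian) :
    ∃ U ∈ unitaryGroup d ℂ, A = U * diagonal (fun i => (hA.eigenvalues i : ℂ)) * star U := by
  refine ⟨hA.eigenvectorUnitary, hA.eigenvectorUnitary.2, ?_⟩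
  conv_lhs => rw [hA.spectral_theorem, Unitary.conjStarAlgAut_apply]
  rfl

theorem unitary_row_sum {U : Matrix d d ℂ} (hU : U ∈ unitaryGroup d ℂ) (j : d) :
    ∑ i, Complex.normSq (U j i) = 1 := by
  have h := congrFun (congrFun ((mem_unitaryGroup_iff).1 hU) j) j
  rw [mul_apply, one_apply_eq] at h
  have h2 := congrArg Complex.re h
  rw [Complex.re_sum] at h2
  simpa [star_apply, Complex.mul_conj, Complex.normSq_apply] using h2

theorem unitary_col_sum {U : Matrix d d ℂ} (hU : U ∈ unitaryGroup d ℂ) (i : d) :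
    ∑ j, Complex.normSq (U j i) = 1 := by
  have h := congrFun (congrFun ((mem_unitaryGroup_iff').1 hU) i) i
  rw [mul_apply, one_apply_eq] at h
  have h2 := congrArg Complex.re h
  rw [Complex.re_sum] at h2
  simpa [star_apply, Complex.normSq_apply] using h2

theorem diag_conj (U : Matrix d d ℂ) (x : d → ℝ) (j : d) :
    ((U * diagonal (fun i => (x i : ℂ)) * star U) j j).re = ∑ i, Complex.normSq (U j i) * x i := by
  rw [mul_apply, Complex.re_sum]
  refine Finset.sum_congr rfl fun i _ => ?_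
  rw [mul_diagonal, star_apply]
  simp only [Complex.star_def, Complex.mul_re, Complex.mul_im, Complex.conj_re, Complex.conj_im,
    Complex.ofReal_re, Complex.ofReal_im, Complex.normSq_apply]
  ring

/-- **Peierls inequality**: for concave `f`, `tr f(A) ≤ ∑ f(A j j)`. -/
theorem spec_le_sum_diag {f : ℝ → ℝ} {s : Set ℝ} (hf : ConcaveOn ℝ s f) {A : Matrix d d ℂ}
    (hA : A.IsHermitian) (hs : ∀ i, hA.eigenvalues i ∈ s) :
    spec f A ≤ ∑ j, f (A j j).re := by
  obtain ⟨U, hU, hAU⟩ := spectral' hA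
  have h1 : ∀ j, (A j j).re = ∑ i, Complex.normSq (U j i) * hA.eigenvalues i := by
    intro j
    conv_lhs => rw [hAU]
    exact diag_conj U _ j
  rw [spec_eq f hA]
  calc ∑ i, f (hA.eigenvalues i)
      = ∑ i, (∑ j, Complex.normSq (U j i)) * f (hA.eigenvalues i) := by
        refine Finset.sum_congr rfl fun i _ => ?_
        rw [unitary_col_sum hU, one_mul]
    _ = ∑ j, ∑ i, Complex.normSq (U j i) * f (hA.eigenvalues i) := by
        simp_rw [Finset.sum_mul]
        exact Finset.sum_comm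
    _ ≤ ∑ j, f (A j j).re := by
        refine Finset.sum_le_sum fun j _ => ?_
        rw [h1 j]
        have := hf.le_map_sum (t := Finset.univ) (w := fun i => Complex.normSq (U j i))
          (p := fun i => hA.eigenvalues i) (fun i _ => Complex.normSq_nonneg _)
          (unitary_row_sum hU j) (fun i _ => hs i)
        simpa using this

theorem eig_nonneg {A : Matrix d d ℂ} (hA : A.PosSemidef) (i : d) :
    hA.1.eigenvalues i ∈ Set.Ici (0 : ℝ) := hA.eigenvalues_nonneg i

theorem ent_le_sum_diag {A : Matrix d d ℂ} (hA : A.PosSemidef) :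
    ent A ≤ ∑ j, Real.negMulLog (A j j).re :=
  spec_le_sum_diag Real.concaveOn_negMulLog hA.1 (eig_nonneg hA)

theorem posSemidef_conj {A : Matrix d d ℂ} (hA : A.PosSemidef) (U : Matrix d d ℂ) :
    (star U * A * U).PosSemidef := hA.conjTranspose_mul_mul_same U

/-- Peierls inequality in another orthonormal basis. -/
theorem ent_le_sum_diag' {A : Matrix d d ℂ} (hA : A.PosSemidef) {U : Matrix d d ℂ}
    (hU : U ∈ unitaryGroup d ℂ) :
    ent A ≤ ∑ j, Real.negMulLog ((star U * A * U) j j).re := by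
  have := ent_le_sum_diag (posSemidef_conj hA U)
  rwa [ent, spec_unitary_conj' _ _ hU] at this

theorem diag_re_nonneg {A : Matrix d d ℂ} (hA : A.PosSemidef) (j : d) : 0 ≤ (A j j).re :=
  (Complex.nonneg_iff.1 (hA.diag_nonneg)).1

/-- **Concavity** of the trace functional of a concave function (finite convex combinations). -/
theorem spec_concave {f : ℝ → ℝ} (hf : ConcaveOn ℝ (Set.Ici 0) f) {ι : Type*} (t : Finset ι)
    (q : ι → ℝ) (A : ι → Matrix d d ℂ) (hq : ∀ a ∈ t, 0 ≤ q a) (hq1 : ∑ a ∈ t, q a = 1)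
    (hA : ∀ a ∈ t, (A a).PosSemidef) :
    ∑ a ∈ t, q a * spec f (A a) ≤ spec f (∑ a ∈ t, (q a : ℂ) • A a) := by
  set C := ∑ a ∈ t, (q a : ℂ) • A a with hC
  have hCp : C.PosSemidef := by
    rw [hC]
    refine posSemidef_sum t fun a ha => (hA a ha).smul ?_
    exact_mod_cast hq a ha
  obtain ⟨U, hU, hCU⟩ := spectral' hCp.1
  have hdiag : star U * C * U = diagonal (fun i => (hCp.1.eigenvalues i : ℂ)) := by
    conv_lhs => rw [hCU]
    have h1 : star U * U = 1 := (mem_unitaryGroup_iff').1 hU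
    calc star U * (U * diagonal (fun i => (hCp.1.eigenvalues i : ℂ)) * star U) * U
        = (star U * U) * diagonal (fun i => (hCp.1.eigenvalues i : ℂ)) * (star U * U) := by
          simp only [mul_assoc]
      _ = _ := by rw [h1, one_mul, mul_one]
  have hev : ∀ j, hCp.1.eigenvalues j = ∑ a ∈ t, q a * ((star U * A a * U) j j).re := by
    intro j
    have h2 := congrArg Complex.re (congrFun (congrFun hdiag j) j)
    rw [diagonal_apply_eq, Complex.ofReal_re] at h2
    rw [← h2, hC, Finset.mul_sum, Finset.sum_mul, Matrix.sum_apply, Complex.re_sum]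
    refine Finset.sum_congr rfl fun a _ => ?_
    rw [Matrix.mul_smul, Matrix.smul_mul, Matrix.smul_apply, smul_eq_mul, Complex.re_ofReal_mul]
  rw [spec_eq f hCp.1]
  calc ∑ a ∈ t, q a * spec f (A a)
      ≤ ∑ a ∈ t, q a * ∑ j, f ((star U * A a * U) j j).re := by
        refine Finset.sum_le_sum fun a ha => mul_le_mul_of_nonneg_left ?_ (hq a ha)
        rw [← spec_unitary_conj' f (A a) hU]
        exact spec_le_sum_diag hf (posSemidef_conj (hA a ha) U).1
          (eig_nonneg (posSemidef_conj (hA a ha) U))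
    _ = ∑ j, ∑ a ∈ t, q a * f ((star U * A a * U) j j).re := by
        simp_rw [Finset.mul_sum]
        exact Finset.sum_comm
    _ ≤ ∑ j, f (hCp.1.eigenvalues j) := by
        refine Finset.sum_le_sum fun j _ => ?_
        rw [hev j]
        have := hf.le_map_sum (t := t) (w := q) (p := fun a => ((star U * A a * U) j j).re)
          hq hq1 (fun a ha => diag_re_nonneg (posSemidef_conj (hA a ha) U) j)
        simpa using this

theorem ent_concave {ι : Type*} (t : Finset ι)
    (q : ι → ℝ) (A : ι → Matrix d d ℂ) (hq : ∀ a ∈ t, 0 ≤ q a) (hq1 : ∑ a ∈ t, q a = 1)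
    (hA : ∀ a ∈ t, (A a).PosSemidef) :
    ∑ a ∈ t, q a * ent (A a) ≤ ent (∑ a ∈ t, (q a : ℂ) • A a) :=
  spec_concave Real.concaveOn_negMulLog t q A hq hq1 hA

end peierls

section tensor

variable {d e : Type*} [Fintype d] [Fintype e] [DecidableEq d] [DecidableEq e]

theorem kron_unitary {U : Matrix d d ℂ} {V : Matrix e e ℂ} (hU : U ∈ unitaryGroup d ℂ)
    (hV : V ∈ unitaryGroup e ℂ) : U ⊗ₖ V ∈ unitaryGroup (d × e) ℂ := by
  rw [mem_unitaryGroup_iff, star_eq_conjTranspose, conjTranspose_kronecker, ← mul_kronecker_mul,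
    ← star_eq_conjTranspose, ← star_eq_conjTranspose, mem_unitaryGroup_iff.1 hU,
    mem_unitaryGroup_iff.1 hV, one_kronecker_one]

/-- `tr f(A ⊗ B) = ∑ᵢ ∑ⱼ f(λᵢ μⱼ)`. -/
theorem spec_kronecker (f : ℝ → ℝ) {A : Matrix d d ℂ} {B : Matrix e e ℂ} (hA : A.IsHermitian)
    (hB : B.IsHermitian) :
    spec f (A ⊗ₖ B) = ∑ i, ∑ j, f (hA.eigenvalues i * hB.eigenvalues j) := by
  obtain ⟨U, hU, hAU⟩ := spectral' hA
  obtain ⟨V, hV, hBV⟩ := spectral' hB
  have h1 : A ⊗ₖ B = (U ⊗ₖ V) * diagonal (fun p : d × e =>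
      ((hA.eigenvalues p.1 * hB.eigenvalues p.2 : ℝ) : ℂ)) * star (U ⊗ₖ V) := by
    conv_lhs => rw [hAU, hBV]
    rw [mul_kronecker_mul, mul_kronecker_mul, diagonal_kronecker_diagonal, star_eq_conjTranspose,
      star_eq_conjTranspose, star_eq_conjTranspose, conjTranspose_kronecker]
    simp
  rw [h1, spec_unitary_conj f _ (kron_unitary hU hV), spec_diagonal, Fintype.sum_prod_type]

theorem trace_re_eq {A : Matrix d d ℂ} (hA : A.IsHermitian) :
    A.trace.re = ∑ i, hA.eigenvalues i := by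
  rw [hA.trace_eq_sum_eigenvalues, Complex.re_sum]
  simp

/-- Additivity of the entropy functional under Kronecker products. -/
theorem ent_kronecker {A : Matrix d d ℂ} {B : Matrix e e ℂ} (hA : A.IsHermitian)
    (hB : B.IsHermitian) :
    ent (A ⊗ₖ B) = B.trace.re * ent A + A.trace.re * ent B := by
  rw [ent, spec_kronecker _ hA hB, ent, ent, spec_eq _ hA, spec_eq _ hB, trace_re_eq hA,
    trace_re_eq hB, Finset.sum_mul_sum, Finset.sum_mul_sum, Finset.sum_comm (s := Finset.univ (α := e)),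
    ← Finset.sum_add_distrib]
  refine Finset.sum_congr rfl fun i _ => ?_
  rw [← Finset.sum_add_distrib]
  refine Finset.sum_congr rfl fun j _ => ?_
  rw [Real.negMulLog_mul]

/-- Partial trace over the second factor. -/
def ptr₂ (M : Matrix (d × e) (d × e) ℂ) : Matrix d d ℂ := Matrix.of fun i i' => ∑ j, M (i, j) (i', j)

/-- Partial trace over the first factor. -/
def ptr₁ (M : Matrix (d × e) (d × e) ℂ) : Matrix e e ℂ := Matrix.of fun j j' => ∑ i, M (i, j) (i, j')

theorem trace_ptr₂ (M : Matrix (d × e) (d × e) ℂ) : (ptr₂ M).trace = M.trace := by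
  simp [ptr₂, trace, Fintype.sum_prod_type]

theorem trace_ptr₁ (M : Matrix (d × e) (d × e) ℂ) : (ptr₁ M).trace = M.trace := by
  simp [ptr₁, trace, Fintype.sum_prod_type_right]

theorem ptr₂_eq_sum (M : Matrix (d × e) (d × e) ℂ) :
    ptr₂ M = ∑ j : e, M.submatrix (fun i => (i, j)) (fun i => (i, j)) := by
  ext i i'
  simp [ptr₂, Matrix.sum_apply]

theorem ptr₁_eq_sum (M : Matrix (d × e) (d × e) ℂ) :
    ptr₁ M = ∑ i : d, M.submatrix (fun j => (i, j)) (fun j => (i, j)) := by
  ext i i'
  simp [ptr₁, Matrix.sum_apply]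

theorem ptr₂_posSemidef {M : Matrix (d × e) (d × e) ℂ} (hM : M.PosSemidef) :
    (ptr₂ M).PosSemidef := by
  rw [ptr₂_eq_sum]
  exact posSemidef_sum _ fun j _ => hM.submatrix _

theorem ptr₁_posSemidef {M : Matrix (d × e) (d × e) ℂ} (hM : M.PosSemidef) :
    (ptr₁ M).PosSemidef := by
  rw [ptr₁_eq_sum]
  exact posSemidef_sum _ fun j _ => hM.submatrix _

theorem ptr₂_add (M N : Matrix (d × e) (d × e) ℂ) : ptr₂ (M + N) = ptr₂ M + ptr₂ N := by
  ext i i'; simp [ptr₂, Finset.sum_add_distrib]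

theorem ptr₁_add (M N : Matrix (d × e) (d × e) ℂ) : ptr₁ (M + N) = ptr₁ M + ptr₁ N := by
  ext i i'; simp [ptr₁, Finset.sum_add_distrib]

theorem ptr₂_smul (c : ℂ) (M : Matrix (d × e) (d × e) ℂ) : ptr₂ (c • M) = c • ptr₂ M := by
  ext i i'; simp [ptr₂, Finset.mul_sum]

theorem ptr₁_smul (c : ℂ) (M : Matrix (d × e) (d × e) ℂ) : ptr₁ (c • M) = c • ptr₁ M := by
  ext i i'; simp [ptr₁, Finset.mul_sum]

theorem ptr₂_sum {ι : Type*} (t : Finset ι) (M : ι → Matrix (d × e) (d × e) ℂ) :
    ptr₂ (∑ a ∈ t, M a) = ∑ a ∈ t, ptr₂ (M a) := by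
  ext i i'
  simp only [ptr₂, Matrix.of_apply, Matrix.sum_apply]
  exact Finset.sum_comm

theorem ptr₁_sum {ι : Type*} (t : Finset ι) (M : ι → Matrix (d × e) (d × e) ℂ) :
    ptr₁ (∑ a ∈ t, M a) = ∑ a ∈ t, ptr₁ (M a) := by
  ext i i'
  simp only [ptr₁, Matrix.of_apply, Matrix.sum_apply]
  exact Finset.sum_comm

theorem one_kron_conj_apply (M : Matrix (d × e) (d × e) ℂ) (V : Matrix e e ℂ) (p q : d × e) :
    (star ((1 : Matrix d d ℂ) ⊗ₖ V) * M * ((1 : Matrix d d ℂ) ⊗ₖ V)) p q =
      ∑ k', ∑ k, star (V k p.2) * M (p.1, k) (q.1, k') * V k' q.2 := by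
  obtain ⟨p1, p2⟩ := p
  obtain ⟨q1, q2⟩ := q
  simp only [mul_apply, Fintype.sum_prod_type, star_apply, kroneckerMap_apply, star_mul',
    Finset.sum_mul]
  simp only [one_apply, apply_ite star, star_one, star_zero, ite_mul, mul_ite, one_mul, zero_mul,
    mul_zero, mul_one, Finset.sum_ite_irrel, Finset.sum_ite_eq', Finset.sum_ite_eq,
    Finset.mem_univ, if_true, Finset.sum_const_zero]

theorem kron_one_conj_apply (M : Matrix (d × e) (d × e) ℂ) (U : Matrix d d ℂ) (p q : d × e) :
    (star (U ⊗ₖ (1 : Matrix e e ℂ)) * M * (U ⊗ₖ (1 : Matrix e e ℂ))) p q =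
      ∑ x, ∑ y, star (U y p.1) * M (y, p.2) (x, q.2) * U x q.1 := by
  obtain ⟨p1, p2⟩ := p
  obtain ⟨q1, q2⟩ := q
  simp only [mul_apply, Fintype.sum_prod_type, star_apply, kroneckerMap_apply, star_mul',
    Finset.sum_mul]
  simp only [one_apply, apply_ite star, star_one, star_zero, ite_mul, mul_ite, one_mul, zero_mul,
    mul_zero, mul_one, Finset.sum_ite_irrel, Finset.sum_ite_eq', Finset.sum_ite_eq,
    Finset.mem_univ, if_true, Finset.sum_const_zero]

theorem kron_eq_mul (U : Matrix d d ℂ) (V : Matrix e e ℂ) :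
    U ⊗ₖ V = (U ⊗ₖ (1 : Matrix e e ℂ)) * ((1 : Matrix d d ℂ) ⊗ₖ V) := by
  rw [← mul_kronecker_mul, mul_one, one_mul]

theorem kron_eq_mul' (U : Matrix d d ℂ) (V : Matrix e e ℂ) :
    U ⊗ₖ V = ((1 : Matrix d d ℂ) ⊗ₖ V) * (U ⊗ₖ (1 : Matrix e e ℂ)) := by
  rw [← mul_kronecker_mul, mul_one, one_mul]

theorem ptr₂_kron_one_conj (M : Matrix (d × e) (d × e) ℂ) (U : Matrix d d ℂ) :
    ptr₂ (star (U ⊗ₖ (1 : Matrix e e ℂ)) * M * (U ⊗ₖ (1 : Matrix e e ℂ))) =
      star U * ptr₂ M * U := by
  ext i i'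
  simp only [ptr₂, Matrix.of_apply, kron_one_conj_apply]
  simp only [mul_apply, star_apply, Matrix.of_apply, Finset.sum_mul, Finset.mul_sum]
  rw [Finset.sum_comm]
  refine Finset.sum_congr rfl fun x _ => ?_
  rw [Finset.sum_comm]

theorem ptr₂_one_kron_conj (M : Matrix (d × e) (d × e) ℂ) {V : Matrix e e ℂ}
    (hV : V ∈ unitaryGroup e ℂ) :
    ptr₂ (star ((1 : Matrix d d ℂ) ⊗ₖ V) * M * ((1 : Matrix d d ℂ) ⊗ₖ V)) = ptr₂ M := by
  have hVV : ∀ k k' : e, ∑ j, star (V k j) * V k' j = if k' = k then 1 else 0 := by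
    intro k k'
    have := congrFun (congrFun (mem_unitaryGroup_iff.1 hV) k') k
    rw [mul_apply, one_apply] at this
    rw [← this]
    refine Finset.sum_congr rfl fun j _ => ?_
    rw [star_apply, mul_comm]
  ext i i'
  simp only [ptr₂, Matrix.of_apply, one_kron_conj_apply]
  rw [Finset.sum_comm]
  refine Finset.sum_congr rfl fun k' _ => ?_
  rw [Finset.sum_comm]
  calc ∑ k, ∑ j, star (V k j) * M (i, k) (i', k') * V k' j
      = ∑ k, M (i, k) (i', k') * ∑ j, star (V k j) * V k' j := by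
        refine Finset.sum_congr rfl fun k _ => ?_
        rw [Finset.mul_sum]
        refine Finset.sum_congr rfl fun j _ => ?_
        ring
    _ = M (i, k') (i', k') := by
        simp only [hVV]; simp

theorem ptr₁_one_kron_conj (M : Matrix (d × e) (d × e) ℂ) (V : Matrix e e ℂ) :
    ptr₁ (star ((1 : Matrix d d ℂ) ⊗ₖ V) * M * ((1 : Matrix d d ℂ) ⊗ₖ V)) =
      star V * ptr₁ M * V := by
  ext i i'
  simp only [ptr₁, Matrix.of_apply, one_kron_conj_apply]
  simp only [mul_apply, star_apply, Matrix.of_apply, Finset.sum_mul, Finset.mul_sum]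
  rw [Finset.sum_comm]
  refine Finset.sum_congr rfl fun x _ => ?_
  rw [Finset.sum_comm]

theorem ptr₁_kron_one_conj (M : Matrix (d × e) (d × e) ℂ) {U : Matrix d d ℂ}
    (hU : U ∈ unitaryGroup d ℂ) :
    ptr₁ (star (U ⊗ₖ (1 : Matrix e e ℂ)) * M * (U ⊗ₖ (1 : Matrix e e ℂ))) = ptr₁ M := by
  have hUU : ∀ k k' : d, ∑ j, star (U k j) * U k' j = if k' = k then 1 else 0 := by
    intro k k'
    have := congrFun (congrFun (mem_unitaryGroup_iff.1 hU) k') k
    rw [mul_apply, one_apply] at this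
    rw [← this]
    refine Finset.sum_congr rfl fun j _ => ?_
    rw [star_apply, mul_comm]
  ext i i'
  simp only [ptr₁, Matrix.of_apply, kron_one_conj_apply]
  rw [Finset.sum_comm]
  refine Finset.sum_congr rfl fun k' _ => ?_
  rw [Finset.sum_comm]
  calc ∑ k, ∑ j, star (U k j) * M (k, i) (k', i') * U k' j
      = ∑ k, M (k, i) (k', i') * ∑ j, star (U k j) * U k' j := by
        refine Finset.sum_congr rfl fun k _ => ?_
        rw [Finset.mul_sum]
        refine Finset.sum_congr rfl fun j _ => ?_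
        ring
    _ = M (k', i) (k', i') := by
        simp only [hUU]; simp

theorem ptr₂_conj (M : Matrix (d × e) (d × e) ℂ) (U : Matrix d d ℂ) {V : Matrix e e ℂ}
    (hV : V ∈ unitaryGroup e ℂ) :
    ptr₂ (star (U ⊗ₖ V) * M * (U ⊗ₖ V)) = star U * ptr₂ M * U := by
  have h : star (U ⊗ₖ V) * M * (U ⊗ₖ V) = star ((1 : Matrix d d ℂ) ⊗ₖ V) *
      (star (U ⊗ₖ (1 : Matrix e e ℂ)) * M * (U ⊗ₖ (1 : Matrix e e ℂ))) *
        ((1 : Matrix d d ℂ) ⊗ₖ V) := by
    rw [kron_eq_mul, star_mul]
    simp only [mul_assoc]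
  rw [h, ptr₂_one_kron_conj _ hV, ptr₂_kron_one_conj]

theorem ptr₁_conj (M : Matrix (d × e) (d × e) ℂ) {U : Matrix d d ℂ} (V : Matrix e e ℂ)
    (hU : U ∈ unitaryGroup d ℂ) :
    ptr₁ (star (U ⊗ₖ V) * M * (U ⊗ₖ V)) = star V * ptr₁ M * V := by
  have h : star (U ⊗ₖ V) * M * (U ⊗ₖ V) = star (U ⊗ₖ (1 : Matrix e e ℂ)) *
      (star ((1 : Matrix d d ℂ) ⊗ₖ V) * M * ((1 : Matrix d d ℂ) ⊗ₖ V)) *
        (U ⊗ₖ (1 : Matrix e e ℂ)) := by
    rw [kron_eq_mul', star_mul]
    simp only [mul_assoc]
  rw [h, ptr₁_kron_one_conj _ hU, ptr₁_one_kron_conj]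

/-- Classical subadditivity (unnormalised). -/
theorem classical_subadditivity (p : d → e → ℝ) (hp : ∀ i j, 0 ≤ p i j) :
    ∑ i, ∑ j, Real.negMulLog (p i j) ≤
      ∑ i, Real.negMulLog (∑ j, p i j) + ∑ j, Real.negMulLog (∑ i, p i j) -
        Real.negMulLog (∑ i, ∑ j, p i j) := by
  set T := ∑ i, ∑ j, p i j with hT
  set x : d → ℝ := fun i => ∑ j, p i j with hx
  set y : e → ℝ := fun j => ∑ i, p i j with hy
  have hx0 : ∀ i, 0 ≤ x i := fun i => Finset.sum_nonneg fun j _ => hp i j
  have hy0 : ∀ j, 0 ≤ y j := fun j => Finset.sum_nonneg fun i _ => hp i j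
  have hT0 : 0 ≤ T := Finset.sum_nonneg fun i _ => hx0 i
  have hTx : ∑ i, x i = T := rfl
  have hTy : ∑ j, y j = T := by
    rw [hT, Finset.sum_comm]
  rcases hT0.eq_or_lt with h0 | hTpos
  · have hx00 : ∀ i, x i = 0 := by
      intro i
      have := (Finset.sum_eq_zero_iff_of_nonneg (fun i _ => hx0 i)).1 (hTx.trans h0.symm) i
        (Finset.mem_univ i)
      exact this
    have hp00 : ∀ i j, p i j = 0 := by
      intro i j
      exact (Finset.sum_eq_zero_iff_of_nonneg (fun j _ => hp i j)).1 (hx00 i) j (Finset.mem_univ j)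
    have hy00 : ∀ j, y j = 0 := fun j => Finset.sum_eq_zero fun i _ => hp00 i j
    simp [hp00, hx00, hy00, ← h0]
  · have key : ∀ i j, Real.negMulLog (p i j) ≤
        -(p i j * Real.log (x i)) - p i j * Real.log (y j) + p i j * Real.log T
          - p i j + x i * y j / T := by
      intro i j
      rcases (hp i j).eq_or_lt with h | h
      · rw [← h]
        simp only [Real.negMulLog_zero, zero_mul, neg_zero, sub_zero, zero_add]
        exact div_nonneg (mul_nonneg (hx0 i) (hy0 j)) hT0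
      · have hxi : 0 < x i := lt_of_lt_of_le h (Finset.single_le_sum (fun j _ => hp i j) (Finset.mem_univ j))
        have hyj : 0 < y j := lt_of_lt_of_le h
          (Finset.single_le_sum (f := fun i => p i j) (fun i _ => hp i j) (Finset.mem_univ i))
        have hlog := Real.log_le_sub_one_of_pos (x := x i * y j / T / p i j) (by positivity)
        rw [Real.log_div (by positivity) h.ne', Real.log_div (by positivity) hTpos.ne',
          Real.log_mul hxi.ne' hyj.ne'] at hlog
        have h3 := mul_le_mul_of_nonneg_left hlog h.le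
        have h4 : p i j * (x i * y j / T / p i j - 1) = x i * y j / T - p i j := by
          field_simp
        rw [h4] at h3
        rw [Real.negMulLog]
        nlinarith [h3]
    calc ∑ i, ∑ j, Real.negMulLog (p i j)
        ≤ ∑ i, ∑ j, (-(p i j * Real.log (x i)) - p i j * Real.log (y j) + p i j * Real.log T
          - p i j + x i * y j / T) :=
          Finset.sum_le_sum fun i _ => Finset.sum_le_sum fun j _ => key i j
      _ = _ := by
        simp only [Finset.sum_add_distrib, Finset.sum_sub_distrib, Finset.sum_neg_distrib]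
        have e1 : ∑ i, ∑ j, p i j * Real.log (x i) = ∑ i, x i * Real.log (x i) := by
          refine Finset.sum_congr rfl fun i _ => ?_
          rw [← Finset.sum_mul]
        have e2 : ∑ i, ∑ j, p i j * Real.log (y j) = ∑ j, y j * Real.log (y j) := by
          rw [Finset.sum_comm]
          refine Finset.sum_congr rfl fun j _ => ?_
          rw [← Finset.sum_mul]
        have e3 : ∑ i, ∑ j, p i j * Real.log T = T * Real.log T := by
          simp_rw [← Finset.sum_mul]
          rfl
        have e4 : ∑ i, ∑ j, x i * y j / T = T := by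
          have : ∀ i, ∑ j, x i * y j / T = x i := by
            intro i
            rw [← Finset.sum_div, ← Finset.mul_sum, hTy]
            field_simp
          simp_rw [this]
          rfl
        rw [e1, e2, e3, e4]
        simp only [Real.negMulLog, neg_mul, Finset.sum_neg_distrib]
        ring

/-- Unnormalised **subadditivity** of the von Neumann entropy. -/
theorem ent_subadditive {M : Matrix (d × e) (d × e) ℂ} (hM : M.PosSemidef) :
    ent M ≤ ent (ptr₂ M) + ent (ptr₁ M) - Real.negMulLog M.trace.re := by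
  have h2 := ptr₂_posSemidef hM
  have h1 := ptr₁_posSemidef hM
  obtain ⟨U, hU, hMU⟩ := spectral' h2.1
  obtain ⟨V, hV, hMV⟩ := spectral' h1.1
  have hdU : star U * ptr₂ M * U = diagonal (fun i => (h2.1.eigenvalues i : ℂ)) := by
    conv_lhs => rw [hMU]
    have h1 : star U * U = 1 := (mem_unitaryGroup_iff').1 hU
    calc star U * (U * diagonal (fun i => (h2.1.eigenvalues i : ℂ)) * star U) * U
        = (star U * U) * diagonal (fun i => (h2.1.eigenvalues i : ℂ)) * (star U * U) := by
          simp only [mul_assoc]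
      _ = _ := by rw [h1, one_mul, mul_one]
  have hdV : star V * ptr₁ M * V = diagonal (fun i => (h1.1.eigenvalues i : ℂ)) := by
    conv_lhs => rw [hMV]
    have h1' : star V * V = 1 := (mem_unitaryGroup_iff').1 hV
    calc star V * (V * diagonal (fun i => (h1.1.eigenvalues i : ℂ)) * star V) * V
        = (star V * V) * diagonal (fun i => (h1.1.eigenvalues i : ℂ)) * (star V * V) := by
          simp only [mul_assoc]
      _ = _ := by rw [h1', one_mul, mul_one]
  have hW := kron_unitary hU hV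
  set N := star (U ⊗ₖ V) * M * (U ⊗ₖ V) with hN
  have hNp : N.PosSemidef := posSemidef_conj hM _
  have hx : ∀ i, ∑ j, (N (i, j) (i, j)).re = h2.1.eigenvalues i := by
    intro i
    have h3 : ptr₂ N = diagonal (fun i => (h2.1.eigenvalues i : ℂ)) := by
      rw [hN, ptr₂_conj M U hV, hdU]
    have h4 := congrArg Complex.re (congrFun (congrFun h3 i) i)
    rw [diagonal_apply_eq, Complex.ofReal_re] at h4
    rw [← h4, ptr₂, Matrix.of_apply, Complex.re_sum]
  have hy : ∀ j, ∑ i, (N (i, j) (i, j)).re = h1.1.eigenvalues j := by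
    intro j
    have h3 : ptr₁ N = diagonal (fun i => (h1.1.eigenvalues i : ℂ)) := by
      rw [hN, ptr₁_conj M V hU, hdV]
    have h4 := congrArg Complex.re (congrFun (congrFun h3 j) j)
    rw [diagonal_apply_eq, Complex.ofReal_re] at h4
    rw [← h4, ptr₁, Matrix.of_apply, Complex.re_sum]
  have hT : ∑ i, ∑ j, (N (i, j) (i, j)).re = M.trace.re := by
    simp_rw [hx]
    rw [← trace_re_eq h2.1, trace_ptr₂]
  have hcl := classical_subadditivity (fun i j => (N (i, j) (i, j)).re)
    (fun i j => diag_re_nonneg hNp (i, j))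
  simp only [hx, hy] at hcl
  rw [← spec_eq Real.negMulLog h2.1, ← spec_eq Real.negMulLog h1.1, ← trace_re_eq h2.1,
    trace_ptr₂] at hcl
  have hP := ent_le_sum_diag' hM hW
  rw [Fintype.sum_prod_type, ← hN] at hP
  exact hP.trans hcl

/-- Subadditivity for density matrices. -/
theorem vnEntropy_subadditive {M : Matrix (d × e) (d × e) ℂ} (hM : IsDensity M) :
    vnEntropy M ≤ vnEntropy (ptr₂ M) + vnEntropy (ptr₁ M) := by
  rw [vnEntropy_eq hM.1.1, vnEntropy_eq (ptr₂_posSemidef hM.1).1,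
    vnEntropy_eq (ptr₁_posSemidef hM.1).1]
  have := ent_subadditive hM.1
  rwa [hM.2, Complex.one_re, Real.negMulLog_one, sub_zero] at this

end tensor

end Crest.Agent.Lib.QEntropy
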