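import Crest.Agent.Lib.QEntropy

/-!
More finite-dimensional entropy facts (helper94): scaling, nonnegativity, two-level systems.
-/

set_option autoImplicit false
set_option linter.unusedSectionVars false
set_option linter.unusedSimpArgs false

open Matrix Crest.Quantum
open scoped ComplexOrder Kronecker

namespace Crest.Agent.Lib.QEntropy

section scaling

variable {d e : Type*} [Fintype d] [Fintype e] [DecidableEq d] [DecidableEq e]

theorem spec_smul (f : ℝ → ℝ) (t : ℝ) {A : Matrix d d ℂ} (hA : A.IsHermitian) :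
    spec f ((t : ℂ) • A) = ∑ i, f (t * hA.eigenvalues i) := by
  obtain ⟨U, hU, hAU⟩ := spectral' hA
  have h1 : (t : ℂ) • A = U * diagonal (fun i => ((t * hA.eigenvalues i : ℝ) : ℂ)) * star U := by
    conv_lhs => rw [hAU]
    have h2 : diagonal (fun i => ((t * hA.eigenvalues i : ℝ) : ℂ)) =
        (t : ℂ) • diagonal (fun i => (hA.eigenvalues i : ℂ)) := by
      ext i j
      by_cases hij : i = j
      · subst hij; simp
      · simp [diagonal_apply_ne _ hij]
    rw [h2, Matrix.mul_smul, Matrix.smul_mul]
  rw [h1, spec_unitary_conj f _ hU, spec_diagonal]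

/-- Scaling of the entropy functional. -/
theorem ent_smul (t : ℝ) {A : Matrix d d ℂ} (hA : A.IsHermitian) :
    ent ((t : ℂ) • A) = t * ent A + Real.negMulLog t * A.trace.re := by
  rw [ent, spec_smul _ t hA, ent, spec_eq _ hA, trace_re_eq hA, Finset.mul_sum, Finset.mul_sum,
    ← Finset.sum_add_distrib]
  refine Finset.sum_congr rfl fun i _ => ?_
  rw [Real.negMulLog_mul]
  ring

theorem ent_nonneg {A : Matrix d d ℂ} (hA : IsDensity A) : 0 ≤ ent A := by
  rw [ent, spec_eq _ hA.1.1]
  refine Finset.sum_nonneg fun i _ => Real.negMulLog_nonneg (hA.1.eigenvalues_nonneg i) ?_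
  have h1 : ∑ i, hA.1.1.eigenvalues i = 1 := by
    rw [← trace_re_eq hA.1.1, hA.2, Complex.one_re]
  rw [← h1]
  exact Finset.single_le_sum (f := fun i => hA.1.1.eigenvalues i)
    (fun j _ => hA.1.eigenvalues_nonneg j) (Finset.mem_univ i)

theorem ent_zero : ent (0 : Matrix d d ℂ) = 0 := by
  have : (0 : Matrix d d ℂ) = diagonal (fun _ : d => ((0 : ℝ) : ℂ)) := by
    simp
  rw [this, ent, spec_diagonal]
  simp

/-- If a density matrix is scaled: `ent (t • ρ) = t * ent ρ + negMulLog t`. -/
theorem ent_smul_density (t : ℝ) {A : Matrix d d ℂ} (hA : IsDensity A) :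
    ent ((t : ℂ) • A) = t * ent A + Real.negMulLog t := by
  rw [ent_smul t hA.1.1, hA.2, Complex.one_re, mul_one]

/-- A positive semidefinite matrix with vanishing trace is zero. -/
theorem eq_zero_of_trace_re {A : Matrix d d ℂ} (hA : A.PosSemidef) (h : A.trace.re = 0) : A = 0 := by
  rw [← hA.trace_eq_zero_iff]
  have h2 := Complex.nonneg_iff.1 hA.trace_nonneg
  exact Complex.ext h (by rw [← h2.2]; rfl)

theorem trace_im_zero {A : Matrix d d ℂ} (hA : A.PosSemidef) : A.trace.im = 0 :=
  (Complex.nonneg_iff.1 hA.trace_nonneg).2.symm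

theorem trace_re_nonneg {A : Matrix d d ℂ} (hA : A.PosSemidef) : 0 ≤ A.trace.re :=
  (Complex.nonneg_iff.1 hA.trace_nonneg).1

theorem trace_eq_re {A : Matrix d d ℂ} (hA : A.PosSemidef) : A.trace = (A.trace.re : ℂ) :=
  Complex.ext rfl (by rw [trace_im_zero hA]; simp)

end scaling

section qubit

/-- Entropy of a two-level density matrix in terms of its determinant. -/
theorem ent_bool {A : Matrix Bool Bool ℂ} (hA : A.IsHermitian) (ht : A.trace.re = 1) :
    ent A = Real.binEntropy ((1 + Real.sqrt (1 - 4 * A.det.re)) / 2) := by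
  have h1 : hA.eigenvalues true + hA.eigenvalues false = 1 := by
    rw [← ht, trace_re_eq hA, Fintype.sum_bool]
  have h2 : A.det.re = hA.eigenvalues true * hA.eigenvalues false := by
    rw [hA.det_eq_prod_eigenvalues, Fintype.prod_bool]
    simp
  rw [ent, spec_eq _ hA, Fintype.sum_bool, h2]
  set x := hA.eigenvalues true
  set y := hA.eigenvalues false
  have h3 : 1 - 4 * (x * y) = (x - y) ^ 2 := by
    have : y = 1 - x := by linarith
    rw [this]; ring
  rw [h3, Real.sqrt_sq_eq_abs, Real.binEntropy_eq_negMulLog_add_negMulLog_one_sub]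
  rcases le_total 0 (x - y) with h | h
  · rw [abs_of_nonneg h]
    have e1 : (1 + (x - y)) / 2 = x := by linarith
    have e2 : 1 - x = y := by linarith
    rw [e1, e2]
  · rw [abs_of_nonpos h]
    have e1 : (1 + -(x - y)) / 2 = y := by linarith
    have e2 : 1 - y = x := by linarith
    rw [e1, e2, add_comm]

theorem ent_bool_le {A : Matrix Bool Bool ℂ} (hA : IsDensity A) :
    ent A ≤ Real.binEntropy (A true true).re := by
  have h := ent_le_sum_diag hA.1
  rw [Fintype.sum_bool] at h
  have h2 : (A false false).re = 1 - (A true true).re := by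
    have := congrArg Complex.re hA.2
    rw [trace, Fintype.sum_bool] at this
    simp at this
    linarith
  rw [h2] at h
  rwa [Real.binEntropy_eq_negMulLog_add_negMulLog_one_sub]

end qubit

end Crest.Agent.Lib.QEntropy
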