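import Mathlib

/-!
The `ℓ₂`-sum of a sequence of reflexive real Banach spaces is reflexive.
-/

set_option autoImplicit false

namespace Crest.Agent.Lib.ReflL2Sum36

open Finset Filter Topology

/-- reflexivity -/
def Refl (V : Type*) [NormedAddCommGroup V] [NormedSpace ℝ V] : Prop :=
  Function.Surjective (NormedSpace.inclusionInDoubleDual ℝ V)

/-- Hilbert spaces are reflexive. -/
theorem refl_hilbert (H : Type*) [NormedAddCommGroup H] [InnerProductSpace ℝ H] [CompleteSpace H] :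
    Refl H := by
  intro L
  -- L ∘ toDual is a functional on H
  let T := InnerProductSpace.toDual ℝ H
  let g : StrongDual ℝ H :=
    { toFun := fun y => L (T y)
      map_add' := fun y z => by rw [map_add, map_add]
      map_smul' := fun c y => by
        rw [T.map_smulₛₗ, map_smulₛₗ]
        simp
      cont := L.continuous.comp T.continuous }
  refine ⟨T.symm g, ?_⟩
  ext φ
  rw [NormedSpace.dual_def]
  obtain ⟨y, rfl⟩ := T.surjective φ
  have h1 : (T y) (T.symm g) = inner ℝ y (T.symm g) := InnerProductSpace.toDual_apply_apply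
  have h2 : (T (T.symm g)) y = inner ℝ (T.symm g) y := InnerProductSpace.toDual_apply_apply
  rw [h1, real_inner_comm, ← h2, LinearIsometryEquiv.apply_symm_apply]
  rfl

/-- reflexivity is an isomorphism invariant. -/
theorem refl_of_equiv {V W : Type*} [NormedAddCommGroup V] [NormedSpace ℝ V]
    [NormedAddCommGroup W] [NormedSpace ℝ W] (e : V ≃L[ℝ] W) (h : Refl V) : Refl W := by
  intro L
  let g : StrongDual ℝ (StrongDual ℝ V) :=
    L.comp ((ContinuousLinearMap.compL ℝ W V ℝ).flip (e.symm : W →L[ℝ] V))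
  obtain ⟨v, hv⟩ := h g
  refine ⟨e v, ?_⟩
  ext φ
  rw [NormedSpace.dual_def]
  have h1 := congrArg (fun f => f (φ.comp (e : V →L[ℝ] W))) hv
  simp only [NormedSpace.dual_def] at h1
  have h2 : (φ.comp (e : V →L[ℝ] W)) v = φ (e v) := rfl
  rw [← h2, h1]
  show L ((φ.comp (e : V →L[ℝ] W)).comp (e.symm : W →L[ℝ] V)) = L φ
  congr 1
  ext w
  simp

section l2sum

variable {X : ℕ → Type*} [∀ n, NormedAddCommGroup (X n)] [∀ n, NormedSpace ℝ (X n)]

/-- coordinate projection -/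
noncomputable abbrev PP (n : ℕ) : lp X 2 →L[ℝ] X n := lp.evalCLM ℝ X 2 n

/-- coordinate inclusion -/
noncomputable abbrev II (n : ℕ) : X n →L[ℝ] lp X 2 := lp.singleContinuousLinearMap ℝ X 2 n

lemma PP_apply (n : ℕ) (y : lp X 2) : PP n y = y n := rfl

omit [∀ n, NormedSpace ℝ (X n)] in
lemma sum_sq_le (y : lp X 2) (A : Finset ℕ) : ∑ n ∈ A, ‖y n‖ ^ 2 ≤ ‖y‖ ^ 2 := by
  have := lp.sum_rpow_le_norm_rpow (p := 2) (by norm_num) y A
  simpa using this

omit [∀ n, NormedSpace ℝ (X n)] in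
lemma sqrt_sum_sq_le (y : lp X 2) (A : Finset ℕ) : Real.sqrt (∑ n ∈ A, ‖y n‖ ^ 2) ≤ ‖y‖ := by
  rw [← Real.sqrt_sq (norm_nonneg y)]
  exact Real.sqrt_le_sqrt (sum_sq_le y A)

lemma cs (A : Finset ℕ) (a b : ℕ → ℝ) :
    ∑ n ∈ A, a n * b n ≤ Real.sqrt (∑ n ∈ A, a n ^ 2) * Real.sqrt (∑ n ∈ A, b n ^ 2) :=
  Real.sum_mul_le_sqrt_mul_sqrt A a b

lemma sqrt_le_of_le_mul_sqrt {s C : ℝ} (hs : 0 ≤ s) (_hC : 0 ≤ C) (h : s ≤ C * Real.sqrt s) :
    s ≤ C ^ 2 := by
  have h3 : Real.sqrt s * Real.sqrt s = s := Real.mul_self_sqrt hs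
  rcases eq_or_lt_of_le (Real.sqrt_nonneg s) with h0 | h0
  · rw [← h0, mul_zero] at h3
    rw [← h3]; positivity
  · have h4 : Real.sqrt s ≤ C := by
      by_contra hcon
      push Not at hcon
      have : C * Real.sqrt s < Real.sqrt s * Real.sqrt s := mul_lt_mul_of_pos_right hcon h0
      nlinarith
    calc s = Real.sqrt s ^ 2 := by rw [sq, h3]
      _ ≤ _ := pow_le_pow_left₀ h0.le h4 2

/-- norms of the restrictions of a functional to the blocks are square summable. -/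
lemma dual_sum_sq (φ : StrongDual ℝ (lp X 2)) (A : Finset ℕ) :
    ∑ n ∈ A, ‖φ.comp (II n)‖ ^ 2 ≤ (2 * ‖φ‖) ^ 2 := by
  classical
  have hex : ∀ n, ∃ y : X n, ‖y‖ ≤ 1 ∧ ‖φ.comp (II n)‖ / 2 ≤ φ (II n y) := by
    intro n
    by_cases h0 : ‖φ.comp (II n)‖ = 0
    · exact ⟨0, by simp, by simp [h0]⟩
    · have hpos : 0 < ‖φ.comp (II n)‖ := lt_of_le_of_ne (norm_nonneg _) (Ne.symm h0)
      obtain ⟨y, hy1, hy2⟩ := ContinuousLinearMap.exists_lt_apply_of_lt_opNorm (φ.comp (II n))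
        (half_lt_self hpos)
      rcases le_or_gt 0 (φ (II n y)) with h | h
      · refine ⟨y, hy1.le, ?_⟩
        have e : ‖(φ.comp (II n)) y‖ = φ (II n y) := Real.norm_of_nonneg h
        linarith
      · refine ⟨-y, by rw [norm_neg]; exact hy1.le, ?_⟩
        have e : ‖(φ.comp (II n)) y‖ = -φ (II n y) := Real.norm_of_nonpos h.le
        rw [map_neg, map_neg]
        linarith
  choose y hy1 hy2 using hex
  set a : ℕ → ℝ := fun n => ‖φ.comp (II n)‖ with ha
  set s := ∑ n ∈ A, a n ^ 2 with hs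
  have hs0 : 0 ≤ s := sum_nonneg fun _ _ => sq_nonneg _
  let f : ∀ n, X n := fun n => a n • y n
  set z : lp X 2 := ∑ n ∈ A, lp.single 2 n (f n) with hz
  have hznorm : ‖z‖ ≤ Real.sqrt s := by
    have h1 := lp.norm_sum_single (p := 2) (by norm_num) f A
    have h2 : ‖z‖ ^ 2 = ∑ n ∈ A, ‖f n‖ ^ 2 := by simpa [hz] using h1
    have h3 : ‖z‖ ^ 2 ≤ s := by
      rw [h2]
      apply sum_le_sum
      intro n _
      simp only [f, norm_smul, ha, norm_norm]
      have : ‖φ.comp (II n)‖ * ‖y n‖ ≤ ‖φ.comp (II n)‖ * 1 :=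
        mul_le_mul_of_nonneg_left (hy1 n) (norm_nonneg _)
      rw [mul_one] at this
      exact pow_le_pow_left₀ (by positivity) this 2
    exact Real.le_sqrt_of_sq_le h3
  have hφz : s / 2 ≤ φ z := by
    rw [hz, map_sum, hs, sum_div]
    apply sum_le_sum
    intro n _
    have e : lp.single 2 n (f n) = a n • II n (y n) := by
      simp only [f]
      rw [lp.single_smul]
      rfl
    rw [e, map_smul, smul_eq_mul]
    have := mul_le_mul_of_nonneg_left (hy2 n) (norm_nonneg (φ.comp (II n)))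
    calc a n ^ 2 / 2 = ‖φ.comp (II n)‖ * (‖φ.comp (II n)‖ / 2) := by simp only [ha]; ring
      _ ≤ _ := this
  have h5 : φ z ≤ ‖φ‖ * Real.sqrt s := by
    calc φ z ≤ |φ z| := le_abs_self _
      _ ≤ ‖φ‖ * ‖z‖ := φ.le_opNorm z
      _ ≤ _ := mul_le_mul_of_nonneg_left hznorm (norm_nonneg _)
  apply sqrt_le_of_le_mul_sqrt hs0 (by positivity)
  linarith

/-- every functional is approximated by its finite block truncations -/
lemma approx (φ : StrongDual ℝ (lp X 2)) (ε : ℝ) (hε : 0 < ε) :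
    ∃ A : Finset ℕ, ∀ B : Finset ℕ, A ⊆ B →
      ‖φ - ∑ n ∈ B, (φ.comp (II n)).comp (PP n)‖ ≤ ε := by
  classical
  set a : ℕ → ℝ := fun n => ‖φ.comp (II n)‖ with ha
  have hsum : Summable fun n => a n ^ 2 :=
    summable_of_sum_le (fun _ => sq_nonneg _) (dual_sum_sq φ)
  obtain ⟨A, hA⟩ := summable_iff_vanishing_norm.1 hsum (ε ^ 2) (by positivity)
  refine ⟨A, ?_⟩
  intro B hAB
  apply ContinuousLinearMap.opNorm_le_bound _ hε.le
  intro y
  have hs : HasSum (fun n => φ (II n (y n))) (φ y) :=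
    (lp.hasSum_single (p := 2) (by norm_num) y).mapL φ
  have hev : ∀ᶠ D in atTop, |∑ n ∈ D, φ (II n (y n)) - ∑ n ∈ B, φ (II n (y n))| ≤ ε * ‖y‖ := by
    filter_upwards [eventually_ge_atTop B] with D hD
    have hBD : B ⊆ D := hD
    rw [← sum_sdiff hBD, add_sub_cancel_right]
    have hdisj : Disjoint (D \ B) A := by
      apply disjoint_of_subset_right hAB
      exact sdiff_disjoint
    have h1 := hA (D \ B) hdisj
    have h2 : ∑ n ∈ D \ B, a n ^ 2 ≤ ε ^ 2 := by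
      refine le_trans (le_abs_self _) ?_
      rw [← Real.norm_eq_abs]; exact h1.le
    calc |∑ n ∈ D \ B, φ (II n (y n))| ≤ ∑ n ∈ D \ B, |φ (II n (y n))| := abs_sum_le_sum_abs _ _
      _ ≤ ∑ n ∈ D \ B, a n * ‖y n‖ := by
          apply sum_le_sum
          intro n _
          exact (φ.comp (II n)).le_opNorm (y n)
      _ ≤ Real.sqrt (∑ n ∈ D \ B, a n ^ 2) * Real.sqrt (∑ n ∈ D \ B, ‖y n‖ ^ 2) := cs _ _ _
      _ ≤ ε * ‖y‖ := by
          apply mul_le_mul _ (sqrt_sum_sq_le y _) (Real.sqrt_nonneg _) hε.le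
          rw [← Real.sqrt_sq hε.le]
          exact Real.sqrt_le_sqrt h2
  have hlim : Tendsto (fun D => |∑ n ∈ D, φ (II n (y n)) - ∑ n ∈ B, φ (II n (y n))|) atTop
      (𝓝 |φ y - ∑ n ∈ B, φ (II n (y n))|) := (hs.sub_const _).abs
  have := le_of_tendsto hlim hev
  have e : (φ - ∑ n ∈ B, (φ.comp (II n)).comp (PP n)) y = φ y - ∑ n ∈ B, φ (II n (y n)) := by
    rw [_root_.sub_apply, _root_.sum_apply]
    rfl
  rw [e]
  exact this

theorem refl_l2sum (h : ∀ n, Refl (X n)) : Refl (lp X 2) := by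
  classical
  intro L
  have hex : ∀ n, ∃ x : X n, ∀ ψ : StrongDual ℝ (X n), ψ x = L (ψ.comp (PP n)) := by
    intro n
    obtain ⟨x, hx⟩ := h n (L.comp ((ContinuousLinearMap.compL ℝ (lp X 2) (X n) ℝ).flip (PP n)))
    refine ⟨x, fun ψ => ?_⟩
    have := congrArg (fun f => f ψ) hx
    simp only [NormedSpace.dual_def] at this
    exact this
  choose x hx using hex
  have hbound : ∀ A : Finset ℕ, ∑ n ∈ A, ‖x n‖ ^ 2 ≤ ‖L‖ ^ 2 := by
    intro A
    have hex2 : ∀ n, ∃ ψ : StrongDual ℝ (X n), ‖ψ‖ ≤ 1 ∧ ψ (x n) = ‖x n‖ := by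
      intro n
      obtain ⟨g, hg1, hg2⟩ := exists_dual_vector'' ℝ (x n)
      exact ⟨g, hg1, by simpa using hg2⟩
    choose ψ hψ1 hψ2 using hex2
    set s := ∑ n ∈ A, ‖x n‖ ^ 2 with hs
    have hs0 : 0 ≤ s := sum_nonneg fun _ _ => sq_nonneg _
    let φ : StrongDual ℝ (lp X 2) := ∑ n ∈ A, ‖x n‖ • (ψ n).comp (PP n)
    have hφ : ‖φ‖ ≤ Real.sqrt s := by
      apply ContinuousLinearMap.opNorm_le_bound _ (Real.sqrt_nonneg _)
      intro y
      have e : φ y = ∑ n ∈ A, ‖x n‖ * ψ n (y n) := by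
        simp only [φ]
        rw [_root_.sum_apply]
        rfl
      rw [e, Real.norm_eq_abs]
      calc |∑ n ∈ A, ‖x n‖ * ψ n (y n)| ≤ ∑ n ∈ A, |‖x n‖ * ψ n (y n)| := abs_sum_le_sum_abs _ _
        _ ≤ ∑ n ∈ A, ‖x n‖ * ‖y n‖ := by
            apply sum_le_sum
            intro n _
            rw [abs_mul, abs_of_nonneg (norm_nonneg _)]
            apply mul_le_mul_of_nonneg_left _ (norm_nonneg _)
            calc |ψ n (y n)| ≤ ‖ψ n‖ * ‖y n‖ := (ψ n).le_opNorm _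
              _ ≤ 1 * ‖y n‖ := mul_le_mul_of_nonneg_right (hψ1 n) (norm_nonneg _)
              _ = _ := one_mul _
        _ ≤ Real.sqrt (∑ n ∈ A, ‖x n‖ ^ 2) * Real.sqrt (∑ n ∈ A, ‖y n‖ ^ 2) := cs _ _ _
        _ ≤ Real.sqrt s * ‖y‖ := mul_le_mul_of_nonneg_left (sqrt_sum_sq_le y _) (Real.sqrt_nonneg _)
    have hLφ : L φ = s := by
      simp only [φ, map_sum, map_smul, smul_eq_mul]
      rw [hs]
      apply sum_congr rfl
      intro n _
      rw [← hx n (ψ n), hψ2 n]; ring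
    apply sqrt_le_of_le_mul_sqrt hs0 (norm_nonneg L)
    calc s = L φ := hLφ.symm
      _ ≤ |L φ| := le_abs_self _
      _ ≤ ‖L‖ * ‖φ‖ := L.le_opNorm φ
      _ ≤ _ := mul_le_mul_of_nonneg_left hφ (norm_nonneg L)
  have hmem : Memℓp x 2 := by
    apply memℓp_gen' (C := ‖L‖ ^ 2)
    intro A
    simpa using hbound A
  let xE : lp X 2 := ⟨x, hmem⟩
  refine ⟨xE, ?_⟩
  ext φ
  rw [NormedSpace.dual_def]
  -- approximate
  have hxE : ∀ B : Finset ℕ, L (∑ n ∈ B, (φ.comp (II n)).comp (PP n))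
      = (∑ n ∈ B, (φ.comp (II n)).comp (PP n)) xE := by
    intro B
    rw [map_sum, _root_.sum_apply]
    apply sum_congr rfl
    intro n _
    rw [← hx n (φ.comp (II n))]
    rfl
  by_contra hne
  have hpos : 0 < |φ xE - L φ| := abs_pos.2 (sub_ne_zero.2 hne)
  set D := ‖xE‖ + ‖L‖ + 1 with hD
  have hDpos : 0 < D := by positivity
  obtain ⟨A, hA⟩ := approx φ (|φ xE - L φ| / (2 * D)) (by positivity)
  have hA' := hA A (Subset.refl _)
  set g := ∑ n ∈ A, (φ.comp (II n)).comp (PP n) with hg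
  have e1 : φ xE - L φ = (φ - g) xE - L (φ - g) := by
    rw [map_sub, _root_.sub_apply, hxE A]
    ring
  have h1 : |φ xE - L φ| ≤ ‖φ - g‖ * ‖xE‖ + ‖L‖ * ‖φ - g‖ := by
    calc |φ xE - L φ| = |(φ - g) xE - L (φ - g)| := by rw [e1]
      _ ≤ |(φ - g) xE| + |L (φ - g)| := abs_sub _ _
      _ ≤ _ := add_le_add ((φ - g).le_opNorm _) (L.le_opNorm _)
  have h2 : ‖φ - g‖ * ‖xE‖ + ‖L‖ * ‖φ - g‖ ≤ (|φ xE - L φ| / (2 * D)) * D := by
    have : ‖φ - g‖ * ‖xE‖ + ‖L‖ * ‖φ - g‖ = ‖φ - g‖ * (‖xE‖ + ‖L‖) := by ring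
    rw [this]
    apply mul_le_mul hA' (by linarith) (by positivity) (by positivity)
  have h3 : (|φ xE - L φ| / (2 * D)) * D = |φ xE - L φ| / 2 := by field_simp
  linarith

end l2sum

end Crest.Agent.Lib.ReflL2Sum36
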