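import Mathlib

set_option autoImplicit false
set_option linter.unusedSectionVars false
open MeasureTheory
open scoped ENNReal

/-! Areas (normalised two-dimensional Hausdorff measure) of triangles, parallelograms and their
projections in inner product spaces. -/

namespace Crest.Agent.Lib.TetraArea

/-- The plane. -/
abbrev E2 := EuclideanSpace ℝ (Fin 2)
/-- Three-space. -/
abbrev E3 := EuclideanSpace ℝ (Fin 3)

section general

variable {V : Type*} [NormedAddCommGroup V] [InnerProductSpace ℝ V]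

/-- The linear map `p ↦ p 0 • E + p 1 • F`. -/
noncomputable def lin (E F : V) : E2 →ₗ[ℝ] V where
  toFun p := p 0 • E + p 1 • F
  map_add' p q := by simp [add_smul]; abel
  map_smul' c p := by simp [smul_smul]

@[simp] theorem lin_apply (E F : V) (p : E2) : lin E F p = p 0 • E + p 1 • F := rfl

/-- Area of the parallelogram spanned by `E` and `F`. -/
noncomputable def pArea (E F : V) : ℝ := Real.sqrt (‖E‖ ^ 2 * ‖F‖ ^ 2 - inner ℝ E F ^ 2)

theorem pArea_nonneg (E F : V) : 0 ≤ pArea E F := Real.sqrt_nonneg _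

theorem gram_nonneg (E F : V) : 0 ≤ ‖E‖ ^ 2 * ‖F‖ ^ 2 - inner ℝ E F ^ 2 := by
  have h := abs_real_inner_le_norm E F
  have h2 : inner ℝ E F ^ 2 ≤ (‖E‖ * ‖F‖) ^ 2 := by
    rw [← sq_abs]
    exact pow_le_pow_left₀ (abs_nonneg _) h 2
  nlinarith [h2]

theorem pArea_sq (E F : V) : pArea E F ^ 2 = ‖E‖ ^ 2 * ‖F‖ ^ 2 - inner ℝ E F ^ 2 :=
  Real.sq_sqrt (gram_nonneg E F)

theorem normDet_lin (E F : V) : (lin E F).normDet = pArea E F := by
  have h := (lin E F).normDet_sq_eq_det_gram (EuclideanSpace.basisFun (Fin 2) ℝ)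
  have h2 : (lin E F).normDet ^ 2 = ‖E‖ ^ 2 * ‖F‖ ^ 2 - inner ℝ E F ^ 2 := by
    have : (((lin E F).normDet ^ 2 : ℝ) : ℝ) = _ := h
    rw [this, Matrix.det_fin_two]
    simp [Matrix.gram]
    rw [real_inner_comm F E]
    ring
  unfold pArea
  rw [← h2, Real.sqrt_sq ((lin E F).normDet_nonneg)]

/-- Squared area of the parallelogram spanned by two combinations of `E`, `F`. -/
theorem pArea_comb (E F : V) (a b c d : ℝ) :
    pArea (a • E + b • F) (c • E + d • F) = |a * d - b * c| * pArea E F := by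
  rw [← abs_of_nonneg (pArea_nonneg (a • E + b • F) (c • E + d • F)),
    ← abs_of_nonneg (pArea_nonneg E F), ← abs_mul, ← sq_eq_sq_iff_abs_eq_abs, mul_pow, pArea_sq,
    pArea_sq, ← real_inner_self_eq_norm_sq, ← real_inner_self_eq_norm_sq,
    ← real_inner_self_eq_norm_sq, ← real_inner_self_eq_norm_sq]
  simp only [inner_add_left, inner_add_right, real_inner_smul_left, real_inner_smul_right]
  rw [real_inner_comm F E]
  ring

theorem pArea_smul_smul (E F : V) (r : ℝ) : pArea (r • E) (r • F) = r ^ 2 * pArea E F := by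
  have h := pArea_comb E F r 0 0 r
  simp only [zero_smul, add_zero, zero_add, mul_zero, sub_zero] at h
  rw [h, abs_of_nonneg (mul_self_nonneg r)]
  ring

theorem pArea_smul_left (E F : V) (r : ℝ) (hr : 0 ≤ r) : pArea (r • E) F = r * pArea E F := by
  have h := pArea_comb E F r 0 0 1
  simp only [zero_smul, add_zero, zero_add, mul_zero, sub_zero, one_smul, mul_one] at h
  rw [h, abs_of_nonneg hr]

theorem pArea_wedge (E F : V) (s t : ℝ) (hst : s ≤ t) :
    pArea (E + s • F) (E + t • F) = (t - s) * pArea E F := by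
  have h := pArea_comb E F 1 s 1 t
  simp only [one_smul, one_mul, mul_one] at h
  rw [h, abs_of_nonneg (by linarith)]

theorem linearIndependent_of_pArea_ne_zero {E F : V} (h : pArea E F ≠ 0) :
    LinearIndependent ℝ ![E, F] := by
  rw [LinearIndependent.pair_iff]
  intro s t hst
  have h1 : pArea (s • E + t • F) ((-t) • E + s • F) = (s ^ 2 + t ^ 2) * pArea E F := by
    rw [pArea_comb, abs_of_nonneg (by nlinarith [sq_nonneg s, sq_nonneg t])]
    ring
  rw [hst] at h1
  have h2 : pArea (0 : V) ((-t) • E + s • F) = 0 := by simp [pArea]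
  rw [h2] at h1
  have h3 : s ^ 2 + t ^ 2 = 0 := by
    rcases mul_eq_zero.mp h1.symm with h | h'
    · exact h
    · exact absurd h' h
  constructor <;> nlinarith [sq_nonneg s, sq_nonneg t]

theorem affineIndependent_of_pArea_ne_zero {p q r : V} (h : pArea (q - p) (r - p) ≠ 0) :
    AffineIndependent ℝ ![p, q, r] := by
  have h1 := linearIndependent_of_pArea_ne_zero h
  rw [affineIndependent_iff_linearIndependent_vsub ℝ _ (0 : Fin 3)]
  have h2 : LinearIndependent ℝ (fun i : Fin 2 => ![q - p, r - p] i) := h1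
  let e : {x : Fin 3 // x ≠ 0} → Fin 2 := fun x => x.1.pred x.2
  have he : Function.Injective e := by
    intro x y hxy
    have := (Fin.pred_inj (ha := x.2) (hb := y.2)).mp hxy
    exact Subtype.ext this
  have h3 := h2.comp e he
  have h4 : (fun i : {x : Fin 3 // x ≠ 0} => ((![p, q, r] i -ᵥ ![p, q, r] 0 : V))) =
      ((fun i : Fin 2 => ![q - p, r - p] i) ∘ e) := by
    ext1 ⟨i, hi⟩
    fin_cases i
    · exact absurd rfl hi
    · rfl
    · rfl
  rw [h4]
  exact h3

theorem pArea_ne_zero_of_linearIndependent {E F : V} (h : LinearIndependent ℝ ![E, F]) :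
    pArea E F ≠ 0 := by
  intro h0
  have h1 : ‖E‖ ^ 2 * ‖F‖ ^ 2 - inner ℝ E F ^ 2 = 0 := by rw [← pArea_sq, h0]; ring
  rw [LinearIndependent.pair_iff] at h
  have h2 : ‖F‖ ^ 2 • E + (-(inner ℝ E F)) • F = (0 : V) := by
    rw [← norm_eq_zero, ← sq_eq_zero_iff, ← real_inner_self_eq_norm_sq]
    simp only [inner_add_left, inner_add_right, real_inner_smul_left, real_inner_smul_right]
    rw [real_inner_comm E F, real_inner_self_eq_norm_sq, real_inner_self_eq_norm_sq]
    linear_combination ‖F‖ ^ 2 * h1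
  obtain ⟨h3, h4⟩ := h _ _ h2
  have h5 : F = 0 := by
    rw [sq_eq_zero_iff, norm_eq_zero] at h3
    exact h3
  have h6 := h 0 1 (by simp [h5])
  simp at h6

theorem mem_convexHull_triple (p q r x : V) : x ∈ convexHull ℝ ({p, q, r} : Set V) ↔
    ∃ α β : ℝ, 0 ≤ α ∧ 0 ≤ β ∧ α + β ≤ 1 ∧ x = p + (α • (q - p) + β • (r - p)) := by
  rw [convexHull_insert (by simp), convexHull_pair, convexJoin_singleton_left]
  simp only [Set.mem_iUnion, exists_prop]
  constructor
  · rintro ⟨y, hy, hx⟩
    rw [segment_eq_image'] at hy hx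
    obtain ⟨a, ha, rfl⟩ := hy
    obtain ⟨b, hb, rfl⟩ := hx
    refine ⟨b * (1 - a), b * a, mul_nonneg hb.1 (by linarith [ha.2]), mul_nonneg hb.1 ha.1,
      by nlinarith [hb.2], ?_⟩
    simp only
    module
  · rintro ⟨α, β, h0, h1, h2, rfl⟩
    by_cases h : α + β = 0
    · have ha : α = 0 := by linarith
      have hb : β = 0 := by linarith
      refine ⟨q, left_mem_segment _ _ _, ?_⟩
      subst ha; subst hb
      simp [left_mem_segment]
    · have hpos : 0 < α + β := lt_of_le_of_ne (by linarith) (Ne.symm h)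
      refine ⟨q + (β / (α + β)) • (r - q), ?_, ?_⟩
      · rw [segment_eq_image']
        exact ⟨β / (α + β), ⟨by positivity, by rw [div_le_one hpos]; linarith⟩, rfl⟩
      · rw [segment_eq_image']
        refine ⟨α + β, ⟨hpos.le, h2⟩, ?_⟩
        simp only
        have h3 : (α + β) • (q + (β / (α + β)) • (r - q) - p) = (α + β) • (q - p) + β • (r - q) := by
          rw [show q + (β / (α + β)) • (r - q) - p = (q - p) + (β / (α + β)) • (r - q) by abel,
            smul_add, smul_smul, mul_div_cancel₀ _ h]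
        rw [h3]
        module

end general

/-- The standard triangle. -/
def stdTri : Set E2 := {x | 0 ≤ x 0 ∧ 0 ≤ x 1 ∧ x 0 + x 1 ≤ 1}

/-- The unit square. -/
def stdSq : Set E2 := {x | (0 ≤ x 0 ∧ x 0 ≤ 1) ∧ (0 ≤ x 1 ∧ x 1 ≤ 1)}

theorem measurePreserving_coords :
    MeasurePreserving (fun x : E2 => ((x 0, x 1) : ℝ × ℝ)) volume volume := by
  have h1 := EuclideanSpace.volume_preserving_symm_measurableEquiv_toLp (Fin 2)
  have h2 := MeasureTheory.volume_preserving_finTwoArrow ℝ
  exact h2.comp h1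

theorem volume_stdTri : volume stdTri = ENNReal.ofReal (1 / 2) := by
  have hset : stdTri = (fun x : E2 => ((x 0, x 1) : ℝ × ℝ)) ⁻¹'
    {p : ℝ × ℝ | 0 ≤ p.1 ∧ 0 ≤ p.2 ∧ p.1 + p.2 ≤ 1} := rfl
  have hmeas : MeasurableSet {p : ℝ × ℝ | 0 ≤ p.1 ∧ 0 ≤ p.2 ∧ p.1 + p.2 ≤ 1} := by
    apply IsClosed.measurableSet
    exact (isClosed_le continuous_const continuous_fst).inter
      ((isClosed_le continuous_const continuous_snd).inter
        (isClosed_le (continuous_fst.add continuous_snd) continuous_const))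
  rw [hset, measurePreserving_coords.measure_preimage hmeas.nullMeasurableSet,
    Measure.volume_eq_prod, Measure.prod_apply hmeas]
  have hslice : ∀ x : ℝ, volume (Prod.mk x ⁻¹' {p : ℝ × ℝ | 0 ≤ p.1 ∧ 0 ≤ p.2 ∧ p.1 + p.2 ≤ 1}) =
      (Set.Icc (0:ℝ) 1).indicator (fun x => ENNReal.ofReal (1 - x)) x := by
    intro x
    by_cases hx : x ∈ Set.Icc (0:ℝ) 1
    · rw [Set.indicator_of_mem hx]
      have : Prod.mk x ⁻¹' {p : ℝ × ℝ | 0 ≤ p.1 ∧ 0 ≤ p.2 ∧ p.1 + p.2 ≤ 1} =
          Set.Icc 0 (1 - x) := by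
        ext y
        constructor
        · rintro ⟨_, h1, h2⟩
          simp only at h1 h2
          exact ⟨h1, by linarith⟩
        · rintro ⟨h1, h2⟩
          exact ⟨hx.1, h1, by simp only; linarith⟩
      rw [this, Real.volume_Icc, sub_zero]
    · rw [Set.indicator_of_notMem hx]
      have : Prod.mk x ⁻¹' {p : ℝ × ℝ | 0 ≤ p.1 ∧ 0 ≤ p.2 ∧ p.1 + p.2 ≤ 1} = ∅ := by
        ext y
        simp only [Set.mem_empty_iff_false, iff_false]
        rintro ⟨h0, h1, h2⟩
        simp only at h0 h1 h2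
        exact hx ⟨h0, by linarith⟩
      rw [this, measure_empty]
  simp_rw [hslice]
  rw [lintegral_indicator measurableSet_Icc, ← ofReal_integral_eq_lintegral_ofReal]
  · congr 1
    rw [integral_Icc_eq_integral_Ioc, ← intervalIntegral.integral_of_le (by norm_num : (0:ℝ) ≤ 1)]
    rw [intervalIntegral.integral_sub (by simp) (by simp)]
    simp [integral_id]
    norm_num
  · exact (continuous_const.sub continuous_id).integrableOn_Icc
  · filter_upwards [ae_restrict_mem measurableSet_Icc] with x hx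
    simpa using hx.2

theorem volume_stdSq : volume stdSq = 1 := by
  have hset : stdSq = (fun x : E2 => ((x 0, x 1) : ℝ × ℝ)) ⁻¹'
    (Set.Icc (0:ℝ) 1 ×ˢ Set.Icc (0:ℝ) 1) := rfl
  rw [hset, measurePreserving_coords.measure_preimage
    (measurableSet_Icc.prod measurableSet_Icc).nullMeasurableSet, Measure.volume_eq_prod,
    Measure.prod_prod]
  simp

/-- The standard triangle without its first-axis side. -/
def stdTri' : Set E2 := {x | 0 ≤ x 0 ∧ 0 < x 1 ∧ x 0 + x 1 ≤ 1}

theorem volume_axis : volume {x : E2 | x 1 = 0} = 0 := by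
  have hset : {x : E2 | x 1 = 0} = (fun x : E2 => ((x 0, x 1) : ℝ × ℝ)) ⁻¹'
    (Set.univ ×ˢ {0}) := by ext x; simp
  rw [hset, measurePreserving_coords.measure_preimage
    (MeasurableSet.univ.prod (measurableSet_singleton _)).nullMeasurableSet,
    Measure.volume_eq_prod, Measure.prod_prod]
  simp

theorem volume_stdTri' : volume stdTri' = ENNReal.ofReal (1 / 2) := by
  rw [← volume_stdTri]
  apply le_antisymm
  · exact measure_mono (fun x hx => ⟨hx.1, hx.2.1.le, hx.2.2⟩)
  · calc volume stdTri ≤ volume (stdTri' ∪ {x : E2 | x 1 = 0}) := by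
          apply measure_mono
          intro x hx
          rcases hx.2.1.eq_or_lt with h | h
          · right; exact h.symm
          · left; exact ⟨hx.1, h, hx.2.2⟩
      _ ≤ volume stdTri' + volume {x : E2 | x 1 = 0} := measure_union_le _ _
      _ = volume stdTri' := by rw [volume_axis, add_zero]

section general2

variable {V : Type*} [NormedAddCommGroup V] [InnerProductSpace ℝ V]
  [MeasurableSpace V] [BorelSpace V]

theorem area_lin_image (E F : V) (S : Set E2) :
    μHE[2] (lin E F '' S) = ENNReal.ofReal (pArea E F) * volume S := by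
  have h := (lin E F).euclideanHausdorffMeasure_image_eq_normDet_mul_volume S
  rw [normDet_lin] at h
  simpa using h

theorem area_translate (c : V) (S : Set V) (d : ℕ) :
    μHE[d] ((fun x => c + x) '' S) = μHE[d] S :=
  (isometry_add_left c).euclideanHausdorffMeasure_image S

/-- affine parametrisation -/
theorem area_aff_image (c E F : V) (S : Set E2) :
    μHE[2] ((fun p : E2 => c + (p 0 • E + p 1 • F)) '' S) =
      ENNReal.ofReal (pArea E F) * volume S := by
  rw [← area_lin_image, ← area_translate c (lin E F '' S) 2, Set.image_image]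
  rfl

theorem convexHull_triple_eq_image (p q r : V) : convexHull ℝ ({p, q, r} : Set V) =
    (fun x : E2 => p + (x 0 • (q - p) + x 1 • (r - p))) '' stdTri := by
  ext x
  rw [mem_convexHull_triple]
  constructor
  · rintro ⟨α, β, h0, h1, h2, rfl⟩
    exact ⟨!₂[α, β], ⟨by simpa using h0, by simpa using h1, by simpa using h2⟩, by simp⟩
  · rintro ⟨y, ⟨h0, h1, h2⟩, rfl⟩
    exact ⟨y 0, y 1, h0, h1, h2, rfl⟩

theorem area_triangle (p q r : V) : μHE[2] (convexHull ℝ ({p, q, r} : Set V)) =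
    ENNReal.ofReal (pArea (q - p) (r - p) / 2) := by
  rw [convexHull_triple_eq_image, area_aff_image, volume_stdTri,
    ← ENNReal.ofReal_mul (pArea_nonneg _ _)]
  congr 1
  ring

theorem area_triangle_toReal (p q r : V) : (μHE[2] (convexHull ℝ ({p, q, r} : Set V))).toReal =
    pArea (q - p) (r - p) / 2 := by
  rw [area_triangle, ENNReal.toReal_ofReal]
  have := pArea_nonneg (q - p) (r - p)
  positivity

theorem area_triangle' (p q r : V) :
    μHE[2] ((fun x : E2 => p + (x 0 • (q - p) + x 1 • (r - p))) '' stdTri') =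
    ENNReal.ofReal (pArea (q - p) (r - p) / 2) := by
  rw [area_aff_image, volume_stdTri',
    ← ENNReal.ofReal_mul (pArea_nonneg _ _)]
  congr 1
  ring

theorem area_parallelogram (c a b : V) :
    μHE[2] {x : V | ∃ s ∈ Set.Icc (0 : ℝ) 1, ∃ t ∈ Set.Icc (0 : ℝ) 1, x = c + s • a + t • b} =
    ENNReal.ofReal (pArea a b) := by
  have : {x : V | ∃ s ∈ Set.Icc (0 : ℝ) 1, ∃ t ∈ Set.Icc (0 : ℝ) 1, x = c + s • a + t • b} =
      (fun x : E2 => c + (x 0 • a + x 1 • b)) '' stdSq := by
    ext x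
    constructor
    · rintro ⟨s, hs, t, ht, rfl⟩
      exact ⟨!₂[s, t], ⟨⟨by simpa using hs.1, by simpa using hs.2⟩,
        ⟨by simpa using ht.1, by simpa using ht.2⟩⟩, by simp [add_assoc]⟩
    · rintro ⟨y, ⟨h0, h1⟩, rfl⟩
      exact ⟨y 0, h0, y 1, h1, by simp [add_assoc]⟩
  rw [this, area_aff_image, volume_stdSq, mul_one]

end general2

section proj

/-- Triple product. -/
def det3 (u v w : E3) : ℝ :=
  u 0 * (v 1 * w 2 - v 2 * w 1) + u 1 * (v 2 * w 0 - v 0 * w 2) + u 2 * (v 0 * w 1 - v 1 * w 0)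

/-- Component of `y` orthogonal to `u`. -/
noncomputable def prj (u y : E3) : E3 := y - (inner ℝ y u / ‖u‖ ^ 2) • u

theorem inner_e3 (x y : E3) : inner ℝ x y = x 0 * y 0 + x 1 * y 1 + x 2 * y 2 := by
  simp [PiLp.inner_apply, Fin.sum_univ_three]
  ring

theorem norm_sq_e3 (x : E3) : ‖x‖ ^ 2 = x 0 ^ 2 + x 1 ^ 2 + x 2 ^ 2 := by
  rw [← real_inner_self_eq_norm_sq, inner_e3]
  ring

theorem inner_prj_self (u y : E3) (hu : u ≠ 0) : inner ℝ (prj u y) u = 0 := by
  have hn : ‖u‖ ≠ 0 := by simpa using hu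
  unfold prj
  rw [inner_sub_left, real_inner_smul_left, real_inner_self_eq_norm_sq]
  field_simp
  simp

theorem prj_add (u x y : E3) : prj u (x + y) = prj u x + prj u y := by
  unfold prj
  rw [inner_add_left, add_div]
  module

theorem prj_smul (u : E3) (r : ℝ) (x : E3) : prj u (r • x) = r • prj u x := by
  unfold prj
  rw [real_inner_smul_left]
  rw [smul_sub, smul_smul]
  congr 2
  ring

theorem prj_sub (u x y : E3) : prj u (x - y) = prj u x - prj u y := by
  unfold prj
  rw [inner_sub_left, sub_div]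
  module

theorem prj_self (u : E3) (hu : u ≠ 0) : prj u u = 0 := by
  unfold prj
  have hn : ‖u‖ ≠ 0 := by simpa using hu
  rw [real_inner_self_eq_norm_sq, div_self (by positivity)]
  simp

theorem prj_of_orth (u x : E3) (h : inner ℝ x u = 0) : prj u x = x := by
  unfold prj; rw [h]; simp

theorem eq_prj_add (u x : E3) : x = prj u x + (inner ℝ x u / ‖u‖ ^ 2) • u := by
  unfold prj; abel

theorem det3_sq (u v w : E3) : det3 u v w ^ 2 = ‖u‖ ^ 2 * (‖v‖ ^ 2 * ‖w‖ ^ 2 - inner ℝ v w ^ 2)
    + 2 * inner ℝ u v * inner ℝ v w * inner ℝ w u - ‖v‖ ^ 2 * inner ℝ w u ^ 2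
      - ‖w‖ ^ 2 * inner ℝ u v ^ 2 := by
  simp only [norm_sq_e3, inner_e3, det3]
  ring

theorem pArea_prj (u v w : E3) (hu : u ≠ 0) : pArea (prj u v) (prj u w) = |det3 u v w| / ‖u‖ := by
  have hn : 0 < ‖u‖ := by simpa using hu
  have h1 : ‖prj u v‖ ^ 2 = ‖v‖ ^ 2 - inner ℝ u v ^ 2 / ‖u‖ ^ 2 := by
    unfold prj
    rw [← real_inner_self_eq_norm_sq]
    simp only [inner_sub_left, inner_sub_right, real_inner_smul_left, real_inner_smul_right]
    rw [real_inner_comm u v, real_inner_self_eq_norm_sq, real_inner_self_eq_norm_sq]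
    field_simp
    ring
  have h2 : ‖prj u w‖ ^ 2 = ‖w‖ ^ 2 - inner ℝ w u ^ 2 / ‖u‖ ^ 2 := by
    unfold prj
    rw [← real_inner_self_eq_norm_sq]
    simp only [inner_sub_left, inner_sub_right, real_inner_smul_left, real_inner_smul_right]
    rw [real_inner_comm w u, real_inner_self_eq_norm_sq, real_inner_self_eq_norm_sq]
    field_simp
    ring
  have h3 : inner ℝ (prj u v) (prj u w) = inner ℝ v w - inner ℝ u v * inner ℝ w u / ‖u‖ ^ 2 := by
    unfold prj
    simp only [inner_sub_left, inner_sub_right, real_inner_smul_left, real_inner_smul_right,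
      real_inner_self_eq_norm_sq]
    rw [real_inner_comm v u, real_inner_comm w u]
    field_simp
    ring
  have h4 : pArea (prj u v) (prj u w) ^ 2 = (|det3 u v w| / ‖u‖) ^ 2 := by
    rw [pArea_sq, h1, h2, h3, div_pow, sq_abs, det3_sq]
    field_simp
    ring
  have h5 : 0 ≤ |det3 u v w| / ‖u‖ := by positivity
  exact (sq_eq_sq₀ (pArea_nonneg _ _) h5).mp h4

/-- Three vectors orthogonal to a unit vector are dependent. -/
theorem det3_eq_zero_of_orth (e w a b : E3) (he : ‖e‖ = 1) (hw : inner ℝ w e = 0)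
    (ha : inner ℝ a e = 0) (hb : inner ℝ b e = 0) : det3 w a b = 0 := by
  have h1 : e 0 ^ 2 + e 1 ^ 2 + e 2 ^ 2 = 1 := by rw [← norm_sq_e3, he]; norm_num
  rw [inner_e3] at hw ha hb
  have h2 : det3 w a b * (e 0 ^ 2 + e 1 ^ 2 + e 2 ^ 2) = 0 := by
    unfold det3
    linear_combination (e 0 * (a 1 * b 2 - a 2 * b 1) + e 1 * (a 2 * b 0 - a 0 * b 2)
      + e 2 * (a 0 * b 1 - a 1 * b 0)) * hw
      + (e 0 * (b 1 * w 2 - b 2 * w 1) + e 1 * (b 2 * w 0 - b 0 * w 2)
      + e 2 * (b 0 * w 1 - b 1 * w 0)) * ha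
      + (e 0 * (w 1 * a 2 - w 2 * a 1) + e 1 * (w 2 * a 0 - w 0 * a 2)
      + e 2 * (w 0 * a 1 - w 1 * a 0)) * hb
  rw [h1, mul_one] at h2
  exact h2

theorem norm_e_add (e w : E3) (he : ‖e‖ = 1) (hw : inner ℝ w e = 0) :
    ‖e + w‖ = Real.sqrt (1 + ‖w‖ ^ 2) := by
  have h : ‖e + w‖ ^ 2 = 1 + ‖w‖ ^ 2 := by
    rw [norm_add_sq_real, he, real_inner_comm, hw]
    ring
  rw [← h, Real.sqrt_sq (norm_nonneg _)]

theorem e_add_ne_zero (e w : E3) (he : ‖e‖ = 1) (hw : inner ℝ w e = 0) : e + w ≠ 0 := by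
  intro h
  have := norm_e_add e w he hw
  rw [h, norm_zero] at this
  have h2 : 0 < Real.sqrt (1 + ‖w‖ ^ 2) := Real.sqrt_pos.mpr (by positivity)
  linarith

/-- Area of the projection along `e + w` of the parallelogram spanned by `a, b ⊥ e`. -/
theorem pArea_prj_tilt (e w a b : E3) (he : ‖e‖ = 1) (hw : inner ℝ w e = 0)
    (ha : inner ℝ a e = 0) (hb : inner ℝ b e = 0) :
    pArea (prj (e + w) a) (prj (e + w) b) = pArea a b / Real.sqrt (1 + ‖w‖ ^ 2) := by
  rw [pArea_prj _ _ _ (e_add_ne_zero e w he hw), norm_e_add e w he hw]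
  congr 1
  have h1 : det3 (e + w) a b = det3 e a b + det3 w a b := by
    simp only [det3, PiLp.add_apply]
    ring
  rw [h1, det3_eq_zero_of_orth e w a b he hw ha hb, add_zero]
  have h2 : det3 e a b ^ 2 = pArea a b ^ 2 := by
    rw [det3_sq, pArea_sq, he, real_inner_comm a e, ha, hb]
    ring
  rw [← Real.sqrt_sq_eq_abs, h2, Real.sqrt_sq (pArea_nonneg _ _)]

/-- Bounded sets in a plane have finite area. -/
theorem area_lt_top {v : E3} (hv : v ≠ 0) {S : Set E3} (hS : ∀ x ∈ S, inner ℝ x v = 0)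
    (hb : Bornology.IsBounded S) : μHE[2] S < ⊤ := by
  let W : Submodule ℝ E3 := (ℝ ∙ v)ᗮ
  have hW : Module.finrank ℝ W = 2 := by
    have h1 := Submodule.finrank_add_finrank_orthogonal (ℝ ∙ v)
    rw [finrank_span_singleton hv] at h1
    have h2 : Module.finrank ℝ E3 = 3 := by simp
    rw [h2] at h1
    show Module.finrank ℝ ((ℝ ∙ v)ᗮ : Submodule ℝ E3) = 2
    omega
  let T : Set W := Subtype.val ⁻¹' S
  have hST : S = Subtype.val '' T := by
    ext x
    constructor
    · intro hx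
      have : x ∈ (ℝ ∙ v)ᗮ := by
        rw [Submodule.mem_orthogonal_singleton_iff_inner_left]
        exact hS x hx
      exact ⟨⟨x, this⟩, hx, rfl⟩
    · rintro ⟨y, hy, rfl⟩
      exact hy
  rw [hST, isometry_subtype_coe.euclideanHausdorffMeasure_image, ← hW,
    InnerProductSpace.euclideanHausdorffMeasure_eq_volume]
  have hTb : Bornology.IsBounded T := by
    rw [← Bornology.isBounded_image_subtype_val, ← hST]
    exact hb
  exact hTb.measure_lt_top

end proj

/-- comparison of the normalised and unnormalised two-dimensional Hausdorff measures -/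
theorem exists_factor : ∃ c : ℝ, 0 < c ∧ ∀ S : Set E3, (μHE[2] S).toReal = c * (μH[(2 : ℝ)] S).toReal := by
  refine ⟨(Measure.addHaarScalarFactor (volume : Measure (EuclideanSpace ℝ (Fin 2)))
    μH[((2 : ℕ) : ℝ)] : ℝ), ?_, ?_⟩
  · have := Measure.addHaarScalarFactor_volume_hausdorffMeasure_ne_zero 2
    have h0 := (Measure.addHaarScalarFactor (volume : Measure (EuclideanSpace ℝ (Fin 2)))
      μH[((2 : ℕ) : ℝ)]).2
    exact lt_of_le_of_ne h0 (fun h => this (NNReal.coe_injective h.symm))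
  · intro S
    rw [Measure.euclideanHausdorffMeasure_def, Measure.smul_apply, ENNReal.smul_def, smul_eq_mul,
      ENNReal.toReal_mul]
    simp

end Crest.Agent.Lib.TetraArea
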