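import Mathlib
import Crest.Agent.Lib.TetraArea

set_option autoImplicit false
open MeasureTheory
open scoped ENNReal

namespace Crest.Agent.S0327

open Crest.Agent.Lib.TetraArea

/-- the projection along `v` -/
noncomputable def pj (v : E3) (y : E3) : E3 := y - inner ℝ y v • v

lemma pj_cont (v : E3) : Continuous (pj v) := by unfold pj; fun_prop

lemma pj_inner (v y : E3) (hv : ‖v‖ = 1) : inner ℝ (pj v y) v = 0 := by
  unfold pj
  rw [inner_sub_left, real_inner_smul_left, real_inner_self_eq_norm_sq, hv]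
  simp

/-- standard tetrahedron -/
def K0 : Set E3 := convexHull ℝ {!₂[1, 0, 0], !₂[-1, 0, 0], !₂[0, 1, Real.sqrt 2], !₂[0, -1, Real.sqrt 2]}

/-- cover by triangular cylinders with total area at most `T` -/
def CovTri (K : Set E3) (T : ℝ) : Prop :=
  ∃ (M : ℕ) (u p q r : Fin M → E3), (∀ i, ‖u i‖ = 1) ∧
    (∀ i, inner ℝ (p i) (u i) = 0 ∧ inner ℝ (q i) (u i) = 0 ∧ inner ℝ (r i) (u i) = 0) ∧
    K ⊆ ⋃ i, {x : E3 | ∃ b ∈ convexHull ℝ {p i, q i, r i}, ∃ t : ℝ, x = b + t • u i} ∧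
    ∑ i, (μHE[2] (convexHull ℝ ({p i, q i, r i} : Set E3))).toReal ≤ T

/-- lower bound for projections -/
def ProjLB (K : Set E3) (A : ℝ) : Prop :=
  ∀ v : E3, ‖v‖ = 1 → A ≤ (μHE[2] (pj v '' K)).toReal

lemma ne_zero_of_norm_one {v : E3} (hv : ‖v‖ = 1) : v ≠ 0 := by
  intro h; rw [h] at hv; simp at hv

lemma proj_lt_top {K : Set E3} (hK : IsCompact K) {v : E3} (hv : ‖v‖ = 1) : μHE[2] (pj v '' K) < ⊤ := by
  apply area_lt_top (ne_zero_of_norm_one hv)
  · rintro x ⟨y, _, rfl⟩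
    exact pj_inner v y hv
  · exact (hK.image (pj_cont v)).isBounded

/-- thickening inside the plane -/
lemma thicken (u : E3) (hu : u ≠ 0) (T : Set E3) (hT : IsCompact T) (hTu : ∀ x ∈ T, inner ℝ x u = 0)
    (ε : ℝ) (hε : 0 < ε) : ∃ ρ > 0,
      (μHE[2] (Metric.thickening ρ T ∩ {x | inner ℝ x u = 0})).toReal ≤ (μHE[2] T).toReal + ε := by
  set P : Set E3 := {x | inner ℝ x u = 0} with hP
  set ν : Measure E3 := (μHE[2] : Measure E3).restrict P with hν
  have : IsFiniteMeasureOnCompacts ν := by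
    constructor
    intro S hS
    rw [hν, Measure.restrict_apply hS.measurableSet]
    apply area_lt_top hu
    · intro x hx; exact hx.2
    · exact hS.isBounded.subset Set.inter_subset_left
  have h1 : Filter.Tendsto (fun r => ν (Metric.cthickening r T)) (nhds 0) (nhds (ν T)) :=
    tendsto_measure_cthickening_of_isCompact hT
  have hTfin : ν T < ⊤ := hT.measure_lt_top
  have h2 : ν T < ν T + ENNReal.ofReal ε := ENNReal.lt_add_right hTfin.ne (by simpa using hε)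
  have h3 : ∀ᶠ r in nhds (0:ℝ), ν (Metric.cthickening r T) < ν T + ENNReal.ofReal ε :=
    h1.eventually_lt_const h2
  obtain ⟨ρ, hρ, hball⟩ := Metric.eventually_nhds_iff.mp h3
  refine ⟨ρ / 2, by positivity, ?_⟩
  have h4 := hball (y := ρ / 2) (by rw [Real.dist_eq, sub_zero, abs_of_pos (by positivity)]; linarith)
  have hT' : ν T = μHE[2] T := by
    rw [hν, Measure.restrict_apply hT.measurableSet]
    congr 1
    exact Set.inter_eq_left.mpr (fun x hx => hTu x hx)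
  have h5 : μHE[2] (Metric.thickening (ρ / 2) T ∩ P) ≤ ν (Metric.cthickening (ρ / 2) T) := by
    rw [← Measure.restrict_apply Metric.isOpen_thickening.measurableSet]
    exact measure_mono (Metric.thickening_subset_cthickening _ _)
  have h6 : μHE[2] (Metric.thickening (ρ / 2) T ∩ P) ≤ μHE[2] T + ENNReal.ofReal ε := by
    rw [← hT']
    exact h5.trans h4.le
  have hTfin' : μHE[2] T ≠ ⊤ := by rw [← hT']; exact hTfin.ne
  calc (μHE[2] (Metric.thickening (ρ / 2) T ∩ P)).toReal ≤ (μHE[2] T + ENNReal.ofReal ε).toReal :=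
        ENNReal.toReal_mono (by simp [hTfin']) h6
    _ = (μHE[2] T).toReal + ε := by
        rw [ENNReal.toReal_add hTfin' (by simp), ENNReal.toReal_ofReal hε.le]

lemma triangle_compact (p q r : E3) : IsCompact (convexHull ℝ ({p, q, r} : Set E3)) :=
  Set.Finite.isCompact_convexHull (𝕜 := ℝ) (Set.toFinite _)

lemma triangle_orth {p q r u : E3} (hp : inner ℝ p u = 0) (hq : inner ℝ q u = 0) (hr : inner ℝ r u = 0) :
    ∀ x ∈ convexHull ℝ ({p, q, r} : Set E3), inner ℝ x u = 0 := by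
  intro x hx
  rw [mem_convexHull_triple] at hx
  obtain ⟨α, β, _, _, _, rfl⟩ := hx
  simp only [inner_add_left, inner_sub_left, real_inner_smul_left, hp, hq, hr]
  ring

/-- strips -/
lemma strip_cover (m : ℕ) (hm : 0 < m) (α β : ℝ) (hα : 0 ≤ α) (hβ : 0 ≤ β) (hab : α + β ≤ 1) :
    ∃ i : Fin m, ∃ s ∈ Set.Icc (0:ℝ) 1, ∃ t ∈ Set.Icc (0:ℝ) 1,
      α = (i : ℝ) / m + s * (1 / m) ∧ β = t * (1 - (i : ℝ) / m) := by
  have hm' : (0:ℝ) < m := by exact_mod_cast hm
  -- index i = min (floor (α m)) (m-1)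
  obtain ⟨i, hi1, hi2⟩ : ∃ i : Fin m, (i : ℝ) / m ≤ α ∧ α ≤ ((i : ℝ) + 1) / m := by
    by_cases h1 : α < 1
    · refine ⟨⟨⌊α * m⌋₊, ?_⟩, ?_, ?_⟩
      · rw [Nat.floor_lt (by positivity)]
        nlinarith
      · rw [div_le_iff₀ hm']
        exact Nat.floor_le (by positivity)
      · rw [le_div_iff₀ hm']
        exact (Nat.lt_floor_add_one _).le
    · have hα1 : α = 1 := by linarith
      refine ⟨⟨m - 1, by omega⟩, ?_, ?_⟩
      · rw [div_le_iff₀ hm', hα1]
        have : ((m - 1 : ℕ) : ℝ) = m - 1 := by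
          rw [Nat.cast_sub (by omega)]; simp
        simp only [this]; linarith
      · rw [le_div_iff₀ hm', hα1]
        have : ((m - 1 : ℕ) : ℝ) = m - 1 := by
          rw [Nat.cast_sub (by omega)]; simp
        simp only [this]; linarith
  have him : (i : ℝ) + 1 ≤ m := by
    have := i.2
    exact_mod_cast this
  have hpos : 0 < 1 - (i : ℝ) / m := by
    have : (i : ℝ) / m < 1 := by rw [div_lt_one hm']; linarith
    linarith
  refine ⟨i, (α - (i : ℝ) / m) * m, ⟨?_, ?_⟩, β / (1 - (i : ℝ) / m), ⟨?_, ?_⟩, ?_, ?_⟩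
  · apply mul_nonneg _ hm'.le; linarith
  · rw [le_div_iff₀ hm'] at hi2
    have : (α - (i : ℝ) / m) * m = α * m - i := by field_simp
    rw [this]; linarith
  · positivity
  · rw [div_le_one hpos]; linarith
  · field_simp; ring
  · exact (div_mul_cancel₀ _ hpos.ne').symm

lemma strip_sum (m : ℕ) (hm : 0 < m) : ∑ i : Fin m, (1 / (m:ℝ)) * (1 - (i : ℝ) / m) = (1 + 1 / m) / 2 := by
  have hm' : (m:ℝ) ≠ 0 := by positivity
  have h : ∀ n : ℕ, ∑ i : Fin n, (i : ℝ) = n * (n - 1) / 2 := by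
    intro n
    induction n with
    | zero => simp
    | succ n ih => rw [Fin.sum_univ_castSucc]; simp [ih]; ring
  rw [← Finset.mul_sum, Finset.sum_sub_distrib, ← Finset.sum_div, h]
  simp
  field_simp
  ring

theorem step (K : Set E3) (A η : ℝ) (hA : 0 < A) (hη : 0 < η)
    (hc : CovTri K (A * (1 / 2 - η))) (hp : ProjLB K A) :
    (∃ (k : ℕ) (u c a b : Fin k → EuclideanSpace ℝ (Fin 3)),
      (∀ i, ‖u i‖ = 1) ∧
      (∀ i, inner ℝ (c i) (u i) = 0 ∧ inner ℝ (a i) (u i) = 0 ∧ inner ℝ (b i) (u i) = 0) ∧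
      K ⊆ ⋃ i, {x : EuclideanSpace ℝ (Fin 3) |
        ∃ s ∈ Set.Icc (0 : ℝ) 1, ∃ t ∈ Set.Icc (0 : ℝ) 1, ∃ τ : ℝ, x = c i + s • a i + t • b i + τ • u i} ∧
      (∃ δ : ℝ, 0 < δ ∧ ∀ v : EuclideanSpace ℝ (Fin 3), ‖v‖ = 1 →
        (∑ i, (μHE[2] {x : EuclideanSpace ℝ (Fin 3) |
            ∃ s ∈ Set.Icc (0 : ℝ) 1, ∃ t ∈ Set.Icc (0 : ℝ) 1, x = c i + s • a i + t • b i}).toReal) + δ ≤
          (μHE[2] ((fun y => y - inner ℝ y v • v) '' K)).toReal / 2) ∧
      ∑ i, (μHE[2] {x : EuclideanSpace ℝ (Fin 3) |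
            ∃ s ∈ Set.Icc (0 : ℝ) 1, ∃ t ∈ Set.Icc (0 : ℝ) 1, x = c i + s • a i + t • b i}).toReal /
          (μHE[2] ((fun y => y - inner ℝ y (u i) • u i) '' K)).toReal < 1 / 2) ∧
    (∃ (k : ℕ) (u : Fin k → EuclideanSpace ℝ (Fin 3)) (B : Fin k → Set (EuclideanSpace ℝ (Fin 3))),
      (∀ i, ‖u i‖ = 1) ∧
      (∀ i, Bornology.IsBounded (B i) ∧ ∃ O : Set (EuclideanSpace ℝ (Fin 3)), IsOpen O ∧
        B i = O ∩ {x | inner ℝ x (u i) = 0}) ∧
      K ⊆
        ⋃ i, {x : EuclideanSpace ℝ (Fin 3) | ∃ y ∈ B i, ∃ τ : ℝ, x = y + τ • u i} ∧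
      (∃ δ : ℝ, 0 < δ ∧ ∀ v : EuclideanSpace ℝ (Fin 3), ‖v‖ = 1 →
        (∑ i, (μHE[2] (B i)).toReal) + δ ≤
          (μHE[2] ((fun y => y - inner ℝ y v • v) '' K)).toReal / 2) ∧
      ∑ i, (μHE[2] (B i)).toReal /
          (μHE[2] ((fun y => y - inner ℝ y (u i) • u i) '' K)).toReal < 1 / 2) := by
  obtain ⟨M, u, p, q, r, hu, horth, hcov, hsum⟩ := hc
  have hfin : ∀ (ι : Type) [Fintype ι] (uu : ι → E3) (ar : ι → ℝ), (∀ i, ‖uu i‖ = 1) → (∀ i, 0 ≤ ar i) →
      ∑ i, ar i ≤ A * (1/2 - η/2) →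
      ∑ i, ar i / (μHE[2] ((fun y => y - inner ℝ y (uu i) • uu i) '' K)).toReal < 1 / 2 := by
    intro ι _ uu ar huu har hs
    calc ∑ i, ar i / (μHE[2] ((fun y => y - inner ℝ y (uu i) • uu i) '' K)).toReal
        ≤ ∑ i, ar i / A := by
          apply Finset.sum_le_sum
          intro i _
          exact div_le_div_of_nonneg_left (har i) hA (hp (uu i) (huu i))
      _ = (∑ i, ar i) / A := by rw [Finset.sum_div]
      _ ≤ (A * (1/2 - η/2)) / A := by gcongr
      _ = 1/2 - η/2 := by field_simp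
      _ < 1/2 := by linarith
  have hdelta : ∀ S : ℝ, S ≤ A * (1/2 - η/2) → ∀ v : E3, ‖v‖ = 1 →
      S + A * (η/2) ≤ (μHE[2] ((fun y => y - inner ℝ y v • v) '' K)).toReal / 2 := by
    intro S hS v hv
    have h1 : A ≤ (μHE[2] ((fun y => y - inner ℝ y v • v) '' K)).toReal := hp v hv
    nlinarith
  constructor
  · -- parallelograms
    obtain ⟨m, hm⟩ := exists_nat_gt (1 / η)
    have hm0 : 0 < m := by
      have : (0:ℝ) < m := lt_trans (by positivity) hm
      exact_mod_cast this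
    have hm0' : (0:ℝ) < m := by exact_mod_cast hm0
    let e : Fin M × Fin m ≃ Fin (M * m) := finProdFinEquiv
    let cc : Fin M × Fin m → E3 := fun z => p z.1 + ((z.2 : ℝ) / m) • (q z.1 - p z.1)
    let aa : Fin M × Fin m → E3 := fun z => (1 / (m:ℝ)) • (q z.1 - p z.1)
    let bb : Fin M × Fin m → E3 := fun z => (1 - (z.2 : ℝ) / m) • (r z.1 - p z.1)
    have harea : ∀ z, (μHE[2] {x : E3 | ∃ s ∈ Set.Icc (0 : ℝ) 1, ∃ t ∈ Set.Icc (0 : ℝ) 1,
        x = cc z + s • aa z + t • bb z}).toReal =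
        (2 * (μHE[2] (convexHull ℝ ({p z.1, q z.1, r z.1} : Set E3))).toReal) * ((1 / (m:ℝ)) * (1 - (z.2 : ℝ) / m)) := by
      intro z
      rw [area_parallelogram, area_triangle_toReal, ENNReal.toReal_ofReal (pArea_nonneg _ _)]
      have h1 := pArea_comb (q z.1 - p z.1) (r z.1 - p z.1) (1 / (m:ℝ)) 0 0 (1 - (z.2 : ℝ) / m)
      simp only [zero_smul, add_zero, zero_add, mul_zero, sub_zero] at h1
      show pArea (aa z) (bb z) = _
      rw [show aa z = (1 / (m:ℝ)) • (q z.1 - p z.1) from rfl, show bb z = (1 - (z.2 : ℝ) / m) • (r z.1 - p z.1) from rfl, h1]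
      have h2 : 0 ≤ 1 - (z.2 : ℝ) / m := by
        have : (z.2 : ℝ) / m ≤ 1 := by
          rw [div_le_one hm0']
          exact_mod_cast z.2.2.le
        linarith
      rw [abs_of_nonneg (by positivity)]
      ring
    have hcov2 : K ⊆ ⋃ z : Fin M × Fin m, {x : E3 |
        ∃ s ∈ Set.Icc (0 : ℝ) 1, ∃ t ∈ Set.Icc (0 : ℝ) 1, ∃ τ : ℝ, x = cc z + s • aa z + t • bb z + τ • u z.1} := by
      intro x hx
      obtain ⟨i, hi⟩ := Set.mem_iUnion.mp (hcov hx)
      obtain ⟨b, hb, τ, rfl⟩ := hi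
      rw [mem_convexHull_triple] at hb
      obtain ⟨α, β, h1, h2, h3, rfl⟩ := hb
      obtain ⟨j, s, hs, t, ht, e1, e2⟩ := strip_cover m hm0 α β h1 h2 h3
      refine Set.mem_iUnion.mpr ⟨(i, j), s, hs, t, ht, τ, ?_⟩
      simp only [cc, aa, bb]
      rw [e1, e2]
      module
    have htot : ∑ z : Fin M × Fin m, (μHE[2] {x : E3 | ∃ s ∈ Set.Icc (0 : ℝ) 1, ∃ t ∈ Set.Icc (0 : ℝ) 1,
        x = cc z + s • aa z + t • bb z}).toReal ≤ A * (1/2 - η/2) := by
      simp_rw [harea]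
      rw [Fintype.sum_prod_type]
      simp only
      have hin : ∀ x : Fin M, ∑ y : Fin m, (2 * (μHE[2] (convexHull ℝ ({p x, q x, r x} : Set E3))).toReal) *
          ((1 / (m:ℝ)) * (1 - (y : ℝ) / m)) =
          (2 * (μHE[2] (convexHull ℝ ({p x, q x, r x} : Set E3))).toReal) * ((1 + 1 / (m:ℝ)) / 2) := by
        intro x
        rw [← Finset.mul_sum, strip_sum m hm0]
      rw [Finset.sum_congr rfl (fun x _ => hin x), ← Finset.sum_mul, ← Finset.mul_sum]
      have h1 : (1:ℝ) / m ≤ η := by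
        rw [div_le_iff₀ hm0']
        rw [div_lt_iff₀ hη] at hm
        linarith
      have hS : 0 ≤ ∑ i, (μHE[2] (convexHull ℝ ({p i, q i, r i} : Set E3))).toReal :=
        Finset.sum_nonneg (fun i _ => ENNReal.toReal_nonneg)
      have hT : 0 ≤ A * (1/2 - η) := hS.trans hsum
      have hT2 : 0 ≤ 1/2 - η := nonneg_of_mul_nonneg_right hT hA
      calc 2 * (∑ i, (μHE[2] (convexHull ℝ ({p i, q i, r i} : Set E3))).toReal) * ((1 + 1 / (m:ℝ)) / 2)
          = (∑ i, (μHE[2] (convexHull ℝ ({p i, q i, r i} : Set E3))).toReal) * (1 + 1 / (m:ℝ)) := by ring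
        _ ≤ (A * (1/2 - η)) * (1 + η) := by gcongr
        _ ≤ A * (1/2 - η/2) := by
            rw [mul_assoc]
            apply mul_le_mul_of_nonneg_left _ hA.le
            nlinarith
    refine ⟨M * m, fun i => u (e.symm i).1, fun i => cc (e.symm i), fun i => aa (e.symm i), fun i => bb (e.symm i),
      fun i => hu _, ?_, ?_, ⟨A * (η/2), by positivity, ?_⟩, ?_⟩
    · intro i
      obtain ⟨h1, h2, h3⟩ := horth (e.symm i).1
      simp only [cc, aa, bb, inner_add_left, inner_sub_left, real_inner_smul_left, h1, h2, h3]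
      simp
    · intro x hx
      obtain ⟨z, hz⟩ := Set.mem_iUnion.mp (hcov2 hx)
      refine Set.mem_iUnion.mpr ⟨e z, ?_⟩
      simpa using hz
    · intro v hv
      apply hdelta _ _ v hv
      rw [Equiv.sum_comp e.symm (fun z => (μHE[2] {x : E3 | ∃ s ∈ Set.Icc (0 : ℝ) 1, ∃ t ∈ Set.Icc (0 : ℝ) 1,
        x = cc z + s • aa z + t • bb z}).toReal)]
      exact htot
    · apply hfin (Fin (M * m)) (fun i => u (e.symm i).1) _ (fun i => hu _) (fun i => ENNReal.toReal_nonneg)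
      rw [Equiv.sum_comp e.symm (fun z => (μHE[2] {x : E3 | ∃ s ∈ Set.Icc (0 : ℝ) 1, ∃ t ∈ Set.Icc (0 : ℝ) 1,
        x = cc z + s • aa z + t • bb z}).toReal)]
      exact htot
  · -- open bases
    have hMpos : (0:ℝ) < M + 1 := by positivity
    have hthick : ∀ i : Fin M, ∃ ρ > 0,
        (μHE[2] (Metric.thickening ρ (convexHull ℝ ({p i, q i, r i} : Set E3)) ∩ {x | inner ℝ x (u i) = 0})).toReal ≤
          (μHE[2] (convexHull ℝ ({p i, q i, r i} : Set E3))).toReal + A * (η / 2) / (M + 1) := fun i =>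
      thicken (u i) (ne_zero_of_norm_one (hu i)) _ (triangle_compact _ _ _)
        (triangle_orth (horth i).1 (horth i).2.1 (horth i).2.2) _ (by positivity)
    choose ρ hρ0 hρ using hthick
    have htot : ∑ i, (μHE[2] (Metric.thickening (ρ i) (convexHull ℝ ({p i, q i, r i} : Set E3)) ∩
        {x | inner ℝ x (u i) = 0})).toReal ≤ A * (1/2 - η/2) := by
      calc _ ≤ ∑ i : Fin M, ((μHE[2] (convexHull ℝ ({p i, q i, r i} : Set E3))).toReal + A * (η / 2) / (M + 1)) :=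
            Finset.sum_le_sum (fun i _ => hρ i)
        _ = ∑ i : Fin M, (μHE[2] (convexHull ℝ ({p i, q i, r i} : Set E3))).toReal + M * (A * (η / 2) / (M + 1)) := by
            rw [Finset.sum_add_distrib]; simp
        _ ≤ A * (1 / 2 - η) + A * (η / 2) := by
            apply add_le_add hsum
            rw [mul_div_assoc', div_le_iff₀ hMpos]
            have : 0 < A * (η/2) := by positivity
            nlinarith
        _ = A * (1/2 - η/2) := by ring
    refine ⟨M, u, fun i => Metric.thickening (ρ i) (convexHull ℝ ({p i, q i, r i} : Set E3)) ∩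
        {x | inner ℝ x (u i) = 0}, hu, ?_, ?_, ⟨A * (η/2), by positivity, fun v hv => hdelta _ htot v hv⟩, ?_⟩
    · intro i
      refine ⟨?_, _, Metric.isOpen_thickening, rfl⟩
      exact (triangle_compact _ _ _).isBounded.thickening.subset Set.inter_subset_left
    · intro x hx
      obtain ⟨i, hi⟩ := Set.mem_iUnion.mp (hcov hx)
      obtain ⟨b, hb, τ, rfl⟩ := hi
      refine Set.mem_iUnion.mpr ⟨i, b, ⟨Metric.self_subset_thickening (hρ0 i) _ hb, ?_⟩, τ, rfl⟩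
      exact triangle_orth (horth i).1 (horth i).2.1 (horth i).2.2 b hb
    · exact hfin (Fin M) u _ hu (fun i => ENNReal.toReal_nonneg) htot

/-- the orthonormal frame of a regular tetrahedron -/
lemma frame (w : Fin 4 → E3) (ℓ : ℝ) (hℓ : 0 < ℓ) (hw : ∀ i j, i ≠ j → dist (w i) (w j) = ℓ) :
    ∃ (R : E3 ≃ₗᵢ[ℝ] E3) (m : E3),
      w 0 = m + (ℓ / 2) • R !₂[1, 0, 0] ∧ w 1 = m + (ℓ / 2) • R !₂[-1, 0, 0] ∧
      w 2 = m + (ℓ / 2) • R !₂[0, 1, Real.sqrt 2] ∧ w 3 = m + (ℓ / 2) • R !₂[0, -1, Real.sqrt 2] := by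
  obtain ⟨a, ha⟩ : ∃ a, a = w 1 - w 0 := ⟨_, rfl⟩
  obtain ⟨b, hb⟩ : ∃ b, b = w 2 - w 0 := ⟨_, rfl⟩
  obtain ⟨c, hc⟩ : ∃ c, c = w 3 - w 0 := ⟨_, rfl⟩
  have ea : inner ℝ a a = ℓ ^ 2 := by
    rw [real_inner_self_eq_norm_sq, ha, ← dist_eq_norm, hw 1 0 (by decide)]
  have eb : inner ℝ b b = ℓ ^ 2 := by
    rw [real_inner_self_eq_norm_sq, hb, ← dist_eq_norm, hw 2 0 (by decide)]
  have ec : inner ℝ c c = ℓ ^ 2 := by
    rw [real_inner_self_eq_norm_sq, hc, ← dist_eq_norm, hw 3 0 (by decide)]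
  have eab : inner ℝ a b = ℓ ^ 2 / 2 := by
    have h : ‖b - a‖ ^ 2 = ℓ ^ 2 := by
      rw [show b - a = w 2 - w 1 by rw [ha, hb]; abel, ← dist_eq_norm, hw 2 1 (by decide)]
    rw [← real_inner_self_eq_norm_sq, inner_sub_left, inner_sub_right, inner_sub_right, ea, eb,
      real_inner_comm a b] at h
    linarith
  have eac : inner ℝ a c = ℓ ^ 2 / 2 := by
    have h : ‖c - a‖ ^ 2 = ℓ ^ 2 := by
      rw [show c - a = w 3 - w 1 by rw [ha, hc]; abel, ← dist_eq_norm, hw 3 1 (by decide)]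
    rw [← real_inner_self_eq_norm_sq, inner_sub_left, inner_sub_right, inner_sub_right, ea, ec,
      real_inner_comm a c] at h
    linarith
  have ebc : inner ℝ b c = ℓ ^ 2 / 2 := by
    have h : ‖c - b‖ ^ 2 = ℓ ^ 2 := by
      rw [show c - b = w 3 - w 2 by rw [hb, hc]; abel, ← dist_eq_norm, hw 3 2 (by decide)]
    rw [← real_inner_self_eq_norm_sq, inner_sub_left, inner_sub_right, inner_sub_right, eb, ec,
      real_inner_comm b c] at h
    linarith
  have eba : inner ℝ b a = ℓ ^ 2 / 2 := by rw [real_inner_comm]; exact eab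
  have eca : inner ℝ c a = ℓ ^ 2 / 2 := by rw [real_inner_comm]; exact eac
  have ecb : inner ℝ c b = ℓ ^ 2 / 2 := by rw [real_inner_comm]; exact ebc
  have hs2 : Real.sqrt 2 ^ 2 = 2 := Real.sq_sqrt (by norm_num)
  have hs0 : Real.sqrt 2 ≠ 0 := by positivity
  let f : Fin 3 → E3 := ![(-(1 / ℓ)) • a, (1 / ℓ) • (b - c), (1 / (Real.sqrt 2 * ℓ)) • (b + c - a)]
  have hf : Orthonormal ℝ f := by
    rw [orthonormal_iff_ite]
    intro i j
    fin_cases i <;> fin_cases j <;>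
      simp only [f, Fin.zero_eta, Fin.mk_one, Fin.reduceFinMk, Matrix.cons_val_zero, Matrix.cons_val_one,
        Matrix.cons_val, real_inner_smul_left, real_inner_smul_right, inner_sub_left, inner_sub_right,
        inner_add_left, inner_add_right, ea, eb, ec, eab, eac, ebc, eba, eca, ecb] <;>
      simp <;> field_simp <;> (try ring_nf) <;> (try rw [hs2]) <;> (try norm_num)
  have hcard : Fintype.card (Fin 3) = Module.finrank ℝ E3 := by simp
  let B := basisOfOrthonormalOfCardEqFinrank hf hcard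
  have hB : (B : Fin 3 → E3) = f := coe_basisOfOrthonormalOfCardEqFinrank hf hcard
  let OB : OrthonormalBasis (Fin 3) ℝ E3 := B.toOrthonormalBasis (by rw [hB]; exact hf)
  have hOB : (OB : Fin 3 → E3) = f := by
    rw [show (OB : Fin 3 → E3) = B from Module.Basis.coe_toOrthonormalBasis _ _, hB]
  have hR : ∀ x : E3, OB.repr.symm x = x 0 • f 0 + x 1 • f 1 + x 2 • f 2 := by
    intro x
    rw [← hOB]
    have := OB.sum_repr_symm x
    rw [← this, Fin.sum_univ_three]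
  have key : ∀ x : E3, (ℓ / 2) • OB.repr.symm x = (x 0) • ((-(1/2):ℝ) • a) + (x 1) • ((1/2:ℝ) • (b - c)) +
      (x 2 / Real.sqrt 2) • ((1/2:ℝ) • (b + c - a)) := by
    intro x
    rw [hR]
    simp only [f, Matrix.cons_val_zero, Matrix.cons_val_one, Matrix.cons_val, smul_add, smul_smul]
    congr 1
    · congr 1
      · congr 1; field_simp
      · congr 1; field_simp
    · congr 1; field_simp
  refine ⟨OB.repr.symm, (1/2 : ℝ) • (w 0 + w 1), ?_, ?_, ?_, ?_⟩
  · rw [key]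
    simp only [ha, hb, hc]
    simp
    module
  · rw [key]
    simp only [ha, hb, hc]
    simp
    module
  · rw [key]
    simp only [ha, hb, hc]
    simp
    module
  · rw [key]
    simp only [ha, hb, hc]
    simp
    module

lemma image_eq (w : Fin 4 → E3) (κ : ℝ) (R : E3 ≃ₗᵢ[ℝ] E3) (m : E3)
    (h0 : w 0 = m + κ • R !₂[1, 0, 0]) (h1 : w 1 = m + κ • R !₂[-1, 0, 0])
    (h2 : w 2 = m + κ • R !₂[0, 1, Real.sqrt 2]) (h3 : w 3 = m + κ • R !₂[0, -1, Real.sqrt 2]) :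
    convexHull ℝ (Set.range w) = (fun x => m + κ • R x) '' K0 := by
  let L : E3 →ₗ[ℝ] E3 := κ • (R.toLinearEquiv : E3 →ₗ[ℝ] E3)
  let A : E3 →ᵃ[ℝ] E3 := (AffineMap.const ℝ E3 m) + L.toAffineMap
  have hA : (A : E3 → E3) = fun x => m + κ • R x := by
    ext x; simp [A, L]
  rw [← hA, K0, AffineMap.image_convexHull]
  congr 1
  rw [hA]
  simp only [Set.image_insert_eq, Set.image_singleton, ← h0, ← h1, ← h2, ← h3]
  ext x
  simp only [Set.mem_range, Set.mem_insert_iff, Set.mem_singleton_iff]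
  constructor
  · rintro ⟨i, rfl⟩
    fin_cases i <;> simp
  · rintro (rfl | rfl | rfl | rfl)
    · exact ⟨0, rfl⟩
    · exact ⟨1, rfl⟩
    · exact ⟨2, rfl⟩
    · exact ⟨3, rfl⟩

lemma K0_compact : IsCompact K0 := Set.Finite.isCompact_convexHull (𝕜 := ℝ) (Set.toFinite _)

lemma pArea_map (R : E3 ≃ₗᵢ[ℝ] E3) (x y : E3) : pArea (R x) (R y) = pArea x y := by
  unfold pArea
  rw [R.norm_map, R.norm_map, R.inner_map_map]

lemma cov_transport (κ : ℝ) (hκ : 0 < κ) (R : E3 ≃ₗᵢ[ℝ] E3) (m : E3) (T : ℝ) (hc : CovTri K0 T) :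
    CovTri ((fun x => m + κ • R x) '' K0) (κ ^ 2 * T) := by
  obtain ⟨M, u, p, q, r, hu, ho, hcov, hsum⟩ := hc
  let d : Fin M → E3 := fun i => pj (R (u i)) m
  have hRu : ∀ i, ‖R (u i)‖ = 1 := fun i => by rw [R.norm_map, hu]
  refine ⟨M, fun i => R (u i), fun i => d i + κ • R (p i), fun i => d i + κ • R (q i), fun i => d i + κ • R (r i),
    hRu, ?_, ?_, ?_⟩
  · intro i
    obtain ⟨h1, h2, h3⟩ := ho i
    simp only [d, inner_add_left, real_inner_smul_left, R.inner_map_map, h1, h2, h3, pj_inner _ _ (hRu i)]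
    simp
  · rintro x ⟨y, hy, rfl⟩
    obtain ⟨i, hi⟩ := Set.mem_iUnion.mp (hcov hy)
    obtain ⟨b, hb, t, rfl⟩ := hi
    rw [mem_convexHull_triple] at hb
    obtain ⟨α, β, g1, g2, g3, rfl⟩ := hb
    refine Set.mem_iUnion.mpr ⟨i, d i + κ • R (p i + (α • (q i - p i) + β • (r i - p i))), ?_,
      inner ℝ m (R (u i)) + κ * t, ?_⟩
    · rw [mem_convexHull_triple]
      refine ⟨α, β, g1, g2, g3, ?_⟩
      simp only [map_add, map_smul, map_sub]
      module
    · simp only [d, pj, map_add, map_smul]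
      module
  · have h1 : ∀ i, (μHE[2] (convexHull ℝ ({d i + κ • R (p i), d i + κ • R (q i), d i + κ • R (r i)} : Set E3))).toReal =
        κ ^ 2 * (μHE[2] (convexHull ℝ ({p i, q i, r i} : Set E3))).toReal := by
      intro i
      rw [area_triangle_toReal, area_triangle_toReal]
      have e1 : d i + κ • R (q i) - (d i + κ • R (p i)) = κ • R (q i - p i) := by
        rw [map_sub, smul_sub]; abel
      have e2 : d i + κ • R (r i) - (d i + κ • R (p i)) = κ • R (r i - p i) := by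
        rw [map_sub, smul_sub]; abel
      rw [e1, e2, pArea_smul_smul, pArea_map]
      ring
    simp_rw [h1]
    rw [← Finset.mul_sum]
    exact mul_le_mul_of_nonneg_left hsum (by positivity)

open scoped Pointwise in
lemma proj_transport (κ : ℝ) (hκ : 0 < κ) (R : E3 ≃ₗᵢ[ℝ] E3) (m : E3) (T : ℝ)
    (hp : ∀ v : E3, ‖v‖ = 1 → ENNReal.ofReal T ≤ μHE[2] (pj v '' K0)) (hT : 0 ≤ T) :
    ProjLB ((fun x => m + κ • R x) '' K0) (κ ^ 2 * T) := by
  intro v hv
  set v0 := R.symm v with hv0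
  have hv0n : ‖v0‖ = 1 := by rw [hv0, R.symm.norm_map, hv]
  have hRv0 : R v0 = v := by rw [hv0]; simp
  have himg : pj v '' ((fun x => m + κ • R x) '' K0) = (fun x => pj v m + x) '' (κ • (R '' (pj v0 '' K0))) := by
    rw [← Set.image_smul, Set.image_image, Set.image_image, Set.image_image, Set.image_image]
    apply Set.image_congr
    intro x _
    simp only [pj, map_sub, map_smul, hRv0, inner_add_left, real_inner_smul_left]
    have : inner ℝ (R x) v = inner ℝ x v0 := by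
      rw [← hRv0, R.inner_map_map]
    rw [this]
    module
  have hmeas : μHE[2] (pj v '' ((fun x => m + κ • R x) '' K0)) = ENNReal.ofReal (κ ^ 2) * μHE[2] (pj v0 '' K0) := by
    rw [himg, area_translate, Measure.euclideanHausdorffMeasure_smul₀ 2 hκ.ne',
      R.isometry.euclideanHausdorffMeasure_image]
    rw [ENNReal.smul_def, smul_eq_mul]
    congr 1
    rw [ENNReal.ofReal_pow hκ.le]
    push_cast
    congr 1
    rw [← Real.enorm_of_nonneg hκ.le]
    rfl
  have hfin : μHE[2] (pj v '' ((fun x => m + κ • R x) '' K0)) < ⊤ := by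
    apply proj_lt_top _ hv
    exact K0_compact.image (by fun_prop)
  have h1 : ENNReal.ofReal (κ ^ 2 * T) ≤ μHE[2] (pj v '' ((fun x => m + κ • R x) '' K0)) := by
    rw [hmeas, ENNReal.ofReal_mul (by positivity)]
    gcongr
    exact hp v0 hv0n
  exact (ENNReal.ofReal_le_iff_le_toReal hfin.ne).mp h1

/-- the statement from the standard tetrahedron data -/
theorem main (hc : CovTri K0 (Real.sqrt 2 * (1 / 2 - 1 / 1000000)))
    (hp : ∀ v : E3, ‖v‖ = 1 → ENNReal.ofReal (Real.sqrt 2) ≤ μHE[2] (pj v '' K0))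
    (w : Fin 4 → EuclideanSpace ℝ (Fin 3)) (ℓ : ℝ) (hℓ : 0 < ℓ)
    (hw : ∀ i j, i ≠ j → dist (w i) (w j) = ℓ) :
    (∃ (k : ℕ) (u c a b : Fin k → EuclideanSpace ℝ (Fin 3)),
      (∀ i, ‖u i‖ = 1) ∧
      (∀ i, inner ℝ (c i) (u i) = 0 ∧ inner ℝ (a i) (u i) = 0 ∧ inner ℝ (b i) (u i) = 0) ∧
      convexHull ℝ (Set.range w) ⊆ ⋃ i, {x : EuclideanSpace ℝ (Fin 3) |
        ∃ s ∈ Set.Icc (0 : ℝ) 1, ∃ t ∈ Set.Icc (0 : ℝ) 1, ∃ τ : ℝ, x = c i + s • a i + t • b i + τ • u i} ∧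
      (∃ δ : ℝ, 0 < δ ∧ ∀ v : EuclideanSpace ℝ (Fin 3), ‖v‖ = 1 →
        (∑ i, (μHE[2] {x : EuclideanSpace ℝ (Fin 3) |
            ∃ s ∈ Set.Icc (0 : ℝ) 1, ∃ t ∈ Set.Icc (0 : ℝ) 1, x = c i + s • a i + t • b i}).toReal) + δ ≤
          (μHE[2] ((fun y => y - inner ℝ y v • v) '' convexHull ℝ (Set.range w))).toReal / 2) ∧
      ∑ i, (μHE[2] {x : EuclideanSpace ℝ (Fin 3) |
            ∃ s ∈ Set.Icc (0 : ℝ) 1, ∃ t ∈ Set.Icc (0 : ℝ) 1, x = c i + s • a i + t • b i}).toReal /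
          (μHE[2] ((fun y => y - inner ℝ y (u i) • u i) '' convexHull ℝ (Set.range w))).toReal < 1 / 2) ∧
    (∃ (k : ℕ) (u : Fin k → EuclideanSpace ℝ (Fin 3)) (B : Fin k → Set (EuclideanSpace ℝ (Fin 3))),
      (∀ i, ‖u i‖ = 1) ∧
      (∀ i, Bornology.IsBounded (B i) ∧ ∃ O : Set (EuclideanSpace ℝ (Fin 3)), IsOpen O ∧
        B i = O ∩ {x | inner ℝ x (u i) = 0}) ∧
      convexHull ℝ (Set.range w) ⊆
        ⋃ i, {x : EuclideanSpace ℝ (Fin 3) | ∃ y ∈ B i, ∃ τ : ℝ, x = y + τ • u i} ∧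
      (∃ δ : ℝ, 0 < δ ∧ ∀ v : EuclideanSpace ℝ (Fin 3), ‖v‖ = 1 →
        (∑ i, (μHE[2] (B i)).toReal) + δ ≤
          (μHE[2] ((fun y => y - inner ℝ y v • v) '' convexHull ℝ (Set.range w))).toReal / 2) ∧
      ∑ i, (μHE[2] (B i)).toReal /
          (μHE[2] ((fun y => y - inner ℝ y (u i) • u i) '' convexHull ℝ (Set.range w))).toReal < 1 / 2) := by
  obtain ⟨R, m, h0, h1, h2, h3⟩ := frame w ℓ hℓ hw
  have himg := image_eq w (ℓ / 2) R m h0 h1 h2 h3
  rw [himg]
  apply step _ ((ℓ / 2) ^ 2 * Real.sqrt 2) (1 / 1000000) (by positivity) (by norm_num)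
  · have := cov_transport (ℓ / 2) (by positivity) R m _ hc
    rwa [← mul_assoc] at this
  · exact proj_transport (ℓ / 2) (by positivity) R m _ hp (Real.sqrt_nonneg 2)

end Crest.Agent.S0327
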