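import Mathlib
import Crest.Agent.Lib.TetraArea

set_option autoImplicit false
open MeasureTheory
open scoped ENNReal

/-! Pieces of radial sweeps lie in triangular cylinders. -/

namespace Crest.Agent.Lib.TetraSweep

open Crest.Agent.Lib.TetraArea

/-- Apex of the covering triangle. -/
noncomputable def vP (a b p₀ : E3) (C t₀ t₁ : ℝ) : E3 :=
  p₀ + (-2 * C * (t₁ - t₀)) • a + (-2 * C * (t₁ - t₀) * t₀ - C * (t₁ - t₀) ^ 2) • b

noncomputable def vQ (a b p₀ : E3) (C t₀ t₁ B : ℝ) : E3 :=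
  vP a b p₀ C t₀ t₁ + (B + 2 * C * (t₁ - t₀)) • (a + t₀ • b)

noncomputable def vR (a b p₀ : E3) (C t₀ t₁ B : ℝ) : E3 :=
  vP a b p₀ C t₀ t₁ + (B + 2 * C * (t₁ - t₀)) • (a + t₁ • b)

theorem piece_mem (a b p₀ : E3) (C t₀ t₁ B X Y : ℝ) (ht : t₀ < t₁)
    (hm : 0 < B + 2 * C * (t₁ - t₀))
    (h1 : t₀ * X - C * (t₁ - t₀) ^ 2 ≤ Y) (h2 : Y ≤ t₁ * X + C * (t₁ - t₀) ^ 2) (h3 : X ≤ B) :
    p₀ + X • a + Y • b ∈ convexHull ℝ
      ({vP a b p₀ C t₀ t₁, vQ a b p₀ C t₀ t₁ B, vR a b p₀ C t₀ t₁ B} : Set E3) := by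
  have hd : 0 < t₁ - t₀ := by linarith
  rw [mem_convexHull_triple]
  set m := B + 2 * C * (t₁ - t₀) with hmdef
  refine ⟨(t₁ * X - Y + C * (t₁ - t₀) ^ 2) / (m * (t₁ - t₀)),
    (Y - t₀ * X + C * (t₁ - t₀) ^ 2) / (m * (t₁ - t₀)), ?_, ?_, ?_, ?_⟩
  · exact div_nonneg (by linarith) (by positivity)
  · exact div_nonneg (by linarith) (by positivity)
  · rw [← add_div, div_le_one (by positivity)]
    have : m * (t₁ - t₀) - (t₁ * X - Y + C * (t₁ - t₀) ^ 2 + (Y - t₀ * X + C * (t₁ - t₀) ^ 2)) =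
      (B - X) * (t₁ - t₀) := by rw [hmdef]; ring
    nlinarith [mul_nonneg (sub_nonneg.mpr h3) hd.le]
  · have e1 : vQ a b p₀ C t₀ t₁ B - vP a b p₀ C t₀ t₁ = m • (a + t₀ • b) := by
      unfold vQ; rw [add_sub_cancel_left]
    have e2 : vR a b p₀ C t₀ t₁ B - vP a b p₀ C t₀ t₁ = m • (a + t₁ • b) := by
      unfold vR; rw [add_sub_cancel_left]
    rw [e1, e2, smul_smul, smul_smul]
    have hne : m * (t₁ - t₀) ≠ 0 := by positivity
    have e3 : (t₁ * X - Y + C * (t₁ - t₀) ^ 2) / (m * (t₁ - t₀)) * m =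
      (t₁ * X - Y + C * (t₁ - t₀) ^ 2) / (t₁ - t₀) := by field_simp
    have e4 : (Y - t₀ * X + C * (t₁ - t₀) ^ 2) / (m * (t₁ - t₀)) * m =
      (Y - t₀ * X + C * (t₁ - t₀) ^ 2) / (t₁ - t₀) := by field_simp
    rw [e3, e4]
    unfold vP
    have e5 : ∀ (x1 y1 x2 y2 : ℝ), x1 = x2 → y1 = y2 →
        p₀ + x1 • a + y1 • b = p₀ + x2 • a + y2 • b := by
      intro x1 y1 x2 y2 hx hy; rw [hx, hy]
    have e6 : p₀ + (-2 * C * (t₁ - t₀)) • a + (-2 * C * (t₁ - t₀) * t₀ - C * (t₁ - t₀) ^ 2) • b +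
      (((t₁ * X - Y + C * (t₁ - t₀) ^ 2) / (t₁ - t₀)) • (a + t₀ • b) +
      ((Y - t₀ * X + C * (t₁ - t₀) ^ 2) / (t₁ - t₀)) • (a + t₁ • b)) =
      p₀ + (-2 * C * (t₁ - t₀) + (t₁ * X - Y + C * (t₁ - t₀) ^ 2) / (t₁ - t₀) +
        (Y - t₀ * X + C * (t₁ - t₀) ^ 2) / (t₁ - t₀)) • a +
      (-2 * C * (t₁ - t₀) * t₀ - C * (t₁ - t₀) ^ 2 +
        (t₁ * X - Y + C * (t₁ - t₀) ^ 2) / (t₁ - t₀) * t₀ +
        (Y - t₀ * X + C * (t₁ - t₀) ^ 2) / (t₁ - t₀) * t₁) • b := by module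
    rw [e6]
    apply e5
    · field_simp
      ring
    · field_simp
      ring

theorem prj_convexHull (u p q r y : E3) (hy : y ∈ convexHull ℝ ({p, q, r} : Set E3)) :
    prj u y ∈ convexHull ℝ ({prj u p, prj u q, prj u r} : Set E3) := by
  rw [mem_convexHull_triple] at hy ⊢
  obtain ⟨α, β, h0, h1, h2, rfl⟩ := hy
  refine ⟨α, β, h0, h1, h2, ?_⟩
  rw [prj_add, prj_add, prj_smul, prj_smul, prj_sub, prj_sub]

theorem prj_convexHull' (u p q r y : E3)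
    (hy : y ∈ convexHull ℝ ({prj u p, prj u q, prj u r} : Set E3)) :
    ∃ z ∈ convexHull ℝ ({p, q, r} : Set E3), prj u z = y := by
  rw [mem_convexHull_triple] at hy
  obtain ⟨α, β, h0, h1, h2, rfl⟩ := hy
  refine ⟨p + (α • (q - p) + β • (r - p)), ?_, ?_⟩
  · rw [mem_convexHull_triple]
    exact ⟨α, β, h0, h1, h2, rfl⟩
  · rw [prj_add, prj_add, prj_smul, prj_smul, prj_sub, prj_sub]

/-- area of a projected wedge triangle -/
theorem area_wedge (e w a b P : E3) (t₀ t₁ m : ℝ) (he : ‖e‖ = 1) (hw : inner ℝ w e = 0)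
    (ha : inner ℝ a e = 0) (hb : inner ℝ b e = 0) (ht : t₀ ≤ t₁) :
    (μHE[2] (convexHull ℝ ({prj (e + w) P, prj (e + w) (P + m • (a + t₀ • b)),
      prj (e + w) (P + m • (a + t₁ • b))} : Set E3))).toReal =
      m ^ 2 * (t₁ - t₀) / 2 * (pArea a b / Real.sqrt (1 + ‖w‖ ^ 2)) := by
  rw [area_triangle_toReal, prj_add, prj_add, add_sub_cancel_left, add_sub_cancel_left, prj_smul,
    prj_smul, pArea_smul_smul, prj_add, prj_add, prj_smul, prj_smul, pArea_wedge _ _ _ _ ht,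
    pArea_prj_tilt e w a b he hw ha hb]
  ring

theorem area_wedge_lt_top (P Q R : E3) :
    μHE[2] (convexHull ℝ ({P, Q, R} : Set E3)) ≠ ⊤ := by
  rw [area_triangle]
  exact ENNReal.ofReal_ne_top

end Crest.Agent.Lib.TetraSweep
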