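import Mathlib
import Crest.Agent.Lib.TetraArea
import Crest.Agent.Lib.TetraSweep

set_option autoImplicit false
open MeasureTheory
open scoped ENNReal

/-! Explicit cylinder cover of the regular tetrahedron and its minimal projection. -/

namespace Crest.Agent.Lib.TetraCover

open Crest.Agent.Lib.TetraArea Crest.Agent.Lib.TetraSweep

/-- A point of a sweep piece, modulo the tag direction, lies in the covering triangle. -/
theorem sweep_point (a b p₀ e w₀ : E3) (C t₀ t₁ B L K Λ M ρ τ s R : ℝ) (ht : t₀ < t₁)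
    (hL : 0 ≤ L) (hC : L * K ≤ C) (hC0 : 0 < C)
    (hτ : τ ∈ Set.Icc t₀ t₁) (hρ : 0 ≤ ρ) (hρR : ρ ≤ R) (hs : |s| ≤ L)
    (hΛ : |Λ| ≤ K * (t₁ - t₀)) (hM0 : |M - t₀ * Λ| ≤ K * (t₁ - t₀) ^ 2)
    (hM1 : |t₁ * Λ - M| ≤ K * (t₁ - t₀) ^ 2) (hB : R + C * (t₁ - t₀) ≤ B) :
    ∃ z ∈ convexHull ℝ
      ({vP a b p₀ C t₀ t₁, vQ a b p₀ C t₀ t₁ B, vR a b p₀ C t₀ t₁ B} : Set E3),
      p₀ + ρ • (a + τ • b) + s • (e + (w₀ + Λ • a + M • b)) = z + s • (e + w₀) := by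
  have hd : 0 < t₁ - t₀ := by linarith
  have hCd : 0 < C * (t₁ - t₀) := by positivity
  refine ⟨p₀ + (ρ + s * Λ) • a + (ρ * τ + s * M) • b, ?_, by module⟩
  have key : ∀ x y : ℝ, 0 ≤ y → |x| ≤ K * y → |s * x| ≤ C * y := by
    intro x y hy hx
    rw [abs_mul]
    calc |s| * |x| ≤ L * (K * y) := mul_le_mul hs hx (abs_nonneg _) hL
      _ = (L * K) * y := by ring
      _ ≤ C * y := mul_le_mul_of_nonneg_right hC hy
  have k1 := key Λ (t₁ - t₀) hd.le hΛ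
  have k2 := key (M - t₀ * Λ) ((t₁ - t₀) ^ 2) (by positivity) hM0
  have k3 := key (t₁ * Λ - M) ((t₁ - t₀) ^ 2) (by positivity) hM1
  rw [abs_le] at k1 k2 k3
  apply piece_mem
  · exact ht
  · have : 0 ≤ R := hρ.trans hρR
    nlinarith
  · nlinarith [mul_nonneg hρ (sub_nonneg.mpr hτ.1), k2.1]
  · nlinarith [mul_nonneg hρ (sub_nonneg.mpr hτ.2), k3.1]
  · linarith [k1.2]

theorem sum_tele (N : ℕ) (F : Fin (N + 1) → ℝ) :
    ∑ i : Fin N, (F i.succ - F i.castSucc) = F (Fin.last N) - F 0 := by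
  induction N with
  | zero => simp
  | succ n ih =>
    rw [Fin.sum_univ_castSucc]
    have h := ih (fun i => F i.castSucc)
    simp only [Fin.succ_castSucc] at h ⊢
    rw [h]
    simp

theorem find_piece {N : ℕ} {t : Fin (N + 1) → ℝ} {α β τ : ℝ} (hαβ : α < β)
    (h0 : t 0 = α) (h1 : t (Fin.last N) = β) (hτ : τ ∈ Set.Icc α β) :
    ∃ i : Fin N, t i.castSucc ≤ τ ∧ τ ≤ t i.succ := by
  by_contra hcon
  push Not at hcon
  have hall : ∀ k : Fin (N + 1), t k ≤ τ := by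
    intro k
    induction k using Fin.induction with
    | zero => rw [h0]; exact hτ.1
    | succ i ih => exact (hcon i ih).le
  cases N with
  | zero =>
    have : (Fin.last 0) = (0 : Fin 1) := rfl
    rw [this, h0] at h1
    linarith
  | succ n =>
    have h2 := hcon (Fin.last n) (hall _)
    rw [Fin.succ_last, h1] at h2
    linarith [hτ.2]

theorem exists_param (σ x y s : ℝ) (hy : |y| ≤ s) : ∃ t ρ : ℝ, -1 ≤ t ∧ t ≤ 1 ∧ 0 ≤ ρ ∧
    s = ρ + x * (σ * t / 2) ∧ y = ρ * t + x * (σ * (t ^ 2 + 1) / 4) := by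
  have hs : 0 ≤ s := (abs_nonneg y).trans hy
  have hy2 : y ^ 2 ≤ s ^ 2 := by rw [← sq_abs y]; exact pow_le_pow_left₀ (abs_nonneg _) hy 2
  rw [abs_le] at hy
  set D : ℝ := s ^ 2 - σ * x * y + σ ^ 2 * x ^ 2 / 4 with hD
  have hD0 : 0 ≤ D := by nlinarith [sq_nonneg (y - σ * x / 2)]
  set ρ := Real.sqrt D with hρ
  have hρ0 : 0 ≤ ρ := Real.sqrt_nonneg _
  have hρ2 : ρ ^ 2 = D := Real.sq_sqrt hD0
  by_cases h0 : s + ρ = 0
  · have hs0 : s = 0 := by linarith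
    have hr0 : ρ = 0 := by linarith
    have hy0 : y = 0 := by
      rw [hs0] at hy
      linarith [hy.1, hy.2]
    have h3 : (σ * x) ^ 2 = 0 := by
      rw [hr0, hD, hs0, hy0] at hρ2
      linarith
    have h4 : σ * x = 0 := by
      exact pow_eq_zero_iff (two_ne_zero) |>.mp h3
    refine ⟨0, 0, by norm_num, by norm_num, le_refl _, by rw [hs0]; ring, ?_⟩
    rw [hy0]
    linear_combination (-1 / 4) * h4
  · have hpos : 0 < s + ρ := lt_of_le_of_ne (by linarith) (Ne.symm h0)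
    set t := (2 * y - σ * x / 2) / (s + ρ) with ht
    have htm : t * (s + ρ) = 2 * y - σ * x / 2 := by rw [ht]; field_simp
    have e1 : s - ρ = x * σ * t / 2 := by
      have : (s - ρ) * (s + ρ) = (x * σ * t / 2) * (s + ρ) := by
        have e2 : (s - ρ) * (s + ρ) = s ^ 2 - ρ ^ 2 := by ring
        rw [e2, hρ2, hD]
        linear_combination (-(x * σ) / 2) * htm
      exact mul_right_cancel₀ hpos.ne' this
    refine ⟨t, ρ, ?_, ?_, hρ0, ?_, ?_⟩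
    · rw [ht, le_div_iff₀ hpos]
      by_contra hcon
      push Not at hcon
      have h5 : ρ < -(2 * y - σ * x / 2) - s := by linarith
      have h6 : ρ ^ 2 < (-(2 * y - σ * x / 2) - s) ^ 2 := pow_lt_pow_left₀ h5 hρ0 (by norm_num)
      rw [hρ2, hD] at h6
      have h7 : 0 ≤ -(4 * y) + x * σ := by nlinarith
      nlinarith [mul_nonneg (by linarith [hy.1] : (0:ℝ) ≤ y + s) h7]
    · rw [ht, div_le_iff₀ hpos]
      by_contra hcon
      push Not at hcon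
      have h5 : ρ < (2 * y - σ * x / 2) - s := by linarith
      have h6 : ρ ^ 2 < ((2 * y - σ * x / 2) - s) ^ 2 := pow_lt_pow_left₀ h5 hρ0 (by norm_num)
      rw [hρ2, hD] at h6
      have h7 : 0 ≤ (4 * y) - x * σ := by nlinarith
      nlinarith [mul_nonneg (by linarith [hy.2] : (0:ℝ) ≤ s - y) h7]
    · linear_combination e1
    · have e3 : t * (2 * ρ + x * σ * t / 2) = 2 * y - σ * x / 2 := by
        rw [← htm]
        have : s + ρ = 2 * ρ + x * σ * t / 2 := by linear_combination e1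
        rw [this]
      linear_combination (-1 / 2) * e3

/-- The radius function. -/
noncomputable def rad (t : ℝ) : ℝ := 1 / 2 + 33 / 204800 * (t ^ 2 + t ^ 4)

theorem dichotomy (x y s t ρ t' ρ' : ℝ) (ht0 : -1 ≤ t) (ht1 : t ≤ 1) (ht'0 : -1 ≤ t')
    (ht'1 : t' ≤ 1)
    (h1 : s = ρ + x * ((1 / 20) * t / 2)) (h2 : y = ρ * t + x * ((1 / 20) * (t ^ 2 + 1) / 4))
    (h3 : 1 - s = ρ' + y * ((-1 / 20) * t' / 2))
    (h4 : x = ρ' * t' + y * ((-1 / 20) * (t' ^ 2 + 1) / 4)) :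
    ρ ≤ rad t ∨ ρ' ≤ rad t' := by
  by_contra hcon
  push Not at hcon
  obtain ⟨hr, hr'⟩ := hcon
  unfold rad at hr hr'
  have t2 : t ^ 2 ≤ 1 := by nlinarith
  have t2' : t' ^ 2 ≤ 1 := by nlinarith
  set α := ρ - 1 / 2 with hα
  set α' := ρ' - 1 / 2 with hα'
  have hαpos : 0 ≤ α := by nlinarith [sq_nonneg t, sq_nonneg (t ^ 2)]
  have hα'pos : 0 ≤ α' := by nlinarith [sq_nonneg t', sq_nonneg (t' ^ 2)]
  set Z := y * t' - x * t with hZ
  have eq1 : α + α' = Z / 40 := by rw [hα, hα', hZ]; linarith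
  have eq2 : Z * (1 + (t ^ 2 + 1) * (t' ^ 2 + 1) / 6400) = (α - α') * (t * t') +
      (1 / 160) * (2 * t ^ 2 * t' ^ 2 + t ^ 2 + t' ^ 2) +
      (1 / 80) * (α' * (t' ^ 2 * (t ^ 2 + 1)) + α * (t ^ 2 * (t' ^ 2 + 1))) := by
    rw [hα, hα', hZ]
    linear_combination (t' + t * (t' ^ 2 + 1) / 80) * h2 + (-t + t' * (t ^ 2 + 1) / 80) * h4
  have b1 : (α - α') * (t * t') ≤ α + α' := by
    have h5 : |t * t'| ≤ 1 := by
      rw [abs_mul]
      exact mul_le_one₀ (abs_le.mpr ⟨ht0, ht1⟩) (abs_nonneg _) (abs_le.mpr ⟨ht'0, ht'1⟩)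
    rw [abs_le] at h5
    nlinarith [mul_nonneg hαpos (by linarith [h5.2] : (0:ℝ) ≤ 1 - t * t'),
      mul_nonneg hα'pos (by linarith [h5.1] : (0:ℝ) ≤ 1 + t * t')]
  have b2 : t' ^ 2 * (t ^ 2 + 1) ≤ 2 := by nlinarith [sq_nonneg t, sq_nonneg t']
  have b3 : t ^ 2 * (t' ^ 2 + 1) ≤ 2 := by nlinarith [sq_nonneg t, sq_nonneg t']
  have b4 : α' * (t' ^ 2 * (t ^ 2 + 1)) ≤ α' * 2 := mul_le_mul_of_nonneg_left b2 hα'pos
  have b5 : α * (t ^ 2 * (t' ^ 2 + 1)) ≤ α * 2 := mul_le_mul_of_nonneg_left b3 hαpos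
  have hZ0 : 0 ≤ Z := by linarith
  have b6 : Z ≤ Z * (1 + (t ^ 2 + 1) * (t' ^ 2 + 1) / 6400) :=
    le_mul_of_one_le_right hZ0 (by
      have : 0 ≤ (t ^ 2 + 1) * (t' ^ 2 + 1) / 6400 := by positivity
      linarith)
  have b7 : 2 * t ^ 2 * t' ^ 2 ≤ t ^ 4 + t' ^ 4 := by nlinarith [sq_nonneg (t ^ 2 - t' ^ 2)]
  have b8 : 0 ≤ t ^ 2 := sq_nonneg _
  have b9 : 0 ≤ t' ^ 2 := sq_nonneg _
  have b10 : 0 ≤ t ^ 2 * t' ^ 2 := by positivity
  have b11 : 0 ≤ t ^ 4 := by positivity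
  have b12 : 0 ≤ t' ^ 4 := by positivity
  linarith

/-- polynomial upper bound for the area density -/
theorem density_bound (t : ℝ) (ht0 : -1 ≤ t) (ht1 : t ≤ 1) :
    (rad t + 1 / 10000000) ^ 2 * (Real.sqrt (1 + (t ^ 4 + 10 * t ^ 2 + 1) / 6400))⁻¹ ≤
      1 / 4 + (-4 - 7 * t ^ 2 + 29 * t ^ 4) / 204800 + 5 / 10000000 := by
  set x := t ^ 2 with hx
  have hx0 : 0 ≤ x := sq_nonneg _
  have hx1 : x ≤ 1 := by rw [hx]; nlinarith
  have h4 : t ^ 4 = x ^ 2 := by rw [hx]; ring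
  unfold rad
  rw [h4, ← hx]
  set W := (x ^ 2 + 10 * x + 1) / 6400 with hW
  have hW0 : 0 ≤ W := by positivity
  have hW1 : W ≤ 12 / 6400 := by rw [hW]; nlinarith
  have hsq : 1 + W / 2 - W ^ 2 / 8 ≤ Real.sqrt (1 + W) := by
    apply Real.le_sqrt_of_sq_le
    have : 1 + W - (1 + W / 2 - W ^ 2 / 8) ^ 2 = W ^ 3 * (8 - W) / 64 := by ring
    have h5 : 0 ≤ W ^ 3 * (8 - W) / 64 := by
      have : 0 ≤ 8 - W := by linarith
      positivity
    linarith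
  have hpos : 0 < Real.sqrt (1 + W) := Real.sqrt_pos.mpr (by linarith)
  rw [← div_eq_mul_inv, div_le_iff₀ hpos]
  have hP0 : 0 ≤ 1 / 4 + (-4 - 7 * x + 29 * x ^ 2) / 204800 + 5 / 10000000 := by nlinarith [sq_nonneg x]
  refine le_trans ?_ (mul_le_mul_of_nonneg_left hsq hP0)
  rw [hW]
  have hx2 : x ^ 2 ≤ x := by nlinarith
  have hx3 : 0 ≤ x * (1 - x) := by nlinarith
  nlinarith [mul_nonneg hx0 hx0, mul_nonneg hx0 (sub_nonneg.mpr hx1), pow_nonneg hx0 3, pow_nonneg hx0 4,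
    pow_le_one₀ (n := 3) hx0 hx1, pow_le_one₀ (n := 4) hx0 hx1, pow_nonneg hx0 5, pow_nonneg hx0 6,
    pow_le_one₀ (n := 5) hx0 hx1, pow_le_one₀ (n := 6) hx0 hx1]

theorem cyl_unit (u z : E3) (s : ℝ) (hn : 0 < ‖u‖) : z + s • u =
    prj u z + ((inner ℝ z u / ‖u‖ ^ 2 + s) * ‖u‖) • ((1 / ‖u‖) • u) := by
  rw [smul_smul, mul_assoc, mul_one_div_cancel hn.ne', mul_one, add_smul, ← add_assoc,
    ← eq_prj_add]

set_option maxHeartbeats 4000000 in
/-- one covering piece -/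
theorem piece (e a b p₀ : E3) (he : ‖e‖ = 1) (hae : inner ℝ a e = 0) (hbe : inner ℝ b e = 0)
    (hab : inner ℝ a b = 0) (ha : ‖a‖ ^ 2 = 2) (hb : ‖b‖ = 1) (ς : ℝ) (hς : |ς| = 1 / 20)
    (t₀ : ℝ) (h0 : -1 ≤ t₀) (h1 : t₀ + 1 / 1000000 ≤ 1) :
    ∃ u p q r : E3, ‖u‖ = 1 ∧ (inner ℝ p u = 0 ∧ inner ℝ q u = 0 ∧ inner ℝ r u = 0) ∧
      (∀ t ∈ Set.Icc t₀ (t₀ + 1 / 1000000), ∀ ρ, 0 ≤ ρ → ρ ≤ rad t → ∀ s : ℝ, |s| ≤ 1 →
        ∃ y ∈ convexHull ℝ ({p, q, r} : Set E3), ∃ σ : ℝ,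
          p₀ + ρ • (a + t • b) + s • (e + ((ς * t / 2) • a + (ς * (t ^ 2 + 1) / 4) • b)) =
            y + σ • u) ∧
      (μHE[2] (convexHull ℝ ({p, q, r} : Set E3))).toReal ≤
        (Real.sqrt 2 / 2) * ((1 / 1000000) *
          (1 / 4 + (-4 - 7 * t₀ ^ 2 + 29 * t₀ ^ 4) / 204800 + 5 / 10000000)) := by
  set w : ℝ → E3 := fun t => (ς * t / 2) • a + (ς * (t ^ 2 + 1) / 4) • b with hw
  have hwe : ∀ t, inner ℝ (w t) e = 0 := by
    intro t
    simp only [hw, inner_add_left, real_inner_smul_left, hae, hbe]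
    ring
  have hu : e + w t₀ ≠ 0 := e_add_ne_zero e (w t₀) he (hwe t₀)
  have hun : 0 < ‖e + w t₀‖ := by simpa using hu
  set t₁ := t₀ + 1 / 1000000 with ht₁
  set δ : ℝ := t₁ - t₀ with hδ
  have hδ' : δ = 1 / 1000000 := by rw [hδ, ht₁]; ring
  have ht01 : t₀ < t₁ := by rw [ht₁]; linarith
  set B : ℝ := rad t₀ + 5 / 100000000 with hB
  have hu' : ∀ x : E3, inner ℝ x (e + w t₀) = 0 → inner ℝ x ((1 / ‖e + w t₀‖) • (e + w t₀)) = 0 := by
    intro x hx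
    rw [real_inner_smul_right, hx, mul_zero]
  have hς2 : ς ^ 2 = 1 / 400 := by rw [← sq_abs, hς]; norm_num
  have hwn : ‖w t₀‖ ^ 2 = (t₀ ^ 4 + 10 * t₀ ^ 2 + 1) / 6400 := by
    simp only [hw]
    rw [← real_inner_self_eq_norm_sq]
    simp only [inner_add_left, inner_add_right, real_inner_smul_left, real_inner_smul_right]
    rw [real_inner_self_eq_norm_sq, real_inner_self_eq_norm_sq, real_inner_comm a b, hab, ha, hb]
    linear_combination (t₀ ^ 2 / 2 + (t₀ ^ 2 + 1) ^ 2 / 16) * hς2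
  have hpab : pArea a b = Real.sqrt 2 := by
    unfold pArea
    rw [ha, hb, hab]
    norm_num
  refine ⟨(1 / ‖e + w t₀‖) • (e + w t₀), prj (e + w t₀) (vP a b p₀ (1 / 40) t₀ t₁),
    prj (e + w t₀) (vQ a b p₀ (1 / 40) t₀ t₁ B), prj (e + w t₀) (vR a b p₀ (1 / 40) t₀ t₁ B),
    ?_, ⟨hu' _ (inner_prj_self _ _ hu), hu' _ (inner_prj_self _ _ hu),
      hu' _ (inner_prj_self _ _ hu)⟩, ?_, ?_⟩
  · rw [norm_smul, Real.norm_of_nonneg (by positivity)]
    field_simp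
  · intro t ht ρ hρ0 hρ s hs
    set Λ : ℝ := ς * (t - t₀) / 2 with hΛ
    set M : ℝ := ς * (t ^ 2 - t₀ ^ 2) / 4 with hM
    have hwt : (ς * t / 2) • a + (ς * (t ^ 2 + 1) / 4) • b = w t₀ + Λ • a + M • b := by
      simp only [hw, hΛ, hM]
      module
    have htt : 0 ≤ t - t₀ := by linarith [ht.1]
    have htt' : t - t₀ ≤ δ := by rw [hδ]; linarith [ht.2]
    have hrad : rad t + 1 / 40 * (t₁ - t₀) ≤ B := by
      rw [← hδ, hδ', hB]
      unfold rad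
      have ht1' : t ≤ 1 := by linarith [ht.2]
      have ht0' : -1 ≤ t := by linarith [ht.1]
      have e1 : t ^ 2 - t₀ ^ 2 ≤ 2 * (1 / 1000000) := by
        rw [hδ'] at htt'
        nlinarith
      have e2 : t ^ 4 - t₀ ^ 4 ≤ 4 * (1 / 1000000) := by
        have e3 : t ^ 4 - t₀ ^ 4 = (t ^ 2 - t₀ ^ 2) * (t ^ 2 + t₀ ^ 2) := by ring
        have e4 : t ^ 2 + t₀ ^ 2 ≤ 2 := by nlinarith
        rw [e3]
        by_cases hneg : t ^ 2 - t₀ ^ 2 ≤ 0
        · nlinarith [mul_nonneg (by linarith : 0 ≤ -(t ^ 2 - t₀ ^ 2)) (by positivity : 0 ≤ t ^ 2 + t₀ ^ 2)]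
        · push Not at hneg
          calc (t ^ 2 - t₀ ^ 2) * (t ^ 2 + t₀ ^ 2) ≤ (2 * (1 / 1000000)) * 2 :=
              mul_le_mul e1 e4 (by positivity) (by norm_num)
            _ = _ := by norm_num
      linarith
    obtain ⟨z, hz, hz2⟩ := sweep_point a b p₀ e (w t₀) (1 / 40) t₀ t₁ B 1 (1 / 40) Λ M ρ t s (rad t)
      ht01 (by norm_num) (by norm_num) (by norm_num) ht hρ0 hρ hs
      (by
        rw [hΛ, abs_div, abs_mul, hς, abs_of_nonneg htt]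
        rw [← hδ]
        norm_num
        linarith)
      (by
        have e5 : M - t₀ * Λ = ς * (t - t₀) ^ 2 / 4 := by rw [hM, hΛ]; ring
        rw [e5, abs_div, abs_mul, hς, abs_of_nonneg (sq_nonneg (t - t₀)), ← hδ]
        have : (t - t₀) ^ 2 ≤ δ ^ 2 := pow_le_pow_left₀ htt htt' 2
        norm_num
        nlinarith [sq_nonneg δ])
      (by
        have e5 : t₁ * Λ - M = ς * ((t - t₀) * (t₁ - (t + t₀) / 2)) / 2 := by rw [hM, hΛ]; ring
        have e6 : 0 ≤ t₁ - (t + t₀) / 2 := by linarith [ht.2]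
        have e7 : t₁ - (t + t₀) / 2 ≤ δ := by rw [hδ]; linarith
        rw [e5, abs_div, abs_mul, hς, abs_of_nonneg (mul_nonneg htt e6), ← hδ]
        have : (t - t₀) * (t₁ - (t + t₀) / 2) ≤ δ * δ := mul_le_mul htt' e7 e6 (by linarith)
        norm_num
        nlinarith)
      hrad
    refine ⟨prj (e + w t₀) z, prj_convexHull _ _ _ _ _ hz,
      (inner ℝ z (e + w t₀) / ‖e + w t₀‖ ^ 2 + s) * ‖e + w t₀‖, ?_⟩
    rw [hwt, hz2]
    exact cyl_unit (e + w t₀) z s hun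
  · have harea := area_wedge e (w t₀) a b (vP a b p₀ (1 / 40) t₀ t₁) t₀ t₁ (B + 2 * (1 / 40) * (t₁ - t₀))
      he (hwe t₀) hae hbe ht01.le
    have h3 : B + 2 * (1 / 40) * (t₁ - t₀) = rad t₀ + 1 / 10000000 := by
      rw [← hδ, hδ', hB]
      ring
    have h4 : (μHE[2] (convexHull ℝ ({prj (e + w t₀) (vP a b p₀ (1 / 40) t₀ t₁),
      prj (e + w t₀) (vQ a b p₀ (1 / 40) t₀ t₁ B), prj (e + w t₀) (vR a b p₀ (1 / 40) t₀ t₁ B)} : Set E3))).toReal
      = (B + 2 * (1 / 40) * (t₁ - t₀)) ^ 2 * (t₁ - t₀) / 2 * (pArea a b / Real.sqrt (1 + ‖w t₀‖ ^ 2)) := harea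
    rw [h4, h3, ← hδ, hδ', hpab, hwn]
    have h5 := density_bound t₀ h0 (by linarith)
    have h6 : (rad t₀ + 1 / 10000000) ^ 2 * (1 / 1000000) / 2 *
        (Real.sqrt 2 / Real.sqrt (1 + (t₀ ^ 4 + 10 * t₀ ^ 2 + 1) / 6400)) =
        (Real.sqrt 2 / 2 * (1 / 1000000)) * ((rad t₀ + 1 / 10000000) ^ 2 *
          (Real.sqrt (1 + (t₀ ^ 4 + 10 * t₀ ^ 2 + 1) / 6400))⁻¹) := by
      rw [div_eq_mul_inv (Real.sqrt 2)]
      ring
    rw [h6]
    have h7 : 0 ≤ Real.sqrt 2 / 2 * (1 / 1000000) := by positivity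
    have h8 := mul_le_mul_of_nonneg_left h5 h7
    linarith

/-- antiderivative used for the telescoping bound -/
noncomputable def prim (t : ℝ) : ℝ := (1 / 4 + 5 / 10000000 + 1 / 1000000000) * t +
  (-4 * t - 7 / 3 * t ^ 3 + 29 / 5 * t ^ 5) / 204800

theorem prim_step (t : ℝ) (h0 : -1 ≤ t) (h1 : t ≤ 1) :
    (1 / 1000000) * (1 / 4 + (-4 - 7 * t ^ 2 + 29 * t ^ 4) / 204800 + 5 / 10000000) ≤
      prim (t + 1 / 1000000) - prim t := by
  unfold prim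
  have h3 : -1 ≤ t ^ 3 := by nlinarith [sq_nonneg t, sq_nonneg (t + 1)]
  have h2 : 0 ≤ t ^ 2 := sq_nonneg t
  nlinarith

theorem half_cover (e a b p₀ : E3) (he : ‖e‖ = 1) (hae : inner ℝ a e = 0) (hbe : inner ℝ b e = 0)
    (hab : inner ℝ a b = 0) (ha : ‖a‖ ^ 2 = 2) (hb : ‖b‖ = 1) (ς : ℝ) (hς : |ς| = 1 / 20)
    (N : ℕ) (hN : (N : ℝ) = 2000000) :
    ∃ u p q r : Fin N → E3, (∀ i, ‖u i‖ = 1) ∧
      (∀ i, inner ℝ (p i) (u i) = 0 ∧ inner ℝ (q i) (u i) = 0 ∧ inner ℝ (r i) (u i) = 0) ∧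
      (∀ t ∈ Set.Icc (-1 : ℝ) 1, ∀ ρ, 0 ≤ ρ → ρ ≤ rad t → ∀ s : ℝ, |s| ≤ 1 →
        ∃ i, ∃ y ∈ convexHull ℝ ({p i, q i, r i} : Set E3), ∃ σ : ℝ,
          p₀ + ρ • (a + t • b) + s • (e + ((ς * t / 2) • a + (ς * (t ^ 2 + 1) / 4) • b)) =
            y + σ • u i) ∧
      ∑ i, (μHE[2] (convexHull ℝ ({p i, q i, r i} : Set E3))).toReal ≤
        (Real.sqrt 2 / 2) * (1 / 2 - 4 / 1000000) := by
  set T : Fin (N + 1) → ℝ := fun i => -1 + (i : ℝ) / 1000000 with hT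
  have hT0 : T 0 = -1 := by simp [hT]
  have hT1 : T (Fin.last N) = 1 := by
    simp only [hT, Fin.val_last, hN]
    norm_num
  have hTs : ∀ i : Fin N, T i.succ = T i.castSucc + 1 / 1000000 := by
    intro i
    simp only [hT, Fin.val_succ, Fin.val_castSucc]
    push_cast
    ring
  have hTm : Monotone T := by
    intro i j hij
    simp only [hT]
    have : (i : ℝ) ≤ (j : ℝ) := by exact_mod_cast hij
    linarith
  have hge : ∀ i, -1 ≤ T i := fun i => by rw [← hT0]; exact hTm (Fin.zero_le _)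
  have hle : ∀ i, T i ≤ 1 := fun i => by rw [← hT1]; exact hTm (Fin.le_last _)
  have key := fun i : Fin N => piece e a b p₀ he hae hbe hab ha hb ς hς (T i.castSucc) (hge _)
    (by rw [← hTs]; exact hle _)
  choose u p q r hu horth hcov harea using key
  refine ⟨u, p, q, r, hu, horth, ?_, ?_⟩
  · intro t ht ρ hρ0 hρ s hs
    obtain ⟨i, hi1, hi2⟩ := find_piece (by norm_num) hT0 hT1 ht
    rw [hTs] at hi2
    exact ⟨i, hcov i t ⟨hi1, hi2⟩ ρ hρ0 hρ s hs⟩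
  · calc ∑ i, (μHE[2] (convexHull ℝ ({p i, q i, r i} : Set E3))).toReal ≤
        ∑ i : Fin N, (Real.sqrt 2 / 2) * (prim (T i.succ) - prim (T i.castSucc)) := by
          apply Finset.sum_le_sum
          intro i _
          refine (harea i).trans ?_
          apply mul_le_mul_of_nonneg_left _ (by positivity)
          rw [hTs]
          exact prim_step _ (hge _) (hle _)
      _ = (Real.sqrt 2 / 2) * (prim 1 - prim (-1)) := by
          rw [← Finset.mul_sum, sum_tele N (fun i => prim (T i)), hT0, hT1]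
      _ ≤ _ := by
          apply mul_le_mul_of_nonneg_left _ (by positivity)
          unfold prim
          norm_num

/-- The standard regular tetrahedron of edge length two. -/
abbrev Kstd : Set E3 :=
  convexHull ℝ {!₂[1, 0, 0], !₂[-1, 0, 0], !₂[0, 1, Real.sqrt 2], !₂[0, -1, Real.sqrt 2]}

theorem Kstd_coords (z : E3) (hz : z ∈ Kstd) :
    |z 0| ≤ 1 - z 2 / Real.sqrt 2 ∧ |z 1| ≤ z 2 / Real.sqrt 2 := by
  have h2 : (0:ℝ) < Real.sqrt 2 := by positivity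
  have hconv : Convex ℝ {z : E3 | |z 0| ≤ 1 - z 2 / Real.sqrt 2 ∧ |z 1| ≤ z 2 / Real.sqrt 2} := by
    intro x hx y hy α β hα hβ hαβ
    obtain ⟨hx1, hx2⟩ := hx
    obtain ⟨hy1, hy2⟩ := hy
    constructor
    · calc |(α • x + β • y) 0| = |α * x 0 + β * y 0| := by simp
        _ ≤ |α * x 0| + |β * y 0| := abs_add_le _ _
        _ = α * |x 0| + β * |y 0| := by rw [abs_mul, abs_mul, abs_of_nonneg hα, abs_of_nonneg hβ]
        _ ≤ α * (1 - x 2 / Real.sqrt 2) + β * (1 - y 2 / Real.sqrt 2) :=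
            add_le_add (mul_le_mul_of_nonneg_left hx1 hα) (mul_le_mul_of_nonneg_left hy1 hβ)
        _ = (α + β) - (α • x + β • y) 2 / Real.sqrt 2 := by simp; ring
        _ = _ := by rw [hαβ]
    · calc |(α • x + β • y) 1| = |α * x 1 + β * y 1| := by simp
        _ ≤ |α * x 1| + |β * y 1| := abs_add_le _ _
        _ = α * |x 1| + β * |y 1| := by rw [abs_mul, abs_mul, abs_of_nonneg hα, abs_of_nonneg hβ]
        _ ≤ α * (x 2 / Real.sqrt 2) + β * (y 2 / Real.sqrt 2) :=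
            add_le_add (mul_le_mul_of_nonneg_left hx2 hα) (mul_le_mul_of_nonneg_left hy2 hβ)
        _ = (α • x + β • y) 2 / Real.sqrt 2 := by simp; ring
  have := convexHull_min (s := ({!₂[1, 0, 0], !₂[-1, 0, 0], !₂[0, 1, Real.sqrt 2],
    !₂[0, -1, Real.sqrt 2]} : Set E3)) ?_ hconv hz
  · exact this
  · intro x hx
    simp only [Set.mem_insert_iff, Set.mem_singleton_iff] at hx
    rcases hx with rfl | rfl | rfl | rfl <;> constructor <;> simp [h2.ne']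

theorem tetra_cover : ∃ (M : ℕ) (u p q r : Fin M → E3), M ≤ 4000000 ∧ (∀ i, ‖u i‖ = 1) ∧
    (∀ i, inner ℝ (p i) (u i) = 0 ∧ inner ℝ (q i) (u i) = 0 ∧ inner ℝ (r i) (u i) = 0) ∧
    Kstd ⊆ ⋃ i, {x : E3 | ∃ b ∈ convexHull ℝ {p i, q i, r i}, ∃ t : ℝ, x = b + t • u i} ∧
    ∑ i, (μHE[2] (convexHull ℝ ({p i, q i, r i} : Set E3))).toReal ≤
      Real.sqrt 2 * (1 / 2 - 1 / 1000000) := by
  have h2 : (0:ℝ) < Real.sqrt 2 := by positivity
  have h22 : Real.sqrt 2 ^ 2 = 2 := Real.sq_sqrt (by norm_num)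
  obtain ⟨N, hN, hN'⟩ : ∃ N : ℕ, (N : ℝ) = 2000000 ∧ N + N ≤ 4000000 :=
    ⟨2000000, by norm_num, by norm_num⟩
  obtain ⟨u₁, p₁, q₁, r₁, hu₁, ho₁, hc₁, ha₁⟩ := half_cover (!₂[1, 0, 0]) (!₂[0, 0, Real.sqrt 2])
    (!₂[0, 1, 0]) 0 (by rw [EuclideanSpace.norm_eq]; simp [Fin.sum_univ_three])
    (by rw [inner_e3]; simp) (by rw [inner_e3]; simp) (by rw [inner_e3]; simp)
    (by rw [norm_sq_e3]; simp) (by rw [EuclideanSpace.norm_eq]; simp [Fin.sum_univ_three])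
    (1 / 20) (by norm_num) N hN
  obtain ⟨u₂, p₂, q₂, r₂, hu₂, ho₂, hc₂, ha₂⟩ := half_cover (!₂[0, 1, 0]) (!₂[0, 0, -Real.sqrt 2])
    (!₂[1, 0, 0]) (!₂[0, 0, Real.sqrt 2])
    (by rw [EuclideanSpace.norm_eq]; simp [Fin.sum_univ_three])
    (by rw [inner_e3]; simp) (by rw [inner_e3]; simp) (by rw [inner_e3]; simp)
    (by rw [norm_sq_e3]; simp) (by rw [EuclideanSpace.norm_eq]; simp [Fin.sum_univ_three])
    (-1 / 20) (by norm_num) N hN
  refine ⟨N + N, Fin.append u₁ u₂, Fin.append p₁ p₂, Fin.append q₁ q₂, Fin.append r₁ r₂, hN',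
    ?_, ?_, ?_, ?_⟩
  · intro i
    refine Fin.addCases (fun i => ?_) (fun i => ?_) i
    · simpa only [Fin.append_left] using hu₁ i
    · simpa only [Fin.append_right] using hu₂ i
  · intro i
    refine Fin.addCases (fun i => ?_) (fun i => ?_) i
    · simpa only [Fin.append_left] using ho₁ i
    · simpa only [Fin.append_right] using ho₂ i
  · intro z hz
    obtain ⟨hx, hy⟩ := Kstd_coords z hz
    set s := z 2 / Real.sqrt 2 with hs
    have hz2 : z 2 = s * Real.sqrt 2 := by rw [hs]; field_simp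
    have hs0 : 0 ≤ s := (abs_nonneg _).trans hy
    have hs1 : 0 ≤ 1 - s := (abs_nonneg _).trans hx
    obtain ⟨t, ρ, e1, e2, e3, e4, e5⟩ := exists_param (1 / 20) (z 0) (z 1) s hy
    obtain ⟨t', ρ', f1, f2, f3, f4, f5⟩ := exists_param (-1 / 20) (z 1) (z 0) (1 - s) hx
    rcases dichotomy (z 0) (z 1) s t ρ t' ρ' e1 e2 f1 f2 e4 e5 f4 f5 with h | h
    · obtain ⟨i, y, hy', σ, hσ⟩ := hc₁ t ⟨e1, e2⟩ ρ e3 h (z 0) (by linarith)
      rw [Set.mem_iUnion]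
      refine ⟨Fin.castAdd N i, ?_⟩
      simp only [Fin.append_left]
      refine ⟨y, hy', σ, ?_⟩
      rw [← hσ]
      ext j
      fin_cases j
      · simp
      · simp
        linarith
      · simp
        rw [hz2]
        nlinarith [e4]
    · obtain ⟨i, y, hy', σ, hσ⟩ := hc₂ t' ⟨f1, f2⟩ ρ' f3 h (z 1) (by linarith)
      rw [Set.mem_iUnion]
      refine ⟨Fin.natAdd N i, ?_⟩
      simp only [Fin.append_right]
      refine ⟨y, hy', σ, ?_⟩
      rw [← hσ]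
      ext j
      fin_cases j
      · simp
        linarith
      · simp
      · simp
        rw [hz2]
        nlinarith [f4]
  · rw [Fin.sum_univ_add]
    simp only [Fin.append_left, Fin.append_right]
    nlinarith

end Crest.Agent.Lib.TetraCover
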