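import Mathlib
import Crest.Agent.Lib.TetraArea
import Crest.Agent.Lib.TetraSweep

set_option autoImplicit false
open MeasureTheory
open scoped ENNReal

/-! The least projection area of the regular tetrahedron of edge length two is `√2`. -/

namespace Crest.Agent.Lib.TetraProj

open Crest.Agent.Lib.TetraArea Crest.Agent.Lib.TetraSweep

theorem prj_unit (v : E3) (hv : ‖v‖ = 1) (y : E3) : y - inner ℝ y v • v = prj v y := by
  unfold prj
  rw [hv]; simp

theorem ne_zero_of_unit {v : E3} (hv : ‖v‖ = 1) : v ≠ 0 := by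
  intro h; rw [h, norm_zero] at hv; norm_num at hv

theorem tri_area_prj (v A B C : E3) (hv : ‖v‖ = 1) :
    μHE[2] (convexHull ℝ ({prj v A, prj v B, prj v C} : Set E3)) =
      ENNReal.ofReal (|det3 v (B - A) (C - A)| / 2) := by
  rw [area_triangle, ← prj_sub, ← prj_sub, pArea_prj _ _ _ (ne_zero_of_unit hv), hv, div_one]

theorem tri_subset (v A B C : E3) (K : Set E3) (hK : Convex ℝ K) (hA : A ∈ K) (hB : B ∈ K)
    (hC : C ∈ K) : convexHull ℝ ({prj v A, prj v B, prj v C} : Set E3) ⊆ prj v '' K := by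
  intro y hy
  obtain ⟨z, hz, hz2⟩ := prj_convexHull' _ _ _ _ _ hy
  refine ⟨z, ?_, hz2⟩
  refine convexHull_min ?_ hK hz
  rintro x (rfl | rfl | rfl)
  · exact hA
  · exact hB
  · exact hC

theorem face_bound (v A B C : E3) (hv : ‖v‖ = 1) (K : Set E3) (hK : Convex ℝ K) (hA : A ∈ K)
    (hB : B ∈ K) (hC : C ∈ K) :
    ENNReal.ofReal (|det3 v (B - A) (C - A)| / 2) ≤ μHE[2] (prj v '' K) := by
  rw [← tri_area_prj v A B C hv]
  exact measure_mono (tri_subset v A B C K hK hA hB hC)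

theorem det3_prj (v x y : E3) : det3 v x (prj v y) = det3 v x y := by
  unfold prj
  simp only [det3, PiLp.sub_apply, PiLp.smul_apply, smul_eq_mul]
  ring

theorem quad_bound_aux (v A B C D : E3) (hv : ‖v‖ = 1) (K : Set E3) (hK : Convex ℝ K) (hA : A ∈ K)
    (hB : B ∈ K) (hC : C ∈ K) (hD : D ∈ K) (h1 : 0 < det3 v (B - A) (C - A))
    (h2 : det3 v (B - A) (D - A) ≤ 0) :
    ENNReal.ofReal (|det3 v (B - A) (C - D)| / 2) ≤ μHE[2] (prj v '' K) := by
  set T₁ : Set E3 := (fun x : E2 => prj v A + (x 0 • (prj v B - prj v A) + x 1 • (prj v C - prj v A)))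
    '' stdTri' with hT₁
  set T₂ : Set E3 := convexHull ℝ ({prj v A, prj v B, prj v D} : Set E3) with hT₂
  have ha1 : μHE[2] T₁ = ENNReal.ofReal (|det3 v (B - A) (C - A)| / 2) := by
    rw [hT₁, area_triangle', ← prj_sub, ← prj_sub, pArea_prj _ _ _ (ne_zero_of_unit hv), hv, div_one]
  have ha2 : μHE[2] T₂ = ENNReal.ofReal (|det3 v (B - A) (D - A)| / 2) :=
    tri_area_prj v A B D hv
  have hφ : ∀ x y : ℝ, ∀ E : E3, det3 v (B - A) (prj v A + (x • (prj v B - prj v A) +
      y • (prj v E - prj v A))) = det3 v (B - A) A + y * det3 v (B - A) (E - A) := by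
    intro x y E
    rw [← prj_sub, ← prj_sub, ← prj_smul, ← prj_smul, ← prj_add, ← prj_add, det3_prj]
    simp only [det3, PiLp.sub_apply, PiLp.smul_apply, PiLp.add_apply, smul_eq_mul]
    ring
  have hdisj : Disjoint T₁ T₂ := by
    rw [Set.disjoint_left]
    rintro _ ⟨x, ⟨g0, g1, g2⟩, rfl⟩ hy
    rw [hT₂, mem_convexHull_triple] at hy
    obtain ⟨α, β, k0, k1, k2, hk⟩ := hy
    have e1 := hφ (x 0) (x 1) C
    have e2 := hφ α β D
    simp only at hk
    rw [hk, e2] at e1
    have : 0 < x 1 * det3 v (B - A) (C - A) := mul_pos g1 h1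
    nlinarith [mul_nonneg k1 (neg_nonneg.mpr h2)]
  have hmeas : MeasurableSet T₂ := by
    apply IsClosed.measurableSet
    apply IsCompact.isClosed
    exact Set.Finite.isCompact_convexHull ℝ (Set.toFinite _)
  have hsub : T₁ ∪ T₂ ⊆ prj v '' K := by
    apply Set.union_subset
    · refine subset_trans ?_ (tri_subset v A B C K hK hA hB hC)
      rintro _ ⟨x, ⟨g0, g1, g2⟩, rfl⟩
      rw [mem_convexHull_triple]
      exact ⟨x 0, x 1, g0, g1.le, g2, rfl⟩
    · exact tri_subset v A B D K hK hA hB hD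
  calc ENNReal.ofReal (|det3 v (B - A) (C - D)| / 2) = μHE[2] (T₁ ∪ T₂) := by
        rw [measure_union hdisj hmeas, ha1, ha2, ← ENNReal.ofReal_add (by positivity) (by positivity)]
        congr 1
        have e3 : det3 v (B - A) (C - D) = det3 v (B - A) (C - A) - det3 v (B - A) (D - A) := by
          simp only [det3, PiLp.sub_apply]
          ring
        rw [e3, abs_of_pos h1, abs_of_nonpos h2, abs_of_pos (by linarith)]
        ring
    _ ≤ _ := measure_mono hsub

theorem quad_bound (v A B C D : E3) (hv : ‖v‖ = 1) (K : Set E3) (hK : Convex ℝ K) (hA : A ∈ K)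
    (hB : B ∈ K) (hC : C ∈ K) (hD : D ∈ K) :
    ENNReal.ofReal (|det3 v (B - A) (C - D)| / 2) ≤ μHE[2] (prj v '' K) := by
  have e3 : det3 v (B - A) (C - D) = det3 v (B - A) (C - A) - det3 v (B - A) (D - A) := by
    simp only [det3, PiLp.sub_apply]
    ring
  have e4 : |det3 v (B - A) (C - D)| = |det3 v (B - A) (D - C)| := by
    have : det3 v (B - A) (D - C) = - det3 v (B - A) (C - D) := by
      simp only [det3, PiLp.sub_apply]
      ring
    rw [this, abs_neg]
  rcases lt_or_ge 0 (det3 v (B - A) (C - A)) with h1 | h1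
  · rcases lt_or_ge 0 (det3 v (B - A) (D - A)) with h2 | h2
    · rcases le_total (det3 v (B - A) (C - A)) (det3 v (B - A) (D - A)) with h | h
      · refine le_trans ?_ (face_bound v A B D hv K hK hA hB hD)
        apply ENNReal.ofReal_le_ofReal
        rw [e3, abs_of_nonpos (by linarith), abs_of_pos h2]
        linarith
      · refine le_trans ?_ (face_bound v A B C hv K hK hA hB hC)
        apply ENNReal.ofReal_le_ofReal
        rw [e3, abs_of_nonneg (by linarith), abs_of_pos h1]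
        linarith
    · exact quad_bound_aux v A B C D hv K hK hA hB hC hD h1 h2
  · rcases lt_or_ge 0 (det3 v (B - A) (D - A)) with h2 | h2
    · rw [e4]
      exact quad_bound_aux v A B D C hv K hK hA hB hD hC h2 h1
    · rcases le_total (det3 v (B - A) (C - A)) (det3 v (B - A) (D - A)) with h | h
      · refine le_trans ?_ (face_bound v A B C hv K hK hA hB hC)
        apply ENNReal.ofReal_le_ofReal
        rw [e3, abs_of_nonpos (by linarith), abs_of_nonpos h1]
        linarith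
      · refine le_trans ?_ (face_bound v A B D hv K hK hA hB hD)
        apply ENNReal.ofReal_le_ofReal
        rw [e3, abs_of_nonneg (by linarith), abs_of_nonpos h2]
        linarith

theorem real_cases (p q z s : ℝ) (hp : 0 ≤ p) (hq : 0 ≤ q) (hz : 0 ≤ z) (hs : 0 < s)
    (hs2 : s ^ 2 = 2)
    (h1 : p ^ 2 + q ^ 2 + z ^ 2 = 1) (h2 : p + q < 1) (h3 : 2 * z < s) (h4 : s * p + z < s)
    (h5 : s * q + z < s) : False := by
  have hz2 : z ^ 2 < 1 / 2 := by nlinarith
  have key : ∀ a b : ℝ, 0 ≤ a → 0 ≤ b → b ≤ a → a + b < 1 → s * a + z < s →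
      a ^ 2 + b ^ 2 + z ^ 2 < 1 := by
    intro a b ha hb hba hab hsa
    rcases le_or_gt a (1 / 2) with h | h
    · nlinarith
    · have h6 : z < s * (1 - a) := by linarith
      have h7 : 0 ≤ 1 - a := by linarith
      have h8 : z ^ 2 < 2 * (1 - a) ^ 2 := by
        calc z ^ 2 < (s * (1 - a)) ^ 2 := pow_lt_pow_left₀ h6 hz (by norm_num)
          _ = s ^ 2 * (1 - a) ^ 2 := by ring
          _ = _ := by rw [hs2]
      have h9 : b ^ 2 ≤ (1 - a) ^ 2 := pow_le_pow_left₀ hb (by linarith) 2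
      nlinarith
  rcases le_total q p with h | h
  · have := key p q hp hq h h2 h4
    linarith
  · have := key q p hq hp h (by linarith) h5
    linarith

abbrev Kstd : Set E3 :=
  convexHull ℝ {!₂[1, 0, 0], !₂[-1, 0, 0], !₂[0, 1, Real.sqrt 2], !₂[0, -1, Real.sqrt 2]}

theorem proj_ge' (v : E3) (hv : ‖v‖ = 1) :
    ENNReal.ofReal (Real.sqrt 2) ≤ μHE[2] (prj v '' Kstd) := by
  have hK : Convex ℝ Kstd := convex_convexHull _ _
  have hA : (!₂[1, 0, 0] : E3) ∈ Kstd := subset_convexHull _ _ (by simp)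
  have hB : (!₂[-1, 0, 0] : E3) ∈ Kstd := subset_convexHull _ _ (by simp)
  have hC : (!₂[0, 1, Real.sqrt 2] : E3) ∈ Kstd := subset_convexHull _ _ (by simp)
  have hD : (!₂[0, -1, Real.sqrt 2] : E3) ∈ Kstd := subset_convexHull _ _ (by simp)
  have hs : (0:ℝ) < Real.sqrt 2 := by positivity
  have hs2 : Real.sqrt 2 ^ 2 = 2 := Real.sq_sqrt (by norm_num)
  have hn : v 0 ^ 2 + v 1 ^ 2 + v 2 ^ 2 = 1 := by rw [← norm_sq_e3, hv]; norm_num
  by_contra hcon
  have q1 := quad_bound v _ _ _ _ hv Kstd hK hA hB hC hD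
  have q2 := quad_bound v _ _ _ _ hv Kstd hK hA hC hB hD
  have q3 := quad_bound v _ _ _ _ hv Kstd hK hA hD hB hC
  have f1 := face_bound v _ _ _ hv Kstd hK hA hB hC
  have f2 := face_bound v _ _ _ hv Kstd hK hA hB hD
  have f3 := face_bound v _ _ _ hv Kstd hK hA hC hD
  have f4 := face_bound v _ _ _ hv Kstd hK hB hC hD
  have trans_lt : ∀ x : ℝ, ENNReal.ofReal x ≤ μHE[2] (prj v '' Kstd) → x < Real.sqrt 2 := by
    intro x hx
    by_contra hx2
    push Not at hx2
    exact hcon ((ENNReal.ofReal_le_ofReal hx2).trans hx)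
  replace q1 := trans_lt _ q1
  replace q2 := trans_lt _ q2
  replace q3 := trans_lt _ q3
  replace f1 := trans_lt _ f1
  replace f2 := trans_lt _ f2
  replace f3 := trans_lt _ f3
  replace f4 := trans_lt _ f4
  set s := Real.sqrt 2 with hsdef
  have d1 : det3 v (!₂[-1, 0, 0] - !₂[1, 0, 0]) (!₂[0, 1, s] - !₂[0, -1, s]) = -4 * v 2 := by
    simp [det3]; ring
  have d2 : det3 v (!₂[0, 1, s] - !₂[1, 0, 0]) (!₂[-1, 0, 0] - !₂[0, -1, s]) =
      (-2 * s) * (v 0 + v 1) := by
    simp [det3]; ring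
  have d3 : det3 v (!₂[0, -1, s] - !₂[1, 0, 0]) (!₂[-1, 0, 0] - !₂[0, 1, s]) =
      (2 * s) * (v 0 - v 1) := by
    simp [det3]; ring
  have g1 : det3 v (!₂[-1, 0, 0] - !₂[1, 0, 0]) (!₂[0, 1, s] - !₂[1, 0, 0]) =
      2 * (s * v 1 - v 2) := by
    simp [det3]; ring
  have g2 : det3 v (!₂[-1, 0, 0] - !₂[1, 0, 0]) (!₂[0, -1, s] - !₂[1, 0, 0]) =
      2 * (s * v 1 + v 2) := by
    simp [det3]; ring
  have g3 : det3 v (!₂[0, 1, s] - !₂[1, 0, 0]) (!₂[0, -1, s] - !₂[1, 0, 0]) =
      2 * (s * v 0 + v 2) := by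
    simp [det3]; ring
  have g4 : det3 v (!₂[0, 1, s] - !₂[-1, 0, 0]) (!₂[0, -1, s] - !₂[-1, 0, 0]) =
      2 * (s * v 0 - v 2) := by
    simp [det3]; ring
  rw [d1] at q1
  rw [d2] at q2
  rw [d3] at q3
  rw [g1] at f1
  rw [g2] at f2
  rw [g3] at f3
  rw [g4] at f4
  have k1 : 2 * |v 2| < s := by
    rw [abs_mul] at q1
    norm_num at q1
    linarith
  have k2 : |v 0 + v 1| < 1 := by
    rw [abs_mul, show |(-2 * s)| = 2 * s by rw [abs_mul, abs_of_pos hs]; norm_num] at q2
    by_contra hc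
    push Not at hc
    nlinarith
  have k3 : |v 0 - v 1| < 1 := by
    rw [abs_mul, show |(2 * s)| = 2 * s by rw [abs_mul, abs_of_pos hs]; norm_num] at q3
    by_contra hc
    push Not at hc
    nlinarith
  have k4 : |s * v 1 - v 2| < s := by
    rw [abs_mul] at f1; norm_num at f1; linarith
  have k5 : |s * v 1 + v 2| < s := by
    rw [abs_mul] at f2; norm_num at f2; linarith
  have k6 : |s * v 0 + v 2| < s := by
    rw [abs_mul] at f3; norm_num at f3; linarith
  have k7 : |s * v 0 - v 2| < s := by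
    rw [abs_mul] at f4; norm_num at f4; linarith
  have comb : ∀ a b c : ℝ, |a + b| < c → |a - b| < c → |a| + |b| < c := by
    intro a b c h1 h2
    rw [abs_lt] at h1 h2
    rcases abs_cases a with ⟨ha, _⟩ | ⟨ha, _⟩ <;> rcases abs_cases b with ⟨hb, _⟩ | ⟨hb, _⟩ <;>
      rw [ha, hb] <;> linarith [h1.1, h1.2, h2.1, h2.2]
  have m1 := comb _ _ _ k2 k3
  have m2 := comb _ _ _ k5 k4
  have m3 := comb _ _ _ k6 k7
  rw [abs_mul, abs_of_pos hs] at m2 m3
  exact real_cases |v 0| |v 1| |v 2| s (abs_nonneg _) (abs_nonneg _) (abs_nonneg _) hs hs2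
    (by rw [sq_abs, sq_abs, sq_abs]; exact hn) m1 k1 m3 m2

theorem proj_ge (v : E3) (hv : ‖v‖ = 1) :
    ENNReal.ofReal (Real.sqrt 2) ≤ μHE[2] ((fun y => y - inner ℝ y v • v) '' Kstd) := by
  have : (fun y => y - inner ℝ y v • v) = prj v := by ext1 y; exact prj_unit v hv y
  rw [this]
  exact proj_ge' v hv

theorem proj_eq : ∃ v : E3, ‖v‖ = 1 ∧
    μHE[2] ((fun y => y - inner ℝ y v • v) '' Kstd) = ENNReal.ofReal (Real.sqrt 2) := by
  refine ⟨!₂[1, 0, 0], by rw [EuclideanSpace.norm_eq]; simp [Fin.sum_univ_three], ?_⟩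
  set v : E3 := !₂[1, 0, 0] with hvdef
  have hv : ‖v‖ = 1 := by rw [hvdef, EuclideanSpace.norm_eq]; simp [Fin.sum_univ_three]
  apply le_antisymm _ (proj_ge v hv)
  have : (fun y => y - inner ℝ y v • v) = prj v := by ext1 y; exact prj_unit v hv y
  rw [this]
  have hsub : prj v '' Kstd ⊆ convexHull ℝ ({0, !₂[0, 1, Real.sqrt 2], !₂[0, -1, Real.sqrt 2]} : Set E3) := by
    have hlin : IsLinearMap ℝ (prj v) := ⟨prj_add v, fun r x => prj_smul v r x⟩
    rw [hlin.image_convexHull]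
    apply convexHull_mono
    rintro _ ⟨x, hx, rfl⟩
    simp only [Set.mem_insert_iff, Set.mem_singleton_iff] at hx
    have p1 : ∀ a b c : ℝ, prj v !₂[a, b, c] = !₂[0, b, c] := by
      intro a b c
      rw [← prj_unit v hv, inner_e3]
      ext j
      fin_cases j <;> simp [hvdef]
    rcases hx with rfl | rfl | rfl | rfl
    · left; rw [p1]; ext j; fin_cases j <;> simp
    · left; rw [p1]; ext j; fin_cases j <;> simp
    · right; left; rw [p1]
    · right; right; rw [p1]; rfl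
  refine (measure_mono hsub).trans ?_
  rw [area_triangle]
  apply ENNReal.ofReal_le_ofReal
  have h2 : pArea ((!₂[0, 1, Real.sqrt 2] : E3) - 0) (!₂[0, -1, Real.sqrt 2] - 0) = 2 * Real.sqrt 2 := by
    unfold pArea
    rw [norm_sq_e3, norm_sq_e3, inner_e3]
    have h3 : Real.sqrt 2 ^ 2 = 2 := Real.sq_sqrt (by norm_num)
    have h4 : (2 * Real.sqrt 2) = Real.sqrt 8 := by
      rw [show (8:ℝ) = 2 ^ 2 * 2 by norm_num, Real.sqrt_mul (by norm_num), Real.sqrt_sq (by norm_num)]
    rw [h4]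
    congr 1
    simp
    nlinarith
  rw [h2]
  linarith

end Crest.Agent.Lib.TetraProj
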