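import Crest.Agent.Lib.DetPinch
import Crest.Agent.Lib.EntScalar
import Crest.Agent.Lib.QEntropy2

/-!
The three block entropy inequality (helper94, row 341).
-/

set_option autoImplicit false
set_option linter.unusedSectionVars false
set_option linter.unusedSimpArgs false

open Matrix Crest.Quantum Crest.Agent.Lib.QEntropy Crest.Agent.Lib.EntScalar
open scoped ComplexOrder Kronecker

namespace Crest.Agent.Lib.ThreeBlock

section logdet

variable {d : Type*} [Fintype d] [DecidableEq d]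

theorem smul_one_posDef {l : ℝ} (hl : 0 < l) : ((l : ℂ) • (1 : Matrix d d ℂ)).PosDef := by
  refine PosDef.one.smul ?_
  exact_mod_cast hl

theorem shift_posDef {M : Matrix d d ℂ} (hM : M.PosSemidef) {l : ℝ} (hl : 0 < l) :
    ((l : ℂ) • (1 : Matrix d d ℂ) + M).PosDef := (smul_one_posDef hl).add_posSemidef hM

theorem log_det {M : Matrix d d ℂ} (hM : M.PosSemidef) {l : ℝ} (hl : 0 < l) :
    Real.log ‖((l : ℂ) • (1 : Matrix d d ℂ) + M).det‖ =
      ∑ i, Real.log (l + hM.1.eigenvalues i) := by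
  obtain ⟨U, hU, hMU⟩ := spectral' hM.1
  have h1 : (l : ℂ) • (1 : Matrix d d ℂ) + M =
      U * diagonal (fun i => ((l + hM.1.eigenvalues i : ℝ) : ℂ)) * star U := by
    have h2 : diagonal (fun i => ((l + hM.1.eigenvalues i : ℝ) : ℂ)) =
        (l : ℂ) • (1 : Matrix d d ℂ) + diagonal (fun i => (hM.1.eigenvalues i : ℂ)) := by
      ext i j
      by_cases hij : i = j
      · subst hij; simp
      · simp [diagonal_apply_ne _ hij, one_apply_ne hij]
    rw [h2, mul_add, add_mul, ← hMU, Matrix.mul_smul, mul_one, Matrix.smul_mul,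
      (mem_unitaryGroup_iff).1 hU]
  have h3 : ‖U.det‖ * ‖(star U).det‖ = 1 := by
    rw [← norm_mul, ← det_mul, (mem_unitaryGroup_iff).1 hU, det_one, norm_one]
  rw [h1, det_mul, det_mul, norm_mul, norm_mul, mul_right_comm, h3, one_mul, det_diagonal,
    norm_prod, Real.log_prod]
  · refine Finset.sum_congr rfl fun i _ => ?_
    have := hM.eigenvalues_nonneg i
    rw [Complex.norm_real, Real.norm_eq_abs, abs_of_pos (by positivity)]
  · intro i _
    have := hM.eigenvalues_nonneg i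
    rw [Complex.norm_real, Real.norm_eq_abs, abs_of_pos (by positivity)]
    positivity

end logdet

section detid

variable {ι κ : Type*} [Fintype ι] [DecidableEq ι] [Fintype κ] [DecidableEq κ]

theorem mul_conj_posSemidef (A : Matrix ι κ ℂ) : (A * Aᴴ).PosSemidef :=
  posSemidef_self_mul_conjTranspose A

theorem exists_factor {Q : Matrix ι ι ℂ} (hQ : Q.PosSemidef) : ∃ B : Matrix ι ι ℂ, Q = Bᴴ * B := by
  obtain ⟨U, hU, hAU⟩ := spectral' hQ.1
  set D : Matrix ι ι ℂ := diagonal (fun i => ((√(hQ.1.eigenvalues i) : ℝ) : ℂ)) with hD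
  have hDD : diagonal (fun i => (hQ.1.eigenvalues i : ℂ)) = Dᴴ * D := by
    rw [hD, diagonal_conjTranspose, diagonal_mul_diagonal]
    congr 1
    ext i
    simp only [Pi.star_apply, Complex.star_def, Complex.conj_ofReal]
    rw [← Complex.ofReal_mul, Real.mul_self_sqrt (hQ.eigenvalues_nonneg i)]
  refine ⟨D * star U, ?_⟩
  rw [hDD] at hAU
  rw [conjTranspose_mul, ← star_eq_conjTranspose (star U), star_star]
  conv_lhs => rw [hAU]
  simp only [mul_assoc]

theorem psd_blocks {Q : Matrix ι ι ℂ} {R : Matrix κ κ ℂ} (hQ : Q.PosSemidef)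
    (hR : R.PosSemidef) : (fromBlocks Q 0 0 R).PosSemidef := by
  obtain ⟨B, hB⟩ := exists_factor hQ
  obtain ⟨B', hB'⟩ := exists_factor hR
  have : fromBlocks Q 0 0 R = (fromBlocks B 0 0 B')ᴴ * fromBlocks B 0 0 B' := by
    rw [fromBlocks_conjTranspose, fromBlocks_multiply]
    simp [hB, hB']
  rw [this]
  exact posSemidef_conjTranspose_mul_self _

theorem three_eq (A C : Matrix ι κ ℂ) (Q : Matrix ι ι ℂ) :
    fromBlocks (A * Aᴴ + Q) (A * Cᴴ) (C * Aᴴ) (C * Cᴴ) =
      fromBlocks Q 0 0 0 + fromRows A C * (fromRows A C)ᴴ := by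
  rw [conjTranspose_fromRows_eq_fromCols_conjTranspose, fromRows_mul_fromCols, fromBlocks_add]
  simp [add_comm]

theorem three_posSemidef (A C : Matrix ι κ ℂ) {Q : Matrix ι ι ℂ} (hQ : Q.PosSemidef) :
    (fromBlocks (A * Aᴴ + Q) (A * Cᴴ) (C * Aᴴ) (C * Cᴴ)).PosSemidef := by
  rw [three_eq]
  exact (psd_blocks hQ PosSemidef.zero).add (mul_conj_posSemidef _)

theorem three_det (A C : Matrix ι ι ℂ) {Q : Matrix ι ι ℂ} (hQ : Q.PosSemidef) {l : ℝ}
    (hl : 0 < l) :
    ((l : ℂ) • (1 : Matrix (ι ⊕ ι) (ι ⊕ ι) ℂ) +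
      fromBlocks (A * Aᴴ + Q) (A * Cᴴ) (C * Aᴴ) (C * Cᴴ)).det =
    (fromBlocks ((l : ℂ) • (1 : Matrix ι ι ℂ) + Q) (((√l : ℝ) : ℂ) • A)
      (-(((√l : ℝ) : ℂ) • Aᴴ)) ((l : ℂ) • (1 : Matrix ι ι ℂ) + Cᴴ * C)).det := by
  have hlc : (l : ℂ) ≠ 0 := by exact_mod_cast hl.ne'
  have hP1 := shift_posDef hQ hl
  have hu : IsUnit ((l : ℂ) • (1 : Matrix ι ι ℂ) + Q).det := isUnit_iff_ne_zero.2 hP1.det_pos.ne'
  let _ : Invertible ((l : ℂ) • (1 : Matrix ι ι ℂ) + Q) := invertibleOfIsUnitDet _ hu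
  set W := (l : ℂ) • (1 : Matrix ι ι ℂ) + Q with hW
  set P : Matrix (ι ⊕ ι) (ι ⊕ ι) ℂ := fromBlocks W 0 0 ((l : ℂ) • 1) with hP
  have hdetl : ((l : ℂ) • (1 : Matrix ι ι ℂ)).det = (l : ℂ) ^ Fintype.card ι := by
    rw [det_smul, det_one, mul_one]
  have hPdet : P.det = W.det * (l : ℂ) ^ Fintype.card ι := by
    rw [hP, det_fromBlocks_zero₁₂, hdetl]
  have hPu : IsUnit P.det := by
    rw [hPdet]
    exact isUnit_iff_ne_zero.2 (mul_ne_zero hP1.det_pos.ne' (pow_ne_zero _ hlc))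
  have hPinv : P⁻¹ = fromBlocks W⁻¹ 0 0 ((l : ℂ)⁻¹ • 1) := by
    apply inv_eq_right_inv
    rw [hP, fromBlocks_multiply]
    simp only [mul_zero, zero_mul, add_zero, zero_add, smul_mul_smul_comm, mul_one]
    rw [mul_nonsing_inv _ hu, mul_inv_cancel₀ hlc, one_smul, fromBlocks_one]
  have h1 : (l : ℂ) • (1 : Matrix (ι ⊕ ι) (ι ⊕ ι) ℂ) +
      fromBlocks (A * Aᴴ + Q) (A * Cᴴ) (C * Aᴴ) (C * Cᴴ) = P + fromRows A C * (fromRows A C)ᴴ := by
    rw [three_eq, ← add_assoc]
    congr 1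
    rw [hP, ← fromBlocks_one, fromBlocks_smul, fromBlocks_add, hW]
    simp
  rw [h1, det_add_mul _ _ hPu, hPdet, hPinv, det_fromBlocks₁₁, mul_assoc, ← det_smul]
  congr 2
  rw [conjTranspose_fromRows_eq_fromCols_conjTranspose, fromCols_mul_fromBlocks,
    fromCols_mul_fromRows]
  simp only [mul_zero, zero_mul, add_zero, zero_add]
  rw [invOf_eq_nonsing_inv]
  rw [Matrix.mul_smul, mul_one, smul_add, smul_add, Matrix.smul_mul, smul_smul,
    mul_inv_cancel₀ hlc, one_smul]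
  rw [Matrix.neg_mul, Matrix.neg_mul, sub_neg_eq_add, Matrix.smul_mul, Matrix.smul_mul,
    Matrix.mul_smul, smul_smul, ← Complex.ofReal_mul, Real.mul_self_sqrt hl.le]
  abel

end detid

section diag

variable {ι : Type*} [Fintype ι] [DecidableEq ι]

/-- the logarithmic form of the pinching inequality -/
theorem three_log (a : ι → ℝ) (C : Matrix ι ι ℂ) {Q : Matrix ι ι ℂ} (hQ : Q.PosSemidef)
    {A : Matrix ι ι ℂ} (hA : A = diagonal fun i => (a i : ℂ))
    (hM : (fromBlocks (A * Aᴴ + Q) (A * Cᴴ) (C * Aᴴ) (C * Cᴴ)).PosSemidef)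
    (hR : (Cᴴ * C).PosSemidef) {l : ℝ} (hl : 0 < l) :
    ∑ i, Real.log ((l + (Q i i).re) * (l + ((Cᴴ * C) i i).re) + l * a i ^ 2) +
      (∑ i, Real.log (l + hQ.1.eigenvalues i) + ∑ i, Real.log (l + hR.1.eigenvalues i)) ≤
    ∑ i, Real.log (l + hM.1.eigenvalues i) +
      (∑ i, Real.log (l + (Q i i).re) + ∑ i, Real.log (l + ((Cᴴ * C) i i).re)) := by
  have hU := shift_posDef hQ hl
  have hV := shift_posDef hR hl
  have h := DetPinch.pinch_block hU hV (fun i => √l * a i)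
  have e1 : ∀ i, (((l : ℂ) • (1 : Matrix ι ι ℂ) + Q) i i).re = l + (Q i i).re := fun i => by
    simp
  have e2 : ∀ i, (((l : ℂ) • (1 : Matrix ι ι ℂ) + Cᴴ * C) i i).re = l + ((Cᴴ * C) i i).re :=
    fun i => by simp
  have e3 : (diagonal fun i => ((√l * a i : ℝ) : ℂ)) = ((√l : ℝ) : ℂ) • A := by
    rw [hA]
    ext i j
    by_cases hij : i = j
    · subst hij; simp
    · simp [diagonal_apply_ne _ hij]
  have e4 : -(diagonal fun i => ((√l * a i : ℝ) : ℂ)) = -(((√l : ℝ) : ℂ) • Aᴴ) := by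
    rw [e3, hA, diagonal_conjTranspose]
    congr 3
    ext i
    simp
  rw [e4, e3, ← three_det A C hQ hl] at h
  simp only [e1, e2] at h
  have hq : ∀ i, 0 ≤ (Q i i).re := fun i => diag_re_nonneg hQ i
  have hr : ∀ i, 0 ≤ ((Cᴴ * C) i i).re := fun i => diag_re_nonneg hR i
  have e5 : ∀ i, (l + (Q i i).re) * (l + ((Cᴴ * C) i i).re) + (√l * a i) ^ 2 =
      (l + (Q i i).re) * (l + ((Cᴴ * C) i i).re) + l * a i ^ 2 := fun i => by
    rw [mul_pow, Real.sq_sqrt hl.le]
  simp only [e5] at h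
  have p1 : ∀ i, 0 < l + (Q i i).re := fun i => by have := hq i; positivity
  have p2 : ∀ i, 0 < l + ((Cᴴ * C) i i).re := fun i => by have := hr i; positivity
  have p3 : ∀ i, 0 < (l + (Q i i).re) * (l + ((Cᴴ * C) i i).re) + l * a i ^ 2 := fun i => by
    have := mul_pos (p1 i) (p2 i)
    positivity
  have q1 := DetPinch.posDef_norm_pos hU
  have q2 := DetPinch.posDef_norm_pos hV
  have q3 := DetPinch.posDef_norm_pos (shift_posDef hM hl)
  have q4 : 0 < ∏ i, ((l + (Q i i).re) * (l + ((Cᴴ * C) i i).re)) :=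
    Finset.prod_pos fun i _ => mul_pos (p1 i) (p2 i)
  have q5 : 0 < ∏ i, ((l + (Q i i).re) * (l + ((Cᴴ * C) i i).re) + l * a i ^ 2) :=
    Finset.prod_pos fun i _ => p3 i
  have h2 := Real.log_le_log (mul_pos q5 (mul_pos q1 q2)) h
  rw [Real.log_mul q5.ne' (mul_pos q1 q2).ne', Real.log_mul q1.ne' q2.ne',
    Real.log_mul q3.ne' q4.ne', Real.log_prod (fun i _ => (p3 i).ne'),
    Real.log_prod (fun i _ => (mul_pos (p1 i) (p2 i)).ne'), log_det hQ hl, log_det hR hl,
    log_det hM hl] at h2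
  have e6 : ∑ i, Real.log ((l + (Q i i).re) * (l + ((Cᴴ * C) i i).re)) =
      ∑ i, Real.log (l + (Q i i).re) + ∑ i, Real.log (l + ((Cᴴ * C) i i).re) := by
    rw [← Finset.sum_add_distrib]
    refine Finset.sum_congr rfl fun i _ => ?_
    rw [Real.log_mul (p1 i).ne' (p2 i).ne']
  rw [e6] at h2
  exact h2

theorem three_trace (A C Q : Matrix ι ι ℂ) :
    (fromBlocks (A * Aᴴ + Q) (A * Cᴴ) (C * Aᴴ) (C * Cᴴ)).trace.re =
      (A * Aᴴ).trace.re + Q.trace.re + (Cᴴ * C).trace.re := by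
  have h1 : ∀ (P B B' S : Matrix ι ι ℂ), (fromBlocks P B B' S).trace = P.trace + S.trace := by
    intro P B B' S
    simp [trace, Fintype.sum_sum_type]
  rw [h1, trace_add, Complex.add_re, Complex.add_re, trace_mul_comm C]

theorem three_diag (a : ι → ℝ) (C : Matrix ι ι ℂ) {Q : Matrix ι ι ℂ} (hQ : Q.PosSemidef)
    {A : Matrix ι ι ℂ} (hA : A = diagonal fun i => (a i : ℂ)) :
    ent Q + ent (Cᴴ * C) + ∑ i, (entm (a i ^ 2) (Q i i).re ((Cᴴ * C) i i).re -
      Real.negMulLog (Q i i).re - Real.negMulLog ((Cᴴ * C) i i).re) ≤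
      ent (fromBlocks (A * Aᴴ + Q) (A * Cᴴ) (C * Aᴴ) (C * Cᴴ)) := by
  have hM := three_posSemidef A C hQ
  have hR : (Cᴴ * C).PosSemidef := posSemidef_conjTranspose_mul_self _
  have hq : ∀ i, 0 ≤ (Q i i).re := fun i => diag_re_nonneg hQ i
  have hr : ∀ i, 0 ≤ ((Cᴴ * C) i i).re := fun i => diag_re_nonneg hR i
  have hp : ∀ i, 0 ≤ a i ^ 2 := fun i => sq_nonneg _
  have htrA : (A * Aᴴ).trace.re = ∑ i, a i ^ 2 := by
    rw [hA, diagonal_conjTranspose, diagonal_mul_diagonal, trace_diagonal, Complex.re_sum]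
    refine Finset.sum_congr rfl fun i _ => ?_
    simp only [Pi.star_apply, Complex.star_def, Complex.conj_ofReal]
    rw [← Complex.ofReal_mul, Complex.ofReal_re]; ring
  have h := H_lemma (ι := (ι ⊕ ι) ⊕ ((ι ⊕ ι) ⊕ ((ι ⊕ ι) ⊕ (ι ⊕ ι))))
    (Sum.elim (fun _ => 1) (Sum.elim (fun _ => -1) (Sum.elim (fun _ => -1) (fun _ => 1))))
    (Sum.elim hM.1.eigenvalues (Sum.elim
      (Sum.elim (fun i => lamP (a i ^ 2) (Q i i).re ((Cᴴ * C) i i).re)
        (fun i => lamM (a i ^ 2) (Q i i).re ((Cᴴ * C) i i).re))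
      (Sum.elim (Sum.elim hQ.1.eigenvalues hR.1.eigenvalues)
        (Sum.elim (fun i => (Q i i).re) (fun i => ((Cᴴ * C) i i).re))))) (by
      rintro (j | (j | j) | (j | j) | (j | j))
      · exact hM.eigenvalues_nonneg j
      · exact lamP_nonneg (hp j) (hq j) (hr j)
      · exact lamM_nonneg (hp j) (hq j) (hr j)
      · exact hQ.eigenvalues_nonneg j
      · exact hR.eigenvalues_nonneg j
      · exact hq j
      · exact hr j) (by
      simp only [Fintype.sum_sum_type, Sum.elim_inl, Sum.elim_inr, one_mul, neg_one_mul,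
        Finset.sum_neg_distrib]
      have t1 := trace_re_eq hM.1
      rw [Fintype.sum_sum_type, three_trace A C Q, htrA] at t1
      have t2 := trace_re_eq hQ.1
      have t3 := trace_re_eq hR.1
      have t4 : ∑ i, (Q i i).re = Q.trace.re := by rw [trace, Complex.re_sum]; rfl
      have t5 : ∑ i, ((Cᴴ * C) i i).re = (Cᴴ * C).trace.re := by rw [trace, Complex.re_sum]; rfl
      have t6 : ∑ i, lamP (a i ^ 2) (Q i i).re ((Cᴴ * C) i i).re +
          ∑ i, lamM (a i ^ 2) (Q i i).re ((Cᴴ * C) i i).re =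
          ∑ i, a i ^ 2 + ∑ i, (Q i i).re + ∑ i, ((Cᴴ * C) i i).re := by
        rw [← Finset.sum_add_distrib, ← Finset.sum_add_distrib, ← Finset.sum_add_distrib]
        exact Finset.sum_congr rfl fun i _ => lam_add _ _ _
      linarith) (by
      intro l hl
      have h1 := three_log a C hQ hA hM hR hl
      have h2 : ∑ i, Real.log (l + lamP (a i ^ 2) (Q i i).re ((Cᴴ * C) i i).re) +
          ∑ i, Real.log (l + lamM (a i ^ 2) (Q i i).re ((Cᴴ * C) i i).re) =
          ∑ i, Real.log ((l + (Q i i).re) * (l + ((Cᴴ * C) i i).re) + l * a i ^ 2) := by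
        rw [← Finset.sum_add_distrib]
        exact Finset.sum_congr rfl fun i _ => lam_log (hp i) (hq i) (hr i) hl
      rw [Fintype.sum_sum_type (fun i => Real.log (l + hM.1.eigenvalues i))] at h1
      simp only [Fintype.sum_sum_type, Sum.elim_inl, Sum.elim_inr, one_mul, neg_one_mul,
        Finset.sum_neg_distrib, Finset.sum_sub_distrib, Finset.sum_const]
      linarith)
  simp only [Fintype.sum_sum_type, Sum.elim_inl, Sum.elim_inr, one_mul, neg_one_mul,
    Finset.sum_neg_distrib] at h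
  rw [ent, ent, ent, spec_eq _ hQ.1, spec_eq _ hR.1, spec_eq _ hM.1, Fintype.sum_sum_type]
  simp only [entm, Finset.sum_sub_distrib, Finset.sum_add_distrib]
  linarith

theorem three_diag' (a : ι → ℝ) (C : Matrix ι ι ℂ) {Q : Matrix ι ι ℂ} (hQ : Q.PosSemidef)
    {A : Matrix ι ι ℂ} (hA : A = diagonal fun i => (a i : ℂ)) :
    ent (A * Aᴴ) + ent Q + ent (C * Cᴴ) +
      G3 (A * Aᴴ).trace.re Q.trace.re (C * Cᴴ).trace.re ≤
      ent (fromBlocks (A * Aᴴ + Q) (A * Cᴴ) (C * Aᴴ) (C * Cᴴ)) := by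
  have h := three_diag a C hQ hA
  have hR : (Cᴴ * C).PosSemidef := posSemidef_conjTranspose_mul_self _
  have hq : ∀ i, 0 ≤ (Q i i).re := fun i => diag_re_nonneg hQ i
  have hr : ∀ i, 0 ≤ ((Cᴴ * C) i i).re := fun i => diag_re_nonneg hR i
  have hp : ∀ i, 0 ≤ a i ^ 2 := fun i => sq_nonneg _
  have hAA : A * Aᴴ = diagonal fun i => ((a i ^ 2 : ℝ) : ℂ) := by
    rw [hA, diagonal_conjTranspose, diagonal_mul_diagonal]
    congr 1
    ext i
    simp only [Pi.star_apply, Complex.star_def, Complex.conj_ofReal]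
    rw [← Complex.ofReal_mul]; ring_nf
  have htrA : (A * Aᴴ).trace.re = ∑ i, a i ^ 2 := by
    rw [hAA, trace_diagonal, Complex.re_sum]
    simp only [Complex.ofReal_re]
  have hentA : ent (A * Aᴴ) = ∑ i, Real.negMulLog (a i ^ 2) := by
    rw [hAA, ent, spec_diagonal]
  have t4 : ∑ i, (Q i i).re = Q.trace.re := by rw [trace, Complex.re_sum]; rfl
  have t5 : ∑ i, ((Cᴴ * C) i i).re = (C * Cᴴ).trace.re := by
    rw [trace_mul_comm, trace, Complex.re_sum]; rfl
  have h3 := G3_sum (fun i => a i ^ 2) (fun i => (Q i i).re) (fun i => ((Cᴴ * C) i i).re) hp hq hr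
  have h4 : ent (C * Cᴴ) = ent (Cᴴ * C) := spec_mul_conjTranspose _ Real.negMulLog_zero C
  rw [htrA, ← t4, ← t5, hentA, h4]
  have h5 : ∑ i, (entm (a i ^ 2) (Q i i).re ((Cᴴ * C) i i).re -
      Real.negMulLog (Q i i).re - Real.negMulLog ((Cᴴ * C) i i).re) =
      ∑ i, Real.negMulLog (a i ^ 2) + ∑ i, G3 (a i ^ 2) (Q i i).re ((Cᴴ * C) i i).re := by
    rw [← Finset.sum_add_distrib]
    refine Finset.sum_congr rfl fun i _ => ?_
    rw [G3]; ring
  rw [h5] at h
  linarith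

end diag

section svd

variable {ι : Type*} [Fintype ι] [DecidableEq ι]

theorem exists_svd (A : Matrix ι ι ℂ) : ∃ U ∈ unitaryGroup ι ℂ, ∃ V ∈ unitaryGroup ι ℂ,
    ∃ a : ι → ℝ, A = U * diagonal (fun i => (a i : ℂ)) * star V := by
  have hH : (Aᴴ * A).PosSemidef := posSemidef_conjTranspose_mul_self _
  obtain ⟨V, hV, hAV⟩ := spectral' hH.1
  set x := hH.1.eigenvalues with hx
  have hx0 : ∀ i, 0 ≤ x i := hH.eigenvalues_nonneg
  set B := A * V with hB
  have hBB : Bᴴ * B = diagonal fun i => (x i : ℂ) := by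
    have h1 : star V * V = 1 := (mem_unitaryGroup_iff').1 hV
    calc Bᴴ * B = star V * (Aᴴ * A) * V := by
          rw [hB, conjTranspose_mul, star_eq_conjTranspose]; simp only [mul_assoc]
      _ = (star V * V) * diagonal (fun i => (x i : ℂ)) * (star V * V) := by
          rw [hAV]; simp only [mul_assoc]
      _ = _ := by rw [h1, one_mul, mul_one]
  have hcol : ∀ i j, ∑ k, star (B k i) * B k j = if i = j then (x i : ℂ) else 0 := by
    intro i j
    have := congrFun (congrFun hBB i) j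
    rw [mul_apply, diagonal_apply] at this
    exact this
  let b : ι → EuclideanSpace ℂ ι := fun i => WithLp.toLp 2 (fun k => B k i)
  have hinner : ∀ i j, inner ℂ (b i) (b j) = if i = j then (x i : ℂ) else 0 := by
    intro i j
    rw [← hcol i j, PiLp.inner_apply]
    refine Finset.sum_congr rfl fun k _ => ?_
    simp only [b, RCLike.inner_apply, Complex.star_def]
    ring
  let v : ι → EuclideanSpace ℂ ι := fun i => (((√(x i))⁻¹ : ℝ) : ℂ) • b i
  let s : Set ι := {i | x i ≠ 0}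
  have hv : Orthonormal ℂ (s.domRestrict v) := by
    rw [orthonormal_iff_ite]
    rintro ⟨i, hi⟩ ⟨j, hj⟩
    simp only [Set.domRestrict_apply, v, inner_smul_left, inner_smul_right, hinner,
      Subtype.mk.injEq, Complex.conj_ofReal]
    by_cases hij : i = j
    · subst hij
      simp only [if_true]
      have hpos : 0 < x i := lt_of_le_of_ne (hx0 i) (Ne.symm hi)
      have hs : √(x i) ≠ 0 := (Real.sqrt_pos.2 hpos).ne'
      rw [← Complex.ofReal_mul, ← Complex.ofReal_mul]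
      have : (√(x i))⁻¹ * ((√(x i))⁻¹ * x i) = 1 := by
        have h2 : x i = √(x i) * √(x i) := (Real.mul_self_sqrt (hx0 i)).symm
        conv_lhs => rw [h2]
        rw [Real.sqrt_mul_self (Real.sqrt_nonneg _)]
        field_simp
      rw [this]; simp
    · simp [hij]
  obtain ⟨w, hw⟩ := hv.exists_orthonormalBasis_extension_of_card_eq (by simp)
  let U : Matrix ι ι ℂ := Matrix.of fun k i => w i k
  have hU : U ∈ unitaryGroup ι ℂ := by
    rw [mem_unitaryGroup_iff']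
    ext i j
    have := orthonormal_iff_ite.1 w.orthonormal i j
    rw [PiLp.inner_apply] at this
    rw [mul_apply, one_apply, ← this]
    refine Finset.sum_congr rfl fun k _ => ?_
    simp only [star_apply, U, of_apply, RCLike.inner_apply, Complex.star_def]
    ring
  refine ⟨U, hU, V, hV, fun i => √(x i), ?_⟩
  have hBU : B = U * diagonal (fun i => ((√(x i) : ℝ) : ℂ)) := by
    ext k i
    rw [mul_diagonal]
    by_cases hi : x i = 0
    · have h1 : inner ℂ (b i) (b i) = 0 := by rw [hinner i i, if_pos rfl, hi]; simp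
      have h2 : b i = 0 := inner_self_eq_zero.1 h1
      have h3 : B k i = 0 := by
        have : (b i) k = 0 := by rw [h2]; rfl
        exact this
      rw [h3, hi]; simp
    · have h1 : w i = v i := hw i hi
      have hpos : 0 < x i := lt_of_le_of_ne (hx0 i) (Ne.symm hi)
      have hs : √(x i) ≠ 0 := (Real.sqrt_pos.2 hpos).ne'
      have hs' : ((√(x i) : ℝ) : ℂ) ≠ 0 := by exact_mod_cast hs
      simp only [U, of_apply, h1, v, b, PiLp.smul_apply, smul_eq_mul, Complex.ofReal_inv]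
      field_simp
  have h1 : V * star V = 1 := (mem_unitaryGroup_iff).1 hV
  calc A = A * (V * star V) := by rw [h1, mul_one]
    _ = B * star V := by rw [hB]; simp only [mul_assoc]
    _ = _ := by rw [hBU]

end svd

section square

variable {ι : Type*} [Fintype ι] [DecidableEq ι]

theorem trace_conj_unitary (A : Matrix ι ι ℂ) {U : Matrix ι ι ℂ} (hU : U ∈ unitaryGroup ι ℂ) :
    (U * A * star U).trace = A.trace := by
  rw [trace_mul_comm, ← mul_assoc, (mem_unitaryGroup_iff').1 hU, one_mul]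

theorem block_unitary {U : Matrix ι ι ℂ} (hU : U ∈ unitaryGroup ι ℂ) :
    (fromBlocks U 0 0 (1 : Matrix ι ι ℂ)) ∈ unitaryGroup (ι ⊕ ι) ℂ := by
  rw [mem_unitaryGroup_iff, star_eq_conjTranspose, fromBlocks_conjTranspose, fromBlocks_multiply]
  have h1 : U * Uᴴ = 1 := (mem_unitaryGroup_iff).1 hU
  simp [h1, fromBlocks_one]

/-- The three block inequality, square case. -/
theorem three_square (A C : Matrix ι ι ℂ) {Q : Matrix ι ι ℂ} (hQ : Q.PosSemidef) :
    ent (A * Aᴴ) + ent Q + ent (C * Cᴴ) +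
      G3 (A * Aᴴ).trace.re Q.trace.re (C * Cᴴ).trace.re ≤
      ent (fromBlocks (A * Aᴴ + Q) (A * Cᴴ) (C * Aᴴ) (C * Cᴴ)) := by
  obtain ⟨U, hU, V, hV, a, hA⟩ := exists_svd A
  set D : Matrix ι ι ℂ := diagonal fun i => (a i : ℂ) with hD
  have hU1 : U * Uᴴ = 1 := (mem_unitaryGroup_iff).1 hU
  have hV1 : V * Vᴴ = 1 := (mem_unitaryGroup_iff).1 hV
  have hV2 : Vᴴ * V = 1 := (mem_unitaryGroup_iff').1 hV
  have hA' : A = U * D * Vᴴ := hA
  have hAH : Aᴴ = V * Dᴴ * Uᴴ := by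
    rw [hA', conjTranspose_mul, conjTranspose_mul, conjTranspose_conjTranspose, mul_assoc]
  have h1 : A * Aᴴ = U * (D * Dᴴ) * Uᴴ := by
    rw [hA', conjTranspose_mul, conjTranspose_mul, conjTranspose_conjTranspose]
    calc U * D * Vᴴ * (V * (Dᴴ * Uᴴ)) = U * D * (Vᴴ * V) * (Dᴴ * Uᴴ) := by
          simp only [mul_assoc]
      _ = _ := by rw [hV2, mul_one]; simp only [mul_assoc]
  have hQ' : (Uᴴ * Q * U).PosSemidef := hQ.conjTranspose_mul_mul_same U
  have h2 : Q = U * (Uᴴ * Q * U) * Uᴴ := by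
    calc Q = (U * Uᴴ) * Q * (U * Uᴴ) := by rw [hU1, one_mul, mul_one]
      _ = _ := by simp only [mul_assoc]
  have h3 : C * Cᴴ = (C * V) * (C * V)ᴴ := by
    rw [conjTranspose_mul]
    calc C * Cᴴ = C * (V * Vᴴ) * Cᴴ := by rw [hV1, mul_one]
      _ = _ := by simp only [mul_assoc]
  have h4 : A * Cᴴ = U * (D * (C * V)ᴴ) := by
    rw [hA', conjTranspose_mul]; simp only [mul_assoc]
  have h5 : C * Aᴴ = ((C * V) * Dᴴ) * Uᴴ := by
    rw [hAH]; simp only [mul_assoc]
  have hM : fromBlocks (A * Aᴴ + Q) (A * Cᴴ) (C * Aᴴ) (C * Cᴴ) =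
      fromBlocks U 0 0 (1 : Matrix ι ι ℂ) *
        fromBlocks (D * Dᴴ + Uᴴ * Q * U) (D * (C * V)ᴴ) ((C * V) * Dᴴ) ((C * V) * (C * V)ᴴ) *
        star (fromBlocks U 0 0 (1 : Matrix ι ι ℂ)) := by
    rw [star_eq_conjTranspose, fromBlocks_conjTranspose, fromBlocks_multiply, fromBlocks_multiply]
    simp only [zero_mul, mul_zero, add_zero, zero_add, one_mul, mul_one, conjTranspose_zero,
      conjTranspose_one]
    rw [← h3, ← h4, ← h5, mul_add, add_mul, ← h1, ← h2]
  have h := three_diag' a (C * V) hQ' hD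
  have e1 : ent (A * Aᴴ) = ent (D * Dᴴ) := by
    rw [h1]; exact spec_unitary_conj _ _ hU
  have e2 : ent Q = ent (Uᴴ * Q * U) := by
    conv_lhs => rw [h2]
    exact spec_unitary_conj _ _ hU
  have e3 : (A * Aᴴ).trace = (D * Dᴴ).trace := by
    rw [h1]; exact trace_conj_unitary _ hU
  have e4 : Q.trace = (Uᴴ * Q * U).trace := by
    conv_lhs => rw [h2]
    exact trace_conj_unitary _ hU
  have e5 : ent (fromBlocks (A * Aᴴ + Q) (A * Cᴴ) (C * Aᴴ) (C * Cᴴ)) =
      ent (fromBlocks (D * Dᴴ + Uᴴ * Q * U) (D * (C * V)ᴴ) ((C * V) * Dᴴ)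
        ((C * V) * (C * V)ᴴ)) := by
    rw [hM]
    exact spec_unitary_conj _ _ (block_unitary hU)
  rw [e5, e1, e2, e3, e4, h3]
  exact h

end square

section rect

variable {e κ : Type*} [Fintype e] [DecidableEq e] [Fintype κ] [DecidableEq κ]

theorem ent_pad {d d' : Type*} [Fintype d] [DecidableEq d] [Fintype d'] [DecidableEq d']
    {J : Matrix d' d ℂ} (hJ : Jᴴ * J = 1) (M : Matrix d d ℂ) : ent (J * M * Jᴴ) = ent M := by
  rw [ent, Matrix.mul_assoc, spec_mul_comm _ Real.negMulLog_zero, Matrix.mul_assoc, hJ, Matrix.mul_one]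

theorem trace_pad {d d' : Type*} [Fintype d] [DecidableEq d] [Fintype d'] [DecidableEq d']
    {J : Matrix d' d ℂ} (hJ : Jᴴ * J = 1) (M : Matrix d d ℂ) : (J * M * Jᴴ).trace = M.trace := by
  rw [Matrix.mul_assoc, trace_mul_comm, Matrix.mul_assoc, hJ, Matrix.mul_one]

/-- The three block inequality for rectangular factors. -/
theorem three_rect {J : Matrix κ e ℂ} (hJ : Jᴴ * J = 1) (A C : Matrix e κ ℂ) {Q : Matrix e e ℂ}
    (hQ : Q.PosSemidef) :
    ent (A * Aᴴ) + ent Q + ent (C * Cᴴ) +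
      G3 (A * Aᴴ).trace.re Q.trace.re (C * Cᴴ).trace.re ≤
      ent (fromBlocks (A * Aᴴ + Q) (A * Cᴴ) (C * Aᴴ) (C * Cᴴ)) := by
  have hQ' : (J * Q * Jᴴ).PosSemidef := hQ.mul_mul_conjTranspose_same J
  have h := three_square (J * A) (J * C) hQ'
  have h1 : J * A * (J * A)ᴴ = J * (A * Aᴴ) * Jᴴ := by
    rw [conjTranspose_mul]; simp only [Matrix.mul_assoc]
  have h2 : J * C * (J * C)ᴴ = J * (C * Cᴴ) * Jᴴ := by
    rw [conjTranspose_mul]; simp only [Matrix.mul_assoc]
  have h3 : J * A * (J * C)ᴴ = J * (A * Cᴴ) * Jᴴ := by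
    rw [conjTranspose_mul]; simp only [Matrix.mul_assoc]
  have h4 : J * C * (J * A)ᴴ = J * (C * Aᴴ) * Jᴴ := by
    rw [conjTranspose_mul]; simp only [Matrix.mul_assoc]
  have h5 : J * (A * Aᴴ) * Jᴴ + J * Q * Jᴴ = J * (A * Aᴴ + Q) * Jᴴ := by
    rw [Matrix.mul_add, Matrix.add_mul]
  have hJJ : (fromBlocks J 0 0 J)ᴴ * fromBlocks J 0 0 J = 1 := by
    rw [fromBlocks_conjTranspose, fromBlocks_multiply]
    simp [hJ, fromBlocks_one]
  have h6 : fromBlocks (J * (A * Aᴴ + Q) * Jᴴ) (J * (A * Cᴴ) * Jᴴ) (J * (C * Aᴴ) * Jᴴ)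
      (J * (C * Cᴴ) * Jᴴ) = fromBlocks J 0 0 J *
      fromBlocks (A * Aᴴ + Q) (A * Cᴴ) (C * Aᴴ) (C * Cᴴ) * (fromBlocks J 0 0 J)ᴴ := by
    rw [fromBlocks_conjTranspose, fromBlocks_multiply, fromBlocks_multiply]
    simp only [Matrix.zero_mul, Matrix.mul_zero, add_zero, zero_add, conjTranspose_zero]
  rw [h1, h2, h3, h4, h5, h6, ent_pad hJJ, ent_pad hJ, ent_pad hJ, ent_pad hJ, trace_pad hJ,
    trace_pad hJ, trace_pad hJ] at h
  exact h

end rect

end Crest.Agent.Lib.ThreeBlock
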