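import Mathlib
import Crest.Prelude.Def_TreePotentials

/-!
Gluing two tests on the countably branching tree along a finite ancestor-closed set `A`
(used for the midpoint inequality in S0168 and S0166).
-/

set_option autoImplicit false

namespace Crest.Agent.Lib.TreeGlue

open Crest.AnalysisR.TreePotential

/-- coefficient family with a given potential -/
def ofPot (P : List ℕ → ℝ) : List ℕ → ℝ
  | [] => P []
  | a :: v => P (a :: v) - P v

theorem pathPotential_ofPot (P : List ℕ → ℝ) (s : List ℕ) : pathPotential (ofPot P) s = P s := by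
  induction s with
  | nil => rfl
  | cons a v ih => simp [pathPotential, ofPot, ih]

/-- closest ancestor in `A` -/
def anc (A : Finset (List ℕ)) : List ℕ → List ℕ
  | [] => []
  | a :: v => if (a :: v) ∈ A then a :: v else anc A v

theorem anc_of_mem (A : Finset (List ℕ)) {s : List ℕ} (hs : s ∈ A) : anc A s = s := by
  cases s with
  | nil => rfl
  | cons a v => simp [anc, hs]

theorem anc_cons_of_not_mem (A : Finset (List ℕ)) {a : ℕ} {v : List ℕ} (hs : a :: v ∉ A) :
    anc A (a :: v) = anc A v := by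
  simp [anc, hs]

/-- auxiliary one-sided truncations -/
noncomputable def phi (σ : Bool) (p u : ℝ) : ℝ :=
  if 0 ≤ p then (if σ then min u 0 else min (-u) 0) else (if σ then max u 0 else max (-u) 0)

theorem phi_zero (σ : Bool) (p : ℝ) : phi σ p 0 = 0 := by
  unfold phi; split_ifs <;> simp

theorem phi_sub (p u : ℝ) : phi true p u - phi false p u = u := by
  unfold phi
  by_cases hp : 0 ≤ p
  · simp only [hp, if_true]
    rcases le_total u 0 with h | h
    · simp [min_eq_left h, min_eq_right (show (0:ℝ) ≤ -u by linarith)]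
    · simp [min_eq_right h, min_eq_left (show -u ≤ 0 by linarith)]
  · simp only [hp, if_false, if_true]
    rcases le_total u 0 with h | h
    · simp [max_eq_right h, max_eq_left (show (0:ℝ) ≤ -u by linarith)]
    · simp [max_eq_left h, max_eq_right (show -u ≤ 0 by linarith)]

theorem abs_min_zero_sub (x y : ℝ) : |min x 0 - min y 0| ≤ |x - y| := by
  have := abs_min_sub_min_le_max x 0 y 0
  simpa using this

theorem abs_max_zero_sub (x y : ℝ) : |max x 0 - max y 0| ≤ |x - y| := by
  have := abs_max_sub_max_le_max x 0 y 0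
  simpa using this

theorem phi_lip (σ : Bool) (p u v : ℝ) : |phi σ p u - phi σ p v| ≤ |u - v| := by
  unfold phi
  split_ifs
  · exact abs_min_zero_sub u v
  · have := abs_min_zero_sub (-u) (-v)
    rwa [show -u - -v = -(u - v) by ring, abs_neg] at this
  · exact abs_max_zero_sub u v
  · have := abs_max_zero_sub (-u) (-v)
    rwa [show -u - -v = -(u - v) by ring, abs_neg] at this

theorem abs_phi_le (σ : Bool) (p u : ℝ) : |phi σ p u| ≤ |u| := by
  have := phi_lip σ p u 0
  rwa [phi_zero, sub_zero, sub_zero] at this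

theorem phi_nonpos (σ : Bool) {p : ℝ} (hp : 0 ≤ p) (u : ℝ) : phi σ p u ≤ 0 := by
  unfold phi
  simp only [hp, if_true]
  split_ifs <;> exact min_le_right _ _

theorem phi_nonneg (σ : Bool) {p : ℝ} (hp : ¬ 0 ≤ p) (u : ℝ) : 0 ≤ phi σ p u := by
  unfold phi
  simp only [hp, if_false]
  split_ifs <;> exact le_max_right _ _

/-- potential of the glued test -/
noncomputable def gluePot (σ : Bool) (A : Finset (List ℕ)) (f g : List ℕ → ℝ) (α β : ℝ)
    (s : List ℕ) : ℝ :=
  α * pathPotential f (anc A s) +
    β * phi σ (pathPotential f (anc A s)) (pathPotential g s - pathPotential g (anc A s))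

/-- the glued coefficient family -/
noncomputable def glue (σ : Bool) (A : Finset (List ℕ)) (f g : List ℕ → ℝ) (α β : ℝ) :
    List ℕ → ℝ :=
  ofPot (gluePot σ A f g α β)

theorem gluePot_of_mem (σ : Bool) {A : Finset (List ℕ)} (f g : List ℕ → ℝ) (α β : ℝ)
    {s : List ℕ} (hs : s ∈ A) : gluePot σ A f g α β s = α * pathPotential f s := by
  unfold gluePot
  rw [anc_of_mem A hs, sub_self, phi_zero, mul_zero, add_zero]

variable {A : Finset (List ℕ)} (h0 : [] ∈ A) (hA : ∀ a v, a :: v ∈ A → v ∈ A)

include h0 hA in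
theorem glue_of_mem (σ : Bool) (f g : List ℕ → ℝ) (α β : ℝ)
    {s : List ℕ} (hs : s ∈ A) : glue σ A f g α β s = α * f s := by
  cases s with
  | nil =>
    change gluePot σ A f g α β [] = _
    rw [gluePot_of_mem σ f g α β h0]
    rfl
  | cons a v =>
    change gluePot σ A f g α β (a :: v) - gluePot σ A f g α β v = _
    rw [gluePot_of_mem σ f g α β hs, gluePot_of_mem σ f g α β (hA a v hs)]
    simp only [pathPotential]
    ring

include h0 in
theorem glue_of_not_mem (f g : List ℕ → ℝ) (α β : ℝ)
    {s : List ℕ} (hs : s ∉ A) : ∃ (p u v : ℝ), u - v = g s ∧ (∀ σ : Bool,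
      glue σ A f g α β s = β * (phi σ p u - phi σ p v)) := by
  cases s with
  | nil => exact absurd h0 hs
  | cons a v =>
    refine ⟨pathPotential f (anc A v), pathPotential g (a :: v) - pathPotential g (anc A v),
      pathPotential g v - pathPotential g (anc A v), ?_, ?_⟩
    · simp only [pathPotential]; ring
    · intro σ
      change gluePot σ A f g α β (a :: v) - gluePot σ A f g α β v = _
      unfold gluePot
      rw [anc_cons_of_not_mem A hs]
      ring

include h0 in
theorem abs_glue_le (σ : Bool) (f g : List ℕ → ℝ) (α : ℝ) {β : ℝ} (hβ : 0 ≤ β)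
    {s : List ℕ} (hs : s ∉ A) : |glue σ A f g α β s| ≤ β * |g s| := by
  obtain ⟨p, u, v, huv, h⟩ := glue_of_not_mem h0 f g α β hs
  rw [h σ, abs_mul, abs_of_nonneg hβ, ← huv]
  exact mul_le_mul_of_nonneg_left (phi_lip σ p u v) hβ

include h0 in
theorem glue_sub (f g : List ℕ → ℝ) (α β : ℝ)
    {s : List ℕ} (hs : s ∉ A) :
    glue true A f g α β s - glue false A f g α β s = β * g s := by
  obtain ⟨p, u, v, huv, h⟩ := glue_of_not_mem h0 f g α β hs
  rw [h true, h false, ← huv]
  have h1 := phi_sub p u
  have h2 := phi_sub p v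
  linear_combination β * h1 - β * h2

theorem abs_pathPotential_glue_le (σ : Bool) (f g : List ℕ → ℝ) {α β : ℝ}
    (hf : ∀ s, |pathPotential f s| ≤ 1) (hg : ∀ s, |pathPotential g s| ≤ 1)
    (hα0 : 0 ≤ α) (hα : α ≤ 1) (hβ0 : 0 ≤ β) (hβ : 2 * β ≤ 1) (s : List ℕ) :
    |pathPotential (glue σ A f g α β) s| ≤ 1 := by
  unfold glue
  rw [pathPotential_ofPot]
  unfold gluePot
  set p := pathPotential f (anc A s) with hp
  set u := pathPotential g s - pathPotential g (anc A s) with hu
  have hu2 : |u| ≤ 2 := by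
    have h1 := hg s
    have h2 := hg (anc A s)
    rw [abs_le] at h1 h2 ⊢
    constructor <;> linarith [h1.1, h1.2, h2.1, h2.2]
  have hφ : |phi σ p u| ≤ 2 := (abs_phi_le σ p u).trans hu2
  have hp1 : |p| ≤ 1 := hf _
  rw [abs_le] at hφ hp1 ⊢
  by_cases h : 0 ≤ p
  · have h1 := phi_nonpos σ h u
    constructor
    · nlinarith [mul_nonneg hα0 h]
    · nlinarith [mul_nonneg hα0 h]
  · have h1 := phi_nonneg σ h u
    push Not at h
    constructor
    · nlinarith
    · nlinarith

/-- square of the glued family -/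
theorem glue_sq_le (h0 : [] ∈ A) (hA : ∀ a v, a :: v ∈ A → v ∈ A) (σ : Bool)
    (f g : List ℕ → ℝ) (α : ℝ) {β : ℝ} (hβ : 0 ≤ β) (s : List ℕ) :
    glue σ A f g α β s ^ 2 ≤ α ^ 2 * (if s ∈ A then f s ^ 2 else 0) +
      β ^ 2 * (if s ∈ A then 0 else g s ^ 2) := by
  by_cases hs : s ∈ A
  · rw [glue_of_mem h0 hA σ f g α β hs]
    simp only [hs, if_true]
    nlinarith
  · simp only [hs, if_false]
    have h1 := abs_glue_le h0 σ f g α hβ hs
    have h2 := pow_le_pow_left₀ (abs_nonneg _) h1 2
    rw [sq_abs, mul_pow, sq_abs] at h2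
    linarith

/-- finite square sums of the glued family: if the square sums of `f` and `g` over the subsets of
`B` are at most `1` then so is that of the glued family. -/
theorem sum_glue_sq_le (h0 : [] ∈ A) (hA : ∀ a v, a :: v ∈ A → v ∈ A) (σ : Bool)
    (f g : List ℕ → ℝ) {α β : ℝ} (hβ : 0 ≤ β) (hαβ : α ^ 2 + β ^ 2 ≤ 1)
    (B : Finset (List ℕ)) (hf : ∀ B' ⊆ B, ∑ u ∈ B', f u ^ 2 ≤ 1)
    (hg : ∀ B' ⊆ B, ∑ u ∈ B', g u ^ 2 ≤ 1) :
    ∑ u ∈ B, glue σ A f g α β u ^ 2 ≤ 1 := by
  calc ∑ u ∈ B, glue σ A f g α β u ^ 2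
      ≤ ∑ u ∈ B, (α ^ 2 * (if u ∈ A then f u ^ 2 else 0) +
        β ^ 2 * (if u ∈ A then 0 else g u ^ 2)) :=
        Finset.sum_le_sum fun u _ => glue_sq_le h0 hA σ f g α hβ u
    _ = α ^ 2 * ∑ u ∈ B.filter (· ∈ A), f u ^ 2 + β ^ 2 * ∑ u ∈ B.filter (· ∉ A), g u ^ 2 := by
        rw [Finset.sum_add_distrib, ← Finset.mul_sum, ← Finset.mul_sum, Finset.sum_filter,
          Finset.sum_filter]
        congr 2
        apply Finset.sum_congr rfl
        intro u _
        by_cases hu : u ∈ A <;> simp [hu]
    _ ≤ α ^ 2 * 1 + β ^ 2 * 1 := by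
        gcongr
        · exact hf _ (Finset.filter_subset _ _)
        · exact hg _ (Finset.filter_subset _ _)
    _ ≤ 1 := by linarith

/-- the unit coefficient family at `s` -/
def delta (s : List ℕ) : List ℕ → ℝ := fun u => if u = s then 1 else 0

theorem pathPotential_delta (s u : List ℕ) :
    pathPotential (delta s) u = if s <:+ u then 1 else 0 := by
  induction u with
  | nil =>
    simp only [pathPotential, delta, List.suffix_nil]
    by_cases h : s = [] <;> simp [h, eq_comm]
  | cons a v ih =>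
    simp only [pathPotential, ih, delta, List.suffix_cons_iff]
    by_cases h : s = a :: v
    · subst h
      have : ¬ (a :: v) <:+ v := fun h => by
        have := h.length_le
        simp at this
      simp [this]
    · have h' : ¬ a :: v = s := fun h'' => h h''.symm
      simp [h, h']

theorem abs_pathPotential_delta_le (s u : List ℕ) : |pathPotential (delta s) u| ≤ 1 := by
  rw [pathPotential_delta]
  split_ifs <;> simp

theorem sum_delta_sq_le (s : List ℕ) (B : Finset (List ℕ)) : ∑ u ∈ B, delta s u ^ 2 ≤ 1 := by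
  have : ∀ u, delta s u ^ 2 = if u = s then 1 else 0 := by
    intro u; unfold delta; split_ifs <;> simp
  simp only [this]
  rw [Finset.sum_ite_eq']
  split_ifs <;> simp

/-- the ancestor closure of a finite set of vertices (with the root added) -/
def closeA (B : Finset (List ℕ)) : Finset (List ℕ) :=
  insert [] (B.biUnion fun s => s.tails.toFinset)

theorem nil_mem_closeA (B : Finset (List ℕ)) : [] ∈ closeA B := Finset.mem_insert_self _ _

theorem mem_closeA {B : Finset (List ℕ)} {u : List ℕ} :
    u ∈ closeA B ↔ u = [] ∨ ∃ s ∈ B, u <:+ s := by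
  simp [closeA, List.mem_tails]

theorem subset_closeA (B : Finset (List ℕ)) : B ⊆ closeA B := by
  intro s hs
  rw [mem_closeA]
  exact Or.inr ⟨s, hs, List.suffix_rfl⟩

theorem closeA_closed (B : Finset (List ℕ)) : ∀ a v, a :: v ∈ closeA B → v ∈ closeA B := by
  intro a v h
  rw [mem_closeA] at h ⊢
  rcases h with h | ⟨s, hs, h⟩
  · simp at h
  · exact Or.inr ⟨s, hs, (List.suffix_cons a v).trans h⟩

end Crest.Agent.Lib.TreeGlue
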