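import Crest.Agent.Lib.VInfFinal

set_option autoImplicit false
set_option maxHeartbeats 4000000
set_option linter.unusedSectionVars false
set_option linter.unusedVariables false

namespace Crest.Agent.Lib.VInf

open Finset Crest.FinProb

variable {E : Type*} [Fintype E] [DecidableEq E]

lemma bernoulliProb_eq_ex (p : ℝ) (A : Set (E → Bool)) (G : (E → Bool) → ℝ)
    (hG : ∀ x, G x = 1 ↔ x ∈ A) (hG' : ∀ x, G x = 0 ∨ G x = 1) :
    bernoulliProb p A = ex p G := by
  classical
  unfold bernoulliProb ex
  rw [Finset.sum_filter]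
  refine Finset.sum_congr rfl fun x _ => ?_
  by_cases h : x ∈ A
  · rw [if_pos h, (hG x).2 h, mul_one]
  · rw [if_neg h]
    rcases hG' x with h2 | h2
    · rw [h2, mul_zero]
    · exact absurd ((hG x).1 h2) h

/-- 0-1 valued version of a Boolean function -/
def toR (f : (E → Bool) → Bool) (x : E → Bool) : ℝ := if f x then 1 else 0

lemma toR_zero_or_one (f : (E → Bool) → Bool) (x : E → Bool) : toR f x = 0 ∨ toR f x = 1 := by
  unfold toR; split_ifs
  · right; rfl
  · left; rfl

/-- indicator of pivotality -/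
noncomputable def piv (f : (E → Bool) → Bool) (e : E) (x : E → Bool) : ℝ :=
  if f (Function.update x e true) ≠ f (Function.update x e false) then 1 else 0

lemma edge_var_eq (p : ℝ) (f : (E → Bool) → Bool) (e : E) :
    ex p (fun x => (toR f x - avg p {e} (toR f) x) ^ 2) = p * (1 - p) * ex p (piv f e) := by
  rw [← ex_avg p {e}, ← ex_const_mul]
  refine ex_congr p fun x => ?_
  rw [avg_single, avg_single, avg_single]
  simp only [Function.update_idem, toR, piv]
  cases h1 : f (Function.update x e true) <;> cases h2 : f (Function.update x e false) <;>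
    simp <;> ring

lemma sum_edge_var_eq (p : ℝ) (f : (E → Bool) → Bool) :
    ∑ e : E, ex p (fun x => (toR f x - avg p {e} (toR f) x) ^ 2) =
      p * (1 - p) * ∑ e : E, ex p (piv f e) := by
  rw [Finset.mul_sum]
  exact Finset.sum_congr rfl fun e _ => edge_var_eq p f e

lemma piv_sum_nonneg {p : ℝ} (h0 : 0 ≤ p) (h1 : p ≤ 1) (f : (E → Bool) → Bool) :
    0 ≤ ∑ e : E, ex p (piv f e) :=
  Finset.sum_nonneg fun e _ => ex_nonneg h0 h1 fun x => by
    unfold piv; split_ifs <;> norm_num

/-- uniform inequality valid for all sizes -/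
theorem influence_all {V : Type*} [Fintype V] [DecidableEq V] {inc : E → Finset V} {p : ℝ}
    (h0 : 0 < p) (h1 : p < 1) (f : (E → Bool) → Bool)
    (hinj : Function.Injective inc) (hsym : Symm inc (toR f))
    {r : ℕ} (hr : 2 ≤ r) (hcard : ∀ e, (inc e).card = r)
    (hs0 : 0 ≤ Real.log (Fintype.card V : ℝ)) :
    Real.log (Fintype.card V : ℝ) ^ ((r : ℝ) / ((r : ℝ) - 1)) *
      (ex p (toR f) - ex p (toR f) ^ 2) ≤ 32768 * (r : ℝ) ^ 2 * ∑ e : E, ex p (piv f e) := by
  rcases le_or_gt 724 (Real.log (Fintype.card V : ℝ)) with hs | hs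
  · exact influence_lower h0 h1 hinj hsym (toR_zero_or_one f) hr hcard hs (sum_edge_var_eq p f)
  · have hp := poincare h0 h1 (toR_zero_or_one f) (sum_edge_var_eq p f)
    set s := Real.log (Fintype.card V : ℝ)
    set I := ∑ e : E, ex p (piv f e) with hI
    have hI0 : 0 ≤ I := piv_sum_nonneg h0.le h1.le f
    have hr' : (2:ℝ) ≤ r := by exact_mod_cast hr
    have hpq : p * (1 - p) ≤ 1 / 4 := by nlinarith [sq_nonneg (p - 1 / 2)]
    have hV : ex p (toR f) - ex p (toR f) ^ 2 ≤ I / 4 := by nlinarith
    have hα0 : 0 ≤ (r : ℝ) / ((r : ℝ) - 1) := div_nonneg (by linarith) (by linarith)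
    have hpow : s ^ ((r : ℝ) / ((r : ℝ) - 1)) ≤ 724 ^ 2 := by
      calc s ^ ((r : ℝ) / ((r : ℝ) - 1)) ≤ (724:ℝ) ^ ((r : ℝ) / ((r : ℝ) - 1)) :=
            Real.rpow_le_rpow hs0 hs.le hα0
        _ ≤ (724:ℝ) ^ ((2:ℕ) : ℝ) := by
            refine Real.rpow_le_rpow_of_exponent_le (by norm_num) ?_
            rw [div_le_iff₀ (by linarith)]
            push_cast; linarith
        _ = 724 ^ 2 := Real.rpow_natCast _ _
    have hpow0 : 0 ≤ s ^ ((r : ℝ) / ((r : ℝ) - 1)) := Real.rpow_nonneg hs0 _
    calc s ^ ((r : ℝ) / ((r : ℝ) - 1)) * (ex p (toR f) - ex p (toR f) ^ 2)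
        ≤ s ^ ((r : ℝ) / ((r : ℝ) - 1)) * (I / 4) := mul_le_mul_of_nonneg_left hV hpow0
      _ ≤ 724 ^ 2 * (I / 4) := mul_le_mul_of_nonneg_right hpow (by positivity)
      _ = 131044 * I := by ring
      _ ≤ 32768 * (r : ℝ) ^ 2 * I := by
          have h4 : (4:ℝ) ≤ (r:ℝ) ^ 2 := by nlinarith
          exact mul_le_mul_of_nonneg_right (by linarith) hI0

/-- Russo's formula -/
lemma russo_deriv (F : (E → Bool) → ℝ) {p : ℝ} (h0 : 0 < p) (h1 : p < 1) :
    HasDerivAt (fun p => ex p F)
      (∑ e : E, ex p (fun x => F (Function.update x e true) - F (Function.update x e false))) p := by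
  have hq : 0 < 1 - p := by linarith
  have hcw : ∀ b : Bool, HasDerivAt (fun p => cw p b) (if b then 1 else -1) p := by
    intro b
    cases b
    · simp only [cw, Bool.false_eq_true, if_false]
      simpa using (hasDerivAt_id p).const_sub 1
    · simp only [cw, if_true]; exact hasDerivAt_id p
  have hw : ∀ x : E → Bool, HasDerivAt (fun p => bernoulliWeight p x)
      (∑ e : E, bernoulliWeight p x * (if x e then 1 / p else -(1 / (1 - p)))) p := by
    intro x
    have h2 := HasDerivAt.fun_finsetProd (u := (Finset.univ : Finset E))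
      (f := fun e p => cw p (x e)) (f' := fun e => if x e then 1 else -1) (x := p)
      (fun e _ => hcw (x e))
    have h3 : (∑ e : E, (∏ j ∈ Finset.univ.erase e, cw p (x j)) • (if x e then (1:ℝ) else -1)) =
        ∑ e : E, bernoulliWeight p x * (if x e then 1 / p else -(1 / (1 - p))) := by
      refine Finset.sum_congr rfl fun e _ => ?_
      rw [weight_eq, ← Finset.mul_prod_erase Finset.univ (fun j => cw p (x j)) (Finset.mem_univ e),
        smul_eq_mul]
      cases hx : x e
      · simp only [cw, Bool.false_eq_true, if_false]; field_simp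
      · simp only [cw, if_true]; field_simp
    rw [h3] at h2
    exact h2
  have h4 : HasDerivAt (fun p => ex p F)
      (∑ x : E → Bool, (∑ e : E, bernoulliWeight p x *
        (if x e then 1 / p else -(1 / (1 - p)))) * F x) p := by
    unfold ex
    exact HasDerivAt.fun_sum fun x _ => (hw x).mul_const (F x)
  have h5 : (∑ x : E → Bool, (∑ e : E, bernoulliWeight p x *
        (if x e then 1 / p else -(1 / (1 - p)))) * F x) =
      ∑ e : E, ex p (fun x => F (Function.update x e true) - F (Function.update x e false)) := by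
    have h6 : ∀ x : E → Bool, (∑ e : E, bernoulliWeight p x *
        (if x e then 1 / p else -(1 / (1 - p)))) * F x =
        ∑ e : E, bernoulliWeight p x * ((if x e then 1 / p else -(1 / (1 - p))) * F x) := by
      intro x; rw [Finset.sum_mul]; exact Finset.sum_congr rfl fun e _ => by ring
    rw [Finset.sum_congr rfl fun x _ => h6 x, Finset.sum_comm]
    refine Finset.sum_congr rfl fun e _ => ?_
    change ex p (fun x => (if x e then 1 / p else -(1 / (1 - p))) * F x) = _
    rw [← ex_avg p {e}]
    refine ex_congr p fun x => ?_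
    rw [avg_single]
    simp only [Function.update_self, if_true, Bool.false_eq_true, if_false]
    field_simp
    ring
  rw [h5] at h4
  exact h4

lemma continuous_ex (F : (E → Bool) → ℝ) : Continuous (fun p => ex p F) := by
  unfold ex
  refine continuous_finsetSum _ fun x _ => Continuous.mul ?_ continuous_const
  simp only [weight_eq]
  refine continuous_finsetProd _ fun e _ => ?_
  unfold cw
  cases x e
  · simp only [Bool.false_eq_true, if_false]; fun_prop
  · simp only [if_true]; fun_prop

lemma russo_monotone {f : (E → Bool) → Bool} (hmono : ∀ x e, toR f (Function.update x e false) ≤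
    toR f (Function.update x e true)) (p : ℝ) :
    ∑ e : E, ex p (fun x => toR f (Function.update x e true) - toR f (Function.update x e false)) =
      ∑ e : E, ex p (piv f e) := by
  refine Finset.sum_congr rfl fun e _ => ex_congr p fun x => ?_
  have := hmono x e
  unfold toR at this ⊢
  unfold piv
  cases h1 : f (Function.update x e true) <;> cases h2 : f (Function.update x e false) <;>
    simp_all
  norm_num at this

/-- From the influence inequality to the threshold interval. -/
theorem threshold_interval {f : (E → Bool) → Bool} (hmono : ∀ x e,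
      toR f (Function.update x e false) ≤ toR f (Function.update x e true))
    {c : ℝ} (hc : 0 < c)
    (hI : ∀ p : ℝ, 0 < p → p < 1 →
      c * (ex p (toR f) * (1 - ex p (toR f))) ≤ ∑ e : E, ex p (piv f e))
    {ε p q : ℝ} (hε0 : 0 < ε) (hε : ε < 1 / 2) (hp0 : 0 ≤ p) (hq1 : q ≤ 1)
    (hp : ε ≤ ex p (toR f)) (hq : p + 4 / c * Real.log (1 / (2 * ε)) ≤ q) :
    1 - ε ≤ ex q (toR f) := by
  by_contra hcon
  push Not at hcon
  set μ : ℝ → ℝ := fun p => ex p (toR f) with hμ
  have hlog : 0 < Real.log (1 / (2 * ε)) := by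
    refine Real.log_pos ?_
    rw [lt_div_iff₀ (by positivity)]; linarith
  have hpq : p < q := by
    have : 0 < 4 / c * Real.log (1 / (2 * ε)) := by positivity
    linarith
  have hderiv : ∀ s ∈ Set.Ioo p q, HasDerivAt μ (∑ e : E, ex s (piv f e)) s := by
    intro s hs
    have h := russo_deriv (toR f) (p := s) (by linarith [hs.1]) (by linarith [hs.2])
    rwa [russo_monotone hmono] at h
  have hcont : ContinuousOn μ (Set.Icc p q) := (continuous_ex (toR f)).continuousOn
  have hmonoμ : MonotoneOn μ (Set.Icc p q) := by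
    refine monotoneOn_of_deriv_nonneg (convex_Icc p q) hcont ?_ ?_
    · intro s hs
      rw [interior_Icc] at hs
      exact (hderiv s hs).differentiableAt.differentiableWithinAt
    · intro s hs
      rw [interior_Icc] at hs
      rw [(hderiv s hs).deriv]
      exact piv_sum_nonneg (by linarith [hs.1]) (by linarith [hs.2]) f
  have hlow : ∀ s ∈ Set.Icc p q, ε ≤ μ s := fun s hs =>
    hp.trans (hmonoμ (Set.left_mem_Icc.2 hpq.le) hs hs.1)
  have hupp : ∀ s ∈ Set.Icc p q, μ s < 1 - ε := fun s hs =>
    (hmonoμ hs (Set.right_mem_Icc.2 hpq.le) hs.2).trans_lt hcon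
  set φ : ℝ → ℝ := fun s => Real.log (μ s) - Real.log (1 - μ s) with hφ
  have hφc : ContinuousOn φ (Set.Icc p q) := by
    refine ContinuousOn.sub (ContinuousOn.log hcont fun s hs => ?_)
      (ContinuousOn.log (continuousOn_const.sub hcont) fun s hs => ?_)
    · have := hlow s hs; linarith
    · have := hupp s hs; linarith
  have hφd : ∀ s ∈ Set.Ioo p q, HasDerivAt φ
      ((∑ e : E, ex s (piv f e)) / μ s - (-(∑ e : E, ex s (piv f e))) / (1 - μ s)) s := by
    intro s hs
    have hs' : s ∈ Set.Icc p q := Set.Ioo_subset_Icc_self hs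
    have h1 := (hderiv s hs).log (by have := hlow s hs'; linarith)
    have h2 := ((hderiv s hs).const_sub 1).log (by have := hupp s hs'; linarith)
    exact h1.sub h2
  obtain ⟨s, hs, hslope⟩ := exists_hasDerivAt_eq_slope φ _ hpq hφc hφd
  have hs' : s ∈ Set.Icc p q := Set.Ioo_subset_Icc_self hs
  have hl := hlow s hs'
  have hu := hupp s hs'
  have hIs := hI s (by linarith [hs.1]) (by linarith [hs.2])
  change c * (μ s * (1 - μ s)) ≤ _ at hIs
  set I := ∑ e : E, ex s (piv f e)
  have hμpos : 0 < μ s := by linarith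
  have hμ1 : 0 < 1 - μ s := by linarith
  have hge : c ≤ I / μ s - (-I) / (1 - μ s) := by
    have : I / μ s - (-I) / (1 - μ s) = I / (μ s * (1 - μ s)) := by field_simp; ring
    rw [this, le_div_iff₀ (mul_pos hμpos hμ1)]; exact hIs
  rw [hslope, le_div_iff₀ (by linarith)] at hge
  have hqp : 4 * Real.log (1 / (2 * ε)) ≤ c * (q - p) := by
    have h5 : 4 / c * Real.log (1 / (2 * ε)) ≤ q - p := by linarith
    have h6 := mul_le_mul_of_nonneg_left h5 hc.le
    have h7 : c * (4 / c * Real.log (1 / (2 * ε))) = 4 * Real.log (1 / (2 * ε)) := by field_simp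
    linarith
  have hφq : φ q < Real.log (1 - ε) - Real.log ε := by
    have h1 := hlow q (Set.right_mem_Icc.2 hpq.le)
    have h2 := hupp q (Set.right_mem_Icc.2 hpq.le)
    have h3 : Real.log (μ q) < Real.log (1 - ε) := Real.log_lt_log (by linarith) h2
    have h4 : Real.log ε < Real.log (1 - μ q) := Real.log_lt_log hε0 (by linarith)
    simp only [hφ]; linarith
  have hφp : Real.log ε - Real.log (1 - ε) ≤ φ p := by
    have h1 := hlow p (Set.left_mem_Icc.2 hpq.le)
    have h2 := hupp p (Set.left_mem_Icc.2 hpq.le)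
    have h3 : Real.log ε ≤ Real.log (μ p) := Real.log_le_log hε0 h1
    have h4 : Real.log (1 - μ p) ≤ Real.log (1 - ε) := Real.log_le_log (by linarith) (by linarith)
    simp only [hφ]; linarith
  have hfin : Real.log (1 - ε) - Real.log ε ≤ 2 * Real.log (1 / (2 * ε)) := by
    have h1 : Real.log (1 / (2 * ε)) = - Real.log 2 - Real.log ε := by
      rw [one_div, Real.log_inv, Real.log_mul (by norm_num) hε0.ne']; ring
    have h2 : Real.log (1 - ε) + Real.log ε + 2 * Real.log 2 ≤ 0 := by
      have h3 : 2 * Real.log 2 = Real.log 4 := by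
        rw [show (4:ℝ) = 2 ^ 2 by norm_num, Real.log_pow]; push_cast; ring
      rw [h3, ← Real.log_mul (by linarith) hε0.ne', ← Real.log_mul (by nlinarith) (by norm_num)]
      refine Real.log_nonpos (by nlinarith) ?_
      nlinarith [sq_nonneg (2 * ε - 1)]
    rw [h1]; linarith
  linarith

end Crest.Agent.Lib.VInf
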