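import Mathlib
import Crest.Prelude.Def_FinProb

/-!
The `p`-biased cube `E → Bool` with finite-sum expectations, averaging operators over sets of
coordinates, and Fourier-Walsh coefficients (used for S0077, S0078).
-/

set_option autoImplicit false
set_option linter.unusedSectionVars false
set_option linter.unusedVariables false

namespace Crest.Agent.Lib.VInf

open Finset Crest.FinProb

variable {E : Type*} [Fintype E] [DecidableEq E]

/-- weight of one coin -/
noncomputable def cw (p : ℝ) (b : Bool) : ℝ := if b then p else 1 - p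

lemma weight_eq (p : ℝ) (x : E → Bool) : bernoulliWeight p x = ∏ e, cw p (x e) := rfl

lemma cw_pos {p : ℝ} (h0 : 0 < p) (h1 : p < 1) (b : Bool) : 0 < cw p b := by
  unfold cw; split_ifs <;> linarith

lemma cw_nonneg {p : ℝ} (h0 : 0 ≤ p) (h1 : p ≤ 1) (b : Bool) : 0 ≤ cw p b := by
  unfold cw; split_ifs <;> linarith

lemma weight_pos {p : ℝ} (h0 : 0 < p) (h1 : p < 1) (x : E → Bool) :
    0 < bernoulliWeight p x := by
  rw [weight_eq]; exact Finset.prod_pos fun e _ => cw_pos h0 h1 _

lemma weight_nonneg {p : ℝ} (h0 : 0 ≤ p) (h1 : p ≤ 1) (x : E → Bool) :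
    0 ≤ bernoulliWeight p x := by
  rw [weight_eq]; exact Finset.prod_nonneg fun e _ => cw_nonneg h0 h1 _

/-- expectation -/
noncomputable def ex (p : ℝ) (F : (E → Bool) → ℝ) : ℝ := ∑ x, bernoulliWeight p x * F x

/-- the expectation of a product of functions of the coordinates -/
lemma ex_prod (p : ℝ) (g : E → Bool → ℝ) :
    ex p (fun x => ∏ e, g e (x e)) = ∏ e, (p * g e true + (1 - p) * g e false) := by
  have h := Finset.prod_univ_sum (fun _ : E => (Finset.univ : Finset Bool))
    (fun e b => cw p b * g e b)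
  rw [Fintype.piFinset_univ] at h
  unfold ex
  rw [show (∏ e, (p * g e true + (1 - p) * g e false)) =
    ∏ e : E, ∑ b ∈ (Finset.univ : Finset Bool), cw p b * g e b from ?_, h]
  · refine Finset.sum_congr rfl fun x _ => ?_
    rw [weight_eq, ← Finset.prod_mul_distrib]
  · refine Finset.prod_congr rfl fun e _ => ?_
    simp [cw]

@[simp] lemma ex_const (p : ℝ) (c : ℝ) : ex (E := E) p (fun _ => c) = c := by
  have h := ex_prod (E := E) p (fun _ _ => 1)
  simp only [Finset.prod_const_one] at h
  have h2 : ex (E := E) p (fun _ => c) = c * ex (E := E) p (fun _ => 1) := by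
    unfold ex; rw [Finset.mul_sum]; exact Finset.sum_congr rfl fun x _ => by ring
  rw [h2, h]; simp

lemma ex_add (p : ℝ) (F G : (E → Bool) → ℝ) :
    ex p (fun x => F x + G x) = ex p F + ex p G := by
  unfold ex; rw [← Finset.sum_add_distrib]; exact Finset.sum_congr rfl fun x _ => by ring

lemma ex_sub (p : ℝ) (F G : (E → Bool) → ℝ) :
    ex p (fun x => F x - G x) = ex p F - ex p G := by
  unfold ex; rw [← Finset.sum_sub_distrib]; exact Finset.sum_congr rfl fun x _ => by ring

lemma ex_const_mul (p : ℝ) (c : ℝ) (F : (E → Bool) → ℝ) :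
    ex p (fun x => c * F x) = c * ex p F := by
  unfold ex; rw [Finset.mul_sum]; exact Finset.sum_congr rfl fun x _ => by ring

lemma ex_mul_const (p : ℝ) (c : ℝ) (F : (E → Bool) → ℝ) :
    ex p (fun x => F x * c) = ex p F * c := by
  unfold ex; rw [Finset.sum_mul]; exact Finset.sum_congr rfl fun x _ => by ring

lemma ex_sum {ι : Type*} (p : ℝ) (s : Finset ι) (F : ι → (E → Bool) → ℝ) :
    ex p (fun x => ∑ i ∈ s, F i x) = ∑ i ∈ s, ex p (F i) := by
  unfold ex; rw [Finset.sum_comm]; exact Finset.sum_congr rfl fun x _ => by rw [Finset.mul_sum]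

lemma ex_mono {p : ℝ} (h0 : 0 ≤ p) (h1 : p ≤ 1) {F G : (E → Bool) → ℝ}
    (h : ∀ x, F x ≤ G x) : ex p F ≤ ex p G :=
  Finset.sum_le_sum fun x _ => mul_le_mul_of_nonneg_left (h x) (weight_nonneg h0 h1 x)

lemma ex_nonneg {p : ℝ} (h0 : 0 ≤ p) (h1 : p ≤ 1) {F : (E → Bool) → ℝ}
    (h : ∀ x, 0 ≤ F x) : 0 ≤ ex p F :=
  Finset.sum_nonneg fun x _ => mul_nonneg (weight_nonneg h0 h1 x) (h x)

lemma ex_congr (p : ℝ) {F G : (E → Bool) → ℝ} (h : ∀ x, F x = G x) : ex p F = ex p G := by
  unfold ex; exact Finset.sum_congr rfl fun x _ => by rw [h x]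

/-- coordinates in `U` from `y`, the others from `x` -/
def mix (U : Finset E) (y x : E → Bool) : E → Bool := fun e => if e ∈ U then y e else x e

lemma mix_apply (U : Finset E) (y x : E → Bool) (e : E) :
    mix U y x e = if e ∈ U then y e else x e := rfl

lemma mix_swap_left (U : Finset E) (x y : E → Bool) :
    mix U (mix U x y) (mix U y x) = x := by
  funext e; simp only [mix_apply]; split_ifs <;> rfl

lemma weight_mix_mul (p : ℝ) (U : Finset E) (x y : E → Bool) :
    bernoulliWeight p (mix U y x) * bernoulliWeight p (mix U x y) =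
      bernoulliWeight p x * bernoulliWeight p y := by
  simp only [weight_eq]
  rw [← Finset.prod_mul_distrib, ← Finset.prod_mul_distrib]
  refine Finset.prod_congr rfl fun e _ => ?_
  simp only [mix_apply]
  split_ifs
  · ring
  · rfl

/-- the swap of the coordinates in `U` -/
def swapEquiv (U : Finset E) : ((E → Bool) × (E → Bool)) ≃ ((E → Bool) × (E → Bool)) where
  toFun z := (mix U z.2 z.1, mix U z.1 z.2)
  invFun z := (mix U z.2 z.1, mix U z.1 z.2)
  left_inv z := by simp [mix_swap_left]
  right_inv z := by simp [mix_swap_left]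

/-- double expectation is invariant under swapping coordinates -/
lemma ex_ex_swap (p : ℝ) (U : Finset E) (G : (E → Bool) → (E → Bool) → ℝ) :
    ex p (fun x => ex p (fun y => G (mix U y x) (mix U x y))) =
      ex p (fun x => ex p (fun y => G x y)) := by
  have key : ∀ H : (E → Bool) → (E → Bool) → ℝ,
      ex p (fun x => ex p (fun y => H x y)) =
        ∑ z : (E → Bool) × (E → Bool),
          (bernoulliWeight p z.1 * bernoulliWeight p z.2) * H z.1 z.2 := by
    intro H
    rw [Fintype.sum_prod_type]
    unfold ex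
    refine Finset.sum_congr rfl fun x _ => ?_
    rw [Finset.mul_sum]
    exact Finset.sum_congr rfl fun y _ => by ring
  rw [key, key, ← Equiv.sum_comp (swapEquiv U)]
  refine Finset.sum_congr rfl fun z _ => ?_
  simp only [swapEquiv, Equiv.coe_fn_mk]
  rw [weight_mix_mul, mix_swap_left, mix_swap_left]

/-- averaging over the coordinates in `U` -/
noncomputable def avg (p : ℝ) (U : Finset E) (F : (E → Bool) → ℝ) (x : E → Bool) : ℝ :=
  ex p (fun y => F (mix U y x))

lemma ex_comm (p : ℝ) (G : (E → Bool) → (E → Bool) → ℝ) :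
    ex p (fun x => ex p (fun y => G x y)) = ex p (fun y => ex p (fun x => G x y)) := by
  unfold ex
  simp only [Finset.mul_sum]
  rw [Finset.sum_comm]
  exact Finset.sum_congr rfl fun x _ => Finset.sum_congr rfl fun y _ => by ring

lemma ex_avg (p : ℝ) (U : Finset E) (F : (E → Bool) → ℝ) : ex p (avg p U F) = ex p F := by
  unfold avg
  rw [ex_ex_swap p U (fun a _ => F a)]
  simp

/-- self-adjointness -/
lemma ex_avg_mul (p : ℝ) (U : Finset E) (F G : (E → Bool) → ℝ) :
    ex p (fun x => avg p U F x * G x) = ex p (fun x => F x * avg p U G x) := by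
  have h1 : ex p (fun x => avg p U F x * G x) =
      ex p (fun x => ex p (fun y => F (mix U y x) * G (mix U (mix U x y) (mix U y x)))) := by
    refine ex_congr p fun x => ?_
    unfold avg
    rw [← ex_mul_const]
    exact ex_congr p fun y => by rw [mix_swap_left]
  rw [h1, ex_ex_swap p U (fun a b => F a * G (mix U b a))]
  refine ex_congr p fun x => ?_
  rw [ex_const_mul]; rfl

lemma avg_mono {p : ℝ} (h0 : 0 ≤ p) (h1 : p ≤ 1) (U : Finset E) {F G : (E → Bool) → ℝ}
    (h : ∀ x, F x ≤ G x) (x : E → Bool) : avg p U F x ≤ avg p U G x :=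
  ex_mono h0 h1 fun y => h _

lemma avg_nonneg {p : ℝ} (h0 : 0 ≤ p) (h1 : p ≤ 1) (U : Finset E) {F : (E → Bool) → ℝ}
    (h : ∀ x, 0 ≤ F x) (x : E → Bool) : 0 ≤ avg p U F x :=
  ex_nonneg h0 h1 fun y => h _

@[simp] lemma avg_const (p : ℝ) (U : Finset E) (c : ℝ) (x : E → Bool) :
    avg p U (fun _ => c) x = c := ex_const p c

lemma avg_sub (p : ℝ) (U : Finset E) (F G : (E → Bool) → ℝ) (x : E → Bool) :
    avg p U (fun x => F x - G x) x = avg p U F x - avg p U G x := ex_sub p _ _

lemma avg_add (p : ℝ) (U : Finset E) (F G : (E → Bool) → ℝ) (x : E → Bool) :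
    avg p U (fun x => F x + G x) x = avg p U F x + avg p U G x := ex_add p _ _

lemma avg_const_mul (p : ℝ) (U : Finset E) (c : ℝ) (F : (E → Bool) → ℝ) (x : E → Bool) :
    avg p U (fun x => c * F x) x = c * avg p U F x := ex_const_mul p _ _

lemma avg_congr (p : ℝ) (U : Finset E) {F G : (E → Bool) → ℝ} (h : ∀ x, F x = G x)
    (x : E → Bool) : avg p U F x = avg p U G x := ex_congr p fun _ => h _

/-- `F` does not depend on the coordinates in `U` -/
def Inv (U : Finset E) (F : (E → Bool) → ℝ) : Prop := ∀ y x, F (mix U y x) = F x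

lemma avg_of_inv (p : ℝ) {U : Finset E} {F : (E → Bool) → ℝ} (h : Inv U F) (x : E → Bool) :
    avg p U F x = F x := by
  unfold avg
  rw [ex_congr p (fun y => h y x)]; simp

lemma avg_mul_of_inv (p : ℝ) {U : Finset E} {G : (E → Bool) → ℝ} (h : Inv U G)
    (F : (E → Bool) → ℝ) (x : E → Bool) :
    avg p U (fun x => G x * F x) x = G x * avg p U F x := by
  unfold avg
  rw [← ex_const_mul]
  refine ex_congr p fun y => ?_
  simp only
  rw [h y x]

lemma mix_mix_self (U : Finset E) (z y x : E → Bool) : mix U z (mix U y x) = mix U z x := by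
  funext e; simp only [mix_apply]; split_ifs <;> rfl

lemma inv_avg (p : ℝ) (U : Finset E) (F : (E → Bool) → ℝ) : Inv U (avg p U F) := by
  intro y x
  unfold avg
  exact ex_congr p fun z => by rw [mix_mix_self]

lemma avg_avg (p : ℝ) (U U' : Finset E) (F : (E → Bool) → ℝ) (x : E → Bool) :
    avg p U (avg p U' F) x = avg p (U ∪ U') F x := by
  unfold avg
  have h : ∀ y z : E → Bool,
      F (mix U' z (mix U y x)) = (fun u => F (mix (U ∪ U') u x)) (mix U' z y) := by
    intro y z
    simp only
    congr 1
    funext e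
    simp only [mix_apply, Finset.mem_union]
    by_cases h1 : e ∈ U' <;> by_cases h2 : e ∈ U <;> simp [h1, h2]
  rw [ex_congr p (fun y => ex_congr p (fun z => h y z))]
  rw [ex_ex_swap p U' (fun a _ => F (mix (U ∪ U') a x))]
  simp

lemma avg_comm (p : ℝ) (U U' : Finset E) (F : (E → Bool) → ℝ) (x : E → Bool) :
    avg p U (avg p U' F) x = avg p U' (avg p U F) x := by
  rw [avg_avg, avg_avg, Finset.union_comm]

lemma Inv.mono {U U' : Finset E} (hU : U' ⊆ U) {F : (E → Bool) → ℝ} (h : Inv U F) : Inv U' F := by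
  intro y x
  have h1 : mix U' y x = mix U (mix U' y x) x := by
    funext e; simp only [mix_apply]
    by_cases h1 : e ∈ U'
    · simp [h1, hU h1]
    · simp [h1]
  rw [h1]; exact h _ _

lemma avg_single (p : ℝ) (e : E) (F : (E → Bool) → ℝ) (x : E → Bool) :
    avg p {e} F x = p * F (Function.update x e true) + (1 - p) * F (Function.update x e false) := by
  unfold avg
  have h : ∀ y : E → Bool, F (mix {e} y x) =
      F (Function.update x e true) * (∏ e', (if e' = e then (if y e' then (1:ℝ) else 0) else 1)) +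
      F (Function.update x e false) * (∏ e', (if e' = e then (if y e' then (0:ℝ) else 1) else 1)) := by
    intro y
    have hm : mix {e} y x = Function.update x e (y e) := by
      funext e'; simp only [mix_apply, Finset.mem_singleton, Function.update_apply]
      split_ifs with h1
      · rw [h1]
      · rfl
    rw [hm, Finset.prod_ite_eq' , Finset.prod_ite_eq']
    cases hy : y e <;> simp
  rw [ex_congr p h, ex_add, ex_const_mul, ex_const_mul]
  have h1 := ex_prod (E := E) p (fun e' b => (if e' = e then (if b then (1:ℝ) else 0) else 1))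
  have h2 := ex_prod (E := E) p (fun e' b => (if e' = e then (if b then (0:ℝ) else 1) else 1))
  rw [h1, h2]
  have h3 : ∀ (a b : ℝ), (∏ e' : E, (p * (if e' = e then a else 1) +
      (1 - p) * (if e' = e then b else 1))) = p * a + (1 - p) * b := by
    intro a b
    rw [Finset.prod_eq_single e]
    · simp
    · intro b' _ hb'; simp [hb']
    · simp
  simp only [if_true, Bool.false_eq_true, if_false]
  rw [h3 1 0, h3 0 1]
  ring

end Crest.Agent.Lib.VInf
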