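import Crest.Agent.Lib.VInfFourier

set_option autoImplicit false
set_option linter.unusedSectionVars false
set_option linter.unusedVariables false

namespace Crest.Agent.Lib.VInf

open Finset Crest.FinProb

variable {E : Type*} [Fintype E] [DecidableEq E]

/-- `x log x` -/
noncomputable def xlx (x : ℝ) : ℝ := x * Real.log x

lemma term_bound {a s : ℝ} (ha : 0 ≤ a) (hs : 0 < s) :
    a ^ 2 * (Real.log (a ^ 2) - Real.log (s ^ 2)) ≤ 2 * (a ^ 3 / s - a ^ 2) := by
  rcases ha.eq_or_lt with h | h
  · subst h; simp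
  · have h1 : Real.log (a ^ 2) - Real.log (s ^ 2) = 2 * Real.log (a / s) := by
      rw [Real.log_div h.ne' hs.ne', Real.log_pow, Real.log_pow]; push_cast; ring
    have h2 : Real.log (a / s) ≤ a / s - 1 := Real.log_le_sub_one_of_pos (div_pos h hs)
    rw [h1]
    have h3 : a ^ 2 * (2 * Real.log (a / s)) ≤ a ^ 2 * (2 * (a / s - 1)) :=
      mul_le_mul_of_nonneg_left (by linarith) (sq_nonneg a)
    calc a ^ 2 * (2 * Real.log (a / s)) ≤ a ^ 2 * (2 * (a / s - 1)) := h3
      _ = 2 * (a ^ 3 / s - a ^ 2) := by ring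

/-- two-point logarithmic Sobolev inequality, with nonnegative values -/
lemma two_point_nonneg {p : ℝ} (h0 : 0 < p) (h1 : p < 1) {a b : ℝ} (ha : 0 ≤ a) (hb : 0 ≤ b) :
    p * xlx (a ^ 2) + (1 - p) * xlx (b ^ 2) - xlx (p * a ^ 2 + (1 - p) * b ^ 2) ≤
      2 * √(p * (1 - p)) * (a - b) ^ 2 := by
  have hq : 0 < 1 - p := by linarith
  set m2 := p * a ^ 2 + (1 - p) * b ^ 2 with hm2
  have hm2n : 0 ≤ m2 := by positivity
  rcases hm2n.eq_or_lt with h | h
  · have ha2 : a = 0 := by
      have : p * a ^ 2 ≤ 0 := by nlinarith [mul_nonneg hq.le (sq_nonneg b)]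
      have : a ^ 2 ≤ 0 := by
        by_contra hc; push Not at hc; nlinarith [mul_pos h0 hc]
      nlinarith [sq_nonneg a]
    have hb2 : b = 0 := by
      have : (1 - p) * b ^ 2 ≤ 0 := by nlinarith [mul_nonneg h0.le (sq_nonneg a)]
      have : b ^ 2 ≤ 0 := by
        by_contra hc; push Not at hc; nlinarith [mul_pos hq hc]
      nlinarith [sq_nonneg b]
    rw [← h, ha2, hb2]; simp [xlx]
  · set s := √m2 with hs
    have hs0 : 0 < s := Real.sqrt_pos.2 h
    have hs2 : s ^ 2 = m2 := Real.sq_sqrt h.le
    have e1 : p * xlx (a ^ 2) + (1 - p) * xlx (b ^ 2) - xlx m2 =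
        p * (a ^ 2 * (Real.log (a ^ 2) - Real.log (s ^ 2))) +
        (1 - p) * (b ^ 2 * (Real.log (b ^ 2) - Real.log (s ^ 2))) := by
      unfold xlx
      rw [hs2]
      have : m2 * Real.log m2 = (p * a ^ 2 + (1 - p) * b ^ 2) * Real.log m2 := by rw [← hm2]
      rw [this]; ring
    rw [e1]
    have t1 := mul_le_mul_of_nonneg_left (term_bound ha hs0) h0.le
    have t2 := mul_le_mul_of_nonneg_left (term_bound hb hs0) hq.le
    -- the mean is at most the L2 norm
    have hm : p * a + (1 - p) * b ≤ s := by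
      rw [hs]
      refine Real.le_sqrt_of_sq_le ?_
      rw [hm2]
      nlinarith [mul_nonneg (mul_nonneg h0.le hq.le) (sq_nonneg (a - b))]
    have hpq : √(p * (1 - p)) * (a + b) ≤ s := by
      rw [hs]
      refine Real.le_sqrt_of_sq_le ?_
      rw [mul_pow, Real.sq_sqrt (mul_nonneg h0.le hq.le), hm2]
      nlinarith [sq_nonneg (p * a - (1 - p) * b)]
    have hid : p * a ^ 3 + (1 - p) * b ^ 3 =
        m2 * (p * a + (1 - p) * b) + p * (1 - p) * (a - b) ^ 2 * (a + b) := by
      rw [hm2]; ring
    have hr : √(p * (1 - p)) * √(p * (1 - p)) = p * (1 - p) :=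
      Real.mul_self_sqrt (mul_nonneg h0.le hq.le)
    have key : p * (a ^ 3 / s - a ^ 2) + (1 - p) * (b ^ 3 / s - b ^ 2) ≤
        √(p * (1 - p)) * (a - b) ^ 2 := by
      have e2 : p * (a ^ 3 / s - a ^ 2) + (1 - p) * (b ^ 3 / s - b ^ 2) =
          (p * a ^ 3 + (1 - p) * b ^ 3) / s - s ^ 2 := by
        rw [hs2, hm2]; ring
      rw [e2, hid, sub_le_iff_le_add, div_le_iff₀ hs0]
      have k1 : m2 * (p * a + (1 - p) * b) ≤ s ^ 2 * s := by
        rw [← hs2]; exact mul_le_mul_of_nonneg_left hm (sq_nonneg s)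
      have k2 : p * (1 - p) * (a - b) ^ 2 * (a + b) ≤ √(p * (1 - p)) * (a - b) ^ 2 * s := by
        calc p * (1 - p) * (a - b) ^ 2 * (a + b)
            = (√(p * (1 - p)) * (a - b) ^ 2) * (√(p * (1 - p)) * (a + b)) := by
              conv_lhs => rw [← hr]
              ring
          _ ≤ (√(p * (1 - p)) * (a - b) ^ 2) * s :=
              mul_le_mul_of_nonneg_left hpq (mul_nonneg (Real.sqrt_nonneg _) (sq_nonneg _))
      nlinarith
    nlinarith

/-- two-point logarithmic Sobolev inequality -/
lemma two_point {p : ℝ} (h0 : 0 < p) (h1 : p < 1) (a b : ℝ) :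
    p * xlx (a ^ 2) + (1 - p) * xlx (b ^ 2) - xlx (p * a ^ 2 + (1 - p) * b ^ 2) ≤
      2 * √(p * (1 - p)) * (a - b) ^ 2 := by
  have h := two_point_nonneg h0 h1 (abs_nonneg a) (abs_nonneg b)
  simp only [sq_abs] at h
  refine h.trans ?_
  refine mul_le_mul_of_nonneg_left ?_ (mul_nonneg (by norm_num) (Real.sqrt_nonneg _))
  exact sq_le_sq.2 (abs_abs_sub_abs_le _ _)

lemma ex_eq_zero {p : ℝ} (h0 : 0 < p) (h1 : p < 1) {F : (E → Bool) → ℝ} (hF : ∀ x, 0 ≤ F x)
    (h : ex p F = 0) (x : E → Bool) : F x = 0 := by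
  unfold ex at h
  rw [Finset.sum_eq_zero_iff_of_nonneg
    (fun x _ => mul_nonneg (weight_nonneg h0.le h1.le x) (hF x))] at h
  have := h x (Finset.mem_univ x)
  rcases mul_eq_zero.1 this with h2 | h2
  · exact absurd h2 (weight_pos h0 h1 x).ne'
  · exact h2

lemma avg_pos_of_pos {p : ℝ} (h0 : 0 < p) (h1 : p < 1) (U : Finset E) {F : (E → Bool) → ℝ}
    (hF : ∀ x, 0 ≤ F x) {x : E → Bool} (hx : 0 < F x) : 0 < avg p U F x := by
  refine lt_of_le_of_ne (avg_nonneg h0.le h1.le U hF x) ?_
  intro hc
  have h2 := ex_eq_zero h0 h1 (F := fun y => F (mix U y x)) (fun y => hF _) hc.symm x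
  have h3 : mix U x x = x := by funext e; simp [mix_apply]
  rw [h3] at h2
  linarith

lemma Inv.comp {U : Finset E} {F : (E → Bool) → ℝ} (h : Inv U F) (φ : ℝ → ℝ) :
    Inv U (fun x => φ (F x)) := fun y x => by simp only; rw [h y x]

lemma ex_mul_inv (p : ℝ) {U : Finset E} {G : (E → Bool) → ℝ} (h : Inv U G)
    (F : (E → Bool) → ℝ) : ex p (fun x => F x * G x) = ex p (fun x => avg p U F x * G x) := by
  rw [ex_avg_mul]
  exact ex_congr p fun x => by rw [avg_of_inv p h]

/-- one step of the tensorisation of entropy -/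
lemma ent_step {p : ℝ} (h0 : 0 < p) (h1 : p < 1) (e : E) (U : Finset E) {F : (E → Bool) → ℝ}
    (hF : ∀ x, 0 ≤ F x) :
    ex p (fun x => xlx (avg p U F x)) - ex p (fun x => xlx (avg p (insert e U) F x)) ≤
      ex p (fun x => xlx (F x)) - ex p (fun x => xlx (avg p {e} F x)) := by
  set F1 := avg p U F with hF1
  set F2 := avg p (insert e U) F with hF2
  set G := avg p {e} F with hG
  have hF2' : ∀ x, F2 x = avg p {e} F1 x := by
    intro x; rw [hF1, avg_avg, hF2, Finset.insert_eq]
  have hF1n : ∀ x, 0 ≤ F1 x := avg_nonneg h0.le h1.le U hF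
  have hF2n : ∀ x, 0 ≤ F2 x := avg_nonneg h0.le h1.le _ hF
  have hGn : ∀ x, 0 ≤ G x := avg_nonneg h0.le h1.le _ hF
  have hpt : ∀ x, F x - (F1 x / F2 x) * G x ≤
      xlx (F x) - F x * Real.log (G x) - F x * Real.log (F1 x) + F x * Real.log (F2 x) := by
    intro x
    rcases (hF x).eq_or_lt with h | h
    · rw [← h]
      simp only [xlx, zero_mul, zero_sub, sub_zero, add_zero]
      have : 0 ≤ F1 x / F2 x * G x := mul_nonneg (div_nonneg (hF1n x) (hF2n x)) (hGn x)
      linarith
    · have hG0 : 0 < G x := avg_pos_of_pos h0 h1 _ hF h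
      have hF10 : 0 < F1 x := avg_pos_of_pos h0 h1 _ hF h
      have hF20 : 0 < F2 x := avg_pos_of_pos h0 h1 _ hF h
      set w := F1 x / F2 x * G x with hw
      have hw0 : 0 < w := mul_pos (div_pos hF10 hF20) hG0
      have h2 : Real.log (w / F x) ≤ w / F x - 1 := Real.log_le_sub_one_of_pos (div_pos hw0 h)
      have h3 : Real.log (w / F x) = Real.log (F1 x) - Real.log (F2 x) + Real.log (G x)
          - Real.log (F x) := by
        rw [Real.log_div hw0.ne' h.ne', hw, Real.log_mul (div_pos hF10 hF20).ne' hG0.ne',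
          Real.log_div hF10.ne' hF20.ne']
      have h4 : F x * Real.log (w / F x) ≤ w - F x := by
        have := mul_le_mul_of_nonneg_left h2 h.le
        have h5 : F x * (w / F x - 1) = w - F x := by field_simp
        linarith
      rw [h3] at h4
      simp only [xlx]
      nlinarith
  have hex := ex_mono h0.le h1.le hpt
  -- rewrite the right side
  have r1 : ex p (fun x => F x * Real.log (G x)) = ex p (fun x => xlx (G x)) := by
    rw [ex_mul_inv p (U := {e}) ((inv_avg p {e} F).comp Real.log) F]; rfl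
  have r2 : ex p (fun x => F x * Real.log (F1 x)) = ex p (fun x => xlx (F1 x)) := by
    rw [ex_mul_inv p (U := U) ((inv_avg p U F).comp Real.log) F]; rfl
  have r3 : ex p (fun x => F x * Real.log (F2 x)) = ex p (fun x => xlx (F2 x)) := by
    rw [ex_mul_inv p (U := insert e U) ((inv_avg p _ F).comp Real.log) F]; rfl
  have l1 : ex p (fun x => F1 x / F2 x * G x) ≤ ex p F := by
    have hinv2 : Inv {e} (fun x => G x / F2 x) := by
      intro y x
      have a1 : F2 (mix {e} y x) = F2 x := by
        rw [hF2', hF2']; exact inv_avg p {e} F1 y x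
      have a2 : G (mix {e} y x) = G x := inv_avg p {e} F y x
      simp only; rw [a1, a2]
    have a3 : ex p (fun x => F1 x / F2 x * G x) = ex p (fun x => F1 x * (G x / F2 x)) :=
      ex_congr p fun x => by ring
    rw [a3, ex_mul_inv p hinv2 F1, ← ex_avg p {e} F]
    refine ex_mono h0.le h1.le fun x => ?_
    rw [← hF2']
    rcases (hF2n x).eq_or_lt with h | h
    · rw [← h]; simp; exact hGn x
    · rw [mul_div_cancel₀ _ h.ne']
  rw [ex_sub] at hex
  have r4 : ex p (fun x => xlx (F x) - F x * Real.log (G x) - F x * Real.log (F1 x) +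
      F x * Real.log (F2 x)) = ex p (fun x => xlx (F x)) - ex p (fun x => xlx (G x)) -
      ex p (fun x => xlx (F1 x)) + ex p (fun x => xlx (F2 x)) := by
    rw [ex_add, ex_sub, ex_sub, r1, r2, r3]
  rw [r4] at hex
  linarith

/-- tensorisation of entropy -/
lemma ent_tensor {p : ℝ} (h0 : 0 < p) (h1 : p < 1) (U : Finset E) {F : (E → Bool) → ℝ}
    (hF : ∀ x, 0 ≤ F x) :
    ex p (fun x => xlx (F x)) - ex p (fun x => xlx (avg p U F x)) ≤
      ∑ e ∈ U, (ex p (fun x => xlx (F x)) - ex p (fun x => xlx (avg p {e} F x))) := by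
  induction U using Finset.induction_on with
  | empty =>
    have : ∀ x, avg p (∅ : Finset E) F x = F x := fun x =>
      avg_of_inv p (fun y x => by congr 1) x
    simp [this]
  | insert e U he ih =>
    rw [Finset.sum_insert he]
    have := ent_step h0 h1 e U hF
    linarith

/-- logarithmic Sobolev inequality for the coordinates in `U` -/
lemma log_sobolev {p : ℝ} (h0 : 0 < p) (h1 : p < 1) (U : Finset E) (g : (E → Bool) → ℝ) :
    ex p (fun x => xlx (g x ^ 2)) - ex p (fun x => xlx (avg p U (fun x => g x ^ 2) x)) ≤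
      ∑ e ∈ U, (2 / √(p * (1 - p))) * ex p (fun x => (g x - avg p {e} g x) ^ 2) := by
  refine (ent_tensor h0 h1 U (F := fun x => g x ^ 2) fun x => sq_nonneg _).trans ?_
  refine Finset.sum_le_sum fun e _ => ?_
  have hq : 0 < 1 - p := by linarith
  have hpq : 0 < p * (1 - p) := mul_pos h0 hq
  rw [← ex_avg p {e} (fun x => xlx (g x ^ 2)), ← ex_avg p {e} (fun x => (g x - avg p {e} g x) ^ 2),
    ← ex_const_mul, ← ex_sub]
  refine ex_mono h0.le h1.le fun x => ?_
  rw [avg_single, avg_single, avg_single, avg_single, avg_single]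
  simp only [Function.update_idem]
  set a := g (Function.update x e true)
  set b := g (Function.update x e false)
  refine (two_point h0 h1 a b).trans (le_of_eq ?_)
  have hs : √(p * (1 - p)) * √(p * (1 - p)) = p * (1 - p) := Real.mul_self_sqrt hpq.le
  have hspos : 0 < √(p * (1 - p)) := Real.sqrt_pos.2 hpq
  have e1 : p * (a - (p * a + (1 - p) * b)) ^ 2 + (1 - p) * (b - (p * a + (1 - p) * b)) ^ 2 =
      (p * (1 - p)) * (a - b) ^ 2 := by ring
  rw [e1]
  have e2 : 2 / √(p * (1 - p)) * (p * (1 - p) * (a - b) ^ 2) =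
      2 / √(p * (1 - p)) * (√(p * (1 - p)) * √(p * (1 - p)) * (a - b) ^ 2) := by rw [hs]
  rw [e2]
  field_simp

/-- lower bound for the conditional entropy of a square, by the ratio of norms -/
lemma ent_lower {p : ℝ} (h0 : 0 < p) (h1 : p < 1) (U : Finset E) (g : (E → Bool) → ℝ)
    (x : E → Bool) (hm : 0 < avg p U (fun x => g x ^ 2) x) :
    avg p U (fun x => g x ^ 2) x *
        (Real.log (avg p U (fun x => g x ^ 2) x) - 2 * Real.log (avg p U (fun x => |g x|) x)) ≤
      avg p U (fun x => xlx (g x ^ 2)) x - xlx (avg p U (fun x => g x ^ 2) x) := by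
  set m := avg p U (fun x => g x ^ 2) x with hmdef
  set a := avg p U (fun x => |g x|) x with hadef
  have ha : 0 < a := by
    refine lt_of_le_of_ne (avg_nonneg h0.le h1.le U (fun x => abs_nonneg _) x) ?_
    intro hc
    have hz := ex_eq_zero h0 h1 (F := fun y => |g (mix U y x)|) (fun y => abs_nonneg _) hc.symm
    have : m = 0 := by
      rw [hmdef]
      unfold avg
      rw [ex_congr p (G := fun _ => 0)]
      · simp
      · intro y
        have := hz y
        simp only
        rw [← sq_abs, this]; simp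
    linarith
  have hpt : ∀ y, 2 * ((1 - Real.log (a / m)) * g y ^ 2 - (m / a) * |g y|) ≤ xlx (g y ^ 2) := by
    intro y
    rcases (abs_nonneg (g y)).eq_or_lt with h | h
    · have : g y = 0 := abs_eq_zero.1 h.symm
      simp [this, xlx]
    · set z := |g y| with hz
      have hz2 : g y ^ 2 = z ^ 2 := (sq_abs _).symm
      rw [hz2]
      have h2 : Real.log (m / (z * a)) ≤ m / (z * a) - 1 :=
        Real.log_le_sub_one_of_pos (by positivity)
      have h3 : Real.log (m / (z * a)) = - Real.log z - Real.log (a / m) := by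
        rw [Real.log_div hm.ne' (by positivity), Real.log_mul h.ne' ha.ne',
          Real.log_div ha.ne' hm.ne']; ring
      rw [h3] at h2
      have h4 : z ^ 2 * (- Real.log z - Real.log (a / m)) ≤ z ^ 2 * (m / (z * a) - 1) :=
        mul_le_mul_of_nonneg_left h2 (sq_nonneg z)
      have h5 : z ^ 2 * (m / (z * a) - 1) = (m / a) * z - z ^ 2 := by field_simp
      rw [h5] at h4
      unfold xlx
      rw [Real.log_pow]
      push_cast
      nlinarith
  have h6 := avg_mono h0.le h1.le U hpt x
  have h7 : avg p U (fun y => 2 * ((1 - Real.log (a / m)) * g y ^ 2 - (m / a) * |g y|)) x =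
      2 * ((1 - Real.log (a / m)) * m - (m / a) * a) := by
    rw [avg_const_mul, avg_sub, avg_const_mul, avg_const_mul]
  rw [h7] at h6
  have h8 : m / a * a = m := div_mul_cancel₀ _ ha.ne'
  rw [h8, Real.log_div ha.ne' hm.ne'] at h6
  have h9 : xlx m = m * Real.log m := rfl
  rw [h9]
  nlinarith

/-- the conditional entropy of a square is nonnegative -/
lemma ent_nonneg {p : ℝ} (h0 : 0 < p) (h1 : p < 1) (U : Finset E) (g : (E → Bool) → ℝ)
    (x : E → Bool) :
    0 ≤ avg p U (fun x => xlx (g x ^ 2)) x - xlx (avg p U (fun x => g x ^ 2) x) := by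
  set m := avg p U (fun x => g x ^ 2) x with hmdef
  have hm0 : 0 ≤ m := avg_nonneg h0.le h1.le U (fun x => sq_nonneg _) x
  rcases hm0.eq_or_lt with h | h
  · have hz := ex_eq_zero h0 h1 (F := fun y => g (mix U y x) ^ 2) (fun y => sq_nonneg _) h.symm
    have : avg p U (fun x => xlx (g x ^ 2)) x = 0 := by
      unfold avg
      rw [ex_congr p (G := fun _ => 0)]
      · simp
      · intro y
        have := hz y
        simp only
        rw [this]; simp [xlx]
    rw [this, ← h]; simp [xlx]
  · have hpt : ∀ y, (Real.log m + 1) * g y ^ 2 - m ≤ xlx (g y ^ 2) := by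
      intro y
      rcases (sq_nonneg (g y)).eq_or_lt with h2 | h2
      · rw [← h2]; simp [xlx]; exact h.le
      · set z := g y ^ 2 with hz
        have h3 : Real.log (m / z) ≤ m / z - 1 := Real.log_le_sub_one_of_pos (by positivity)
        rw [Real.log_div h.ne' h2.ne'] at h3
        have h4 := mul_le_mul_of_nonneg_left h3 h2.le
        have h5 : z * (m / z - 1) = m - z := by field_simp
        rw [h5] at h4
        unfold xlx
        nlinarith
    have h6 := avg_mono h0.le h1.le U hpt x
    have h7 : avg p U (fun y => (Real.log m + 1) * g y ^ 2 - m) x = (Real.log m + 1) * m - m := by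
      rw [avg_sub p U (fun y => (Real.log m + 1) * g y ^ 2) (fun _ => m), avg_const_mul, avg_const]
    rw [h7] at h6
    have h9 : xlx m = m * Real.log m := rfl
    rw [h9]
    nlinarith

/-- combined lower bound used for the vertex stars -/
lemma ent_lower' {p : ℝ} (h0 : 0 < p) (h1 : p < 1) (U : Finset E) (g : (E → Bool) → ℝ)
    (x : E → Bool) {κ l η : ℝ} (hκ : 0 ≤ κ) (hη : 0 ≤ η) (hl : 4 ≤ l)
    (ha : avg p U (fun x => |g x|) x ≤ 2 * κ) :
    Real.log (l / 4) * (avg p U (fun x => g x ^ 2) x - l * η * κ -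
        (if η < κ then avg p U (fun x => g x ^ 2) x else 0)) ≤
      avg p U (fun x => xlx (g x ^ 2)) x - xlx (avg p U (fun x => g x ^ 2) x) := by
  set m := avg p U (fun x => g x ^ 2) x with hmdef
  have hm0 : 0 ≤ m := avg_nonneg h0.le h1.le U (fun x => sq_nonneg _) x
  have hL : 0 ≤ Real.log (l / 4) := Real.log_nonneg (by linarith)
  have hlηκ : 0 ≤ l * η * κ := by positivity
  by_cases hcase : 0 < m ∧ l * κ ^ 2 ≤ m
  · obtain ⟨hm, hmk⟩ := hcase
    have h2 := ent_lower h0 h1 U g x hm
    rw [← hmdef] at h2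
    refine le_trans ?_ h2
    set a := avg p U (fun x => |g x|) x with hadef
    have ha0 : 0 ≤ a := avg_nonneg h0.le h1.le U (fun x => abs_nonneg _) x
    have hstep : Real.log (l / 4) ≤ Real.log m - 2 * Real.log a := by
      rcases ha0.eq_or_lt with h | h
      · -- a = 0 contradicts m > 0
        exfalso
        have hz := ex_eq_zero h0 h1 (F := fun y => |g (mix U y x)|) (fun y => abs_nonneg _) h.symm
        have : m = 0 := by
          rw [hmdef]
          unfold avg
          rw [ex_congr p (G := fun _ => 0)]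
          · simp
          · intro y
            have := hz y
            simp only
            rw [← sq_abs, this]; simp
        linarith
      · have h3 : 2 * Real.log a = Real.log (a ^ 2) := by rw [Real.log_pow]; push_cast; ring
        rw [h3, ← Real.log_div hm.ne' (by positivity)]
        refine Real.log_le_log (by linarith) ?_
        rw [div_le_div_iff₀ (by norm_num) (by positivity)]
        have : a ^ 2 ≤ (2 * κ) ^ 2 := pow_le_pow_left₀ ha0 ha 2
        nlinarith
    have h5 : (0:ℝ) ≤ if η < κ then m else 0 := by split_ifs <;> linarith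
    calc Real.log (l / 4) * (m - l * η * κ - if η < κ then m else 0)
        ≤ Real.log (l / 4) * m := mul_le_mul_of_nonneg_left (by linarith) hL
      _ ≤ (Real.log m - 2 * Real.log a) * m := mul_le_mul_of_nonneg_right hstep hm.le
      _ = m * (Real.log m - 2 * Real.log a) := by ring
  · refine le_trans ?_ (ent_nonneg h0 h1 U g x)
    refine mul_nonpos_of_nonneg_of_nonpos hL ?_
    rw [not_and_or] at hcase
    rcases hcase with h | h
    · have : m = 0 := le_antisymm (not_lt.1 h) hm0
      rw [this]; simp; exact hlηκ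
    · push Not at h
      split_ifs with hc
      · linarith
      · push Not at hc
        have : l * κ ^ 2 ≤ l * η * κ := by
          have : κ ^ 2 ≤ η * κ := by nlinarith
          nlinarith
        linarith

end Crest.Agent.Lib.VInf
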