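import Mathlib

set_option autoImplicit false
set_option maxHeartbeats 4000000
set_option linter.unusedSectionVars false
set_option linter.unusedVariables false

namespace Crest.Agent.Lib.VInf

open Finset

lemma exp_neg_le {x : ℝ} (hx : 0 < x) (n : ℕ) : Real.exp (-x) ≤ n.factorial / x ^ n := by
  have h := Real.pow_div_factorial_le_exp x hx.le n
  have hf : (0:ℝ) < n.factorial := by exact_mod_cast n.factorial_pos
  have hxn : 0 < x ^ n := pow_pos hx n
  rw [Real.exp_neg, inv_eq_one_div, div_le_div_iff₀ (Real.exp_pos x) hxn]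
  rw [div_le_iff₀ hf] at h
  linarith

/-- The numerical core: from the main inequality to a lower bound for the energy. -/
lemma sum_core {ι : Type*} [Fintype ι] (k : ι → ℕ) (a c : ι → ℝ) (r : ℕ) (hr : 2 ≤ r)
    (ha : ∀ i, 0 ≤ a i) (hc : ∀ i, 0 ≤ c i)
    (h1 : ∀ i, a i ≤ (k i : ℝ) ^ r / 2) (h2 : ∀ i, (k i : ℝ) ≤ r * a i)
    (h3 : ∀ i, k i = 0 ∨ r ≤ k i)
    (Λ s X K V0 En : ℝ) (hΛ : 4 ≤ Λ) (hs : 724 ≤ s) (hX : X ≤ s ^ 2 / 65536)
    (hV : V0 = ∑ i, if k i = 0 then 0 else c i) (hV0 : 0 < V0)
    (hEn : En = ∑ i, a i * c i) (hE : r * Λ * En ≤ X * V0)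
    (hK0 : 0 ≤ K) (hK : r * Λ * K ^ (r - 1) = s / 8)
    (hM : ∀ t : ℝ, 0 < t → t < 1 → 4 ≤ Real.exp (s / 2) * t →
      (s / 8) * (∑ i, (k i : ℝ) * ((1 - t) ^ (2 * k i) * c i) -
        (4 * Real.exp (-(s / 8)) + 2 * Real.exp (-(3 * s / 4)) / t ^ 2) *
          ∑ i, (k i : ℝ) * c i) ≤
      Λ * r * ∑ i, a i * ((1 - t) ^ (2 * k i) * c i)) :
    s * K * V0 / 128 ≤ r * Λ * En := by
  have hr' : (2:ℝ) ≤ r := by exact_mod_cast hr
  have hspos : 0 < s := by linarith
  have hΛpos : 0 < Λ := by linarith
  have hrpos : (0:ℝ) < r := by linarith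
  have hEn0 : 0 ≤ En := by rw [hEn]; exact Finset.sum_nonneg fun i _ => mul_nonneg (ha i) (hc i)
  set kb := ∑ i, (k i : ℝ) * c i with hkb
  have hkb0 : 0 ≤ kb := Finset.sum_nonneg fun i _ => mul_nonneg (Nat.cast_nonneg _) (hc i)
  have hkbE : kb ≤ r * En := by
    rw [hkb, hEn, Finset.mul_sum]
    refine Finset.sum_le_sum fun i _ => ?_
    rw [← mul_assoc]; exact mul_le_mul_of_nonneg_right (h2 i) (hc i)
  have hrE : r * En ≤ X / 4 * V0 := by
    have : 4 * (r * En) ≤ r * Λ * En := by nlinarith [mul_nonneg hrpos.le hEn0]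
    linarith
  have hkbX : kb ≤ X / 4 * V0 := hkbE.trans hrE
  have hVk : V0 ≤ kb := by
    rw [hV, hkb]
    refine Finset.sum_le_sum fun i _ => ?_
    split_ifs with h
    · rw [h]; simp
    · have : (1:ℝ) ≤ k i := by exact_mod_cast Nat.one_le_iff_ne_zero.2 h
      nlinarith [hc i]
  have hX4 : 4 ≤ X := by
    by_contra hcon
    push Not at hcon
    nlinarith
  have hX0 : 0 < X := by linarith
  -- Step B: small levels carry little weight
  set W := ∑ i, if (k i ≠ 0 ∧ (k i : ℝ) ≤ K / 2) then c i else 0 with hW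
  have hWle : W ≤ V0 / 4 := by
    rcases lt_or_ge (K / 2) r with hKr | hKr
    · have : W = 0 := by
        rw [hW]
        refine Finset.sum_eq_zero fun i _ => if_neg ?_
        rintro ⟨hk0, hk⟩
        rcases h3 i with h | h
        · exact hk0 h
        · have : (r:ℝ) ≤ k i := by exact_mod_cast h
          linarith
      rw [this]; linarith
    · have hK4 : 4 ≤ K := by linarith
      have hK1 : 1 ≤ K := by linarith
      have hKpos : 0 < K := by linarith
      have hKs : K ≤ s / 64 := by
        have h5 : K ≤ K ^ (r - 1) := by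
          have : r - 1 ≠ 0 := by omega
          exact le_self_pow₀ hK1 this
        have h6 : 8 * K ≤ r * Λ * K ^ (r - 1) := by
          have : (8:ℝ) ≤ r * Λ := by nlinarith
          nlinarith [pow_pos hKpos (r - 1)]
        rw [hK] at h6
        linarith
      set y := (s / 64) / K with hy
      have hy1 : 1 ≤ y := by rw [hy, le_div_iff₀ hKpos]; linarith
      set ρ := Real.exp (-y) with hρ
      have hρpos : 0 < ρ := Real.exp_pos _
      have hρhalf : ρ ≤ 1 / 2 := by
        have : ρ ≤ Real.exp (-1) := Real.exp_le_exp.2 (by linarith)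
        have h7 := Real.exp_one_gt_d9
        have h8 : Real.exp (-1) ≤ 1 / 2 := by
          rw [Real.exp_neg, inv_eq_one_div]
          exact one_div_le_one_div_of_le (by norm_num) (by linarith)
        linarith
      have hM1 := hM (1 - ρ) (by linarith) (by linarith) (by
        have : s ^ 1 / 2 ≤ Real.exp (s / 2) := by
          have := Real.add_one_le_exp (s / 2); simp; linarith
        nlinarith [Real.exp_pos (s / 2)])
      rw [show (1 - (1 - ρ)) = ρ by ring] at hM1
      set A := ∑ i, (k i : ℝ) * (ρ ^ (2 * k i) * c i) with hA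
      set B := ∑ i, a i * (ρ ^ (2 * k i) * c i) with hB
      set e1 := Real.exp (-(s / 64)) with he1
      have he1pos : 0 < e1 := Real.exp_pos _
      have hρpow : ∀ m : ℕ, ρ ^ (2 * m) = Real.exp (-(2 * m * y)) := by
        intro m; rw [hρ, ← Real.exp_nat_mul]; congr 1; push_cast; ring
      -- comparison of B and A
      have hBA : Λ * r * B ≤ (s / 16) * A + e1 ^ 2 * (Λ * r * En) := by
        rw [hA, hB, hEn, Finset.mul_sum, Finset.mul_sum, Finset.mul_sum, Finset.mul_sum,
          ← Finset.sum_add_distrib]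
        refine Finset.sum_le_sum fun i _ => ?_
        have hρk : 0 ≤ ρ ^ (2 * k i) := (pow_pos hρpos _).le
        rcases le_or_gt (k i : ℝ) K with hki | hki
        · have q1 : Λ * r * a i ≤ (s / 16) * k i := by
            have q2 : (k i : ℝ) ^ r = (k i : ℝ) ^ (r - 1) * k i := by
              rw [← pow_succ]; congr 1; omega
            have q3 : (k i : ℝ) ^ (r - 1) ≤ K ^ (r - 1) :=
              pow_le_pow_left₀ (Nat.cast_nonneg _) hki _
            have q4 : a i ≤ K ^ (r - 1) * k i / 2 := by
              refine (h1 i).trans ?_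
              rw [q2]
              have : (k i : ℝ) ^ (r - 1) * k i ≤ K ^ (r - 1) * k i :=
                mul_le_mul_of_nonneg_right q3 (Nat.cast_nonneg _)
              linarith
            calc Λ * r * a i ≤ Λ * r * (K ^ (r - 1) * k i / 2) :=
                  mul_le_mul_of_nonneg_left q4 (by positivity)
              _ = (r * Λ * K ^ (r - 1)) * k i / 2 := by ring
              _ = (s / 16) * k i := by rw [hK]; ring
          have q5 : Λ * r * (a i * (ρ ^ (2 * k i) * c i)) ≤
              s / 16 * ((k i : ℝ) * (ρ ^ (2 * k i) * c i)) := by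
            have := mul_le_mul_of_nonneg_right q1 (mul_nonneg hρk (hc i))
            linarith
          have q6 : 0 ≤ e1 ^ 2 * (Λ * r * (a i * c i)) :=
            mul_nonneg (sq_nonneg _) (mul_nonneg (by positivity) (mul_nonneg (ha i) (hc i)))
          linarith
        · have q1 : ρ ^ (2 * k i) ≤ e1 ^ 2 := by
            rw [hρpow, he1, ← Real.exp_nat_mul]
            refine Real.exp_le_exp.2 ?_
            push_cast
            have : s / 64 ≤ (k i : ℝ) * y := by
              rw [hy, mul_div_assoc', le_div_iff₀ hKpos]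
              nlinarith
            linarith
          have q5 : Λ * r * (a i * (ρ ^ (2 * k i) * c i)) ≤ e1 ^ 2 * (Λ * r * (a i * c i)) := by
            have q7 : 0 ≤ Λ * r * (a i * c i) :=
              mul_nonneg (by positivity) (mul_nonneg (ha i) (hc i))
            have := mul_le_mul_of_nonneg_right q1 q7
            linarith
          have q6 : 0 ≤ s / 16 * ((k i : ℝ) * (ρ ^ (2 * k i) * c i)) :=
            mul_nonneg (by positivity) (mul_nonneg (Nat.cast_nonneg _) (mul_nonneg hρk (hc i)))
          linarith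
      -- lower bound for A
      have hAW : 2 * e1 * W ≤ A := by
        rw [hW, hA, Finset.mul_sum]
        refine Finset.sum_le_sum fun i _ => ?_
        have hρk : 0 ≤ ρ ^ (2 * k i) := (pow_pos hρpos _).le
        split_ifs with hcond
        · obtain ⟨hk0, hk⟩ := hcond
          have q1 : e1 ≤ ρ ^ (2 * k i) := by
            rw [hρpow, he1]
            refine Real.exp_le_exp.2 ?_
            have : (k i : ℝ) * y ≤ (K / 2) * y := mul_le_mul_of_nonneg_right hk (by linarith)
            have h9 : K * y = s / 64 := by rw [hy]; field_simp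
            nlinarith
          have q2 : (2:ℝ) ≤ k i := by
            rcases h3 i with h | h
            · exact absurd h hk0
            · have : (r:ℝ) ≤ k i := by exact_mod_cast h
              linarith
          have q3 : 2 * e1 ≤ (k i : ℝ) * ρ ^ (2 * k i) :=
            mul_le_mul q2 q1 he1pos.le (by linarith)
          have := mul_le_mul_of_nonneg_right q3 (hc i)
          linarith
        · rw [mul_zero]
          exact mul_nonneg (Nat.cast_nonneg _) (mul_nonneg hρk (hc i))
      -- the error coefficient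
      set δ := 4 * Real.exp (-(s / 8)) + 2 * Real.exp (-(3 * s / 4)) / (1 - ρ) ^ 2 with hδ
      have hδle : δ ≤ 12 * Real.exp (-(s / 8)) := by
        have q1 : Real.exp (-(3 * s / 4)) ≤ Real.exp (-(s / 8)) :=
          Real.exp_le_exp.2 (by linarith)
        have q2 : (1 / 4 : ℝ) ≤ (1 - ρ) ^ 2 := by nlinarith
        have q3 : 2 * Real.exp (-(3 * s / 4)) / (1 - ρ) ^ 2 ≤ 8 * Real.exp (-(s / 8)) := by
          rw [div_le_iff₀ (by linarith)]
          nlinarith [Real.exp_pos (-(s / 8))]
        linarith
      have hδ0 : 0 ≤ δ := by positivity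
      have hfin : (s / 16) * A ≤ e1 ^ 2 * (Λ * r * En) + (s / 8) * (δ * kb) := by
        have : (s / 8) * (A - δ * kb) = (s/8) * A - (s / 8) * (δ * kb) := by ring
        linarith
      have hfin2 : (s / 8) * (e1 * W) ≤ e1 ^ 2 * (X * V0) + (s / 8) * (δ * (X / 4 * V0)) := by
        have q1 : (s / 16) * (2 * e1 * W) ≤ (s / 16) * A :=
          mul_le_mul_of_nonneg_left hAW (by positivity)
        have q2 : e1 ^ 2 * (Λ * r * En) ≤ e1 ^ 2 * (X * V0) :=
          mul_le_mul_of_nonneg_left (by linarith) (sq_nonneg _)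
        have q3 : (s / 8) * (δ * kb) ≤ (s / 8) * (δ * (X / 4 * V0)) :=
          mul_le_mul_of_nonneg_left (mul_le_mul_of_nonneg_left hkbX hδ0) (by positivity)
        linarith
      -- divide by e1
      have hsplit : δ ≤ 12 * (e1 * Real.exp (-(7 * s / 64))) := by
        have : Real.exp (-(s / 8)) = e1 * Real.exp (-(7 * s / 64)) := by
          rw [he1, ← Real.exp_add]; congr 1; ring
        rw [← this]; exact hδle
      have hfin3 : (s / 8) * W ≤ e1 * (X * V0) +
          (s / 8) * (12 * Real.exp (-(7 * s / 64)) * (X / 4 * V0)) := by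
        have q1 : (s / 8) * (δ * (X / 4 * V0)) ≤
            (s / 8) * (12 * (e1 * Real.exp (-(7 * s / 64))) * (X / 4 * V0)) := by
          refine mul_le_mul_of_nonneg_left (mul_le_mul_of_nonneg_right hsplit ?_) (by positivity)
          positivity
        have q2 : e1 * ((s / 8) * W) ≤ e1 * (e1 * (X * V0) +
            (s / 8) * (12 * Real.exp (-(7 * s / 64)) * (X / 4 * V0))) := by
          linarith
        exact le_of_mul_le_mul_left q2 he1pos
      have hb1 : e1 ≤ 64 / s := by
        have := exp_neg_le (x := s / 64) (by positivity) 1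
        simp only [Nat.factorial_one, Nat.cast_one, pow_one] at this
        rw [he1]; refine this.trans (le_of_eq ?_); field_simp
      have hb2 : Real.exp (-(7 * s / 64)) ≤ 168 / s ^ 2 := by
        have := exp_neg_le (x := 7 * s / 64) (by positivity) 2
        refine this.trans ?_
        rw [show ((Nat.factorial 2 : ℕ) : ℝ) = 2 by norm_num [Nat.factorial]]
        rw [div_le_div_iff₀ (by positivity) (by positivity)]
        nlinarith [sq_nonneg s]
      have t1 : e1 * (X * V0) ≤ s * V0 / 1024 := by
        have q1 : e1 * (X * V0) ≤ (64 / s) * ((s ^ 2 / 65536) * V0) :=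
          mul_le_mul hb1 (mul_le_mul_of_nonneg_right hX hV0.le) (by positivity) (by positivity)
        refine q1.trans (le_of_eq ?_); field_simp; norm_num
      have t2 : 12 * Real.exp (-(7 * s / 64)) * (X / 4 * V0) ≤ V0 / 128 := by
        have q1 : 12 * Real.exp (-(7 * s / 64)) * (X / 4 * V0) ≤
            12 * (168 / s ^ 2) * ((s ^ 2 / 65536) / 4 * V0) := by
          refine mul_le_mul (mul_le_mul_of_nonneg_left hb2 (by norm_num)) ?_ (by positivity)
            (by positivity)
          refine mul_le_mul_of_nonneg_right (by linarith) hV0.le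
        refine q1.trans ?_
        have : 12 * (168 / s ^ 2) * ((s ^ 2 / 65536) / 4 * V0) = (504 / 65536) * V0 := by
          field_simp; norm_num
        rw [this]
        nlinarith
      have t3 : (s / 8) * W ≤ (s / 8) * (V0 / 4) := by
        have := mul_le_mul_of_nonneg_left t2 (show 0 ≤ s / 8 by positivity)
        nlinarith
      exact le_of_mul_le_mul_left t3 (by positivity)
  -- Step C
  set W2 := ∑ i, if X < (k i : ℝ) then c i else 0 with hW2
  have hW2le : W2 ≤ V0 / 4 := by
    have : X * W2 ≤ kb := by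
      rw [hW2, hkb, Finset.mul_sum]
      refine Finset.sum_le_sum fun i _ => ?_
      split_ifs with h
      · exact mul_le_mul_of_nonneg_right h.le (hc i)
      · rw [mul_zero]; exact mul_nonneg (Nat.cast_nonneg _) (hc i)
    have h5 : X * W2 ≤ X * (V0 / 4) := by linarith
    exact le_of_mul_le_mul_left h5 hX0
  set t : ℝ := 1 / (4 * (X + 1)) with ht
  have ht0 : 0 < t := by positivity
  have ht1 : t < 1 := by
    rw [ht, div_lt_one (by positivity)]; linarith
  have hX1 : X + 1 ≤ s ^ 2 / 32768 := by nlinarith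
  have hcond : 4 ≤ Real.exp (s / 2) * t := by
    have h5 := Real.pow_div_factorial_le_exp (s / 2) (by positivity) 2
    rw [show ((Nat.factorial 2 : ℕ) : ℝ) = 2 by norm_num [Nat.factorial]] at h5
    rw [ht, mul_one_div, le_div_iff₀ (by positivity)]
    nlinarith
  have hM2 := hM t ht0 ht1 hcond
  set ρ := 1 - t with hρ
  have hρ0 : 0 ≤ ρ := by linarith
  have hρ1 : ρ ≤ 1 := by linarith
  set A := ∑ i, (k i : ℝ) * (ρ ^ (2 * k i) * c i) with hA
  have hBE : ∑ i, a i * (ρ ^ (2 * k i) * c i) ≤ En := by
    rw [hEn]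
    refine Finset.sum_le_sum fun i _ => ?_
    refine mul_le_mul_of_nonneg_left ?_ (ha i)
    have : ρ ^ (2 * k i) ≤ 1 := pow_le_one₀ hρ0 hρ1
    nlinarith [hc i]
  set κ := max 2 (K / 2) with hκ
  have hκ2 : 2 ≤ κ := le_max_left _ _
  have hκK : K / 2 ≤ κ := le_max_right _ _
  have hAlow : κ * V0 / 4 ≤ A := by
    have q1 : (κ / 2) * (V0 - W - W2) ≤ A := by
      have q2 : V0 - W - W2 ≤ ∑ i, if (k i ≠ 0 ∧ K / 2 < (k i : ℝ) ∧ (k i : ℝ) ≤ X)
          then c i else 0 := by
        rw [hV, hW, hW2, ← Finset.sum_sub_distrib, ← Finset.sum_sub_distrib]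
        refine Finset.sum_le_sum fun i _ => ?_
        have := hc i
        by_cases c1 : k i = 0
        · simp [c1]; split_ifs <;> linarith
        · by_cases c2 : (k i : ℝ) ≤ K / 2
          · have c3 : ¬ (K / 2 < (k i : ℝ)) := not_lt.2 c2
            simp only [c1, c2, c3, if_true, if_false, ne_eq, not_false_eq_true, and_self,
              false_and, and_false]
            split_ifs <;> linarith
          · have c3 : (K / 2 < (k i : ℝ)) := not_le.1 c2
            by_cases c4 : X < (k i : ℝ)
            · have c5 : ¬ ((k i : ℝ) ≤ X) := not_le.2 c4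
              simp only [c1, c2, c3, c4, c5, if_true, if_false, ne_eq, not_false_eq_true, and_self,
                false_and, and_false]
              linarith
            · have c5 : ((k i : ℝ) ≤ X) := not_lt.1 c4
              simp only [c1, c2, c3, c4, c5, if_true, if_false, ne_eq, not_false_eq_true, and_self,
                false_and, and_false]
              linarith
      refine (mul_le_mul_of_nonneg_left q2 (by linarith)).trans ?_
      rw [hA, Finset.mul_sum]
      refine Finset.sum_le_sum fun i _ => ?_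
      have hρk : 0 ≤ ρ ^ (2 * k i) := pow_nonneg hρ0 _
      split_ifs with hcnd
      · obtain ⟨hk0, hkK, hkX⟩ := hcnd
        have q3 : (1/2 : ℝ) ≤ ρ ^ (2 * k i) := by
          have b1 := one_add_mul_le_pow (a := -t) (by linarith) (2 * k i)
          have b2 : (1 + -t) = ρ := by rw [hρ]; ring
          rw [b2] at b1
          have b3 : ((2 * k i : ℕ) : ℝ) * t ≤ 1 / 2 := by
            push_cast
            rw [ht, mul_one_div, div_le_div_iff₀ (by positivity) (by norm_num)]
            nlinarith
          linarith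
        have q4 : κ ≤ k i := by
          refine max_le ?_ hkK.le
          rcases h3 i with h | h
          · exact absurd h hk0
          · have : (r:ℝ) ≤ k i := by exact_mod_cast h
            linarith
        have q5 : κ * (1 / 2) ≤ (k i : ℝ) * ρ ^ (2 * k i) :=
          mul_le_mul q4 q3 (by norm_num) (by linarith)
        have := mul_le_mul_of_nonneg_right q5 (hc i)
        linarith
      · rw [mul_zero]
        exact mul_nonneg (Nat.cast_nonneg _) (mul_nonneg hρk (hc i))
    have q6 : V0 / 2 ≤ V0 - W - W2 := by linarith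
    have q7 := mul_le_mul_of_nonneg_left q6 (show 0 ≤ κ / 2 by linarith)
    linarith
  set δ := 4 * Real.exp (-(s / 8)) + 2 * Real.exp (-(3 * s / 4)) / t ^ 2 with hδ
  have hδ0 : 0 ≤ δ := by positivity
  have herr : δ * (X / 4) ≤ 1 / 4 := by
    have b1 : Real.exp (-(s / 8)) ≤ 128 / s ^ 2 := by
      have := exp_neg_le (x := s / 8) (by positivity) 2
      rw [show ((Nat.factorial 2 : ℕ) : ℝ) = 2 by norm_num [Nat.factorial]] at this
      refine this.trans (le_of_eq ?_); field_simp; norm_num
    have b2 : Real.exp (-(3 * s / 4)) ≤ 4096 / s ^ 6 := by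
      have := exp_neg_le (x := 3 * s / 4) (by positivity) 6
      rw [show ((Nat.factorial 6 : ℕ) : ℝ) = 720 by norm_num [Nat.factorial]] at this
      refine this.trans ?_
      rw [div_le_div_iff₀ (by positivity) (by positivity)]
      have : 0 ≤ s ^ 6 := by positivity
      nlinarith
    have b3 : 1 / t ^ 2 ≤ 16 * (s ^ 2 / 32768) ^ 2 := by
      have : 1 / t ^ 2 = 16 * (X + 1) ^ 2 := by rw [ht]; field_simp; norm_num
      rw [this]
      have : (X + 1) ^ 2 ≤ (s ^ 2 / 32768) ^ 2 := pow_le_pow_left₀ (by linarith) hX1 2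
      linarith
    have b4 : δ ≤ 512 / s ^ 2 + 2 * (4096 / s ^ 6) * (16 * (s ^ 2 / 32768) ^ 2) := by
      rw [hδ]
      have : 2 * Real.exp (-(3 * s / 4)) / t ^ 2 ≤ 2 * (4096 / s ^ 6) *
          (16 * (s ^ 2 / 32768) ^ 2) := by
        rw [div_eq_mul_one_div]
        exact mul_le_mul (by linarith) b3 (by positivity) (by positivity)
      have h5 : 4 * Real.exp (-(s / 8)) ≤ 512 / s ^ 2 := by
        have : (512:ℝ) / s ^ 2 = 4 * (128 / s ^ 2) := by ring
        rw [this]; linarith
      linarith
    have b5 : 512 / s ^ 2 + 2 * (4096 / s ^ 6) * (16 * (s ^ 2 / 32768) ^ 2) ≤ 513 / s ^ 2 := by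
      have : 2 * (4096 / s ^ 6) * (16 * (s ^ 2 / 32768) ^ 2) = (131072 / 1073741824) / s ^ 2 := by
        field_simp; norm_num
      rw [this, ← add_div]
      refine div_le_div_of_nonneg_right (by norm_num) (by positivity)
    have b6 : δ * (X / 4) ≤ (513 / s ^ 2) * ((s ^ 2 / 65536) / 4) :=
      mul_le_mul (b4.trans b5) (by linarith) (by positivity) (by positivity)
    refine b6.trans ?_
    have : (513 / s ^ 2) * ((s ^ 2 / 65536) / 4) = 513 / 262144 := by field_simp; norm_num
    rw [this]; norm_num
  have herr2 : δ * kb ≤ κ * V0 / 8 := by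
    have c1 : δ * kb ≤ δ * (X / 4 * V0) := mul_le_mul_of_nonneg_left hkbX hδ0
    have c2 : δ * (X / 4 * V0) ≤ 1 / 4 * V0 := by
      have := mul_le_mul_of_nonneg_right herr hV0.le
      linarith
    nlinarith
  have hfin : (s / 8) * (κ * V0 / 8) ≤ Λ * r * En := by
    have c1 : (s / 8) * (κ * V0 / 8) ≤ (s / 8) * (A - δ * kb) :=
      mul_le_mul_of_nonneg_left (by linarith) (by positivity)
    have c2 : Λ * r * ∑ i, a i * (ρ ^ (2 * k i) * c i) ≤ Λ * r * En :=
      mul_le_mul_of_nonneg_left hBE (by positivity)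
    linarith
  have c3 : s * K * V0 / 128 ≤ (s / 8) * (κ * V0 / 8) := by
    have : s * V0 * (K / 2) ≤ s * V0 * κ := mul_le_mul_of_nonneg_left hκK (by positivity)
    linarith
  linarith

end Crest.Agent.Lib.VInf
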