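import Crest.Agent.Lib.VInfIneq
import Crest.Agent.Lib.VInfNum

set_option autoImplicit false
set_option maxHeartbeats 4000000
set_option linter.unusedSectionVars false
set_option linter.unusedVariables false

namespace Crest.Agent.Lib.VInf

open Finset Crest.FinProb

variable {E : Type*} [Fintype E] [DecidableEq E] {V : Type*} [Fintype V] [DecidableEq V]
variable {inc : E → Finset V} {p : ℝ} {F : (E → Bool) → ℝ}

lemma card_le_pow (hinj : Function.Injective inc) {r : ℕ} (hr : 2 ≤ r)
    (hcard : ∀ e, (inc e).card = r) (S : Finset E) :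
    (S.card : ℝ) ≤ ((VS inc S).card : ℝ) ^ r / 2 := by
  have h1 : S.card ≤ (VS inc S).card.choose r := by
    rw [← Finset.card_powersetCard, ← Finset.card_image_of_injective S hinj]
    refine Finset.card_le_card fun A hA => ?_
    obtain ⟨e, he, rfl⟩ := Finset.mem_image.1 hA
    rw [Finset.mem_powersetCard]
    exact ⟨Finset.subset_biUnion_of_mem inc he, hcard e⟩
  have h2 : (((VS inc S).card.choose r : ℕ) : ℝ) ≤ ((VS inc S).card : ℝ) ^ r / (r.factorial : ℝ) :=
    Nat.choose_le_pow_div r _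
  have h3 : (2:ℝ) ≤ (r.factorial : ℝ) := by
    have : Nat.factorial 2 ≤ r.factorial := Nat.factorial_le hr
    have h4 : (2:ℕ) ≤ r.factorial := by simpa using this
    exact_mod_cast h4
  have h4 : ((VS inc S).card : ℝ) ^ r / (r.factorial : ℝ) ≤ ((VS inc S).card : ℝ) ^ r / 2 :=
    div_le_div_of_nonneg_left (by positivity) (by norm_num) h3
  have h5 : (S.card : ℝ) ≤ (((VS inc S).card.choose r : ℕ) : ℝ) := by exact_mod_cast h1
  linarith

lemma vs_card_le {r : ℕ} (hcard : ∀ e, (inc e).card = r) (S : Finset E) :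
    ((VS inc S).card : ℝ) ≤ r * (S.card : ℝ) := by
  have h1 : (VS inc S).card ≤ ∑ e ∈ S, (inc e).card := Finset.card_biUnion_le
  rw [Finset.sum_congr rfl fun e _ => hcard e, Finset.sum_const, smul_eq_mul] at h1
  have : ((VS inc S).card : ℝ) ≤ ((S.card * r : ℕ) : ℝ) := by exact_mod_cast h1
  push_cast at this
  linarith

lemma vs_card_zero_or {r : ℕ} (hcard : ∀ e, (inc e).card = r) (S : Finset E) :
    (VS inc S).card = 0 ∨ r ≤ (VS inc S).card := by
  rcases S.eq_empty_or_nonempty with h | ⟨e, he⟩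
  · left; rw [h]; simp [VS]
  · right
    rw [← hcard e]
    exact Finset.card_le_card (Finset.subset_biUnion_of_mem inc he)

lemma vs_card_eq_zero_iff {r : ℕ} (hr : 2 ≤ r) (hcard : ∀ e, (inc e).card = r) (S : Finset E) :
    (VS inc S).card = 0 ↔ S = ∅ := by
  constructor
  · intro h
    by_contra hne
    obtain ⟨e, he⟩ := Finset.nonempty_iff_ne_empty.2 hne
    have : r ≤ (VS inc S).card := by
      rw [← hcard e]
      exact Finset.card_le_card (Finset.subset_biUnion_of_mem inc he)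
    omega
  · intro h; rw [h]; simp [VS]

lemma coef_empty (p : ℝ) (F : (E → Bool) → ℝ) : coef p F ∅ = ex p F := by
  unfold coef chi; simp

lemma variance_spectral (h0 : 0 < p) (h1 : p < 1) (hF : ∀ x, F x = 0 ∨ F x = 1) {r : ℕ}
    (hr : 2 ≤ r) (hcard : ∀ e, (inc e).card = r) :
    ex p F - ex p F ^ 2 = ∑ S : Finset E, if (VS inc S).card = 0 then 0 else coef p F S ^ 2 := by
  have h2 : ex p F = ∑ S : Finset E, coef p F S ^ 2 := by
    rw [parseval_sq h0 h1]
    exact ex_congr p fun x => by rcases hF x with h | h <;> rw [h] <;> norm_num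
  have h3 : ∀ S : Finset E, (if (VS inc S).card = 0 then 0 else coef p F S ^ 2) =
      coef p F S ^ 2 - (if S = ∅ then ex p F ^ 2 else 0) := by
    intro S
    by_cases h : S = ∅
    · rw [if_pos ((vs_card_eq_zero_iff hr hcard S).2 h), if_pos h, h, coef_empty]; ring
    · rw [if_neg (fun hc => h ((vs_card_eq_zero_iff hr hcard S).1 hc)), if_neg h]; ring
  rw [Finset.sum_congr rfl fun S _ => h3 S, Finset.sum_sub_distrib, ← h2]
  simp

/-- Total influence of a symmetric Boolean function of an `r`-uniform structure on a large number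
of vertices. `I` is the total influence in the normalisation `E = p (1-p) I`. -/
theorem influence_lower (h0 : 0 < p) (h1 : p < 1)
    (hinj : Function.Injective inc) (hsym : Symm inc F) (hF : ∀ x, F x = 0 ∨ F x = 1)
    {r : ℕ} (hr : 2 ≤ r) (hcard : ∀ e, (inc e).card = r)
    (hs : 724 ≤ Real.log (Fintype.card V : ℝ)) {I : ℝ}
    (hI : ∑ e : E, ex p (fun x => (F x - avg p {e} F x) ^ 2) = p * (1 - p) * I) :
    Real.log (Fintype.card V : ℝ) ^ ((r : ℝ) / ((r : ℝ) - 1)) * (ex p F - ex p F ^ 2) ≤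
      32768 * (r : ℝ) ^ 2 * I := by
  set s := Real.log (Fintype.card V : ℝ) with hsdef
  set n : ℝ := (Fintype.card V : ℝ) with hn
  have hnpos : 0 < n := by
    by_contra hc
    have : n = 0 := le_antisymm (not_lt.1 hc) (Nat.cast_nonneg _)
    rw [hsdef, this, Real.log_zero] at hs
    linarith
  have hnexp : n = Real.exp s := (Real.exp_log hnpos).symm
  have hspos : 0 < s := by linarith
  have hr' : (2:ℝ) ≤ r := by exact_mod_cast hr
  have hrpos : (0:ℝ) < r := by linarith
  have hq : 0 < 1 - p := by linarith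
  have hpq : 0 < p * (1 - p) := mul_pos h0 hq
  set σ := √(p * (1 - p)) with hσ
  have hσ0 : 0 < σ := Real.sqrt_pos.2 hpq
  have hσ2 : σ ^ 2 = p * (1 - p) := Real.sq_sqrt hpq.le
  have hσh : σ ≤ 1 / 2 := by
    have : σ ^ 2 ≤ (1 / 2) ^ 2 := by rw [hσ2]; nlinarith [sq_nonneg (p - 1 / 2)]
    exact le_of_sq_le_sq this (by norm_num)
  set Λ := 2 / σ with hΛ
  have hΛ4 : 4 ≤ Λ := by rw [hΛ, le_div_iff₀ hσ0]; linarith
  set V0 := ex p F - ex p F ^ 2 with hV0
  have hVs := variance_spectral (inc := inc) h0 h1 hF hr hcard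
  have hVnn : 0 ≤ V0 := by
    rw [hV0, hVs]
    refine Finset.sum_nonneg fun S _ => ?_
    split_ifs
    · exact le_rfl
    · exact sq_nonneg _
  have hEs := sum_edge_var h0 h1 F
  set En := ∑ S : Finset E, (S.card : ℝ) * coef p F S ^ 2 with hEn
  have hEnn : 0 ≤ En := Finset.sum_nonneg fun S _ => mul_nonneg (Nat.cast_nonneg _) (sq_nonneg _)
  have hEI : En = p * (1 - p) * I := by rw [← hEs, hI]
  have hInn : 0 ≤ I := by
    by_contra hc
    push Not at hc
    nlinarith
  rcases hVnn.eq_or_lt with hz | hVpos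
  · rw [← hz, mul_zero]; positivity
  by_contra hcon
  push Not at hcon
  have hrr : (r:ℝ) / ((r:ℝ) - 1) = 1 + 1 / ((r:ℝ) - 1) := by
    have : (r:ℝ) - 1 ≠ 0 := by linarith
    field_simp; ring
  have hs1 : 1 ≤ s := by linarith
  have hexp_le : s ^ ((r : ℝ) / ((r : ℝ) - 1)) ≤ s ^ 2 := by
    rw [← Real.rpow_natCast s 2]
    refine Real.rpow_le_rpow_of_exponent_le hs1 ?_
    rw [div_le_iff₀ (by linarith)]
    push_cast; linarith
  -- the bound on the energy
  set X := s ^ 2 / (32768 * r) with hX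
  have hXle : X ≤ s ^ 2 / 65536 := by
    rw [hX]
    exact div_le_div_of_nonneg_left (by positivity) (by norm_num) (by linarith)
  have hΛE : r * Λ * En = 2 * r * σ * I := by
    rw [hEI, ← hσ2, hΛ]; field_simp
  have hE : r * Λ * En ≤ X * V0 := by
    rw [hΛE]
    have a1 : 2 * r * σ * I ≤ r * I := by
      have : 0 ≤ r * I := by positivity
      nlinarith
    have a2 : 32768 * (r:ℝ) ^ 2 * I ≤ s ^ 2 * V0 :=
      hcon.le.trans (mul_le_mul_of_nonneg_right hexp_le hVnn)
    have a3 : r * I ≤ X * V0 := by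
      rw [hX, div_mul_eq_mul_div, le_div_iff₀ (by positivity)]
      nlinarith
    linarith
  -- the level K
  set K := (s / (8 * r * Λ)) ^ (1 / ((r:ℝ) - 1)) with hK
  have hbase : 0 < s / (8 * r * Λ) := by positivity
  have hK0 : 0 ≤ K := (Real.rpow_pos_of_pos hbase _).le
  have hKpow : r * Λ * K ^ (r - 1) = s / 8 := by
    have b1 : K ^ (r - 1) = s / (8 * r * Λ) := by
      rw [hK, ← Real.rpow_natCast, ← Real.rpow_mul hbase.le]
      have : (1 / ((r:ℝ) - 1)) * ((r - 1 : ℕ) : ℝ) = 1 := by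
        rw [Nat.cast_sub (by omega)]
        push_cast
        have : (r:ℝ) - 1 ≠ 0 := by linarith
        field_simp
      rw [this, Real.rpow_one]
    rw [b1]; field_simp
  have hΛ' : 2 / √(p * (1 - p)) = Λ := rfl
  have hcore := sum_core (fun S : Finset E => (VS inc S).card) (fun S => (S.card : ℝ))
    (fun S => coef p F S ^ 2) r hr (fun S => Nat.cast_nonneg _) (fun S => sq_nonneg _)
    (card_le_pow hinj hr hcard) (vs_card_le hcard) (vs_card_zero_or hcard)
    Λ s X K V0 En hΛ4 hs hXle hVs hVpos hEn hE hK0 hKpow (by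
      intro t ht0 ht1 htc
      have hη : 0 < Real.exp (-(s / 4)) := Real.exp_pos _
      have hl : 4 ≤ 4 * Real.exp (s / 8) := by
        have := Real.add_one_le_exp (s / 8); linarith
      have hncond : 4 ≤ n * t * Real.exp (-(s / 4)) ^ 2 := by
        have : n * t * Real.exp (-(s / 4)) ^ 2 = Real.exp (s / 2) * t := by
          rw [hnexp, ← Real.exp_nat_mul]
          have : Real.exp s * t * Real.exp (((2:ℕ):ℝ) * -(s / 4)) =
              (Real.exp s * Real.exp (((2:ℕ):ℝ) * -(s / 4))) * t := by ring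
          rw [this, ← Real.exp_add]
          congr 2
          push_cast; ring
        rw [this]; exact htc
      have hm := main_ineq h0 h1 ht0 ht1 hinj hsym hF hcard hη hl hncond
      rw [mul_div_cancel_left₀ _ (by norm_num : (4:ℝ) ≠ 0), Real.log_exp] at hm
      have c1 : 4 * Real.exp (s / 8) * Real.exp (-(s / 4)) = 4 * Real.exp (-(s / 8)) := by
        rw [mul_assoc, ← Real.exp_add]; congr 2; ring
      have c2 : 2 / (n * t ^ 2 * Real.exp (-(s / 4))) = 2 * Real.exp (-(3 * s / 4)) / t ^ 2 := by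
        have : n * t ^ 2 * Real.exp (-(s / 4)) = t ^ 2 * Real.exp (3 * s / 4) := by
          rw [hnexp]
          have : Real.exp s * t ^ 2 * Real.exp (-(s / 4)) =
              t ^ 2 * (Real.exp s * Real.exp (-(s / 4))) := by ring
          rw [this, ← Real.exp_add]; congr 2; ring
        rw [this, Real.exp_neg]
        have := Real.exp_pos (3 * s / 4)
        field_simp
      rw [c1, c2, hΛ'] at hm
      exact hm)
  rw [hΛE] at hcore
  -- compare
  have hKlow : σ * s ^ (1 / ((r:ℝ) - 1)) ≤ 128 * r * K := by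
    have d1 : s / (8 * r * Λ) = s * (σ / (16 * r)) := by rw [hΛ]; field_simp; norm_num
    have d2 : K = s ^ (1 / ((r:ℝ) - 1)) * (σ / (16 * r)) ^ (1 / ((r:ℝ) - 1)) := by
      rw [hK, d1, Real.mul_rpow hspos.le (by positivity)]
    have d3 : σ / (16 * r) ≤ (σ / (16 * r)) ^ (1 / ((r:ℝ) - 1)) := by
      have e1 : 0 < σ / (16 * r) := by positivity
      have e2 : σ / (16 * r) ≤ 1 := by rw [div_le_one (by positivity)]; linarith
      have e3 : 1 / ((r:ℝ) - 1) ≤ 1 := by rw [div_le_one (by linarith)]; linarith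
      have := Real.rpow_le_rpow_of_exponent_ge e1 e2 e3
      rwa [Real.rpow_one] at this
    have d4 : 0 < s ^ (1 / ((r:ℝ) - 1)) := Real.rpow_pos_of_pos hspos _
    have d5 : s ^ (1 / ((r:ℝ) - 1)) * (σ / (16 * r)) ≤ K := by
      rw [d2]; exact mul_le_mul_of_nonneg_left d3 d4.le
    have d6 : 128 * r * (s ^ (1 / ((r:ℝ) - 1)) * (σ / (16 * r))) =
        8 * (σ * s ^ (1 / ((r:ℝ) - 1))) := by field_simp; norm_num
    have d7 : 0 < σ * s ^ (1 / ((r:ℝ) - 1)) := by positivity
    have d8 : 128 * r * (s ^ (1 / ((r:ℝ) - 1)) * (σ / (16 * r))) ≤ 128 * r * K :=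
      mul_le_mul_of_nonneg_left d5 (by positivity)
    linarith
  have hpow : s ^ ((r : ℝ) / ((r : ℝ) - 1)) = s * s ^ (1 / ((r:ℝ) - 1)) := by
    rw [hrr, Real.rpow_add hspos, Real.rpow_one]
  rw [hpow] at hcon
  -- s K V0 / 128 ≤ 2 r σ I and 32768 r^2 I < s s^{1/(r-1)} V0
  have f1 : σ * (32768 * (r:ℝ) ^ 2 * I) < σ * (s * s ^ (1 / ((r:ℝ) - 1)) * V0) :=
    mul_lt_mul_of_pos_left hcon hσ0
  have f2 : σ * (s * s ^ (1 / ((r:ℝ) - 1)) * V0) ≤ s * V0 * (128 * r * K) := by
    have := mul_le_mul_of_nonneg_left hKlow (show 0 ≤ s * V0 by positivity)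
    linarith
  have f3 : s * V0 * (128 * r * K) ≤ 128 * 128 * r * (2 * r * σ * I) := by
    have := mul_le_mul_of_nonneg_left hcore (show (0:ℝ) ≤ 128 * 128 * r by positivity)
    linarith
  have f4 : 128 * 128 * r * (2 * r * σ * I) = σ * (32768 * (r:ℝ) ^ 2 * I) := by ring
  linarith

/-- Poincaré inequality. -/
theorem poincare (h0 : 0 < p) (h1 : p < 1) (hF : ∀ x, F x = 0 ∨ F x = 1) {I : ℝ}
    (hI : ∑ e : E, ex p (fun x => (F x - avg p {e} F x) ^ 2) = p * (1 - p) * I) :
    ex p F - ex p F ^ 2 ≤ p * (1 - p) * I := by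
  rw [← hI, sum_edge_var h0 h1]
  have h2 : ex p F = ∑ S : Finset E, coef p F S ^ 2 := by
    rw [parseval_sq h0 h1]
    exact ex_congr p fun x => by rcases hF x with h | h <;> rw [h] <;> norm_num
  have h5 : ex p F - ex p F ^ 2 =
      ∑ S : Finset E, (coef p F S ^ 2 - if S = ∅ then ex p F ^ 2 else 0) := by
    rw [Finset.sum_sub_distrib, ← h2]; simp
  rw [h5]
  refine Finset.sum_le_sum fun S _ => ?_
  by_cases h : S = ∅
  · rw [if_pos h, h, coef_empty]; simp
  · rw [if_neg h, sub_zero]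
    have : (1:ℝ) ≤ S.card := by
      exact_mod_cast Finset.card_pos.2 (Finset.nonempty_iff_ne_empty.2 h)
    nlinarith [sq_nonneg (coef p F S)]

end Crest.Agent.Lib.VInf
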