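import Crest.Agent.Lib.VInfCube

set_option autoImplicit false
set_option linter.unusedSectionVars false
set_option linter.unusedVariables false

namespace Crest.Agent.Lib.VInf

open Finset Crest.FinProb

variable {E : Type*} [Fintype E] [DecidableEq E]

/-- normalised coin -/
noncomputable def cc (p : ℝ) (b : Bool) : ℝ := (if b then 1 - p else -p) / √(p * (1 - p))

/-- Fourier-Walsh character -/
noncomputable def chi (p : ℝ) (S : Finset E) (x : E → Bool) : ℝ := ∏ e ∈ S, cc p (x e)

/-- Fourier-Walsh coefficient -/
noncomputable def coef (p : ℝ) (F : (E → Bool) → ℝ) (S : Finset E) : ℝ :=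
  ex p (fun x => F x * chi p S x)

lemma cc_mean {p : ℝ} : p * cc p true + (1 - p) * cc p false = 0 := by
  simp only [cc, if_true, Bool.false_eq_true, if_false]; ring

lemma cc_kernel {p : ℝ} (h0 : 0 < p) (h1 : p < 1) (a b : Bool) :
    (1 + cc p a * cc p b) * cw p b = if a = b then 1 else 0 := by
  have hs : √(p * (1 - p)) * √(p * (1 - p)) = p * (1 - p) :=
    Real.mul_self_sqrt (mul_nonneg h0.le (by linarith))
  have hpos : 0 < √(p * (1 - p)) := Real.sqrt_pos.2 (mul_pos h0 (by linarith))
  have hp : p ≠ 0 := h0.ne'
  have hq : (1 - p) ≠ 0 := by linarith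
  cases a <;> cases b <;>
    simp only [cc, cw, if_true, Bool.false_eq_true, if_false, reduceCtorEq] <;>
    rw [div_mul_div_comm, hs] <;> field_simp <;> ring

lemma parseval {p : ℝ} (h0 : 0 < p) (h1 : p < 1) (F G : (E → Bool) → ℝ) :
    ∑ S : Finset E, coef p F S * coef p G S = ex p (fun x => F x * G x) := by
  have hk : ∀ x y : E → Bool,
      (∑ S : Finset E, chi p S x * chi p S y) * bernoulliWeight p y = if x = y then 1 else 0 := by
    intro x y
    have h2 : ∑ S : Finset E, chi p S x * chi p S y = ∏ e, (1 + cc p (x e) * cc p (y e)) := by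
      rw [Finset.prod_one_add, Finset.powerset_univ]
      refine Finset.sum_congr rfl fun S _ => ?_
      unfold chi; rw [← Finset.prod_mul_distrib]
    rw [h2, weight_eq, ← Finset.prod_mul_distrib,
      Finset.prod_congr rfl (fun e _ => cc_kernel h0 h1 (x e) (y e))]
    by_cases hxy : x = y
    · subst hxy; simp
    · rw [if_neg hxy]
      obtain ⟨e, he⟩ := Function.ne_iff.1 hxy
      exact Finset.prod_eq_zero (Finset.mem_univ e) (if_neg he)
  have h3 : ∀ S : Finset E, coef p F S * coef p G S =
      ∑ x, ∑ y, (bernoulliWeight p x * F x * G y) *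
        ((chi p S x * chi p S y) * bernoulliWeight p y) := by
    intro S
    unfold coef ex
    rw [Finset.sum_mul_sum]
    exact Finset.sum_congr rfl fun x _ => Finset.sum_congr rfl fun y _ => by ring
  rw [Finset.sum_congr rfl fun S _ => h3 S, Finset.sum_comm]
  unfold ex
  refine Finset.sum_congr rfl fun x _ => ?_
  rw [Finset.sum_comm]
  have h4 : ∀ y : E → Bool, ∑ S : Finset E, (bernoulliWeight p x * F x * G y) *
        ((chi p S x * chi p S y) * bernoulliWeight p y) =
        (bernoulliWeight p x * F x * G y) * (if x = y then 1 else 0) := by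
    intro y
    rw [← Finset.mul_sum, ← Finset.sum_mul, hk]
  rw [Finset.sum_congr rfl fun y _ => h4 y]
  simp [mul_assoc]

lemma parseval_sq {p : ℝ} (h0 : 0 < p) (h1 : p < 1) (F : (E → Bool) → ℝ) :
    ∑ S : Finset E, coef p F S ^ 2 = ex p (fun x => F x ^ 2) := by
  have := parseval h0 h1 F F
  simpa only [sq] using this

lemma avg_chi (p : ℝ) (U S : Finset E) (x : E → Bool) :
    avg p U (chi p S) x = if Disjoint S U then chi p S x else 0 := by
  unfold avg
  have h : ∀ y : E → Bool, chi p S (mix U y x) =
      ∏ e, (fun (e : E) (b : Bool) =>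
        if e ∈ S then (if e ∈ U then cc p b else cc p (x e)) else 1) e (y e) := by
    intro y
    unfold chi
    simp only
    rw [Finset.prod_ite_mem, Finset.univ_inter]
    refine Finset.prod_congr rfl fun e _ => ?_
    simp only [mix_apply]
    split_ifs <;> rfl
  rw [ex_congr p h]
  refine (ex_prod p (fun (e : E) (b : Bool) =>
        if e ∈ S then (if e ∈ U then cc p b else cc p (x e)) else 1)).trans ?_
  by_cases hd : Disjoint S U
  · rw [if_pos hd]
    have h2 : ∀ e : E, (p * (if e ∈ S then (if e ∈ U then cc p true else cc p (x e)) else 1) +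
        (1 - p) * (if e ∈ S then (if e ∈ U then cc p false else cc p (x e)) else 1)) =
        if e ∈ S then cc p (x e) else 1 := by
      intro e
      by_cases he : e ∈ S
      · have : e ∉ U := Finset.disjoint_left.1 hd he
        simp only [he, this, if_true, if_false]; ring
      · simp only [he, if_false]; ring
    rw [Finset.prod_congr rfl fun e _ => h2 e, Finset.prod_ite_mem, Finset.univ_inter]
    rfl
  · rw [if_neg hd]
    obtain ⟨e, he, he'⟩ := Finset.not_disjoint_iff.1 hd
    refine Finset.prod_eq_zero (Finset.mem_univ e) ?_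
    simp only [he, he', if_true]
    exact cc_mean

lemma coef_avg (p : ℝ) (U S : Finset E) (F : (E → Bool) → ℝ) :
    coef p (avg p U F) S = if Disjoint S U then coef p F S else 0 := by
  unfold coef
  rw [ex_avg_mul, ex_congr p (fun x => by rw [avg_chi])]
  split_ifs
  · rfl
  · simp

lemma coef_sub (p : ℝ) (S : Finset E) (F G : (E → Bool) → ℝ) :
    coef p (fun x => F x - G x) S = coef p F S - coef p G S := by
  unfold coef
  rw [← ex_sub]
  exact ex_congr p fun x => by ring

/-- multiplier form: square norm of an operator diagonal in the characters -/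
lemma norm_of_coef {p : ℝ} (h0 : 0 < p) (h1 : p < 1) {F G : (E → Bool) → ℝ}
    {τ : Finset E → ℝ} (h : ∀ S, coef p G S = τ S * coef p F S) :
    ex p (fun x => G x ^ 2) = ∑ S : Finset E, τ S ^ 2 * coef p F S ^ 2 := by
  rw [← parseval_sq h0 h1]
  exact Finset.sum_congr rfl fun S _ => by rw [h S]; ring

/-- Bessel inequality for the level one coefficients -/
lemma bessel_level_one {p : ℝ} (h0 : 0 < p) (h1 : p < 1) (F : (E → Bool) → ℝ) :
    ∑ e : E, coef p F {e} ^ 2 ≤ ex p (fun x => F x ^ 2) := by
  rw [← parseval_sq h0 h1]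
  rw [← Finset.sum_image (f := fun S : Finset E => coef p F S ^ 2) (s := Finset.univ)
    (g := fun e : E => ({e} : Finset E)) (fun a _ b _ hab => Finset.singleton_injective hab)]
  exact Finset.sum_le_sum_of_subset_of_nonneg (Finset.subset_univ _) fun S _ _ => sq_nonneg _

/-- the level one coefficient as a difference of expectations -/
lemma level_one_eq {p : ℝ} (h0 : 0 < p) (h1 : p < 1) (F : (E → Bool) → ℝ) (e : E) :
    p * (ex p F - ex p (fun x => F (Function.update x e true))) ^ 2 ≤ coef p F {e} ^ 2 := by
  -- reduce everything to T = E F(update true), B = E F(update false)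
  set T := ex p (fun x => F (Function.update x e true)) with hT
  set B := ex p (fun x => F (Function.update x e false)) with hB
  have hF : ex p F = p * T + (1 - p) * B := by
    rw [← ex_avg p {e} F, ex_congr p (avg_single p e F), ex_add, ex_const_mul, ex_const_mul]
  have hC : coef p F {e} = p * (cc p true * T) + (1 - p) * (cc p false * B) := by
    unfold coef
    rw [← ex_avg p {e}, ex_congr p (avg_single p e _), ex_add, ex_const_mul, ex_const_mul]
    congr 2
    · rw [hT, ← ex_const_mul]
      exact ex_congr p fun x => by simp [chi]; ring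
    · rw [hB, ← ex_const_mul]
      exact ex_congr p fun x => by simp [chi]; ring
  have hs : √(p * (1 - p)) ^ 2 = p * (1 - p) :=
    Real.sq_sqrt (mul_nonneg h0.le (by linarith))
  have hpos : 0 < √(p * (1 - p)) := Real.sqrt_pos.2 (mul_pos h0 (by linarith))
  have hq : 0 < 1 - p := by linarith
  have hCC : coef p F {e} ^ 2 = p * (1 - p) * (T - B) ^ 2 := by
    rw [hC]
    simp only [cc, if_true, Bool.false_eq_true, if_false]
    have : p * ((1 - p) / √(p * (1 - p)) * T) + (1 - p) * (-p / √(p * (1 - p)) * B) =
        (p * (1 - p) * (T - B)) / √(p * (1 - p)) := by field_simp; ring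
    rw [this, div_pow, hs]
    field_simp
  rw [hCC, hF]
  have : p * T + (1 - p) * B - T = -((1 - p) * (T - B)) := by ring
  rw [this, neg_sq, mul_pow]
  have h2 : 0 ≤ (T - B) ^ 2 := sq_nonneg _
  nlinarith [mul_nonneg (mul_nonneg h0.le hq.le) h2]

end Crest.Agent.Lib.VInf
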