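import Crest.Agent.Lib.VInfMain

set_option autoImplicit false
set_option linter.unusedSectionVars false
set_option linter.unusedVariables false

namespace Crest.Agent.Lib.VInf

open Finset Crest.FinProb

variable {E : Type*} [Fintype E] [DecidableEq E] {V : Type*} [Fintype V] [DecidableEq V]
variable {inc : E → Finset V} {p t : ℝ} {F : (E → Bool) → ℝ}

lemma disjoint_vstar (S : Finset E) (v : V) : Disjoint S (vstar inc v) ↔ v ∉ VS inc S := by
  rw [Finset.disjoint_left]
  simp only [mem_vstar, VS, Finset.mem_biUnion, not_exists, not_and]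

/-- spectral formula for the sum over vertices of the conditional variances -/
lemma sum_vertex_var (h0 : 0 < p) (h1 : p < 1) (G : (E → Bool) → ℝ) :
    ∑ v : V, ex p (fun x => (G x - avg p (vstar inc v) G x) ^ 2) =
      ∑ S : Finset E, ((VS inc S).card : ℝ) * coef p G S ^ 2 := by
  have h2 : ∀ v : V, ex p (fun x => (G x - avg p (vstar inc v) G x) ^ 2) =
      ∑ S : Finset E, (if v ∈ VS inc S then (1:ℝ) else 0) ^ 2 * coef p G S ^ 2 := by
    intro v
    refine norm_of_coef h0 h1 fun S => ?_
    rw [coef_sub, coef_avg]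
    by_cases hv : v ∈ VS inc S
    · rw [if_neg (by rw [disjoint_vstar]; simpa using hv), if_pos hv]; ring
    · rw [if_pos ((disjoint_vstar S v).2 hv), if_neg hv]; ring
  rw [Finset.sum_congr rfl fun v _ => h2 v, Finset.sum_comm]
  refine Finset.sum_congr rfl fun S _ => ?_
  rw [← Finset.sum_mul]
  congr 1
  simp

/-- spectral formula for the sum over edges of the conditional variances -/
lemma sum_edge_var (h0 : 0 < p) (h1 : p < 1) (G : (E → Bool) → ℝ) :
    ∑ e : E, ex p (fun x => (G x - avg p {e} G x) ^ 2) =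
      ∑ S : Finset E, (S.card : ℝ) * coef p G S ^ 2 := by
  have h2 : ∀ e : E, ex p (fun x => (G x - avg p {e} G x) ^ 2) =
      ∑ S : Finset E, (if e ∈ S then (1:ℝ) else 0) ^ 2 * coef p G S ^ 2 := by
    intro e
    refine norm_of_coef h0 h1 fun S => ?_
    rw [coef_sub, coef_avg]
    by_cases hv : e ∈ S
    · rw [if_neg (by rw [Finset.disjoint_singleton_right]; simpa using hv), if_pos hv]; ring
    · rw [if_pos (by rw [Finset.disjoint_singleton_right]; exact hv), if_neg hv]; ring
  rw [Finset.sum_congr rfl fun v _ => h2 v, Finset.sum_comm]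
  refine Finset.sum_congr rfl fun S _ => ?_
  rw [← Finset.sum_mul]
  congr 1
  simp

/-- total mass of the smoothed vertex parts on the bad set -/
lemma bad_mass (h0 : 0 < p) (h1 : p < 1) (ht0 : 0 < t) (ht1 : t < 1)
    (hinj : Function.Injective inc) (hsym : Symm inc F) (hF : ∀ x, F x = 0 ∨ F x = 1)
    {η : ℝ} (hη : 0 < η) (hn : 4 ≤ (Fintype.card V : ℝ) * t * η ^ 2) :
    ∑ v : V, ex p (fun x => if η < kap inc p t F v x then gv inc p t F v x ^ 2 else 0) ≤
      2 / ((Fintype.card V : ℝ) * t ^ 2 * η) * ∑ v : V, ex p (psi inc p F v) := by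
  classical
  set n : ℝ := (Fintype.card V : ℝ) with hndef
  have hnpos : 0 < n := by
    by_contra hc
    have : n * t * η ^ 2 ≤ 0 := by
      have : n ≤ 0 := not_lt.1 hc
      have h2 : 0 ≤ t * η ^ 2 := by positivity
      nlinarith
    linarith
  rw [← ex_sum]
  have hF0 : ∀ x, 0 ≤ F x := fun x => by rcases hF x with h | h <;> rw [h]; norm_num
  have hF1 : ∀ x, F x ≤ 1 := fun x => by rcases hF x with h | h <;> rw [h]; norm_num
  have hpt : ∀ x, ∑ v : V, (if η < kap inc p t F v x then gv inc p t F v x ^ 2 else 0) ≤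
      2 / (n * t ^ 2 * η) * ∑ v : V, kap inc p t F v x := by
    intro x
    have hknn : ∀ v, 0 ≤ kap inc p t F v x := fun v =>
      kap_nonneg h0.le h1.le ht0.le ht1.le hF v x
    by_cases hex : ∃ v, η < kap inc p t F v x
    · obtain ⟨v, hv⟩ := hex
      have k1 := kap_sum_ge h0.le h1.le ht0 ht1 hinj hsym hF hη hn v x hv
      have k2 : ∑ v : V, (if η < kap inc p t F v x then gv inc p t F v x ^ 2 else 0) ≤ 1 / t := by
        refine le_trans (Finset.sum_le_sum fun v _ => ?_)
          (pointwise_bessel inc h0.le h1.le ht0 ht1 hF0 hF1 x)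
        change _ ≤ gv inc p t F v x ^ 2
        split_ifs
        · exact le_rfl
        · exact sq_nonneg _
      refine k2.trans ?_
      rw [← hndef] at k1
      have : 1 / t = 2 / (n * t ^ 2 * η) * (n * t * η / 2) := by field_simp
      rw [this]
      exact mul_le_mul_of_nonneg_left k1 (by positivity)
    · push Not at hex
      rw [Finset.sum_eq_zero (fun v _ => if_neg (not_lt.2 (hex v)))]
      exact mul_nonneg (by positivity) (Finset.sum_nonneg fun v _ => hknn v)
  refine (ex_mono h0.le h1.le hpt).trans (le_of_eq ?_)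
  rw [ex_const_mul, ex_sum]
  congr 1
  exact Finset.sum_congr rfl fun v _ => ex_noise inc _

/-- The main inequality. -/
theorem main_ineq (h0 : 0 < p) (h1 : p < 1) (ht0 : 0 < t) (ht1 : t < 1)
    (hinj : Function.Injective inc) (hsym : Symm inc F) (hF : ∀ x, F x = 0 ∨ F x = 1)
    {r : ℕ} (hcard : ∀ e, (inc e).card = r)
    {η l : ℝ} (hη : 0 < η) (hl : 4 ≤ l) (hn : 4 ≤ (Fintype.card V : ℝ) * t * η ^ 2) :
    Real.log (l / 4) *
      (∑ S : Finset E, ((VS inc S).card : ℝ) * ((1 - t) ^ (2 * (VS inc S).card) * coef p F S ^ 2) -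
        (l * η + 2 / ((Fintype.card V : ℝ) * t ^ 2 * η)) *
          ∑ S : Finset E, ((VS inc S).card : ℝ) * coef p F S ^ 2) ≤
      (2 / √(p * (1 - p))) * (r : ℝ) *
        ∑ S : Finset E, (S.card : ℝ) * ((1 - t) ^ (2 * (VS inc S).card) * coef p F S ^ 2) := by
  set H := noise inc p t F with hH
  have hcoef : ∀ S : Finset E, coef p H S ^ 2 =
      (1 - t) ^ (2 * (VS inc S).card) * coef p F S ^ 2 := by
    intro S; rw [hH, coef_noise, mul_pow, ← pow_mul, mul_comm 2]
  have hL : 0 ≤ Real.log (l / 4) := Real.log_nonneg (by linarith)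
  -- upper bound for the entropies
  have hup : ∀ v : V, ex p (fun x => xlx (gv inc p t F v x ^ 2)) -
      ex p (fun x => xlx (avg p (vstar inc v) (fun x => gv inc p t F v x ^ 2) x)) ≤
      ∑ e ∈ vstar inc v, (2 / √(p * (1 - p))) * ex p (fun x => (H x - avg p {e} H x) ^ 2) := by
    intro v
    refine (log_sobolev h0 h1 (vstar inc v) (gv inc p t F v)).trans (le_of_eq ?_)
    refine Finset.sum_congr rfl fun e he => ?_
    congr 1
    refine ex_congr p fun x => ?_
    have a1 : avg p {e} (gv inc p t F v) x = avg p {e} H x - avg p (vstar inc v) H x := by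
      have b1 : avg p {e} (gv inc p t F v) x =
          avg p {e} H x - avg p {e} (avg p (vstar inc v) H) x := by
        rw [← avg_sub]; exact avg_congr _ _ (fun y => rfl) x
      rw [b1, avg_avg]
      congr 2
      rw [← Finset.insert_eq, Finset.insert_eq_of_mem he]
    rw [a1]
    have a2 : gv inc p t F v x = H x - avg p (vstar inc v) H x := rfl
    rw [a2]; ring
  have hup2 : ∑ v : V, ∑ e ∈ vstar inc v,
      (2 / √(p * (1 - p))) * ex p (fun x => (H x - avg p {e} H x) ^ 2) =
      (2 / √(p * (1 - p))) * (r : ℝ) *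
        ∑ S : Finset E, (S.card : ℝ) * ((1 - t) ^ (2 * (VS inc S).card) * coef p F S ^ 2) := by
    have b1 : ∀ v : V, ∑ e ∈ vstar inc v,
        (2 / √(p * (1 - p))) * ex p (fun x => (H x - avg p {e} H x) ^ 2) =
        ∑ e : E, if v ∈ inc e then
          (2 / √(p * (1 - p))) * ex p (fun x => (H x - avg p {e} H x) ^ 2) else 0 := by
      intro v
      rw [← Finset.sum_filter]; rfl
    rw [Finset.sum_congr rfl fun v _ => b1 v, Finset.sum_comm]
    have b2 : ∀ e : E, (∑ v : V, if v ∈ inc e then
          (2 / √(p * (1 - p))) * ex p (fun x => (H x - avg p {e} H x) ^ 2) else 0) =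
        (2 / √(p * (1 - p))) * (r : ℝ) * ex p (fun x => (H x - avg p {e} H x) ^ 2) := by
      intro e
      rw [Finset.sum_ite_mem, Finset.univ_inter, Finset.sum_const, hcard, nsmul_eq_mul]; ring
    rw [Finset.sum_congr rfl fun e _ => b2 e, ← Finset.mul_sum, sum_edge_var h0 h1]
    congr 1
    exact Finset.sum_congr rfl fun S _ => by rw [hcoef]
  -- lower bound for the entropies
  have hlow : ∀ v : V, Real.log (l / 4) * (ex p (fun x => gv inc p t F v x ^ 2) -
      l * η * ex p (psi inc p F v) -
      ex p (fun x => if η < kap inc p t F v x then gv inc p t F v x ^ 2 else 0)) ≤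
      ex p (fun x => xlx (gv inc p t F v x ^ 2)) -
      ex p (fun x => xlx (avg p (vstar inc v) (fun x => gv inc p t F v x ^ 2) x)) := by
    intro v
    have a1 : ex p (fun x => xlx (gv inc p t F v x ^ 2)) -
        ex p (fun x => xlx (avg p (vstar inc v) (fun x => gv inc p t F v x ^ 2) x)) =
        ex p (fun x => avg p (vstar inc v) (fun x => xlx (gv inc p t F v x ^ 2)) x -
          xlx (avg p (vstar inc v) (fun x => gv inc p t F v x ^ 2) x)) := by
      rw [ex_sub, ex_avg]
    rw [a1]
    have a2 : ∀ x, Real.log (l / 4) * (avg p (vstar inc v) (fun x => gv inc p t F v x ^ 2) x -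
        l * η * kap inc p t F v x - (if η < kap inc p t F v x then
          avg p (vstar inc v) (fun x => gv inc p t F v x ^ 2) x else 0)) ≤
        avg p (vstar inc v) (fun x => xlx (gv inc p t F v x ^ 2)) x -
          xlx (avg p (vstar inc v) (fun x => gv inc p t F v x ^ 2) x) := fun x =>
      ent_lower' h0 h1 (vstar inc v) (gv inc p t F v) x
        (kap_nonneg h0.le h1.le ht0.le ht1.le hF v x) hη.le hl
        (avg_abs_gv_le h0.le h1.le ht0.le ht1.le hF v x)
    refine le_trans (le_of_eq ?_) (ex_mono h0.le h1.le a2)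
    rw [ex_const_mul, ex_sub, ex_sub, ex_avg, ex_const_mul]
    congr 2
    · congr 2
      exact (ex_noise inc _).symm
    · rw [← ex_avg p (vstar inc v)
        (fun x => if η < kap inc p t F v x then gv inc p t F v x ^ 2 else 0)]
      refine ex_congr p fun x => ?_
      have c1 : ∀ y, (if η < kap inc p t F v y then gv inc p t F v y ^ 2 else 0) =
          (if η < kap inc p t F v y then 1 else 0) * gv inc p t F v y ^ 2 := by
        intro y; split_ifs <;> ring
      rw [avg_congr p (vstar inc v) c1, avg_mul_of_inv]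
      · split_ifs <;> ring
      · intro y x; simp only; rw [inv_kap v y x]
  have hsum := Finset.sum_le_sum fun v (_ : v ∈ (Finset.univ : Finset V)) => (hlow v).trans (hup v)
  rw [hup2, ← Finset.mul_sum] at hsum
  refine le_trans (mul_le_mul_of_nonneg_left ?_ hL) hsum
  rw [Finset.sum_sub_distrib, Finset.sum_sub_distrib, ← Finset.mul_sum]
  have d1 : ∑ v : V, ex p (fun x => gv inc p t F v x ^ 2) =
      ∑ S : Finset E, ((VS inc S).card : ℝ) *
        ((1 - t) ^ (2 * (VS inc S).card) * coef p F S ^ 2) := by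
    refine (sum_vertex_var (inc := inc) h0 h1 H).trans ?_
    exact Finset.sum_congr rfl fun S _ => by rw [hcoef]
  have d2 : ∑ v : V, ex p (psi inc p F v) =
      ∑ S : Finset E, ((VS inc S).card : ℝ) * coef p F S ^ 2 := by
    rw [← sum_vertex_var h0 h1]
    exact Finset.sum_congr rfl fun v _ => ex_psi hF v
  have d3 := bad_mass h0 h1 ht0 ht1 hinj hsym hF hη hn
  rw [d2] at d3 ⊢
  rw [d1]
  nlinarith

end Crest.Agent.Lib.VInf
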