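import Crest.Agent.Lib.VInfNoise

set_option autoImplicit false
set_option linter.unusedSectionVars false
set_option linter.unusedVariables false

namespace Crest.Agent.Lib.VInf

open Finset Crest.FinProb

variable {E : Type*} [Fintype E] [DecidableEq E] {V : Type*} [Fintype V] [DecidableEq V]

/-- conditional mean over the star of `v` -/
noncomputable def qv (inc : E → Finset V) (p : ℝ) (F : (E → Bool) → ℝ) (v : V) :
    (E → Bool) → ℝ := avg p (vstar inc v) F

/-- conditional variance over the star of `v` (for a 0-1 valued function) -/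
noncomputable def psi (inc : E → Finset V) (p : ℝ) (F : (E → Bool) → ℝ) (v : V)
    (x : E → Bool) : ℝ := qv inc p F v x * (1 - qv inc p F v x)

/-- smoothed conditional variance -/
noncomputable def kap (inc : E → Finset V) (p t : ℝ) (F : (E → Bool) → ℝ) (v : V) :
    (E → Bool) → ℝ := noise inc p t (psi inc p F v)

/-- the `v`-part of the smoothed function -/
noncomputable def gv (inc : E → Finset V) (p t : ℝ) (F : (E → Bool) → ℝ) (v : V)
    (x : E → Bool) : ℝ := noise inc p t F x - avg p (vstar inc v) (noise inc p t F) x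

/-- symmetry of `F` under vertex transpositions -/
def Symm (inc : E → Finset V) (F : (E → Bool) → ℝ) : Prop :=
  ∀ u v : V, ∃ τ : Equiv.Perm E,
    (∀ e, inc (τ e) = (inc e).map (Equiv.swap u v).toEmbedding) ∧
      ∀ x : E → Bool, F (fun e => x (τ e)) = F x

section
variable {inc : E → Finset V} {p t : ℝ} {F : (E → Bool) → ℝ}

lemma qv_nonneg (hp0 : 0 ≤ p) (hp1 : p ≤ 1) (hF : ∀ x, F x = 0 ∨ F x = 1) (v : V)
    (x : E → Bool) : 0 ≤ qv inc p F v x :=
  avg_nonneg hp0 hp1 _ (fun x => by rcases hF x with h | h <;> rw [h]; norm_num) x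

lemma qv_le_one (hp0 : 0 ≤ p) (hp1 : p ≤ 1) (hF : ∀ x, F x = 0 ∨ F x = 1) (v : V)
    (x : E → Bool) : qv inc p F v x ≤ 1 := by
  have := avg_mono hp0 hp1 (vstar inc v) (F := F) (G := fun _ => 1)
    (fun x => by rcases hF x with h | h <;> rw [h]; norm_num) x
  simpa [qv] using this

lemma psi_nonneg (hp0 : 0 ≤ p) (hp1 : p ≤ 1) (hF : ∀ x, F x = 0 ∨ F x = 1) (v : V)
    (x : E → Bool) : 0 ≤ psi inc p F v x :=
  mul_nonneg (qv_nonneg hp0 hp1 hF v x) (by linarith [qv_le_one (inc := inc) hp0 hp1 hF v x])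

lemma psi_le_one (hp0 : 0 ≤ p) (hp1 : p ≤ 1) (hF : ∀ x, F x = 0 ∨ F x = 1) (v : V)
    (x : E → Bool) : psi inc p F v x ≤ 1 := by
  unfold psi
  nlinarith [qv_le_one (inc := inc) hp0 hp1 hF v x, qv_nonneg (inc := inc) hp0 hp1 hF v x]

lemma kap_nonneg (hp0 : 0 ≤ p) (hp1 : p ≤ 1) (ht0 : 0 ≤ t) (ht1 : t ≤ 1)
    (hF : ∀ x, F x = 0 ∨ F x = 1) (v : V) (x : E → Bool) : 0 ≤ kap inc p t F v x :=
  noise_nonneg inc hp0 hp1 ht0 ht1 (psi_nonneg hp0 hp1 hF v) x

lemma inv_qv (v : V) : Inv (vstar inc v) (qv inc p F v) := inv_avg _ _ _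

lemma inv_psi (v : V) : Inv (vstar inc v) (psi inc p F v) := by
  intro y x; unfold psi; rw [inv_qv v y x]

lemma avg_abs (hp0 : 0 ≤ p) (hp1 : p ≤ 1) (hF : ∀ x, F x = 0 ∨ F x = 1) (v : V)
    (x : E → Bool) :
    avg p (vstar inc v) (fun x => |F x - qv inc p F v x|) x = 2 * psi inc p F v x := by
  have h1 : ∀ y, |F y - qv inc p F v y| = (1 - 2 * qv inc p F v y) * F y + qv inc p F v y := by
    intro y
    have a0 := qv_nonneg (inc := inc) hp0 hp1 hF v y
    have a1 := qv_le_one (inc := inc) hp0 hp1 hF v y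
    rcases hF y with h | h
    · rw [h, abs_of_nonpos (by linarith)]; ring
    · rw [h, abs_of_nonneg (by linarith)]; ring
  rw [avg_congr _ _ h1, avg_add, avg_mul_of_inv, avg_of_inv p (inv_qv v)]
  · unfold psi
    show (1 - 2 * qv inc p F v x) * qv inc p F v x + _ = _
    ring
  · intro y x; simp only; rw [inv_qv v y x]

lemma avg_sq (hF : ∀ x, F x = 0 ∨ F x = 1) (v : V) (x : E → Bool) :
    avg p (vstar inc v) (fun x => (F x - qv inc p F v x) ^ 2) x = psi inc p F v x := by
  have h1 : ∀ y, (F y - qv inc p F v y) ^ 2 = (1 - 2 * qv inc p F v y) * F y +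
      qv inc p F v y ^ 2 := by
    intro y
    rcases hF y with h | h <;> rw [h] <;> ring
  rw [avg_congr _ _ h1, avg_add, avg_mul_of_inv, avg_of_inv p ((inv_qv v).comp (fun z => z ^ 2))]
  · unfold psi
    show (1 - 2 * qv inc p F v x) * qv inc p F v x + _ = _
    ring
  · intro y x; simp only; rw [inv_qv v y x]

lemma ex_psi (hF : ∀ x, F x = 0 ∨ F x = 1) (v : V) :
    ex p (psi inc p F v) = ex p (fun x => (F x - avg p (vstar inc v) F x) ^ 2) := by
  rw [← ex_avg p (vstar inc v) (fun x => (F x - avg p (vstar inc v) F x) ^ 2)]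
  exact ex_congr p fun x => (avg_sq hF v x).symm

lemma gv_eq (v : V) (x : E → Bool) :
    gv inc p t F v x = noise inc p t (fun x => F x - qv inc p F v x) x := by
  unfold gv
  rw [avg_noise, noise_sub]; rfl

lemma abs_gv_le (hp0 : 0 ≤ p) (hp1 : p ≤ 1) (ht0 : 0 ≤ t) (ht1 : t ≤ 1) (v : V)
    (x : E → Bool) :
    |gv inc p t F v x| ≤ noise inc p t (fun x => |F x - qv inc p F v x|) x := by
  rw [gv_eq, abs_le]
  constructor
  · have := noise_mono inc hp0 hp1 ht0 ht1 (F := fun x => (-1) * |F x - qv inc p F v x|)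
      (G := fun x => F x - qv inc p F v x) (fun x => by
        have := neg_abs_le (F x - qv inc p F v x); linarith) x
    rw [noise_const_mul] at this
    linarith
  · exact noise_mono inc hp0 hp1 ht0 ht1 (fun x => le_abs_self _) x

lemma avg_abs_gv_le (hp0 : 0 ≤ p) (hp1 : p ≤ 1) (ht0 : 0 ≤ t) (ht1 : t ≤ 1)
    (hF : ∀ x, F x = 0 ∨ F x = 1) (v : V) (x : E → Bool) :
    avg p (vstar inc v) (fun x => |gv inc p t F v x|) x ≤ 2 * kap inc p t F v x := by
  refine (avg_mono hp0 hp1 _ (abs_gv_le hp0 hp1 ht0 ht1 v) x).trans (le_of_eq ?_)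
  have h1 := avg_noise inc (p := p) (t := t) (vstar inc v) (fun x => |F x - qv inc p F v x|) x
  refine h1.trans ?_
  rw [noise_congr inc (fun x => avg_abs hp0 hp1 hF v x), noise_const_mul]; rfl

lemma avg_kap (v : V) (x : E → Bool) :
    avg p (vstar inc v) (kap inc p t F v) x = kap inc p t F v x := by
  unfold kap
  rw [avg_noise]
  exact noise_congr inc (fun x => avg_of_inv p (inv_psi v) x) x

lemma inv_kap (v : V) : Inv (vstar inc v) (kap inc p t F v) := by
  intro y x
  rw [← avg_kap, ← avg_kap v x]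
  exact inv_avg p _ _ y x

/-- symmetry: rerandomising `u` in `kap v` is the same as rerandomising `v` in `kap u` -/
lemma kap_symm (hinj : Function.Injective inc) (hsym : Symm inc F) (u v : V) (x : E → Bool) :
    avg p (vstar inc u) (kap inc p t F v) x = avg p (vstar inc v) (kap inc p t F u) x := by
  obtain ⟨τ, hτ, hFτ⟩ := hsym u v
  set σ := Equiv.swap u v with hσ
  -- transport of qv, psi, kap
  have hq : ∀ (w : V) (y : E → Bool), qv inc p F (σ w) y = qv inc p F w (fun e => y (τ e)) := by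
    intro w y
    unfold qv
    rw [avg_congr p (vstar inc (σ w)) (fun x => (hFτ x).symm) y, avg_comp_perm, preimage_vstar hτ]
  have hpsi : ∀ (w : V) (y : E → Bool), psi inc p F (σ w) y = psi inc p F w (fun e => y (τ e)) := by
    intro w y; unfold psi; rw [hq]
  have hkap : ∀ (w : V) (y : E → Bool),
      kap inc p t F (σ w) y = kap inc p t F w (fun e => y (τ e)) := by
    intro w y; unfold kap
    rw [noise_congr inc (hpsi w) y, noise_comp_perm hτ]
  have hu : σ v = u := by rw [hσ]; exact Equiv.swap_apply_right u v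
  have hv : σ u = v := by rw [hσ]; exact Equiv.swap_apply_left u v
  -- both sides as averages over the union of stars
  have e1 : avg p (vstar inc u) (kap inc p t F v) x =
      avg p (vstar inc u ∪ vstar inc v) (kap inc p t F v) x := by
    rw [← avg_avg]; exact avg_congr _ _ (fun y => (avg_kap v y).symm) x
  have e2 : avg p (vstar inc v) (kap inc p t F u) x =
      avg p (vstar inc u ∪ vstar inc v) (kap inc p t F u) x := by
    rw [Finset.union_comm, ← avg_avg]; exact avg_congr _ _ (fun y => (avg_kap u y).symm) x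
  rw [e1, e2]
  have e3 : avg p (vstar inc u ∪ vstar inc v) (kap inc p t F u) x =
      avg p (vstar inc u ∪ vstar inc v) (kap inc p t F v) (fun e => x (τ e)) := by
    have a1 : ∀ y, kap inc p t F u y = kap inc p t F v (fun e => y (τ e)) := by
      intro y
      have := hkap v y
      rwa [hu] at this
    rw [avg_congr _ _ a1, avg_comp_perm]
    congr 1
    have b1 := preimage_vstar hτ v
    have b2 := preimage_vstar hτ u
    rw [hu] at b1; rw [hv] at b2
    ext e
    have c1 : τ e ∈ vstar inc u ↔ e ∈ vstar inc v := by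
      have := Finset.ext_iff.1 b1 e
      rw [Finset.mem_filter] at this
      simpa only [Finset.mem_univ, true_and] using this
    have c2 : τ e ∈ vstar inc v ↔ e ∈ vstar inc u := by
      have := Finset.ext_iff.1 b2 e
      rw [Finset.mem_filter] at this
      simpa only [Finset.mem_univ, true_and] using this
    simp only [Finset.mem_filter, Finset.mem_univ, true_and, Finset.mem_union, c1, c2]
    tauto
  rw [e3]
  -- invariance
  have hfix : ∀ e, e ∉ vstar inc u ∪ vstar inc v → τ e = e := by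
    intro e he
    simp only [Finset.mem_union, mem_vstar, not_or] at he
    apply hinj
    rw [hτ]
    ext w
    simp only [Finset.mem_map, Equiv.coe_toEmbedding]
    constructor
    · rintro ⟨z, hz, rfl⟩
      have hzu : z ≠ u := fun h => he.1 (h ▸ hz)
      have hzv : z ≠ v := fun h => he.2 (h ▸ hz)
      rw [hσ, Equiv.swap_apply_of_ne_of_ne hzu hzv]; exact hz
    · intro hw
      have hwu : w ≠ u := fun h => he.1 (h ▸ hw)
      have hwv : w ≠ v := fun h => he.2 (h ▸ hw)
      exact ⟨w, hw, by rw [hσ, Equiv.swap_apply_of_ne_of_ne hwu hwv]⟩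
  have hmix : (fun e => x (τ e)) = mix (vstar inc u ∪ vstar inc v) (fun e => x (τ e)) x := by
    funext e
    simp only [mix_apply]
    split_ifs with h
    · rfl
    · rw [hfix e h]
  rw [hmix]
  exact (inv_avg p (vstar inc u ∪ vstar inc v) (kap inc p t F v) _ x).symm

/-- if one smoothed conditional variance is large then their sum is -/
lemma kap_sum_ge (hp0 : 0 ≤ p) (hp1 : p ≤ 1) (ht0 : 0 < t) (ht1 : t < 1)
    (hinj : Function.Injective inc) (hsym : Symm inc F) (hF : ∀ x, F x = 0 ∨ F x = 1)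
    {η : ℝ} (hη : 0 < η) (hn : 4 ≤ (Fintype.card V : ℝ) * t * η ^ 2) (v : V) (x : E → Bool)
    (hv : η < kap inc p t F v x) :
    (Fintype.card V : ℝ) * t * η / 2 ≤ ∑ u : V, kap inc p t F u x := by
  set n : ℝ := (Fintype.card V : ℝ) with hndef
  have hn0 : 0 ≤ n := Nat.cast_nonneg _
  set d : V → ℝ := fun u => kap inc p t F v x - avg p (vstar inc u) (kap inc p t F v) x with hd
  have hb : ∑ u, d u ^ 2 ≤ 1 / t :=
    pointwise_bessel inc hp0 hp1 ht0 ht1 (psi_nonneg hp0 hp1 hF v) (psi_le_one hp0 hp1 hF v) x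
  have h1 : ∀ u, t * (kap inc p t F v x - |d u|) ≤ kap inc p t F u x := by
    intro u
    have a1 := noise_ge inc hp0 hp1 ht0 ht1 (psi_nonneg (inc := inc) hp0 hp1 hF u) v x
    change t * avg p (vstar inc v) (kap inc p t F u) x ≤ kap inc p t F u x at a1
    rw [← kap_symm hinj hsym u v x] at a1
    refine le_trans (mul_le_mul_of_nonneg_left ?_ ht0.le) a1
    have := le_abs_self (d u)
    simp only [hd] at this ⊢
    linarith
  have h2 : (∑ u, |d u|) ^ 2 ≤ n * ∑ u, d u ^ 2 := by
    have := sq_sum_le_card_mul_sum_sq (s := (Finset.univ : Finset V)) (f := fun u => |d u|)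
    simpa [sq_abs, hndef] using this
  have h3 : (∑ u, |d u|) ^ 2 ≤ (n * η / 2) ^ 2 := by
    refine h2.trans ?_
    have : n * ∑ u, d u ^ 2 ≤ n * (1 / t) := mul_le_mul_of_nonneg_left hb hn0
    refine this.trans ?_
    rw [mul_one_div, div_le_iff₀ ht0]
    nlinarith
  have h4 : ∑ u, |d u| ≤ n * η / 2 := by
    refine le_of_sq_le_sq h3 (by positivity) |>.trans le_rfl
  have h5 : ∑ u : V, t * (kap inc p t F v x - |d u|) ≤ ∑ u : V, kap inc p t F u x :=
    Finset.sum_le_sum fun u _ => h1 u
  refine le_trans ?_ h5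
  rw [← Finset.mul_sum, Finset.sum_sub_distrib, Finset.sum_const, nsmul_eq_mul,
    Finset.card_univ, ← hndef]
  have h6 : n * η ≤ n * kap inc p t F v x := mul_le_mul_of_nonneg_left hv.le hn0
  have h7 : n * η / 2 ≤ n * kap inc p t F v x - ∑ u, |d u| := by linarith
  nlinarith [mul_le_mul_of_nonneg_left h7 ht0.le]

end

end Crest.Agent.Lib.VInf
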