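import Crest.Agent.Lib.VInfEnt

set_option autoImplicit false
set_option linter.unusedSectionVars false
set_option linter.unusedVariables false

namespace Crest.Agent.Lib.VInf

open Finset Crest.FinProb

variable {E : Type*} [Fintype E] [DecidableEq E] {V : Type*} [Fintype V] [DecidableEq V]

/-- Fubini for two cubes -/
lemma ex_fubini (p t : ℝ) (G : (E → Bool) → (V → Bool) → ℝ) :
    ex p (fun x => ex t (fun R => G x R)) = ex t (fun R => ex p (fun x => G x R)) := by
  unfold ex
  simp only [Finset.mul_sum]
  rw [Finset.sum_comm]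
  exact Finset.sum_congr rfl fun x _ => Finset.sum_congr rfl fun y _ => by ring

/-- edges touching the vertex set `R` -/
def touch (inc : E → Finset V) (R : V → Bool) : Finset E :=
  univ.filter (fun e => ∃ v ∈ inc e, R v = true)

/-- edges containing the vertex `v` -/
def vstar (inc : E → Finset V) (v : V) : Finset E := univ.filter (fun e => v ∈ inc e)

/-- vertices touched by the edge set `S` -/
def VS (inc : E → Finset V) (S : Finset E) : Finset V := S.biUnion inc

lemma mem_touch {inc : E → Finset V} {R : V → Bool} {e : E} :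
    e ∈ touch inc R ↔ ∃ v ∈ inc e, R v = true := by simp [touch]

lemma mem_vstar {inc : E → Finset V} {v : V} {e : E} : e ∈ vstar inc v ↔ v ∈ inc e := by
  simp [vstar]

lemma touch_update_true (inc : E → Finset V) (R : V → Bool) (v : V) :
    touch inc (Function.update R v true) = vstar inc v ∪ touch inc R := by
  ext e
  simp only [mem_touch, Finset.mem_union, mem_vstar, Function.update_apply]
  constructor
  · rintro ⟨w, hw, h⟩
    by_cases hwv : w = v
    · left; rwa [← hwv]
    · right; exact ⟨w, hw, by simpa [hwv] using h⟩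
  · rintro (h | ⟨w, hw, h⟩)
    · exact ⟨v, h, by simp⟩
    · refine ⟨w, hw, ?_⟩
      by_cases hwv : w = v <;> simp [hwv, h]

/-- the vertex noise operator: every vertex is rerandomised with probability `t` -/
noncomputable def noise (inc : E → Finset V) (p t : ℝ) (F : (E → Bool) → ℝ) (x : E → Bool) : ℝ :=
  ex t (fun R : V → Bool => avg p (touch inc R) F x)

section
variable (inc : E → Finset V) {p t : ℝ}

lemma noise_mono (hp0 : 0 ≤ p) (hp1 : p ≤ 1) (ht0 : 0 ≤ t) (ht1 : t ≤ 1)
    {F G : (E → Bool) → ℝ} (h : ∀ x, F x ≤ G x) (x : E → Bool) :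
    noise inc p t F x ≤ noise inc p t G x :=
  ex_mono ht0 ht1 fun R => avg_mono hp0 hp1 _ h x

lemma noise_const (c : ℝ) (x : E → Bool) : noise inc p t (fun _ => c) x = c := by
  unfold noise; simp

lemma noise_nonneg (hp0 : 0 ≤ p) (hp1 : p ≤ 1) (ht0 : 0 ≤ t) (ht1 : t ≤ 1)
    {F : (E → Bool) → ℝ} (h : ∀ x, 0 ≤ F x) (x : E → Bool) : 0 ≤ noise inc p t F x :=
  ex_nonneg ht0 ht1 fun R => avg_nonneg hp0 hp1 _ h x

lemma noise_congr {F G : (E → Bool) → ℝ} (h : ∀ x, F x = G x) (x : E → Bool) :
    noise inc p t F x = noise inc p t G x :=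
  ex_congr _ fun R => avg_congr _ _ h x

lemma noise_sub (F G : (E → Bool) → ℝ) (x : E → Bool) :
    noise inc p t (fun x => F x - G x) x = noise inc p t F x - noise inc p t G x := by
  unfold noise
  rw [← ex_sub]
  exact ex_congr _ fun R => avg_sub _ _ _ _ _

lemma noise_const_mul (c : ℝ) (F : (E → Bool) → ℝ) (x : E → Bool) :
    noise inc p t (fun x => c * F x) x = c * noise inc p t F x := by
  unfold noise
  rw [← ex_const_mul]
  exact ex_congr _ fun R => avg_const_mul _ _ _ _ _

lemma avg_noise (U : Finset E) (F : (E → Bool) → ℝ) (x : E → Bool) :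
    avg p U (noise inc p t F) x = noise inc p t (avg p U F) x := by
  have h1 : avg p U (noise inc p t F) x =
      ex t (fun R : V → Bool => avg p U (avg p (touch inc R) F) x) := by
    unfold avg noise
    exact ex_fubini p t (fun y R => avg p (touch inc R) F (mix U y x))
  rw [h1]
  exact ex_congr _ fun R => avg_comm _ _ _ _ _

lemma ex_noise (F : (E → Bool) → ℝ) : ex p (noise inc p t F) = ex p F := by
  unfold noise
  rw [ex_fubini p t (fun x R => avg p (touch inc R) F x), ex_congr t (fun R => ex_avg p _ F)]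
  simp

lemma coef_noise (F : (E → Bool) → ℝ) (S : Finset E) :
    coef p (noise inc p t F) S = (1 - t) ^ (VS inc S).card * coef p F S := by
  have h1 : coef p (noise inc p t F) S =
      ex t (fun R : V → Bool => coef p (avg p (touch inc R) F) S) := by
    unfold coef noise
    rw [← ex_fubini p t (fun x R => avg p (touch inc R) F x * chi p S x)]
    exact ex_congr _ fun x => by rw [← ex_mul_const]
  rw [h1]
  have h2 : ∀ R : V → Bool, coef p (avg p (touch inc R) F) S =
      coef p F S * ∏ v, (fun (v : V) (b : Bool) =>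
        if v ∈ VS inc S then (if b then (0:ℝ) else 1) else 1) v (R v) := by
    intro R
    rw [coef_avg]
    by_cases hd : Disjoint S (touch inc R)
    · rw [if_pos hd, Finset.prod_eq_one, mul_one]
      intro v _
      simp only
      by_cases hv : v ∈ VS inc S
      · rw [if_pos hv]
        obtain ⟨e, he, hve⟩ := Finset.mem_biUnion.1 hv
        have : R v ≠ true := by
          intro hR
          exact Finset.disjoint_left.1 hd he (mem_touch.2 ⟨v, hve, hR⟩)
        simp [this]
      · rw [if_neg hv]
    · rw [if_neg hd]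
      obtain ⟨e, he, he2⟩ := Finset.not_disjoint_iff.1 hd
      obtain ⟨v, hv, hR⟩ := mem_touch.1 he2
      rw [Finset.prod_eq_zero (Finset.mem_univ v), mul_zero]
      simp only
      rw [if_pos (show v ∈ VS inc S from Finset.mem_biUnion.2 ⟨e, he, hv⟩), hR]; simp
  rw [ex_congr t h2, ex_const_mul]
  have h3 := ex_prod (E := V) t (fun (v : V) (b : Bool) =>
        if v ∈ VS inc S then (if b then (0:ℝ) else 1) else 1)
  rw [h3, mul_comm]
  congr 1
  have h4 : ∀ v : V, (t * (if v ∈ VS inc S then (if true = true then (0:ℝ) else 1) else 1) +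
      (1 - t) * (if v ∈ VS inc S then (if false = true then (0:ℝ) else 1) else 1)) =
      if v ∈ VS inc S then (1 - t) else 1 := by
    intro v; split_ifs <;> simp_all
  rw [Finset.prod_congr rfl fun v _ => h4 v, Finset.prod_ite_mem, Finset.univ_inter,
    Finset.prod_const]

/-- effect of forcing the vertex `v` to be rerandomised -/
lemma avg_vstar_noise (v : V) (F : (E → Bool) → ℝ) (x : E → Bool) :
    avg p (vstar inc v) (noise inc p t F) x =
      ex t (fun R : V → Bool => avg p (touch inc (Function.update R v true)) F x) := by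
  rw [avg_noise]
  unfold noise
  refine ex_congr t fun R => ?_
  rw [touch_update_true, avg_comm, avg_avg]

/-- pointwise Bessel inequality for the noise operator -/
lemma pointwise_bessel (hp0 : 0 ≤ p) (hp1 : p ≤ 1) (ht0 : 0 < t) (ht1 : t < 1)
    {F : (E → Bool) → ℝ} (h0 : ∀ x, 0 ≤ F x) (h1 : ∀ x, F x ≤ 1) (x : E → Bool) :
    ∑ v : V, (noise inc p t F x - avg p (vstar inc v) (noise inc p t F) x) ^ 2 ≤ 1 / t := by
  set Φ : (V → Bool) → ℝ := fun R => avg p (touch inc R) F x with hΦ
  have hb := bessel_level_one ht0 ht1 Φ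
  have hle : ex t (fun R => Φ R ^ 2) ≤ 1 := by
    have : ex t (fun R => Φ R ^ 2) ≤ ex (E := V) t (fun _ => 1) := by
      refine ex_mono ht0.le ht1.le fun R => ?_
      have a0 : 0 ≤ Φ R := avg_nonneg hp0 hp1 _ h0 x
      have a1 : Φ R ≤ 1 := by
        have := avg_mono hp0 hp1 (touch inc R) h1 x
        simpa using this
      nlinarith
    simpa using this
  have hv : ∀ v : V, t * (noise inc p t F x - avg p (vstar inc v) (noise inc p t F) x) ^ 2 ≤
      coef t Φ {v} ^ 2 := by
    intro v
    have := level_one_eq ht0 ht1 Φ v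
    rw [avg_vstar_noise]
    exact this
  have hs : t * ∑ v : V, (noise inc p t F x - avg p (vstar inc v) (noise inc p t F) x) ^ 2 ≤ 1 := by
    rw [Finset.mul_sum]
    exact (Finset.sum_le_sum fun v _ => hv v).trans (hb.trans hle)
  rw [le_div_iff₀ ht0]; linarith

/-- the noise dominates `t` times the forced noise -/
lemma noise_ge (hp0 : 0 ≤ p) (hp1 : p ≤ 1) (ht0 : 0 < t) (ht1 : t < 1)
    {F : (E → Bool) → ℝ} (h0 : ∀ x, 0 ≤ F x) (v : V) (x : E → Bool) :
    t * avg p (vstar inc v) (noise inc p t F) x ≤ noise inc p t F x := by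
  rw [avg_vstar_noise]
  unfold noise
  set Φ : (V → Bool) → ℝ := fun R => avg p (touch inc R) F x with hΦ
  have hnn : ∀ R, 0 ≤ Φ R := fun R => avg_nonneg hp0 hp1 _ h0 x
  rw [← ex_avg t {v} Φ, ex_congr t (avg_single t v Φ), ex_add, ex_const_mul, ex_const_mul]
  have : 0 ≤ (1 - t) * ex t (fun R => Φ (Function.update R v false)) :=
    mul_nonneg (by linarith) (ex_nonneg ht0.le ht1.le fun R => hnn _)
  linarith

end

section symm
variable (inc : E → Finset V) {p t : ℝ}

lemma ex_comp_perm (τ : Equiv.Perm E) (F : (E → Bool) → ℝ) :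
    ex p (fun x => F (fun e => x (τ e))) = ex p F := by
  unfold ex
  rw [← Equiv.sum_comp (Equiv.arrowCongr τ.symm (Equiv.refl Bool)) (fun x => bernoulliWeight p x * F x)]
  refine Finset.sum_congr rfl fun x _ => ?_
  have h1 : (Equiv.arrowCongr τ.symm (Equiv.refl Bool)) x = fun e => x (τ e) := by
    funext e; simp [Equiv.arrowCongr]
  rw [h1]
  congr 1
  simp only [weight_eq]
  exact (Equiv.prod_comp τ (fun e => cw p (x e))).symm

lemma avg_comp_perm (τ : Equiv.Perm E) (U : Finset E) (F : (E → Bool) → ℝ) (x : E → Bool) :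
    avg p U (fun x => F (fun e => x (τ e))) x =
      avg p (univ.filter (fun e => τ e ∈ U)) F (fun e => x (τ e)) := by
  unfold avg
  rw [← ex_comp_perm τ (fun y => F (mix (univ.filter (fun e => τ e ∈ U)) y (fun e => x (τ e))))]
  refine ex_congr p fun y => ?_
  show F (fun e => mix U y x (τ e)) = _
  congr 1
  funext e
  simp [mix_apply]

variable {inc}

lemma preimage_vstar {σ : Equiv.Perm V} {τ : Equiv.Perm E}
    (h : ∀ e, inc (τ e) = (inc e).map σ.toEmbedding) (v : V) :
    univ.filter (fun e => τ e ∈ vstar inc (σ v)) = vstar inc v := by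
  ext e
  simp only [Finset.mem_filter, Finset.mem_univ, true_and, mem_vstar, h]
  simp

lemma preimage_touch {σ : Equiv.Perm V} {τ : Equiv.Perm E}
    (h : ∀ e, inc (τ e) = (inc e).map σ.toEmbedding) (R : V → Bool) :
    univ.filter (fun e => τ e ∈ touch inc R) = touch inc (fun v => R (σ v)) := by
  ext e
  simp only [Finset.mem_filter, Finset.mem_univ, true_and, mem_touch, h]
  constructor
  · rintro ⟨w, hw, hR⟩
    obtain ⟨v, hv, rfl⟩ := Finset.mem_map.1 hw
    exact ⟨v, hv, hR⟩
  · rintro ⟨v, hv, hR⟩
    exact ⟨σ v, Finset.mem_map.2 ⟨v, hv, rfl⟩, hR⟩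

lemma noise_comp_perm {σ : Equiv.Perm V} {τ : Equiv.Perm E}
    (h : ∀ e, inc (τ e) = (inc e).map σ.toEmbedding) (F : (E → Bool) → ℝ) (x : E → Bool) :
    noise inc p t (fun x => F (fun e => x (τ e))) x = noise inc p t F (fun e => x (τ e)) := by
  unfold noise
  rw [← ex_comp_perm σ (fun R : V → Bool => avg p (touch inc R) F (fun e => x (τ e)))]
  refine ex_congr t fun R => ?_
  rw [avg_comp_perm, preimage_touch h]

end symm

end Crest.Agent.Lib.VInf
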